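import Vale.Agent.P271.FInt

/-! A primitive element inside a given finite dimensional space.

Hints. Let `A0 = MvPolynomial (Fin d) ℂ` act on `F` through `aeval y` (injective), and let
`K0 = FractionRing A0` act through `FractionRing.liftAlgebra` (local instances inside the proof).
`K = IntermediateField.adjoin K0 W` is finite over `K0` (generated by a basis of `W`) and separable
(characteristic zero). For two different `K0`-embeddings `φ ≠ ψ` of `K` in an algebraic closure,
`{v ∈ W | φ v = ψ v}` is a proper `ℂ`-subspace of `W`; a vector space over an infinite field is not a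
finite union of proper subspaces (`Subspace.biUnion_ne_univ_of_top_notMem`), so some `w ∈ W`
separates all pairs, and `Field.primitive_element_iff_algHom_eq_of_eval'` gives `K0⟮w⟯ = K`. Take
`Q = minpoly A0 w` (`minpoly.isIntegrallyClosed_dvd`; `A0` is a unique factorisation domain). An
element of `K0⟮w⟯` is a polynomial in `w` over `K0`; clear denominators
(`IsLocalization.integerNormalization`). `exists_mul_sub_C`: `AdjoinRoot Q` is a domain, integral
over `A0`, and `IsAlgebraic.exists_nonzero_dvd` applies; or argue with the range of `evP y w`. -/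

noncomputable section

namespace Vale.Agent.P271

theorem prim_field {K F : Type} [Field K] [Field F] [Algebra ℂ K] [Algebra K F] [Algebra ℂ F]
    [IsScalarTower ℂ K F] (W : Submodule ℂ F) [FiniteDimensional ℂ W]
    (hW : ∀ v ∈ W, IsIntegral K v) :
    ∃ w ∈ W, ∀ v ∈ W, v ∈ IntermediateField.adjoin K {w} := by
  have : CharZero K := charZero_of_injective_algebraMap (algebraMap ℂ K).injective
  obtain ⟨S, hS⟩ := (Module.Finite.iff_fg (N := W)).1 inferInstance
  have hSW : ∀ v ∈ (S : Set F), v ∈ W := fun v hv => hS ▸ Submodule.subset_span hv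
  set L := IntermediateField.adjoin K (S : Set F) with hL
  have : FiniteDimensional K L :=
    IntermediateField.finiteDimensional_adjoin fun v hv => hW v (hSW v hv)
  have hsm : ∀ (c : ℂ) (v : F), c • v = algebraMap ℂ K c • v := fun c v =>
    (algebraMap_smul K c v).symm
  have hWL : ∀ v ∈ W, v ∈ L := fun v hv => by
    rw [← hS] at hv
    induction hv using Submodule.span_induction with
    | mem x hx => exact IntermediateField.subset_adjoin K _ hx
    | zero => exact L.zero_mem
    | add x y _ _ hx hy => exact L.add_mem hx hy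
    | smul c x _ hx =>
      rw [hsm]
      exact L.smul_mem hx
  let p : {z : (L →ₐ[K] AlgebraicClosure K) × (L →ₐ[K] AlgebraicClosure K) // z.1 ≠ z.2} →
      Submodule ℂ W := fun z =>
    { carrier := {v | z.1.1 ⟨v, hWL v v.2⟩ = z.1.2 ⟨v, hWL v v.2⟩}
      add_mem' := fun {a b} ha hb => by
        have e : (⟨(a + b : W), hWL _ (a + b).2⟩ : L) = ⟨a, hWL a a.2⟩ + ⟨b, hWL b b.2⟩ := rfl
        change z.1.1 _ = z.1.2 _
        rw [e, map_add, map_add, ha, hb]
      zero_mem' := by
        have e : (⟨(0 : W), hWL _ (0 : W).2⟩ : L) = 0 := rfl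
        change z.1.1 _ = z.1.2 _
        rw [e, map_zero, map_zero]
      smul_mem' := fun c a ha => by
        have e : (⟨(c • a : W), hWL _ (c • a).2⟩ : L) = algebraMap ℂ K c • ⟨a, hWL a a.2⟩ :=
          Subtype.ext (hsm c a)
        change z.1.1 _ = z.1.2 _
        rw [e, Algebra.smul_def, map_mul, map_mul, AlgHom.commutes, AlgHom.commutes, ha] }
  have hne : ⋃ z, (p z : Set W) ≠ Set.univ := fun h => by
    obtain ⟨z, hz⟩ := Subspace.exists_eq_top_of_iUnion_eq_univ h
    refine z.2 (IntermediateField.adjoin_algHom_ext K fun v hv => ?_)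
    have : (⟨v, hSW v hv⟩ : W) ∈ p z := hz ▸ Submodule.mem_top
    exact this
  obtain ⟨w, hw⟩ := (Set.ne_univ_iff_exists_notMem _).1 hne
  have htop : IntermediateField.adjoin K {(⟨w, hWL w w.2⟩ : L)} = ⊤ := by
    rw [Field.primitive_element_iff_algHom_eq_of_eval' K (AlgebraicClosure K)
      fun _ => IsAlgClosed.splits _]
    intro φ ψ h
    by_contra hc
    exact hw (Set.mem_iUnion.2 ⟨⟨(φ, ψ), hc⟩, h⟩)
  refine ⟨w, w.2, fun v hv => ?_⟩
  have h1 : (⟨v, hWL v hv⟩ : L) ∈ IntermediateField.adjoin K {(⟨w, hWL w w.2⟩ : L)} :=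
    htop ▸ IntermediateField.mem_top
  have h2 := IntermediateField.adjoin_map K {(⟨w, hWL w w.2⟩ : L)} L.val
  rw [Set.image_singleton] at h2
  change v ∈ IntermediateField.adjoin K {L.val ⟨w, hWL w w.2⟩}
  rw [← h2]
  exact ⟨_, h1, rfl⟩

theorem prim {F : Type} [Field F] [Algebra ℂ F] {d : ℕ} {y : Fin d → F}
    (hy : AlgebraicIndependent ℂ y) (W : Submodule ℂ F) [FiniteDimensional ℂ W]
    (hW : ∀ v ∈ W, IsIntegral (Algebra.adjoin ℂ (Set.range y)) v) :
    ∃ w ∈ W, ∃ Q : Polynomial (MvPolynomial (Fin d) ℂ), Q.Monic ∧ 0 < Q.natDegree ∧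
      (∀ P, evP y w P = 0 ↔ Q ∣ P) ∧
      ∀ f ∈ Algebra.adjoin ℂ (Set.range y ∪ W), ∃ E : MvPolynomial (Fin d) ℂ, E ≠ 0 ∧
        ∃ P, MvPolynomial.aeval y E * f = evP y w P := by
  let _ : Algebra (MvPolynomial (Fin d) ℂ) F := (MvPolynomial.aeval y).toRingHom.toAlgebra
  have ham : ∀ E, algebraMap (MvPolynomial (Fin d) ℂ) F E = MvPolynomial.aeval y E := fun _ => rfl
  have : FaithfulSMul (MvPolynomial (Fin d) ℂ) F :=
    (faithfulSMul_iff_algebraMap_injective _ _).2 hy
  let _ : Algebra (FractionRing (MvPolynomial (Fin d) ℂ)) F := FractionRing.liftAlgebra _ _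
  have : IsScalarTower (MvPolynomial (Fin d) ℂ) (FractionRing (MvPolynomial (Fin d) ℂ)) F :=
    FractionRing.isScalarTower_liftAlgebra _ _
  have : IsScalarTower ℂ (FractionRing (MvPolynomial (Fin d) ℂ)) F :=
    IsScalarTower.of_algebraMap_eq fun c => by
      rw [IsScalarTower.algebraMap_apply ℂ (MvPolynomial (Fin d) ℂ) (FractionRing _),
        ← IsScalarTower.algebraMap_apply, ham, AlgHom.commutes]
  have hI : ∀ v ∈ W, IsIntegral (MvPolynomial (Fin d) ℂ) v := fun v hv =>
    (hW v hv).map_of_comp_eq hy.aevalEquiv.symm.toRingEquiv.toRingHom (RingHom.id F) (by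
      ext a
      obtain ⟨E, rfl⟩ := hy.aevalEquiv.surjective a
      simp [ham])
  obtain ⟨w, hw, hall⟩ := prim_field (K := FractionRing (MvPolynomial (Fin d) ℂ)) W
    fun v hv => (hI v hv).tower_top
  have hev : ∀ P, evP y w P = Polynomial.aeval w P := fun _ => rfl
  refine ⟨w, hw, minpoly (MvPolynomial (Fin d) ℂ) w, minpoly.monic (hI w hw),
    minpoly.natDegree_pos (hI w hw), fun P => ?_, fun f hf => ?_⟩
  · rw [hev]
    exact minpoly.isIntegrallyClosed_dvd_iff (hI w hw) P
  · have h1 : f ∈ (IntermediateField.adjoin (FractionRing (MvPolynomial (Fin d) ℂ))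
        {w}).toSubalgebra.restrictScalars ℂ := by
      refine Algebra.adjoin_le ?_ hf
      rintro v (⟨i, rfl⟩ | hv)
      · have e : y i = algebraMap (FractionRing (MvPolynomial (Fin d) ℂ)) F
            (algebraMap (MvPolynomial (Fin d) ℂ) _ (MvPolynomial.X i)) := by
          rw [← IsScalarTower.algebraMap_apply, ham, MvPolynomial.aeval_X]
        rw [e]
        exact IntermediateField.algebraMap_mem _ _
      · exact hall v hv
    rw [Subalgebra.mem_restrictScalars, IntermediateField.adjoin_simple_toSubalgebra_of_isAlgebraic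
      (hI w hw).tower_top.isAlgebraic, Algebra.adjoin_singleton_eq_range_aeval] at h1
    obtain ⟨p, hp⟩ := h1
    obtain ⟨b, hb, hbp⟩ := IsLocalization.integerNormalization_spec
      (nonZeroDivisors (MvPolynomial (Fin d) ℂ)) p
    refine ⟨b, nonZeroDivisors.ne_zero hb, IsLocalization.integerNormalization
      (nonZeroDivisors (MvPolynomial (Fin d) ℂ)) p, ?_⟩
    have h2 : Polynomial.aeval w p = f := hp
    rw [hev, ← Polynomial.aeval_map_algebraMap (FractionRing (MvPolynomial (Fin d) ℂ)), hbp,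
      ← algebraMap_smul (FractionRing (MvPolynomial (Fin d) ℂ)) b p, map_smul, h2,
      algebraMap_smul, Algebra.smul_def, ham]

/-- Modulo a monic prime polynomial of positive degree every nonzero element divides a nonzero
polynomial in `y`. -/
theorem exists_mul_sub_C {d : ℕ} {Q : Polynomial (MvPolynomial (Fin d) ℂ)} (hQ : Q.Monic)
    (hp : ∀ P P', Q ∣ P * P' → Q ∣ P ∨ Q ∣ P') {P : Polynomial (MvPolynomial (Fin d) ℂ)}
    (hP : ¬ Q ∣ P) : ∃ (P' : Polynomial (MvPolynomial (Fin d) ℂ)) (E : MvPolynomial (Fin d) ℂ),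
      E ≠ 0 ∧ Q ∣ P * P' - Polynomial.C E := by
  have hfin : Module.Finite (MvPolynomial (Fin d) ℂ) (AdjoinRoot Q) := hQ.finite_adjoinRoot
  have h1 : AdjoinRoot.mk Q P ∈ nonZeroDivisors (AdjoinRoot Q) := by
    rw [mem_nonZeroDivisors_iff_right]
    intro x hx
    obtain ⟨P', rfl⟩ := AdjoinRoot.mk_surjective x
    rw [← map_mul, AdjoinRoot.mk_eq_zero] at hx
    exact AdjoinRoot.mk_eq_zero.2 ((hp _ _ hx).resolve_right hP)
  obtain ⟨E, hE, x, hx⟩ := (IsIntegral.of_finite (MvPolynomial (Fin d) ℂ)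
    (AdjoinRoot.mk Q P)).isAlgebraic.exists_nonzero_dvd h1
  obtain ⟨P', rfl⟩ := AdjoinRoot.mk_surjective x
  refine ⟨P', E, hE, AdjoinRoot.mk_eq_zero.1 ?_⟩
  rw [map_sub, map_mul, ← hx, AdjoinRoot.mk_C, AdjoinRoot.algebraMap_eq, sub_self]

end Vale.Agent.P271
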