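import Vale.Agent.P271.Grow
import Vale.Agent.P271.Prim

/-! The degree of a subvariety with respect to `k0 L` is at least `k0 ^ d`.

Hints. `deg_side`: `fn` for a basis of `W1` (note `lin w = W1` when `1 ∈ W1`), `FInt.trans`,
`prim` for `W1 ⊔ W2`, `grow_lower`, `grow_upper`. `cmp_growth`: divide by `j ^ d` and let `j → ∞`
(`(j * k + c + d).choose d / j ^ d → k ^ d / d!`; squeeze with `Nat.pow_le_choose`,
`Nat.choose_le_pow`-type bounds, or use `m ^ d ≤ d! * (m + d).choose d ≤ (m + d) ^ d`). `deg_alg`: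
apply `deg_side` to both filtrations (`FInt.scale`, `map_mulLeft_pow`); the levels `j * k2` of the
first and `j * k0` of the second differ by the unit `(τ ^ k0 / σ ^ k2) ^ j` (reindex `b ↦ j - b`);
then `N * k2 ^ d = N' * k0 ^ d` and coprimality give `k0 ^ d ∣ N`. If `d = 0` every element of the
filtration is integral over `ℂ` (it lies in the algebra generated by integral elements), so lies in
`ℂ` (`IsAlgClosed.algebraMap_bijective_of_isIntegral` on `ℂ[f]`, or `minpoly` of degree one). -/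

noncomputable section

namespace Vale.Agent.P271

variable {F : Type} [Field F] [Algebra ℂ F]

/-- Either the filtered algebra is `ℂ`, or it contains a hypersurface ring of degree at least
`k0 ^ d` in dimension `d ≥ 1`. -/
def DegPack (A : ℕ → Submodule ℂ F) (k0 D c1 : ℕ) : Prop :=
  (∀ j, ∀ f ∈ A j, ∃ c : ℂ, f = algebraMap ℂ F c) ∨
    ∃ (d : ℕ) (y : Fin d → F) (w : F) (Q : Polynomial (MvPolynomial (Fin d) ℂ)), 1 ≤ d ∧ d ≤ D ∧
      (∀ i, y i ∈ A 1) ∧ w ∈ A c1 ∧ Q.Monic ∧ k0 ^ d ≤ Q.natDegree ∧ ∀ P, evP y w P = 0 ↔ Q ∣ P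

theorem deg_sup_le {W1 W2 : Submodule ℂ F} {ℓ : ℕ} (hℓ : 0 < ℓ) (h1 : (1 : F) ∈ W1) :
    W1 ⊔ W2 ≤ fil W1 W2 ℓ ℓ :=
  sup_le ((le_fil_one W1 W2 ℓ).trans (fil_mono h1 W2 ℓ hℓ)) (le_fil_level W1 W2 ℓ)

theorem deg_fil_le (S : Subalgebra ℂ F) {W1 W2 : Submodule ℂ F} (h1 : W1 ≤ S.toSubmodule)
    (h2 : W2 ≤ S.toSubmodule) (ℓ j : ℕ) : fil W1 W2 ℓ j ≤ S.toSubmodule := by
  have hp : ∀ {W : Submodule ℂ F}, W ≤ S.toSubmodule → ∀ m : ℕ, W ^ m ≤ S.toSubmodule := by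
    intro W hW m
    induction m with
    | zero =>
      rw [pow_zero, Submodule.one_le]
      exact S.one_mem
    | succ m ih =>
      rw [pow_succ, Submodule.mul_le]
      exact fun a ha b hb => S.mul_mem (ih ha) (hW hb)
  refine iSup_le fun b => iSup_le fun _ => Submodule.mul_le.2 fun a ha c hc => ?_
  exact S.mul_mem (hp h1 _ ha) (hp h2 _ hc)

theorem deg_side (W1 W2 : Submodule ℂ F) [FiniteDimensional ℂ W1] [FiniteDimensional ℂ W2]
    {ℓ : ℕ} (hℓ : 0 < ℓ) (h1 : (1 : F) ∈ W1) (h2 : ∀ v ∈ W2, FInt W1 ℓ v) :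
    ∃ (d : ℕ) (y : Fin d → F) (w : F) (Q : Polynomial (MvPolynomial (Fin d) ℂ)) (c : ℕ),
      d ≤ Module.finrank ℂ W1 ∧ (∀ i, y i ∈ W1) ∧ w ∈ W1 ⊔ W2 ∧ Q.Monic ∧ 0 < Q.natDegree ∧
      (∀ P, evP y w P = 0 ↔ Q ∣ P) ∧
      (d = 0 → ∀ j, ∀ f ∈ fil W1 W2 ℓ j, ∃ c : ℂ, f = algebraMap ℂ F c) ∧
      (∀ j, Module.finrank ℂ (fil W1 W2 ℓ j) ≤ Q.natDegree * (j + c + d).choose d) ∧
      ∀ m, Q.natDegree * (m + d).choose d ≤ Module.finrank ℂ (fil W1 W2 ℓ (m + c)) := by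
  let b := Module.finBasis ℂ W1
  have hsp : Submodule.span ℂ (Set.range fun i => (b i : F)) = W1 := by
    have e : (Set.range fun i => (b i : F)) = W1.subtype '' Set.range b := by
      rw [← Set.range_comp]
      rfl
    rw [e, Submodule.span_image, b.span_eq, Submodule.map_subtype_top]
  obtain ⟨d, y, hd, hy, hyW, hfn⟩ := fn fun i => (b i : F)
  rw [hsp] at hyW
  have hW1 : ∀ v ∈ W1, FInt (lin y) 1 v := fun v hv => hfn v (by
    rw [← hsp] at hv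
    exact Submodule.span_mono (Set.subset_insert _ _) hv)
  have hW2 : ∀ v ∈ W2, FInt (lin y) ℓ v := fun v hv => (h2 v hv).trans hW1
  have hI : ∀ v ∈ W1 ⊔ W2, IsIntegral (Algebra.adjoin ℂ (Set.range y)) v := fun v hv => by
    obtain ⟨v1, hv1, v2, hv2, rfl⟩ := Submodule.mem_sup.1 hv
    exact (hW1 v1 hv1).isIntegral.add (hW2 v2 hv2).isIntegral
  obtain ⟨w, hw, Q, hQ, hQ0, hker, hrat⟩ := prim hy (W1 ⊔ W2) hI
  obtain ⟨c, hc⟩ := grow_upper hy hW1 hW2 hQ ((hker Q).2 dvd_rfl) hrat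
  obtain ⟨C, E, hfin⟩ := finrank_fil_le W1 W2 hℓ
  refine ⟨d, y, w, Q, c + ℓ * Q.natDegree, hd, hyW, hw, hQ, hQ0, hker, ?_, fun j => ?_,
    fun m => ?_⟩
  · rintro rfl j f hf
    have hI' : ∀ v ∈ W1 ⊔ W2, v ∈ (integralClosure ℂ F).toSubmodule := fun v hv => by
      have : Algebra.IsIntegral ℂ (Algebra.adjoin ℂ (Set.range y)) :=
        Algebra.IsIntegral.adjoin fun x hx => by
          obtain ⟨i, -⟩ := hx
          exact i.elim0
      exact isIntegral_trans (A := Algebra.adjoin ℂ (Set.range y)) v (hI v hv)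
    have hf' := deg_fil_le (integralClosure ℂ F) (fun v hv => hI' v (Submodule.mem_sup_left hv))
      (fun v hv => hI' v (Submodule.mem_sup_right hv)) ℓ j hf
    obtain ⟨a, ha⟩ := (IsAlgClosed.algebraMap_bijective_of_isIntegral (k := ℂ)
      (K := integralClosure ℂ F)).2 ⟨f, hf'⟩
    exact ⟨a, (congrArg Subtype.val ha).symm⟩
  · exact (hc j).trans (Nat.mul_le_mul_left _ (Nat.choose_le_choose _ (by omega)))
  · have := (hfin (m + ℓ * Q.natDegree)).1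
    have := (hfin (m + (c + ℓ * Q.natDegree))).1
    refine (grow_lower (A := fil W1 W2 ℓ) (one_mem_fil W1 W2 ℓ) (fil_mono h1 W2 ℓ)
      (fun j k f hf g hg => mul_mem_fil hf hg) (fun i => le_fil_one W1 W2 ℓ (hyW i))
      (deg_sup_le hℓ h1 hw) hQ (fun P hP => (hker P).1 hP) le_rfl).trans ?_
    exact Submodule.finrank_mono (fil_mono h1 W2 ℓ (by omega))

open Filter Topology in
theorem deg_tendsto {a : ℕ → ℕ} {k : ℕ} (hk : 0 < k) (e : ℝ)
    (ha : ∀ᶠ j : ℕ in atTop, (a j : ℝ) = j * k + e) (d : ℕ) :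
    Tendsto (fun j : ℕ => ((a j).choose d : ℝ) / (j : ℝ) ^ d) atTop
      (𝓝 ((k : ℝ) ^ d / d.factorial)) := by
  have hk' : (0 : ℝ) < k := by exact_mod_cast hk
  have h1 : Tendsto a atTop atTop := by
    rw [← tendsto_natCast_atTop_iff (R := ℝ)]
    refine Tendsto.congr' (ha.mono fun j hj => hj.symm) ?_
    exact tendsto_atTop_add_const_right _ _ (tendsto_natCast_atTop_atTop.atTop_mul_const hk')
  have h2 : Tendsto (fun j : ℕ => (a j : ℝ) / j) atTop (𝓝 k) := by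
    have h3 : Tendsto (fun j : ℕ => (k : ℝ) + e / j) atTop (𝓝 (k + 0)) :=
      tendsto_const_nhds.add (tendsto_const_div_atTop_nhds_zero_nat e)
    rw [add_zero] at h3
    refine h3.congr' ?_
    filter_upwards [ha, eventually_gt_atTop 0] with j hj hj0
    have : (j : ℝ) ≠ 0 := by exact_mod_cast hj0.ne'
    rw [hj]
    field_simp
  have h4 := ((isEquivalent_choose d).comp_tendsto h1).div
    (Asymptotics.IsEquivalent.refl (u := fun j : ℕ => (j : ℝ) ^ d))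
  refine h4.symm.tendsto_nhds (((h2.pow d).div_const (d.factorial : ℝ)).congr fun j => ?_)
  simp only [Pi.div_apply, Function.comp_apply, div_pow]
  ring

open Filter Topology in
theorem deg_cmp {h h' : ℕ → ℕ} {N N' d d' c c' k k' : ℕ} (hN : 0 < N) (hk : 0 < k)
    (hk' : 0 < k') (hl : ∀ m, N * (m + d).choose d ≤ h (m + c))
    (hu' : ∀ j, h' j ≤ N' * (j + c' + d').choose d') (he : ∀ j, h (j * k) = h' (j * k')) :
    d ≤ d' ∧ (d = d' → N * k ^ d ≤ N' * k' ^ d) := by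
  have hck : ∀ j, c ≤ j → c ≤ j * k := fun j hj => hj.trans (Nat.le_mul_of_pos_right j hk)
  have h1 := deg_tendsto (a := fun j => j * k - c + d) hk ((d : ℝ) - c) (by
    filter_upwards [eventually_ge_atTop c] with j hj
    push_cast [Nat.cast_sub (hck j hj)]
    ring) d
  have h2 := deg_tendsto (a := fun j => j * k' + c' + d') hk' ((c' : ℝ) + d')
    (Eventually.of_forall fun j => by
      push_cast
      ring) d'
  have h3 : ∀ᶠ j : ℕ in atTop, (N : ℝ) * ((j * k - c + d).choose d / (j : ℝ) ^ d) ≤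
      N' * ((j * k' + c' + d').choose d' / (j : ℝ) ^ d') * ((j : ℝ) ^ d' / (j : ℝ) ^ d) := by
    filter_upwards [eventually_ge_atTop c, eventually_gt_atTop 0] with j hj hj0
    have hj' : (0 : ℝ) < j := by exact_mod_cast hj0
    have h4 := hl (j * k - c)
    rw [Nat.sub_add_cancel (hck j hj), he] at h4
    have h5 : (N : ℝ) * (j * k - c + d).choose d ≤ N' * (j * k' + c' + d').choose d' := by
      exact_mod_cast h4.trans (hu' _)
    have e : (N' : ℝ) * ((j * k' + c' + d').choose d' / (j : ℝ) ^ d') *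
        ((j : ℝ) ^ d' / (j : ℝ) ^ d) = N' * (j * k' + c' + d').choose d' / (j : ℝ) ^ d := by
      field_simp
    rw [e, ← mul_div_assoc]
    exact div_le_div_of_nonneg_right h5 (by positivity)
  have hf : (0 : ℝ) < d.factorial := by exact_mod_cast d.factorial_pos
  refine ⟨not_lt.1 fun hlt => ?_, ?_⟩
  · have h5 : Tendsto (fun j : ℕ => (j : ℝ) ^ d' / (j : ℝ) ^ d) atTop (𝓝 0) :=
      (tendsto_pow_div_pow_atTop_zero hlt).comp tendsto_natCast_atTop_atTop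
    have h6 := le_of_tendsto_of_tendsto (h1.const_mul (N : ℝ)) ((h2.const_mul (N' : ℝ)).mul h5) h3
    rw [mul_zero] at h6
    exact absurd h6 (not_le.2 (by positivity))
  · rintro rfl
    have h5 : Tendsto (fun j : ℕ => (j : ℝ) ^ d / (j : ℝ) ^ d) atTop (𝓝 1) := by
      refine tendsto_const_nhds.congr' ?_
      filter_upwards [eventually_gt_atTop 0] with j hj0
      rw [div_self (by positivity)]
    have h6 := le_of_tendsto_of_tendsto (h1.const_mul (N : ℝ)) ((h2.const_mul (N' : ℝ)).mul h5) h3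
    rw [mul_one, ← mul_div_assoc, ← mul_div_assoc, div_le_div_iff_of_pos_right hf] at h6
    exact_mod_cast h6

theorem cmp_growth {h h' : ℕ → ℕ} {N N' d d' c c' k k' : ℕ} (hN : 0 < N) (hN' : 0 < N')
    (hk : 0 < k) (hk' : 0 < k') (hu : ∀ j, h j ≤ N * (j + c + d).choose d)
    (hl : ∀ m, N * (m + d).choose d ≤ h (m + c))
    (hu' : ∀ j, h' j ≤ N' * (j + c' + d').choose d')
    (hl' : ∀ m, N' * (m + d').choose d' ≤ h' (m + c')) (he : ∀ j, h (j * k) = h' (j * k')) :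
    d = d' ∧ N * k ^ d = N' * k' ^ d := by
  obtain ⟨h1, h2⟩ := deg_cmp hN hk hk' hl hu' he
  obtain ⟨h3, h4⟩ := deg_cmp hN' hk' hk hl' hu fun j => (he j).symm
  obtain rfl := le_antisymm h1 h3
  exact ⟨rfl, le_antisymm (h2 rfl) (h4 rfl)⟩

theorem deg_map_eq (W : Submodule ℂ F) (c : F) :
    W.map (LinearMap.mulLeft ℂ c) = Submodule.span ℂ {c} * W := by
  ext v
  rw [Submodule.mem_span_singleton_mul, Submodule.mem_map]
  rfl

/-- The part of bidegree `j` of the algebra generated by `U1 ^ k2` and `U2 ^ k0`. -/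
def degT (U1 U2 : Submodule ℂ F) (k0 k2 j : ℕ) : Submodule ℂ F :=
  ⨆ b : ℕ, ⨆ _ : b ≤ j, U1 ^ ((j - b) * k2) * U2 ^ (b * k0)

theorem degT_le (U1 U2 : Submodule ℂ F) (k0 k2 j : ℕ) :
    degT U1 U2 k0 k2 j ≤ degT U2 U1 k2 k0 j := by
  refine iSup_le fun b => iSup_le fun hb => le_iSup₂_of_le (j - b) (Nat.sub_le j b) ?_
  rw [Nat.sub_sub_self hb, mul_comm]

theorem deg_fil_eq (U1 U2 : Submodule ℂ F) (s : F) {k0 k2 : ℕ} (h2 : 0 < k2) (j : ℕ) :
    fil (U1.map (LinearMap.mulLeft ℂ s)) ((U2 ^ k0).map (LinearMap.mulLeft ℂ (s ^ k2))) k2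
      (j * k2) = (degT U1 U2 k0 k2 j).map (LinearMap.mulLeft ℂ (s ^ (j * k2))) := by
  simp only [fil, degT, Submodule.map_iSup, Nat.mul_le_mul_right_iff h2]
  refine iSup_congr fun b => iSup_congr fun hb => ?_
  have e : j * k2 = (j - b) * k2 + k2 * b := by
    rw [mul_comm k2, ← add_mul, Nat.sub_add_cancel hb]
  rw [map_mulLeft_pow, map_mulLeft_pow, deg_map_eq, deg_map_eq, deg_map_eq, mul_mul_mul_comm,
    Submodule.span_mul_span, Set.singleton_mul_singleton, ← Nat.sub_mul, ← pow_mul, ← pow_mul,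
    ← pow_add, ← e, mul_comm k0]

theorem deg_finrank_map (W : Submodule ℂ F) {c : F} (hc : c ≠ 0) :
    Module.finrank ℂ (W.map (LinearMap.mulLeft ℂ c)) = Module.finrank ℂ W :=
  (Submodule.equivMapOfInjective _ (mul_right_injective₀ hc) W).finrank_eq.symm

theorem deg_both (U1 U2 : Submodule ℂ F) [FiniteDimensional ℂ U1] [FiniteDimensional ℂ U2]
    {σ : F} (hσ : σ ∈ U1) (hσ0 : σ ≠ 0) {k0 k2 : ℕ} (h12 : ∀ v ∈ U2 ^ k0, FInt U1 k2 v) :
    FiniteDimensional ℂ ((U2 ^ k0).map (LinearMap.mulLeft ℂ (σ⁻¹ ^ k2))) ∧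
      (1 : F) ∈ U1.map (LinearMap.mulLeft ℂ σ⁻¹) ∧
      ∀ v ∈ (U2 ^ k0).map (LinearMap.mulLeft ℂ (σ⁻¹ ^ k2)),
        FInt (U1.map (LinearMap.mulLeft ℂ σ⁻¹)) k2 v := by
  refine ⟨?_, ⟨σ, hσ, inv_mul_cancel₀ hσ0⟩, ?_⟩
  · exact Module.Finite.iff_fg.2 (((Module.Finite.iff_fg.1 inferInstance).pow k0).map _)
  · rintro _ ⟨u, hu, rfl⟩
    exact (h12 u hu).scale _

theorem deg_alg (U1 U2 : Submodule ℂ F) [FiniteDimensional ℂ U1] [FiniteDimensional ℂ U2]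
    {σ τ : F} (hσ : σ ∈ U1) (hτ : τ ∈ U2) (hσ0 : σ ≠ 0) (hτ0 : τ ≠ 0) {k0 k2 D : ℕ} (h0 : 0 < k0)
    (h2 : 0 < k2) (hc : Nat.Coprime k0 k2) (h12 : ∀ v ∈ U2 ^ k0, FInt U1 k2 v)
    (h21 : ∀ v ∈ U1 ^ k2, FInt U2 k0 v) (hD : Module.finrank ℂ U1 ≤ D) :
    DegPack (fil (U1.map (LinearMap.mulLeft ℂ σ⁻¹))
      ((U2 ^ k0).map (LinearMap.mulLeft ℂ (σ⁻¹ ^ k2))) k2) k0 D k2 := by
  obtain ⟨hf, ha, hb⟩ := deg_both U1 U2 hσ hσ0 h12
  obtain ⟨hf', ha', hb'⟩ := deg_both U2 U1 hτ hτ0 h21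
  obtain ⟨d, y, w, Q, c, hd, hy, hw, hQ, hQ0, hker, hz, hu, hl⟩ := deg_side _ _ h2 ha hb
  obtain ⟨d', -, -, Q', c', -, -, -, -, hQ0', -, -, hu', hl'⟩ := deg_side _ _ h0 ha' hb'
  obtain ⟨-, hN⟩ := cmp_growth hQ0 hQ0' h2 h0 hu hl hu' hl' fun j => by
    rw [deg_fil_eq _ _ _ h2, deg_fil_eq _ _ _ h0,
      deg_finrank_map _ (pow_ne_zero _ (inv_ne_zero hσ0)),
      deg_finrank_map _ (pow_ne_zero _ (inv_ne_zero hτ0)),
      le_antisymm (degT_le U1 U2 k0 k2 j) (degT_le U2 U1 k2 k0 j)]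
  rcases Nat.eq_zero_or_pos d with h | h
  · exact Or.inl (hz h)
  refine Or.inr ⟨d, y, w, Q, h, ?_, fun i => le_fil_one _ _ _ (hy i), deg_sup_le h2 ha hw, hQ,
    Nat.le_of_dvd hQ0 ?_, hker⟩
  · rw [deg_finrank_map _ (inv_ne_zero hσ0)] at hd
    exact hd.trans hD
  · exact (Nat.Coprime.pow d d hc).dvd_of_dvd_mul_right (hN ▸ Dvd.intro_left _ rfl)

end Vale.Agent.P271
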