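import Vale.Agent.P271.Defs
import Vale.Agent.P271.Deg

/-! The abstract setting of the valuation argument. -/

open MeasureTheory Set Filter Topology

noncomputable section

namespace Vale.Agent.P271

variable {Y R : Type} [CommRing R] [Algebra ℂ R]

/-- The elements that vanish to order `k` where `r` vanishes. -/
def ordS (ev : R →ₐ[ℂ] (Y → ℂ)) (r : Y → ℝ) (k : ℕ) : Submodule ℂ R where
  carrier := {f | ∃ C : ℝ, ∃ δ > (0 : ℝ), ∀ p, r p < δ → ‖ev f p‖ ≤ C * |r p| ^ k}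
  add_mem' := by
    rintro f g ⟨C, δ, hδ, h⟩ ⟨C', δ', hδ', h'⟩
    refine ⟨C + C', min δ δ', lt_min hδ hδ', fun p hp => ?_⟩
    rw [map_add, Pi.add_apply, add_mul]
    exact (norm_add_le _ _).trans
      (add_le_add (h p (hp.trans_le (min_le_left _ _))) (h' p (hp.trans_le (min_le_right _ _))))
  zero_mem' := ⟨0, 1, one_pos, fun p _ => by simp⟩
  smul_mem' := by
    rintro c f ⟨C, δ, hδ, h⟩
    refine ⟨‖c‖ * C, δ, hδ, fun p hp => ?_⟩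
    rw [map_smul, Pi.smul_apply, norm_smul, mul_assoc]
    exact mul_le_mul_of_nonneg_left (h p hp) (norm_nonneg _)

/-- A filtered algebra of functions near a point, with the analytic and geometric inputs. -/
structure Core (Y R : Type) [CommRing R] [Algebra ℂ R] where
  ν : OuterMeasure Y
  r : Y → ℝ
  x : Y
  ev : R →ₐ[ℂ] (Y → ℂ)
  O : ℕ → Submodule ℂ R
  n : ℕ
  k0 : ℕ
  D : ℕ
  c1 : ℕ
  N : ℕ
  t : Fin N → R
  k0_pos : 0 < k0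
  r_nonneg : ∀ p, 0 ≤ r p
  ν_fin : ν univ ≠ ⊤
  vol : ∃ c > (0 : ℝ), ∃ t0 > (0 : ℝ), ∀ t, 0 < t → t ≤ t0 →
    ENNReal.ofReal (c * t ^ (2 * n)) ≤ ν {p | r p < t}
  bdd : ∀ f : R, ∃ C : ℝ, ∃ δ > (0 : ℝ), ∀ p, r p < δ → ‖ev f p‖ ≤ C
  cont : ∀ j, ∀ f ∈ O j, ∀ ε > (0 : ℝ), ∃ δ > (0 : ℝ), ∀ p, r p < δ → ‖ev f p - ev f x‖ ≤ ε
  fd : ∀ j, FiniteDimensional ℂ (O j)
  one_mem : (1 : R) ∈ O 0
  mono : Monotone O
  mul_mem : ∀ j k, ∀ f ∈ O j, ∀ g ∈ O k, f * g ∈ O (j + k)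
  growth : ∃ C E : ℕ, ∀ j, Module.finrank ℂ (O j) ≤ C * (j + 1) ^ E
  jets : ∀ j k, Module.finrank ℂ ↥(O j ⊓ ordS ev r k) ≤
    Module.finrank ℂ ↥(O j ⊓ ordS ev r (k + 1)) + Nat.multichoose n k
  t_mem : ∀ k, t k ∈ O 1
  t_x : ∀ k, ev (t k) x = 0
  sc : ∀ (I Λ : Type) [Fintype I] [Fintype Λ] (J : ℕ) (f : I → R) (g : Λ → R) (V V' : I → ℝ)
    (b b' : ℝ), (∀ i, f i ∈ O J) → (∀ l, g l ∈ O J) → (∀ i, 0 ≤ V i) → (∀ i, 0 ≤ V' i) →
    MGood ν r (fun i => ev (f i)) (fun l => ev (g l)) V b →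
    MGood ν r (fun i => ev (f i)) (fun l => ev (g l)) V' b' →
    Good ν r (fun i => ev (f i)) (V * V') (b + b')
  deg : ∀ (F : Type) [Field F] [Algebra ℂ F] (π : R →ₐ[ℂ] F),
    (∀ f, (∃ c > (0 : ℝ), ∃ δ > (0 : ℝ), ∀ p, r p < δ → c ≤ ‖ev f p‖) → π f ≠ 0) →
    (∀ f, (∃ δ > (0 : ℝ), ∀ p, r p < δ → ev f p = 0) → π f = 0) →
    DegPack (fun j => (O j).map π.toLinearMap) k0 D c1

attribute [instance] Core.fd

/-- The weight of the level `j ≤ J`. -/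
def lw (J : ℕ) (η : ℝ) (j : ℕ) : ℝ :=
  if j < J then (1 - Real.exp (-η)) * Real.exp (-η * j) else Real.exp (-η * J)

/-- A non-archimedean seminorm. -/
structure IsNA {E : Type} [AddCommGroup E] [Module ℂ E] (V : E → ℝ) : Prop where
  nonneg : ∀ f, 0 ≤ V f
  zero : V 0 = 0
  smul : ∀ (c : ℂ) f, c ≠ 0 → V (c • f) = V f
  add : ∀ f g, V (f + g) ≤ max (V f) (V g)

namespace Core
variable (C : Core Y R)

/-- Weighted spanning families of the levels `0, …, J`. -/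
structure Fam (J : ℕ) where
  I : Type
  [fin : Fintype I]
  lev : I → ℕ
  f : I → R
  V : I → ℝ
  lev_le : ∀ i, lev i ≤ J
  mem : ∀ i, f i ∈ C.O (lev i)
  nonneg : ∀ i, 0 ≤ V i
  span : ∀ j ≤ J, C.O j ≤ Submodule.span ℂ (f '' {i | lev i = j})

attribute [instance] Fam.fin

variable {C} in
/-- The partition function of a family. -/
def Fam.cost {J : ℕ} (F : C.Fam J) (η : ℝ) : ℝ := ∑ i, lw J η (F.lev i) * F.V i

variable {C} in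
/-- The span of the members of the same level with smaller weight. -/
def Fam.low {J : ℕ} (F : C.Fam J) (i : F.I) : Submodule ℂ R :=
  Submodule.span ℂ (F.f '' {i' | F.lev i' = F.lev i ∧ F.V i' ≤ F.V i})

/-- The achievable triples. -/
def Ach (J : ℕ) (b η z : ℝ) : Prop :=
  ∃ F : C.Fam J, Good C.ν C.r (fun i => C.ev (F.f i)) F.V b ∧ F.cost η ≤ z

/-- Triples achieved by moving families. -/
def MAch (J : ℕ) {Λ : Type} [Fintype Λ] (g : Λ → R) (b η z : ℝ) : Prop :=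
  ∀ δ > (0 : ℝ), ∃ T : ℝ, 1 / δ ≤ T ∧ ∃ F : C.Fam J, F.cost η ≤ z + δ ∧
    ENNReal.ofReal (Real.exp (-(b + δ) * T)) ≤
      C.ν {p | C.r p < δ ∧ ∀ i (c : Λ → ℂ), (∀ l, ‖c l‖ ≤ 1) → ∑ l, c l • g l ∈ F.low i →
        ‖C.ev (∑ l, c l • g l) p‖ ^ 2 ≤ (F.V i + δ) ^ T}

/-- The functional. -/
def G (κ b η z : ℝ) : ℝ := b + (C.n + 1 / 2) / C.k0 * η + κ * Real.log z

/-- A minimiser of the functional. -/
structure IsMin (J : ℕ) (ηm κ b η z : ℝ) : Prop where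
  le : ηm ≤ η
  ach : C.Ach J b η z
  min : ∀ b' η' z', ηm ≤ η' → C.Ach J b' η' z' → C.G κ b η z ≤ C.G κ b' η' z'

/-- A valuation (written multiplicatively) with volume exponent at most `b`. -/
structure IsVal (V : R → ℝ) (b : ℝ) : Prop where
  na : IsNA V
  le_one : ∀ f, V f ≤ 1
  mul : ∀ f g, V (f * g) = V f * V g
  unit : ∀ f, (∃ c > (0 : ℝ), ∃ δ > (0 : ℝ), ∀ p, C.r p < δ → c ≤ ‖C.ev f p‖) → V f = 1
  van : ∀ f, (∃ δ > (0 : ℝ), ∀ p, C.r p < δ → C.ev f p = 0) → V f = 0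
  wit : ∀ (S : Finset R), ∀ δ > (0 : ℝ), ∃ T : ℝ, 1 / δ ≤ T ∧
    ENNReal.ofReal (Real.exp (-(b + δ) * T)) ≤ C.ν {p | C.r p < δ ∧ ∀ f ∈ S,
      ‖C.ev f p‖ ^ 2 ≤ (V f + δ) ^ T ∧ (V f = 1 → Real.exp (-δ * T) ≤ ‖C.ev f p‖ ^ 2)}

/-- The output: a divisor that is log canonical at `x` with `x` as an isolated centre. -/
def Concl : Prop :=
  ∃ (I : Type) (_ : Fintype I) (j : I → ℕ) (f : I → R) (c a : I → ℝ) (b μ0 : ℝ),
    (∀ i, f i ∈ C.O (j i)) ∧ (∀ i, 0 ≤ c i) ∧ (∀ i, 0 ≤ a i) ∧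
    C.k0 * ∑ i, c i * j i ≤ C.n + 1 / 2 ∧ 0 < μ0 ∧
    Good C.ν C.r (Sum.elim (fun k => C.ev (C.t k)) fun i => C.ev (f i))
      (Sum.elim (fun _ => Real.exp (-μ0)) fun i => Real.exp (-a i)) b ∧
    b ≤ ∑ i, c i * a i ∧
    ∀ (a' : I → ℝ) (β : ℝ), (∀ i, 0 ≤ a' i) →
      Good C.ν C.r (fun i => C.ev (f i)) (fun i => Real.exp (-a' i)) β → ∑ i, c i * a' i ≤ β

/-- The graded pieces of a valuation as modules over the hypersurface ring of the centre. -/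
structure ModData (V : R → ℝ) {d : ℕ} (y : Fin d → R) (w : R)
    (Q : Polynomial (MvPolynomial (Fin d) ℂ)) (J : ℕ) where
  e : ℝ → Fin (Module.finrank ℂ (C.O J)) → R
  g : ℝ → MvPolynomial (Fin d) ℂ
  Φ : ℝ → R →ₗ[ℂ] (Fin (Module.finrank ℂ (C.O J)) → Polynomial (MvPolynomial (Fin d) ℂ))
  g_ne : ∀ a, g a ≠ 0
  e_le : ∀ a > (0 : ℝ), ∀ l, V (e a l) ≤ a
  rem : ∀ a > (0 : ℝ), ∀ f ∈ C.O J, V f ≤ a →
    V (MvPolynomial.aeval y (g a) * f - ∑ l, evP y w (Φ a f l) * e a l) < a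
  dvd : ∀ a, ∀ f ∈ C.O J, V f < a → ∀ l, Q ∣ Φ a f l
  ndvd : ∀ f ∈ C.O J, f ≠ 0 → ∃ l, ¬ Q ∣ Φ (V f) f l
  mul : ∀ a > (0 : ℝ), ∀ f ∈ C.O J, V f ≤ a → ∀ P, evP y w P * f ∈ C.O J →
    ∀ l, Q ∣ Φ a (evP y w P * f) l - P * Φ a f l

/-- The centre of the valuation has positive dimension `d` and large degree. -/
structure Centre (V : R → ℝ) {d : ℕ} (y : Fin d → R) (w : R)
    (Q : Polynomial (MvPolynomial (Fin d) ℂ)) : Prop where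
  one_le : 1 ≤ d
  le_D : d ≤ C.D
  y_mem : ∀ i, y i ∈ C.O 1
  w_mem : w ∈ C.O C.c1
  monic : Q.Monic
  deg : C.k0 ^ d ≤ Q.natDegree
  ker : ∀ P, V (evP y w P) < 1 ↔ Q ∣ P

end Core

/-- An expansion in power series at the point `(y0, w0)` of the hypersurface `Q = 0`. -/
structure IsIota {d : ℕ} (Q : Polynomial (MvPolynomial (Fin d) ℂ)) (y0 : Fin d → ℂ) (w0 : ℂ)
    (ι : Polynomial (MvPolynomial (Fin d) ℂ) →ₐ[ℂ] MvPowerSeries (Fin d) ℂ) : Prop where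
  map_y : ∀ i, ι (Polynomial.C (MvPolynomial.X i)) = MvPowerSeries.X i + MvPowerSeries.C (y0 i)
  map_w : MvPowerSeries.constantCoeff (ι Polynomial.X) = w0
  map_Q : ι Q = 0

/-- The members of the family are adapted to the valuation refined by the order of vanishing. -/
def Core.Adm {C : Core Y R} {V : R → ℝ} {d : ℕ} {y : Fin d → R} {w : R}
    {Q : Polynomial (MvPolynomial (Fin d) ℂ)} {J : ℕ} (M : C.ModData V y w Q J)
    (ι : Polynomial (MvPolynomial (Fin d) ℂ) →ₐ[ℂ] MvPowerSeries (Fin d) ℂ) (O : ℕ) (s : ℝ)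
    (F : C.Fam J) : Prop :=
  ∀ i, ∃ f0 ∈ C.O J, ∃ o ≤ O, F.V i = V f0 * Real.exp (-s * o) ∧ ∀ v ∈ F.low i, V v ≤ V f0 ∧
    (0 < V f0 → ∀ l, (o : ℕ∞) ≤ (ι (M.Φ (V f0) v l)).order)

/-- A valuation with one dimensional leaves on the subspace `U`. -/
structure LeafVal {E Γ : Type} [AddCommGroup E] [Module ℂ E] [LinearOrder Γ] (U : Submodule ℂ E)
    (lam : E → Γ) : Prop where
  smul : ∀ (c : ℂ), ∀ u ∈ U, c ≠ 0 → u ≠ 0 → lam (c • u) = lam u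
  add : ∀ u ∈ U, ∀ v ∈ U, u ≠ 0 → v ≠ 0 → u + v ≠ 0 → min (lam u) (lam v) ≤ lam (u + v)
  leaf : ∀ u ∈ U, ∀ v ∈ U, u ≠ 0 → v ≠ 0 → lam u = lam v →
    ∃ c : ℂ, u - c • v = 0 ∨ lam u < lam (u - c • v)

end Vale.Agent.P271
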