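import Vale.Agent.P271.Min

/-! The choice of the parameters. -/

open MeasureTheory Set Filter Topology

noncomputable section

namespace Vale.Agent.P271

theorem chain_exp (x : ℝ) : Real.exp x - 1 ≤ x * Real.exp x := by
  have h1 := mul_le_mul_of_nonneg_right (Real.add_one_le_exp (-x)) (Real.exp_pos x).le
  rw [← Real.exp_add, neg_add_cancel, Real.exp_zero] at h1
  linarith

theorem chain_exp' (x : ℝ) : x * Real.exp (-x) ≤ 1 - Real.exp (-x) := by
  have h1 := mul_le_mul_of_nonneg_right (Real.add_one_le_exp x) (Real.exp_pos (-x)).le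
  rw [← Real.exp_add, add_neg_cancel, Real.exp_zero] at h1
  linarith

theorem exists_k {θ : ℝ} (h0 : 0 < θ) (h1 : θ < 1) {k0 : ℕ} (hk0 : 0 < k0) (c : ℕ) :
    ∃ k : ℕ, c < k ∧ ∃ κ0 > (0 : ℝ), ∀ κ, 0 < κ → κ ≤ κ0 →
      (1 / κ + 2) * (Real.exp (θ * k0 * κ * k) - 1) ≤ k0 * ((k : ℝ) - c) := by
  obtain ⟨k, hk⟩ := exists_nat_gt ((c : ℝ) / (1 - θ))
  rw [div_lt_iff₀ (by linarith)] at hk
  have hk0' : (0 : ℝ) < k0 := by exact_mod_cast hk0
  have hθk : 0 ≤ θ * k := by positivity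
  have hc : Continuous fun κ : ℝ =>
      (1 + 2 * κ) * (θ * k0 * k) * Real.exp (θ * k0 * κ * k) := by fun_prop
  have h2 : ∀ᶠ κ in 𝓝 (0 : ℝ), (1 + 2 * κ) * (θ * k0 * k) * Real.exp (θ * k0 * κ * k) <
      k0 * ((k : ℝ) - c) := by
    refine hc.continuousAt.eventually (gt_mem_nhds ?_)
    simp only [mul_zero, add_zero, one_mul, zero_mul, Real.exp_zero, mul_one]
    nlinarith
  obtain ⟨ε, hε, h3⟩ := Metric.eventually_nhds_iff.1 h2
  refine ⟨k, by exact_mod_cast (show (c : ℝ) < k by linarith), ε / 2, half_pos hε,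
    fun κ hκ hκε => le_trans ?_ (h3 (y := κ) ?_).le⟩
  · refine (mul_le_mul_of_nonneg_left (chain_exp _) (by positivity)).trans (le_of_eq ?_)
    field_simp
  · rw [Real.dist_eq, sub_zero, abs_of_pos hκ]
    linarith

theorem chain_decay {F : ℕ → ℕ} {C E : ℕ} (hF : ∀ j, F j ≤ C * (j + 1) ^ E) {η : ℝ} (hη : 0 < η)
    (k m : ℕ) :
    Tendsto (fun J : ℕ => (F J : ℝ) ^ m * Real.exp (-η * ((J : ℝ) - k))) atTop (𝓝 0) := by
  have h1 : Tendsto (fun J : ℕ => (J : ℝ) + 1) atTop atTop :=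
    tendsto_atTop_add_const_right _ _ tendsto_natCast_atTop_atTop
  have h2 := ((tendsto_rpow_mul_exp_neg_mul_atTop_nhds_zero ((E * m : ℕ) : ℝ) η hη).comp
    h1).const_mul ((C : ℝ) ^ m * Real.exp (η * (k + 1)))
  rw [mul_zero] at h2
  refine squeeze_zero (fun J => by positivity) (fun J => ?_) h2
  have h3 : (F J : ℝ) ≤ C * ((J : ℝ) + 1) ^ E := by exact_mod_cast hF J
  have h4 := pow_le_pow_left₀ (Nat.cast_nonneg _) h3 m
  have e : Real.exp (-η * ((J : ℝ) - k)) =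
      Real.exp (η * (k + 1)) * Real.exp (-η * ((J : ℝ) + 1)) := by
    rw [← Real.exp_add]
    congr 1
    ring
  refine (mul_le_mul_of_nonneg_right h4 (Real.exp_pos _).le).trans (le_of_eq ?_)
  rw [e, Function.comp_apply, Real.rpow_natCast, mul_pow, ← pow_mul]
  ring

theorem chain_step {a a' L L' κ ρ m : ℝ} (hκ : 0 < κ) (hρ0 : 0 < ρ) (hρ : ρ ≤ 1)
    (h : a + κ * L ≤ a' + κ * L') (hq : m * (κ * ρ) ≤ a') :
    a / κ + L + (1 - ρ) * m ≤ a' / (κ * ρ) + L' := by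
  have h1 : m ≤ a' / (κ * ρ) := (le_div_iff₀ (mul_pos hκ hρ0)).2 hq
  have h2 : a / κ + L ≤ a' / (κ * ρ) * ρ + L' := by
    have e1 : a / κ + L = (a + κ * L) / κ := by field_simp
    have e2 : a' / (κ * ρ) * ρ + L' = (a' + κ * L') / κ := by field_simp
    rw [e1, e2]
    exact div_le_div_of_nonneg_right h hκ.le
  nlinarith [mul_le_mul_of_nonneg_left h1 (sub_nonneg.2 hρ)]

theorem chain_log {κ0 s : ℝ} (h0 : 0 < κ0) (hs : 0 ≤ s) (n : ℕ) :
    Real.log ((1 - Real.exp (-(κ0 * Real.exp (-s))))⁻¹ ^ n + 1) ≤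
      Real.log 2 + n * (κ0 - Real.log κ0 + s) := by
  obtain ⟨t, ht⟩ : ∃ t, t = κ0 * Real.exp (-s) := ⟨_, rfl⟩
  have ht0 : 0 < t := by rw [ht]; positivity
  have ht1 : t ≤ κ0 := ht ▸ mul_le_of_le_one_right h0.le (Real.exp_le_one_iff.2 (by linarith))
  have hl : Real.log t = Real.log κ0 - s := by
    rw [ht, Real.log_mul h0.ne' (Real.exp_pos _).ne', Real.log_exp]
    ring
  rw [← ht]
  have h1 := chain_exp' t
  have h2 : 0 < t * Real.exp (-t) := by positivity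
  have h3 : 0 < 1 - Real.exp (-t) := h2.trans_le h1
  have h4 : 1 ≤ (1 - Real.exp (-t))⁻¹ := (one_le_inv₀ h3).2 (by linarith [Real.exp_pos (-t)])
  have h5 : 1 ≤ (1 - Real.exp (-t))⁻¹ ^ n := one_le_pow₀ h4
  have h6 : Real.log ((1 - Real.exp (-t))⁻¹ ^ n + 1) ≤ Real.log (2 * (1 - Real.exp (-t))⁻¹ ^ n) :=
    Real.log_le_log (by linarith) (by linarith)
  rw [Real.log_mul two_ne_zero (by positivity), Real.log_pow, Real.log_inv] at h6
  have h7 := Real.log_le_log h2 h1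
  rw [Real.log_mul ht0.ne' (Real.exp_pos _).ne', Real.log_exp] at h7
  have h8 : -Real.log (1 - Real.exp (-t)) ≤ κ0 - Real.log κ0 + s := by linarith
  have h9 := mul_le_mul_of_nonneg_left h8 (Nat.cast_nonneg (α := ℝ) n)
  linarith

theorem chain_delta (n : ℕ) : ∃ δ > (0 : ℝ), n * δ < (1 - Real.exp (-δ)) * (n + 1 / 4) := by
  have h0 : (0 : ℝ) < 1 / (4 * n + 2) := by positivity
  refine ⟨_, h0, ?_⟩
  obtain ⟨δ, hδ⟩ : ∃ δ : ℝ, δ = 1 / (4 * n + 2) := ⟨_, rfl⟩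
  rw [← hδ] at h0 ⊢
  have h1 : δ * (4 * n + 2) = 1 := by rw [hδ]; field_simp
  have h2 := chain_exp' δ
  have h3 := mul_le_mul_of_nonneg_left (Real.add_one_le_exp (-δ)) h0.le
  have h4 : δ * (1 - δ) ≤ 1 - Real.exp (-δ) := by linarith
  have h5 := mul_le_mul_of_nonneg_right h4 (show (0 : ℝ) ≤ n + 1 / 4 by positivity)
  have h6 : δ * (1 - δ) * (n + 1 / 4) = n * δ + δ * δ / 4 := by
    linear_combination (-δ / 4) * h1
  nlinarith [mul_pos h0 h0]

namespace Core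
variable {Y R : Type} [CommRing R] [Algebra ℂ R] (C : Core Y R)

/-- The ratio `(n + 1/4) / (n + 1/2)`. -/
def θ : ℝ := (C.n + 1 / 4) / (C.n + 1 / 2)

/-- The truncation level for the order of vanishing. -/
def Om (J : ℕ) : ℕ := C.D.factorial * Module.finrank ℂ (C.O J)

/-- The top levels carry little weight. -/
def Tail (k J : ℕ) (ηm κ : ℝ) : Prop :=
  k ≤ J ∧ (((C.Om J : ℝ) + (C.D + 1) * (C.k0 * k)) / (Real.exp (ηm * k) - 1) * k +
    C.D * (1 / κ + 1)) * Real.exp (-ηm * ((J : ℝ) - k)) * Module.finrank ℂ (C.O J) ≤ 1 / 2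

theorem exists_J0 {k : ℕ} (hk : 0 < k) {ηm : ℝ} (hη : 0 < ηm) (κ : ℝ) :
    ∃ J0, ∀ J ≥ J0, C.Tail k J ηm κ := by
  obtain ⟨K, E, hF⟩ := C.growth
  have h1 := ((chain_decay hF hη k 2).const_mul
    ((C.D.factorial : ℝ) / (Real.exp (ηm * k) - 1) * k)).add ((chain_decay hF hη k 1).const_mul
      (((C.D : ℝ) + 1) * (C.k0 * k) / (Real.exp (ηm * k) - 1) * k + C.D * (1 / κ + 1)))
  rw [mul_zero, mul_zero, add_zero] at h1
  refine eventually_atTop.1 ?_
  filter_upwards [eventually_ge_atTop k, h1.eventually (ge_mem_nhds (show (0 : ℝ) < 1 / 2 by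
    norm_num))] with J h2 h3
  refine ⟨h2, le_of_eq_of_le ?_ h3⟩
  unfold Om
  push_cast
  ring

theorem exists_small {κ0 : ℝ} (h0 : 0 < κ0) (J0 : ℝ → ℝ → ℕ) :
    ∃ (κ ηm : ℝ) (J : ℕ) (b η z : ℝ), 0 < κ ∧ κ ≤ κ0 ∧ 0 < ηm ∧ J0 κ ηm ≤ J ∧
      C.IsMin J ηm κ b η z ∧ η ≤ C.θ * C.k0 * κ := by
  obtain ⟨δ, hδ, hδn⟩ := chain_delta C.n
  obtain ⟨lam, hlam⟩ : ∃ lam : ℝ, lam = (C.n + 1 / 2) / C.k0 := ⟨_, rfl⟩
  have hk0 : (0 : ℝ) < C.k0 := by exact_mod_cast C.k0_pos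
  have hlam0 : 0 < lam := by rw [hlam]; positivity
  obtain ⟨I, hI⟩ := exists_nat_gt ((C.n + lam + Real.log 2 + C.n * (κ0 - Real.log κ0)) /
    ((1 - Real.exp (-δ)) * (C.n + 1 / 4) - C.n * δ))
  rw [div_lt_iff₀ (by linarith)] at hI
  obtain ⟨κ, hκ⟩ : ∃ κ : ℕ → ℝ, κ = fun i : ℕ => κ0 * Real.exp (-(i * δ)) := ⟨_, rfl⟩
  have hκ0 : ∀ i, 0 < κ i := fun i => by rw [hκ]; positivity
  have hκ1 : ∀ i, κ i ≤ κ0 := fun i => by
    rw [hκ]
    exact mul_le_of_le_one_right h0.le (Real.exp_le_one_iff.2 (neg_nonpos.2 (by positivity)))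
  have hκ2 : ∀ i, κ (i + 1) = κ i * Real.exp (-δ) := fun i => by
    simp only [hκ]
    rw [mul_assoc, ← Real.exp_add]
    congr 2
    push_cast
    ring
  obtain ⟨J, hJ⟩ : ∃ J, ∀ i ≤ I, J0 (κ i) (κ I) ≤ J :=
    ⟨(Finset.range (I + 1)).sup fun i => J0 (κ i) (κ I), fun i hi =>
      Finset.le_sup (f := fun i => J0 (κ i) (κ I)) (Finset.mem_range.2 (Nat.lt_succ_of_le hi))⟩
  choose b η z hmin using fun i => C.exists_min J (hκ0 I) (hκ0 i)
  by_contra hcon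
  have hq : ∀ i ≤ I, (C.n + 1 / 4) * κ i ≤ b i + lam * η i := fun i hi => by
    have h1 : C.θ * C.k0 * κ i < η i := by
      by_contra h2
      exact hcon ⟨κ i, κ I, J, b i, η i, z i, hκ0 i, hκ1 i, hκ0 I, hJ i hi, hmin i, not_lt.1 h2⟩
    have h2 := mul_le_mul_of_nonneg_left h1.le hlam0.le
    have e : lam * (C.θ * C.k0 * κ i) = (C.n + 1 / 4) * κ i := by
      rw [hlam, θ]
      field_simp
    linarith [(hmin i).ach.nonneg]
  have hψ : ∀ i ≤ I, i * ((1 - Real.exp (-δ)) * (C.n + 1 / 4)) ≤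
      (b i + lam * η i) / κ i + Real.log (z i) := by
    intro i
    induction i with
    | zero =>
      intro hi
      have h1 : 0 ≤ (b 0 + lam * η 0) / κ 0 :=
        div_nonneg (le_trans (mul_nonneg (by positivity) (hκ0 0).le) (hq 0 hi)) (hκ0 0).le
      have h2 := Real.log_nonneg ((hmin 0).ach.one_le ((hκ0 I).trans_le (hmin 0).le))
      rw [Nat.cast_zero, zero_mul]
      linarith
    | succ i ih =>
      intro hi
      have h1 := (hmin i).min _ _ _ (hmin (i + 1)).le (hmin (i + 1)).ach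
      unfold G at h1
      rw [← hlam] at h1
      have h2 := hq (i + 1) hi
      rw [hκ2] at h2
      have h3 := chain_step (hκ0 i) (Real.exp_pos (-δ)) (Real.exp_le_one_iff.2 (by linarith)) h1 h2
      have h4 := ih (Nat.le_of_succ_le hi)
      rw [hκ2]
      push_cast
      linarith
  have h1 := (hmin I).min _ _ _ le_rfl (C.ach_ord J (hκ0 I) (hκ0 I))
  unfold G at h1
  rw [← hlam] at h1
  have h2 := chain_log h0 (show 0 ≤ I * δ by positivity) C.n
  have e : κ0 * Real.exp (-(I * δ)) = κ I := by rw [hκ]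
  rw [e] at h2
  have h3 : (b I + lam * η I) / κ I + Real.log (z I) ≤
      C.n + lam + Real.log ((1 - Real.exp (-κ I))⁻¹ ^ C.n + 1) := by
    have e1 : (b I + lam * η I) / κ I + Real.log (z I) =
        (b I + lam * η I + κ I * Real.log (z I)) / κ I := by
      have := (hκ0 I).ne'
      field_simp
    rw [e1, div_le_iff₀ (hκ0 I)]
    linarith
  have h4 := hψ I le_rfl
  linarith

end Core

end Vale.Agent.P271
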