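import Mathlib
import Vale.Agent.Lib.PrekopaLeindler

/-! The discrete Brunn-Minkowski inequality and the expected degree of leading monomials. -/

open Finset

noncomputable section

namespace Vale.Agent.P271

/-- The union of the half open unit cubes at the points of `S`. -/
def combCube {d : ℕ} (S : Finset (Fin d →₀ ℕ)) : Set (Fin d → ℝ) :=
  ⋃ α ∈ S, Set.pi Set.univ fun i => Set.Ico (α i : ℝ) (α i + 1)

theorem comb_meas {d : ℕ} (S : Finset (Fin d →₀ ℕ)) : MeasurableSet (combCube S) :=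
  Finset.measurableSet_biUnion _ fun _ _ => MeasurableSet.univ_pi fun _ => measurableSet_Ico

theorem comb_vol {d : ℕ} (S : Finset (Fin d →₀ ℕ)) :
    MeasureTheory.volume (combCube S) = S.card := by
  rw [combCube, MeasureTheory.measure_biUnion_finset]
  · simp [Real.volume_pi_Ico]
  · intro α _ β _ hne
    refine Set.disjoint_left.2 fun x hx hy => hne (Finsupp.ext fun i => ?_)
    have h1 := hx i trivial
    have h2 := hy i trivial
    have h3 : (α i : ℝ) < β i + 1 := h1.1.trans_lt h2.2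
    have h4 : (β i : ℝ) < α i + 1 := h2.1.trans_lt h1.2
    have h5 : α i < β i + 1 := by exact_mod_cast h3
    have h6 : β i < α i + 1 := by exact_mod_cast h4
    omega
  · exact fun _ _ => MeasurableSet.univ_pi fun _ => measurableSet_Ico

theorem comb_add {d : ℕ} {A B C : Finset (Fin d →₀ ℕ)}
    (h : ∀ α ∈ A, ∀ β ∈ B, ∀ ε : Fin d →₀ ℕ, (∀ i, ε i ≤ 1) → α + β + ε ∈ C)
    {x y : Fin d → ℝ} (hx : x ∈ combCube A) (hy : y ∈ combCube B) : x + y ∈ combCube C := by
  simp only [combCube, Set.mem_iUnion, Set.mem_univ_pi, Set.mem_Ico] at hx hy ⊢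
  obtain ⟨α, hα, hx⟩ := hx
  obtain ⟨β, hβ, hy⟩ := hy
  refine ⟨_, h α hα β hβ (Finsupp.equivFunOnFinite.symm fun i =>
    if x i + y i < α i + β i + 1 then 0 else 1) fun i => ?_, fun i => ?_⟩
  · rw [Finsupp.equivFunOnFinite_symm_apply_apply]
    split_ifs <;> simp
  · simp only [Finsupp.add_apply, Finsupp.equivFunOnFinite_symm_apply_apply, Pi.add_apply]
    have h1 := hx i
    have h2 := hy i
    split_ifs with h3
    · push_cast
      constructor <;> linarith [h1.1, h2.1]
    · push_cast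
      constructor <;> linarith [h1.2, h2.2, not_lt.1 h3]

theorem comb_root {d : ℕ} (hd : 1 ≤ d) {x : ℝ} (hx : 0 ≤ x) : (x ^ (1 / d : ℝ)) ^ d = x := by
  rw [one_div, Real.rpow_inv_natCast_pow hx (by omega)]

theorem comb_scale {d : ℕ} (S : Finset (Fin d →₀ ℕ)) {a : ℝ} (ha : 0 < a) :
    MeasureTheory.volume ((a • ·) ⁻¹' combCube S) = ENNReal.ofReal (S.card / a ^ d) := by
  rw [MeasureTheory.Measure.addHaar_preimage_smul _ ha.ne', comb_vol, Module.finrank_fin_fun,
    abs_of_pos (by positivity), ← ENNReal.ofReal_natCast, ← ENNReal.ofReal_mul (by positivity),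
    inv_mul_eq_div]

theorem disc_bm {d : ℕ} (hd : 1 ≤ d) {A B C : Finset (Fin d →₀ ℕ)} (hA : A.Nonempty)
    (hB : B.Nonempty) (h : ∀ α ∈ A, ∀ β ∈ B, ∀ ε : Fin d →₀ ℕ, (∀ i, ε i ≤ 1) → α + β + ε ∈ C) :
    (A.card : ℝ) ^ (1 / d : ℝ) + (B.card : ℝ) ^ (1 / d : ℝ) ≤ (C.card : ℝ) ^ (1 / d : ℝ) := by
  have hA0 : (0 : ℝ) < A.card := by exact_mod_cast hA.card_pos
  have hB0 : (0 : ℝ) < B.card := by exact_mod_cast hB.card_pos
  have ha := Real.rpow_pos_of_pos hA0 (1 / d : ℝ)
  have hb := Real.rpow_pos_of_pos hB0 (1 / d : ℝ)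
  have ha' := comb_root hd hA0.le
  have hb' := comb_root hd hB0.le
  generalize (A.card : ℝ) ^ (1 / d : ℝ) = a at ha ha' ⊢
  generalize (B.card : ℝ) ^ (1 / d : ℝ) = b at hb hb' ⊢
  have hab : 0 < a + b := add_pos ha hb
  have hm : ∀ (c : ℝ) (S : Finset (Fin d →₀ ℕ)), MeasurableSet ((c • ·) ⁻¹' combCube S) :=
    fun c S => (measurable_const_smul c) (comb_meas S)
  have h1 := Vale.Agent.Lib.PL.brunn_minkowski_mul MeasureTheory.volume (div_pos ha hab)
    (div_pos hb hab) (by field_simp) (hm a A) (hm b B) (hm (a + b) C) fun x hx y hy => by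
      have e : (a + b) • ((a / (a + b)) • x + (b / (a + b)) • y) = a • x + b • y := by
        rw [smul_add, smul_smul, smul_smul, mul_div_cancel₀ _ hab.ne', mul_div_cancel₀ _ hab.ne']
      rw [Set.mem_preimage, e]
      exact comb_add h hx hy
  rw [comb_scale A ha, comb_scale B hb, comb_scale C hab, ha', hb', div_self hA0.ne',
    div_self hB0.ne', ENNReal.ofReal_one, ENNReal.one_rpow, ENNReal.one_rpow, one_mul,
    ENNReal.one_le_ofReal, one_le_div (by positivity)] at h1
  refine (pow_le_pow_iff_left₀ hab.le (by positivity) (show d ≠ 0 by omega)).1 ?_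
  rw [comb_root hd (Nat.cast_nonneg _)]
  exact h1

theorem comb_count {d o : ℕ} (S : Finset (Fin d →₀ ℕ)) (h : ∀ α ∈ S, α.degree ≤ o) :
    d.factorial * S.card ≤ (d + o) ^ d := by
  have h1 : S.card ≤ ((univ : Finset (Fin (d + 1))).finsuppAntidiag o).card := by
    refine card_le_card_of_injOn (fun α => Finsupp.cons (o - α.degree) α) (fun α hα => ?_)
      fun α _ β _ e => ?_
    · have h2 := h α hα
      rw [Finsupp.degree_eq_sum] at h2
      simp only [mem_coe, mem_finsuppAntidiag, subset_univ, and_true,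
        Fin.sum_univ_succ, Finsupp.cons_zero, Finsupp.cons_succ, Finsupp.degree_eq_sum]
      omega
    · have h2 := congrArg Finsupp.tail e
      simpa using h2
  rw [card_finsuppAntidiag_nat_eq_choose, card_univ, Fintype.card_fin,
    show d + 1 + o - 1 = d + o by omega, ← Nat.choose_symm_add] at h1
  refine (Nat.mul_le_mul_left _ h1).trans ?_
  rw [← Nat.descFactorial_eq_factorial_mul_choose]
  exact Nat.descFactorial_le_pow _ _

theorem card_degree_le {d : ℕ} (S : Finset (Fin d →₀ ℕ)) {x : ℝ} (hx : 0 ≤ x)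
    (h : ∀ α ∈ S, (α.degree : ℝ) + d ≤ x) : (d.factorial : ℝ) * S.card ≤ x ^ d := by
  rcases S.eq_empty_or_nonempty with rfl | ⟨α, hα⟩
  · simpa using pow_nonneg hx d
  have h0 : 0 ≤ x - d := by linarith [h α hα, Nat.cast_nonneg (α := ℝ) α.degree]
  have h1 := comb_count (o := ⌊x - d⌋₊) S fun β hβ => Nat.le_floor (by linarith [h β hβ])
  have h2 : (d.factorial : ℝ) * S.card ≤ ((d : ℝ) + ⌊x - d⌋₊) ^ d := by exact_mod_cast h1
  exact h2.trans (pow_le_pow_left₀ (by positivity) (by linarith [Nat.floor_le h0]) d)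

open MeasureTheory in
theorem comb_ind {a t : ℝ} (ha : 0 ≤ a) (ht : 0 ≤ t) :
    ∫ x in Set.Ioc 0 t, (Set.Iio a).indicator (1 : ℝ → ℝ) x ≤ min a t := by
  rw [integral_indicator_one measurableSet_Iio, measureReal_restrict_apply measurableSet_Iio]
  have h1 : Set.Iio a ∩ Set.Ioc 0 t ⊆ Set.Ioc 0 (min a t) := fun x hx =>
    ⟨hx.2.1, le_min (le_of_lt hx.1) hx.2.2⟩
  refine (measureReal_mono h1 (by simp)).trans (le_of_eq ?_)
  rw [Real.volume_real_Ioc_of_le (le_min ha ht), sub_zero]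

open MeasureTheory in
theorem sum_min_ge {d : ℕ} (hd : 1 ≤ d) (S : Finset (Fin d →₀ ℕ)) {t : ℝ} (ht : 0 ≤ t)
    (h : t ^ d = d.factorial * S.card) {O : ℕ} (hO : t ≤ O) :
    d / (d + 1) * t * S.card - d * S.card ≤ ∑ α ∈ S, ((min α.degree O : ℕ) : ℝ) := by
  have hf : (0 : ℝ) < d.factorial := by exact_mod_cast d.factorial_pos
  have hi : ∀ α ∈ S, Integrable ((Set.Iio ((α.degree : ℝ) + d)).indicator (1 : ℝ → ℝ))
      (volume.restrict (Set.Ioc 0 t)) := fun α _ => (integrable_const 1).indicator measurableSet_Iio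
  have h1 : ∑ α ∈ S, ∫ x in Set.Ioc 0 t, (Set.Iio ((α.degree : ℝ) + d)).indicator (1 : ℝ → ℝ) x ≤
      ∑ α ∈ S, (((min α.degree O : ℕ) : ℝ) + d) := sum_le_sum fun α _ => by
    refine (comb_ind (by positivity) ht).trans ?_
    rw [Nat.cast_min, ← min_add_add_right]
    exact min_le_min le_rfl (by linarith [Nat.cast_nonneg (α := ℝ) d])
  rw [← integral_finsetSum _ hi, sum_add_distrib, sum_const, nsmul_eq_mul] at h1
  have hc : Continuous fun x : ℝ => (S.card : ℝ) - x ^ d / d.factorial := by fun_prop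
  have h2 : ∫ x in Set.Ioc 0 t, ((S.card : ℝ) - x ^ d / d.factorial) ≤
      ∫ x in Set.Ioc 0 t, ∑ α ∈ S, (Set.Iio ((α.degree : ℝ) + d)).indicator (1 : ℝ → ℝ) x := by
    refine setIntegral_mono_on hc.integrableOn_Ioc (integrable_finsetSum _ hi) measurableSet_Ioc
      fun x hx => ?_
    have h3 := card_degree_le (S.filter fun α => ¬ x < (α.degree : ℝ) + d) hx.1.le
      fun α hα => not_lt.1 (mem_filter.1 hα).2
    have h4 : ((S.filter fun α => x < (α.degree : ℝ) + d).card : ℝ) +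
        (S.filter fun α => ¬ x < (α.degree : ℝ) + d).card = S.card := by
      exact_mod_cast card_filter_add_card_filter_not _
    have h5 : ∑ α ∈ S, (Set.Iio ((α.degree : ℝ) + d)).indicator (1 : ℝ → ℝ) x =
        (S.filter fun α => x < (α.degree : ℝ) + d).card := by
      rw [← sum_boole]
      exact sum_congr rfl fun α _ => by simp [Set.indicator_apply]
    rw [h5, sub_le_iff_le_add, ← h4, add_le_add_iff_left, le_div_iff₀ hf, mul_comm]
    exact h3
  rw [← intervalIntegral.integral_of_le ht, intervalIntegral.integral_sub (by simp)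
    ((by fun_prop : Continuous fun x : ℝ => x ^ d / d.factorial).intervalIntegrable _ _),
    intervalIntegral.integral_const, intervalIntegral.integral_div, integral_pow] at h2
  have e : (t - 0) • (S.card : ℝ) - (t ^ (d + 1) - 0 ^ (d + 1)) / (d + 1) / d.factorial =
      d / (d + 1) * t * S.card := by
    rw [pow_succ t, h, zero_pow (by omega), smul_eq_mul]
    field_simp
    ring
  rw [e] at h2
  linarith

theorem comb_rec {d : ℕ} {f t t' γ N N' : ℝ} (hf : 0 < f) (ht : 0 ≤ t) (hγ : 0 ≤ γ)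
    (h : t + γ ≤ t') (h1 : t ^ d = f * N) (h2 : t' ^ d = f * N') :
    t * N + (d + 1) * γ * N ≤ t' * N' := by
  have h3 := pow_add_mul_le_add_pow ht (show 0 ≤ 2 * t + γ by positivity) (d + 1)
  have h4 := pow_le_pow_left₀ (by positivity) h (d + 1)
  rw [Nat.add_sub_cancel, pow_succ t, h1] at h3
  rw [pow_succ t', h2] at h4
  push_cast at h3
  refine le_of_mul_le_mul_left ?_ hf
  linarith

theorem comb_shift {J k : ℕ} {u : ℕ → ℝ} (hu : ∀ j, 0 ≤ u j) :
    ∑ j ∈ range (J + 1) with ¬ J < j + k, u (j + k) ≤ ∑ j ∈ range (J + 1), u j := by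
  rw [← sum_image (g := fun j => j + k) (f := u) fun a _ b _ e => Nat.add_right_cancel e]
  refine sum_le_sum_of_subset_of_nonneg (fun j hj => ?_) fun j _ _ => hu j
  obtain ⟨i, hi, rfl⟩ := mem_image.1 hj
  have h1 := (mem_filter.1 hi).2
  exact mem_range.2 (by omega)

theorem comb_fin {d E γ c U A B : ℝ} (hd : 0 ≤ d) (hE : 0 < E) (hc : 0 ≤ c) (hB : 0 ≤ B)
    (h : (d + 1) * γ * A - c * B ≤ E * U) :
    d * (γ / E - 1) * A - c / E * B ≤ d / (d + 1) * U - d * A := by
  have h1 : ((d + 1) * γ * A - c * B) / E ≤ U := (div_le_iff₀' hE).2 h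
  have h2 := mul_le_mul_of_nonneg_left h1 (show 0 ≤ d / (d + 1) by positivity)
  have e : d / (d + 1) * (((d + 1) * γ * A - c * B) / E) =
      d * (γ / E) * A - c / E * B + c / E * B / (d + 1) := by
    field_simp
    ring
  have h3 : 0 ≤ c / E * B / (d + 1) := by positivity
  linarith

theorem comb {d : ℕ} (hd : 1 ≤ d) (S : ℕ → Finset (Fin d →₀ ℕ)) (G : Finset (Fin d →₀ ℕ))
    {γ η : ℝ} (hγ : 0 ≤ γ) (hG : γ ^ d ≤ d.factorial * G.card) (hη : 0 < η) {k J O : ℕ}
    (hk : 0 < k) (hcl : ∀ j, j + k ≤ J → ∀ α ∈ S j, ∀ β ∈ G, ∀ ε : Fin d →₀ ℕ, (∀ i, ε i ≤ 1) →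
      α + β + ε ∈ S (j + k)) (hO : ∀ j ≤ J, d.factorial * (S j).card ≤ O) :
    d * (γ / (Real.exp (η * k) - 1) - 1) * ∑ j ∈ range (J + 1), Real.exp (-η * j) * (S j).card -
      (O + (d + 1) * γ) / (Real.exp (η * k) - 1) *
        ∑ j ∈ range (J + 1) with J < j + k, Real.exp (-η * j) * (S j).card ≤
      ∑ j ∈ range (J + 1), Real.exp (-η * j) * ∑ α ∈ S j, ((min α.degree O : ℕ) : ℝ) := by
  have hf : (0 : ℝ) < d.factorial := by exact_mod_cast d.factorial_pos
  have hE : 0 < Real.exp (η * k) - 1 :=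
    sub_pos.2 (Real.one_lt_exp_iff.2 (mul_pos hη (by exact_mod_cast hk)))
  rcases G.eq_empty_or_nonempty with h1 | h1
  · rw [h1, card_empty, Nat.cast_zero, mul_zero] at hG
    obtain rfl : γ = 0 := pow_eq_zero_iff (show d ≠ 0 by omega) |>.1
      (le_antisymm hG (pow_nonneg hγ d))
    refine le_trans (sub_nonpos.2 (le_trans ?_ (le_trans le_rfl (by positivity)))) (by positivity)
    rw [zero_div, zero_sub, mul_neg, neg_mul, neg_nonpos]
    positivity
  obtain ⟨t, ht⟩ : ∃ t : ℕ → ℝ, t = fun j => ((d.factorial : ℝ) * (S j).card) ^ (1 / d : ℝ) :=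
    ⟨_, rfl⟩
  have ht0 : ∀ j, 0 ≤ t j := fun j => by rw [ht]; positivity
  have htd : ∀ j, t j ^ d = d.factorial * (S j).card := fun j => by
    rw [ht]
    exact comb_root hd (by positivity)
  have htO : ∀ j ≤ J, t j ≤ O := fun j hj => by
    refine (pow_le_pow_iff_left₀ (ht0 j) (Nat.cast_nonneg _) (show d ≠ 0 by omega)).1 ?_
    rw [htd]
    exact_mod_cast (hO j hj).trans (Nat.le_self_pow (by omega) O)
  have hrec : ∀ j, j + k ≤ J →
      t j * (S j).card + (d + 1) * γ * (S j).card ≤ t (j + k) * (S (j + k)).card := by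
    intro j hj
    rcases (S j).eq_empty_or_nonempty with h0 | h0
    · rw [h0, card_empty, Nat.cast_zero, mul_zero, mul_zero, add_zero]
      exact mul_nonneg (ht0 _) (Nat.cast_nonneg _)
    refine comb_rec hf (ht0 j) hγ ?_ (htd j) (htd (j + k))
    have h2 := mul_le_mul_of_nonneg_left (disc_bm hd h0 h1 (hcl j hj))
      (Real.rpow_nonneg hf.le (1 / d : ℝ))
    rw [mul_add, ← Real.mul_rpow hf.le (Nat.cast_nonneg _), ← Real.mul_rpow hf.le (Nat.cast_nonneg _),
      ← Real.mul_rpow hf.le (Nat.cast_nonneg _)] at h2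
    have h3 : γ ≤ ((d.factorial : ℝ) * G.card) ^ (1 / d : ℝ) := by
      refine (pow_le_pow_iff_left₀ hγ (by positivity) (show d ≠ 0 by omega)).1 ?_
      rw [comb_root hd (by positivity)]
      exact hG
    simp only [ht]
    linarith
  have h2 : ∑ j ∈ range (J + 1), Real.exp (-η * j) *
      (d / (d + 1) * t j * (S j).card - d * (S j).card) ≤
      ∑ j ∈ range (J + 1), Real.exp (-η * j) * ∑ α ∈ S j, ((min α.degree O : ℕ) : ℝ) :=
    sum_le_sum fun j hj => mul_le_mul_of_nonneg_left (sum_min_ge hd (S j) (ht0 j) (htd j)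
      (htO j (Nat.lt_succ_iff.1 (mem_range.1 hj)))) (Real.exp_pos _).le
  have e2 : ∑ j ∈ range (J + 1), Real.exp (-η * j) *
      (d / (d + 1) * t j * (S j).card - d * (S j).card) =
      d / (d + 1) * ∑ j ∈ range (J + 1), Real.exp (-η * j) * (t j * (S j).card) -
        d * ∑ j ∈ range (J + 1), Real.exp (-η * j) * (S j).card := by
    rw [mul_sum, mul_sum, ← sum_sub_distrib]
    exact sum_congr rfl fun j _ => by ring
  have h3 := mul_le_mul_of_nonneg_left (comb_shift (J := J) (k := k)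
    (u := fun j => Real.exp (-η * j) * (t j * (S j).card)) fun j =>
      mul_nonneg (Real.exp_pos _).le (mul_nonneg (ht0 j) (Nat.cast_nonneg _)))
    (Real.exp_pos (η * k)).le
  have h4 : ∑ j ∈ range (J + 1) with ¬ J < j + k, Real.exp (-η * j) * (t j * (S j).card) +
      (d + 1) * γ * ∑ j ∈ range (J + 1) with ¬ J < j + k, Real.exp (-η * j) * (S j).card ≤
      Real.exp (η * k) * ∑ j ∈ range (J + 1) with ¬ J < j + k,
        Real.exp (-η * ((j + k : ℕ) : ℝ)) * (t (j + k) * (S (j + k)).card) := by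
    rw [mul_sum, mul_sum, ← sum_add_distrib]
    refine sum_le_sum fun j hj => ?_
    have e : Real.exp (η * k) * Real.exp (-η * ((j + k : ℕ) : ℝ)) = Real.exp (-η * j) := by
      rw [← Real.exp_add]
      congr 1
      push_cast
      ring
    have h5 := mul_le_mul_of_nonneg_left (hrec j (not_lt.1 (mem_filter.1 hj).2))
      (Real.exp_pos (-η * j)).le
    rw [← mul_assoc (Real.exp (η * k)), e]
    linarith
  have h5 := sum_filter_add_sum_filter_not (range (J + 1)) (fun j => J < j + k)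
    fun j => Real.exp (-η * j) * (t j * (S j).card)
  have h6 := sum_filter_add_sum_filter_not (range (J + 1)) (fun j => J < j + k)
    fun j => Real.exp (-η * j) * (S j).card
  have h7 : ∑ j ∈ range (J + 1) with J < j + k, Real.exp (-η * j) * (t j * (S j).card) ≤
      O * ∑ j ∈ range (J + 1) with J < j + k, Real.exp (-η * j) * (S j).card := by
    rw [mul_sum]
    refine sum_le_sum fun j hj => ?_
    have h8 := mul_le_mul_of_nonneg_right (htO j (Nat.lt_succ_iff.1 (mem_range.1
      (mem_filter.1 hj).1))) (show 0 ≤ Real.exp (-η * j) * (S j).card by positivity)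
    linarith
  refine le_trans (comb_fin (Nat.cast_nonneg d) hE (by positivity) (by positivity) ?_)
    (e2.symm.trans_le h2)
  rw [← h6]
  linarith

end Vale.Agent.P271
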