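import Vale.Agent.P271.DStA0

/-! The expected order of vanishing of the refined valuation is large. -/

open Set Filter Topology

noncomputable section

namespace Vale.Agent.P271

theorem DStAG_wcomb {d : ℕ} (hd : 1 ≤ d) {Γ K : Type} (S : ℕ → Finset Γ) (key : Γ → K)
    (al : Γ → (Fin d →₀ ℕ)) (wt : K → ℝ) (hinj : ∀ g g', key g = key g' → al g = al g' → g = g')
    (G : Finset (Fin d →₀ ℕ)) {γ η : ℝ} (hγ : 0 ≤ γ) (hG : γ ^ d ≤ d.factorial * G.card)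
    (hη : 0 < η) {k J O : ℕ} (hk : 0 < k) (hwt : ∀ j ≤ J, ∀ g ∈ S j, 0 ≤ wt (key g))
    (hcl : ∀ j, j + k ≤ J → ∀ g ∈ S j, 0 < wt (key g) → ∀ β ∈ G, ∀ ε : Fin d →₀ ℕ,
      (∀ i, ε i ≤ 1) → ∃ g' ∈ S (j + k), key g' = key g ∧ al g' = al g + β + ε)
    (hO : ∀ j ≤ J, d.factorial * (S j).card ≤ O) :
    d * (γ / (Real.exp (η * k) - 1) - 1) *
        ∑ j ∈ Finset.range (J + 1), Real.exp (-η * j) * ∑ g ∈ S j, wt (key g) -
      (O + (d + 1) * γ) / (Real.exp (η * k) - 1) *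
        ∑ j ∈ Finset.range (J + 1) with J < j + k, Real.exp (-η * j) * ∑ g ∈ S j, wt (key g) ≤
      ∑ j ∈ Finset.range (J + 1), Real.exp (-η * j) *
        ∑ g ∈ S j, wt (key g) * ((min (al g).degree O : ℕ) : ℝ) := by
  classical
  set Ks : Finset K := (Finset.range (J + 1)).biUnion fun j => (S j).image key with hKs
  set T : K → ℕ → Finset (Fin d →₀ ℕ) := fun c j => ((S j).filter fun g => key g = c).image al
    with hT
  have hsplit : ∀ (F : (Fin d →₀ ℕ) → ℝ), ∀ j ∈ Finset.range (J + 1),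
      ∑ g ∈ S j, wt (key g) * F (al g) = ∑ c ∈ Ks, wt c * ∑ α ∈ T c j, F α := by
    intro F j hj
    rw [← Finset.sum_fiberwise_of_maps_to (t := Ks) (g := key) fun g hg =>
      Finset.mem_biUnion.2 ⟨j, hj, Finset.mem_image_of_mem _ hg⟩]
    refine Finset.sum_congr rfl fun c _ => ?_
    rw [hT, Finset.sum_image fun g hg g' hg' h => hinj g g'
      ((Finset.mem_filter.1 hg).2.trans (Finset.mem_filter.1 hg').2.symm) h, Finset.mul_sum]
    exact Finset.sum_congr rfl fun g hg => by rw [(Finset.mem_filter.1 hg).2]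
  have hswap : ∀ (F : (Fin d →₀ ℕ) → ℝ) (s : Finset ℕ), s ⊆ Finset.range (J + 1) →
      ∑ j ∈ s, Real.exp (-η * j) * ∑ g ∈ S j, wt (key g) * F (al g) =
        ∑ c ∈ Ks, wt c * ∑ j ∈ s, Real.exp (-η * j) * ∑ α ∈ T c j, F α := by
    intro F s hs
    rw [Finset.sum_congr rfl fun j hj => by rw [hsplit F j (hs hj), Finset.mul_sum],
      Finset.sum_comm]
    refine Finset.sum_congr rfl fun c _ => ?_
    rw [Finset.mul_sum]
    exact Finset.sum_congr rfl fun j _ => mul_left_comm _ _ _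
  have h1 := hswap (fun _ => 1) _ subset_rfl
  have h2 := hswap (fun _ => 1) _ (Finset.filter_subset (fun j => J < j + k) _)
  simp only [mul_one, Finset.sum_const, nsmul_eq_mul] at h1 h2
  rw [h1, h2, hswap (fun α => ((min α.degree O : ℕ) : ℝ)) _ subset_rfl, Finset.mul_sum,
    Finset.mul_sum, ← Finset.sum_sub_distrib]
  refine Finset.sum_le_sum fun c hc => ?_
  have hc0 : 0 ≤ wt c := by
    obtain ⟨j, hj, h⟩ := Finset.mem_biUnion.1 hc
    obtain ⟨g, hg, rfl⟩ := Finset.mem_image.1 h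
    exact hwt j (Nat.lt_succ_iff.1 (Finset.mem_range.1 hj)) g hg
  rcases hc0.eq_or_lt with h0 | h0
  · simp [← h0]
  have h3 := comb hd (T c) G hγ hG hη hk (J := J) (O := O) (fun j hj α hα β hβ ε hε => by
    obtain ⟨g, hg, rfl⟩ := Finset.mem_image.1 hα
    obtain ⟨hg1, hg2⟩ := Finset.mem_filter.1 hg
    obtain ⟨g', h4, h5, h6⟩ := hcl j hj g hg1 (hg2 ▸ h0) β hβ ε hε
    exact Finset.mem_image.2 ⟨g', Finset.mem_filter.2 ⟨h4, h5.trans hg2⟩, h6⟩) fun j hj =>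
      (Nat.mul_le_mul_left _ (Finset.card_image_le.trans (Finset.card_filter_le _ _))).trans
        (hO j hj)
  rw [mul_left_comm, mul_left_comm _ (wt c), ← mul_sub]
  exact mul_le_mul_of_nonneg_left h3 hc0

theorem DStAG_num {J k : ℕ} {A B : ℕ → ℝ} {η ηm N c c' e e' : ℝ} (hηm : 0 < ηm) (h1 : ηm ≤ η)
    (hkJ : k ≤ J) (hA : ∀ j ≤ J, 0 ≤ A j ∧ A j ≤ N) (hB : ∀ j ≤ J, 0 ≤ B j) (hc : 0 ≤ c)
    (hc' : c ≤ c') (he : 0 ≤ e) (he' : e ≤ e')
    (h : c * ∑ j ∈ Finset.range (J + 1), Real.exp (-η * j) * A j -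
      e * ∑ j ∈ Finset.range (J + 1) with J < j + k, Real.exp (-η * j) * A j ≤
        ∑ j ∈ Finset.range (J + 1), Real.exp (-η * j) * B j)
    (ht : (e' * k + c') * Real.exp (-ηm * ((J : ℝ) - k)) * N ≤ 1 / 2) :
    c * (∑ j ∈ Finset.range (J + 1), lw J η j * A j) - 1 / 2 ≤
      ∑ j ∈ Finset.range (J + 1), lw J η j * B j := by
  have hη : 0 < η := hηm.trans_le h1
  have hq0 : 0 ≤ 1 - Real.exp (-η) := sub_nonneg.2 (Real.exp_le_one_iff.2 (by linarith))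
  have hq1 : 1 - Real.exp (-η) ≤ 1 := sub_le_self _ (Real.exp_pos _).le
  have hle : ∀ j ∈ Finset.range (J + 1), j ≤ J := fun j hj =>
    Nat.lt_succ_iff.1 (Finset.mem_range.1 hj)
  have hN : 0 ≤ N := (hA 0 (Nat.zero_le _)).1.trans (hA 0 (Nat.zero_le _)).2
  set X := Real.exp (-ηm * ((J : ℝ) - k)) with hX
  have hX0 : 0 < X := Real.exp_pos _
  have hE : ∀ j : ℕ, J ≤ j + k → Real.exp (-η * j) ≤ X := by
    intro j hj
    have h2 : (J : ℝ) ≤ j + k := by exact_mod_cast hj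
    have h3 : (0 : ℝ) ≤ j := Nat.cast_nonneg j
    exact Real.exp_le_exp.2 (by nlinarith)
  have hlw : ∀ F : ℕ → ℝ, ∑ j ∈ Finset.range (J + 1), lw J η j * F j =
      (1 - Real.exp (-η)) * ∑ j ∈ Finset.range (J + 1), Real.exp (-η * j) * F j +
        Real.exp (-η) * (Real.exp (-η * J) * F J) := by
    intro F
    rw [Finset.sum_range_succ, Finset.sum_range_succ, mul_add, Finset.mul_sum,
      Finset.sum_congr rfl fun j hj => by rw [lw, if_pos (Finset.mem_range.1 hj), mul_assoc],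
      lw, if_neg (lt_irrefl J)]
    ring
  have h2 : ∑ j ∈ Finset.range (J + 1) with J < j + k, Real.exp (-η * j) * A j ≤ k * (X * N) := by
    have h3 : (Finset.range (J + 1)).filter (fun j => J < j + k) ⊆ Finset.Ioc (J - k) J := by
      intro j hj
      rw [Finset.mem_filter, Finset.mem_range] at hj
      rw [Finset.mem_Ioc]
      omega
    have h4 : ((Finset.range (J + 1)).filter fun j => J < j + k).card ≤ k :=
      (Finset.card_le_card h3).trans (by rw [Nat.card_Ioc]; omega)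
    refine (Finset.sum_le_card_nsmul _ _ (X * N) fun j hj => ?_).trans ?_
    · obtain ⟨h5, h6⟩ := Finset.mem_filter.1 hj
      exact mul_le_mul (hE j h6.le) (hA j (hle j h5)).2 (hA j (hle j h5)).1 hX0.le
    · rw [nsmul_eq_mul]
      exact mul_le_mul_of_nonneg_right (by exact_mod_cast h4) (by positivity)
  have h3 : 0 ≤ ∑ j ∈ Finset.range (J + 1) with J < j + k, Real.exp (-η * j) * A j :=
    Finset.sum_nonneg fun j hj =>
      mul_nonneg (Real.exp_pos _).le (hA j (hle j (Finset.mem_filter.1 hj).1)).1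
  have h4 : Real.exp (-η) * (Real.exp (-η * J) * A J) ≤ X * N :=
    (mul_le_of_le_one_left (mul_nonneg (Real.exp_pos _).le (hA J le_rfl).1)
      (by linarith)).trans
      (mul_le_mul (hE J (Nat.le_add_right _ _)) (hA J le_rfl).2 (hA J le_rfl).1 hX0.le)
  have h5 : 0 ≤ Real.exp (-η) * (Real.exp (-η * J) * B J) :=
    mul_nonneg (Real.exp_pos _).le (mul_nonneg (Real.exp_pos _).le (hB J le_rfl))
  have h6 := mul_le_mul_of_nonneg_left h hq0
  have h7 : (1 - Real.exp (-η)) * (e *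
      ∑ j ∈ Finset.range (J + 1) with J < j + k, Real.exp (-η * j) * A j) ≤ e' * (k * (X * N)) :=
    (mul_le_of_le_one_left (mul_nonneg he h3) hq1).trans (mul_le_mul he' h2 h3 (he.trans he'))
  have h8 : c * (Real.exp (-η) * (Real.exp (-η * J) * A J)) ≤ c' * (X * N) :=
    (mul_le_mul_of_nonneg_left h4 hc).trans (mul_le_mul_of_nonneg_right hc' (by positivity))
  rw [hlw A, hlw B]
  nlinarith

theorem DStAG_pow_le (m d : ℕ) : m ^ d ≤ d.factorial * (m + d).choose d := by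
  rw [← Nat.ascFactorial_eq_factorial_mul_choose]
  exact (Nat.pow_le_pow_left (Nat.le_succ m) d).trans (Nat.pow_succ_le_ascFactorial _ _)

namespace Core

variable {Y R : Type} [CommRing R] [Algebra ℂ R] {C : Core Y R} {V : R → ℝ} {b : ℝ} {d : ℕ}
  {y : Fin d → R} {w : R} {Q : Polynomial (MvPolynomial (Fin d) ℂ)} {J : ℕ}
  {y0 : Fin d → ℂ} {w0 : ℂ}
  {ι : Polynomial (MvPolynomial (Fin d) ℂ) →ₐ[ℂ] MvPowerSeries (Fin d) ℂ}

theorem DStAG_ne (hV : C.IsVal V b) (hc : C.Centre V y w Q) (hι : IsIota Q y0 w0 ι) {m : ℕ}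
    {P : Polynomial (MvPolynomial (Fin d) ℂ)} (hP : P ∈ box d (C.k0 ^ d) m) (h0 : P ≠ 0) :
    ι P ≠ 0 := fun h =>
  h0 (eq_zero_of_mem_box hc.monic hc.deg hP ((hι.eq_zero_iff hc.monic (hc.prime hV) P).1 h))

theorem DStAG_gens (hV : C.IsVal V b) (hc : C.Centre V y w Q) (hι : IsIota Q y0 w0 ι) (m : ℕ) :
    ∃ G : Finset (Fin d →₀ ℕ), G.card = C.k0 ^ d * (m + d).choose d ∧
      ∀ β ∈ G, ∃ P ∈ box d (C.k0 ^ d) m, P ≠ 0 ∧ lm (ι P) = toDegLex β := by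
  obtain ⟨hf, hr⟩ := finrank_box d (C.k0 ^ d) m
  have hL : LeafVal (box d (C.k0 ^ d) m) fun P => lm (ι.toLinearMap P) :=
    leafVal_lm.comap ι.toLinearMap fun P hP h0 => DStAG_ne hV hc hι hP h0
  refine ⟨hL.finite_vals.toFinset.map ofDegLex.toEmbedding, ?_, fun β hβ => ?_⟩
  · rw [Finset.card_map, ← Set.ncard_eq_toFinset_card _ hL.finite_vals, hL.ncard_vals, hr]
  · obtain ⟨a, ha, rfl⟩ := Finset.mem_map.1 hβ
    obtain ⟨P, hP, rfl⟩ := hL.finite_vals.mem_toFinset.1 ha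
    exact ⟨P, hP.1, hP.2, rfl⟩

theorem DStAG_close (hV : C.IsVal V b) (hc : C.Centre V y w Q) (M : C.ModData V y w Q J)
    (hι : IsIota Q y0 w0 ι) {m k j : ℕ} (hk : m + (C.D + C.c1 * C.k0 ^ C.D) ≤ k) (hj : j + k ≤ J)
    {f : R} (hf : f ∈ C.O j) (h0 : 0 < V f) {P : Polynomial (MvPolynomial (Fin d) ℂ)}
    (hP : P ∈ box d (C.k0 ^ d) m) (hP0 : P ≠ 0) {ε : Fin d →₀ ℕ} (hε : ∀ i, ε i ≤ 1) :
    ∃ f' ∈ C.O (j + k), f' ≠ 0 ∧ lamOf M ι f' = toLex ((ofLex (lamOf M ι f)).1,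
      toLex (toDegLex ε + lm (ι P) + (ofLex (ofLex (lamOf M ι f)).2).1,
        (ofLex (ofLex (lamOf M ι f)).2).2)) := by
  obtain ⟨E, hE, hE'⟩ := hι.exists_monomial ε
  have h1 : ε.degree ≤ d := by
    rw [Finsupp.degree_eq_sum]
    simpa using Finset.sum_le_card_nsmul Finset.univ (fun i => ε i) 1 fun i _ => hε i
  have h2 := evP_mem_of_mem_box C.one_mem C.mono C.mul_mem hc.y_mem hc.w_mem
    (grow_C_mul (hE.trans h1) hP)
  have h3 : d + m + C.c1 * C.k0 ^ d ≤ k := by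
    have h4 := Nat.mul_le_mul_left C.c1 (Nat.pow_le_pow_right C.k0_pos hc.le_D)
    have h5 := hc.le_D
    omega
  have h4 : evP y w (Polynomial.C E * P) * f ∈ C.O (j + k) := by
    rw [add_comm]
    exact C.mul_mem _ _ _ (C.mono h3 h2) _ hf
  have h5 : (MvPowerSeries.monomial ε (1 : ℂ) : MvPowerSeries (Fin d) ℂ) ≠ 0 := by
    intro h
    have h6 := congrArg (MvPowerSeries.coeff ε) h
    rw [MvPowerSeries.coeff_monomial_same, map_zero] at h6
    exact one_ne_zero h6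
  have h6 := DStAG_ne hV hc hι hP hP0
  have h7 : ¬ Q ∣ Polynomial.C E * P := fun h => by
    have h8 := (hι.eq_zero_iff hc.monic (hc.prime hV) _).2 h
    rw [map_mul, hE'] at h8
    exact mul_ne_zero h5 h6 h8
  refine ⟨_, h4, fun h => ?_, ?_⟩
  · have h8 := hV.mul (evP y w (Polynomial.C E * P)) f
    rw [h, hV.na.zero, hc.eq_one hV h7, one_mul] at h8
    exact h0.ne h8
  · rw [lam_mul hV hc M hι (C.mono (by omega) hf) h0 h7 (C.mono hj h4), map_mul, hE',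
      lm_mul h5 h6, lm_monomial]

theorem gain_aux (hV : C.IsVal V b) (hc : C.Centre V y w Q) (M : C.ModData V y w Q J)
    (hι : IsIota Q y0 w0 ι) {S : ℕ → Finset (Gam d)}
    (hS : ∀ j ≤ J, (S j : Set (Gam d)) = vals (C.O j) (lamOf M ι)) {k : ℕ} {κ ηm η : ℝ}
    (hκ : 0 < κ) (hηm : 0 < ηm) (h1 : ηm ≤ η) (h2 : η ≤ C.θ * C.k0 * κ)
    (hk : C.D + C.c1 * C.k0 ^ C.D < k)
    (hnum : (1 / κ + 2) * (Real.exp (C.θ * C.k0 * κ * k) - 1) ≤
      C.k0 * ((k : ℝ) - (C.D + C.c1 * C.k0 ^ C.D : ℕ))) (ht : C.Tail k J ηm κ) :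
    d * (1 / κ + 1) * (∑ j ∈ Finset.range (J + 1), lw J η j * ∑ γ ∈ S j, ga γ) - 1 / 2 ≤
      ∑ j ∈ Finset.range (J + 1), lw J η j * ∑ γ ∈ S j, ga γ * go (C.Om J) γ := by
  obtain ⟨m, rfl⟩ : ∃ m, k = m + (C.D + C.c1 * C.k0 ^ C.D) :=
    ⟨k - _, (Nat.sub_add_cancel hk.le).symm⟩
  set c0 := C.D + C.c1 * C.k0 ^ C.D with hc0
  have hη : 0 < η := hηm.trans_le h1
  have hk0 : 0 < m + c0 := by omega
  have hk1 : (0 : ℝ) < (m + c0 : ℕ) := by exact_mod_cast hk0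
  have hmem : ∀ j ≤ J, ∀ g, g ∈ S j ↔ ∃ f ∈ C.O j, f ≠ 0 ∧ lamOf M ι f = g := by
    intro j hj g
    rw [← Finset.mem_coe, hS j hj]
    exact ⟨fun ⟨f, h, e⟩ => ⟨f, h.1, h.2, e⟩, fun ⟨f, h, h', e⟩ => ⟨f, ⟨h, h'⟩, e⟩⟩
  have hga : ∀ j ≤ J, ∀ g ∈ S j, 0 ≤ ga g ∧ ga g ≤ 1 := by
    intro j hj g hg
    obtain ⟨f, -, -, rfl⟩ := (hmem j hj g).1 hg
    exact ⟨hV.na.nonneg f, hV.le_one f⟩
  have hcard : ∀ j ≤ J, (S j).card ≤ Module.finrank ℂ (C.O J) := by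
    intro j hj
    rw [← Set.ncard_coe_finset, hS j hj,
      ((leafVal_lamOf hV hc M hι).mono (C.mono hj)).ncard_vals]
    exact Submodule.finrank_mono (C.mono hj)
  obtain ⟨G, hG, hG'⟩ := DStAG_gens hV hc hι m
  have hγ : (0 : ℝ) ≤ C.k0 * m := by positivity
  have hGd : ((C.k0 : ℝ) * m) ^ d ≤ d.factorial * G.card := by
    rw [hG, mul_pow]
    have h3 := Nat.mul_le_mul_left (C.k0 ^ d) (DStAG_pow_le m d)
    rw [mul_left_comm] at h3
    exact_mod_cast h3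
  have h3 := DStAG_wcomb hc.one_le S
    (fun g : Gam d => (ga g, (ofLex (ofLex g).2).2)) (fun g => ofDegLex (ofLex (ofLex g).2).1)
    Prod.fst (fun g g' h h' => Prod.ext (Prod.mk.inj h).1 (Prod.ext h' (Prod.mk.inj h).2))
    G hγ hGd hη hk0 (J := J) (O := C.Om J) (fun j hj g hg => (hga j hj g hg).1)
    (fun j hj g hg h0 β hβ ε hε => by
      obtain ⟨f, hf, -, rfl⟩ := (hmem j (by omega) g).1 hg
      obtain ⟨P, hP, hP0, hβ'⟩ := hG' β hβ
      obtain ⟨f', hf', h4, h5⟩ := DStAG_close hV hc M hι le_rfl hj hf h0 hP hP0 hε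
      refine ⟨_, (hmem _ hj _).2 ⟨f', hf', h4, rfl⟩, ?_, ?_⟩
      · rw [h5]
        rfl
      · rw [h5, hβ']
        change ε + β + ofDegLex (ofLex (ofLex (lamOf M ι f)).2).1 = _
        abel)
    fun j hj => Nat.mul_le_mul (Nat.factorial_le hc.le_D) (hcard j hj)
  have hE0 : 0 < Real.exp (ηm * (m + c0 : ℕ)) - 1 :=
    sub_pos.2 (Real.one_lt_exp_iff.2 (by positivity))
  have hE1 : Real.exp (ηm * (m + c0 : ℕ)) - 1 ≤ Real.exp (η * (m + c0 : ℕ)) - 1 := by gcongr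
  have hE2 : Real.exp (η * (m + c0 : ℕ)) - 1 ≤
      Real.exp (C.θ * C.k0 * κ * (m + c0 : ℕ)) - 1 := by gcongr
  have hd : (d : ℝ) ≤ C.D := by exact_mod_cast hc.le_D
  have h4 : 1 / κ + 1 ≤ C.k0 * m / (Real.exp (η * (m + c0 : ℕ)) - 1) - 1 := by
    rw [le_sub_iff_add_le, le_div_iff₀ (hE0.trans_le hE1)]
    have e : ((m + c0 : ℕ) : ℝ) - (c0 : ℕ) = m := by
      push_cast
      ring
    rw [e] at hnum
    refine le_trans ?_ hnum
    rw [add_assoc, one_add_one_eq_two]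
    exact mul_le_mul_of_nonneg_left hE2 (by positivity)
  have hA : ∀ j ≤ J, 0 ≤ ∑ g ∈ S j, ga g ∧ ∑ g ∈ S j, ga g ≤ Module.finrank ℂ (C.O J) := by
    intro j hj
    refine ⟨Finset.sum_nonneg fun g hg => (hga j hj g hg).1, ?_⟩
    refine (Finset.sum_le_card_nsmul _ _ 1 fun g hg => (hga j hj g hg).2).trans ?_
    rw [nsmul_eq_mul, mul_one]
    exact_mod_cast hcard j hj
  refine DStAG_num hηm h1 ht.1 hA
    (fun j hj => Finset.sum_nonneg fun g hg => mul_nonneg (hga j hj g hg).1 (Nat.cast_nonneg _))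
    (by positivity) (by gcongr)
    (e := (C.Om J + (d + 1) * (C.k0 * m)) / (Real.exp (η * (m + c0 : ℕ)) - 1))
    (div_nonneg (by positivity) (hE0.trans_le hE1).le) ?_ (le_trans ?_ h3) ht.2
  · have h5 : (m : ℝ) ≤ (m + c0 : ℕ) := by exact_mod_cast Nat.le_add_right m c0
    gcongr
  · refine sub_le_sub_right (mul_le_mul_of_nonneg_right
      (mul_le_mul_of_nonneg_left h4 (Nat.cast_nonneg _)) (Finset.sum_nonneg fun j hj => ?_)) _
    exact mul_nonneg (Real.exp_pos _).le (hA j (Nat.lt_succ_iff.1 (Finset.mem_range.1 hj))).1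

end Core

end Vale.Agent.P271
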