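import Vale.Agent.P271.DStA0
import Vale.Agent.P271.DStAG

/-! The refined valuation has smaller cost.

Hints. `lamOf M ι f = (V f, vecLam lm (ι ∘ Φ (V f) f))` is a `LeafVal` on `O J` (`LeafVal.refine` with
`Ψ a = (ι.toLinearMap.compLeft _) ∘ₗ M.Φ a`, `IsIota.eq_zero_iff`, `M.dvd`, `M.ndvd`). Let
`S j = vals (O j) lam` (finite, of cardinality `finrank (O j)`).
`exists_fam`: index by pairs `(j, γ)`, `j ≤ J`, `γ ∈ S j`, choose `f (j, γ) ∈ O j` with value `γ`, weight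
`pw s O γ`. Eventually in `s`, any two values `a' < a` of `V` on `O J` (`IsNA.finite_values`) satisfy
`a' < a * exp (-s O)`. If `pw γ' ≤ pw γ` and `a > 0` then `a' < a` (and `ι (Φ a f') = 0`), or `a' = a`
and `min |α| O ≤ min |α'| O` (`degree_vecLam_le`); if `a = 0` then `a' = 0`. The set of `v` with
`V v ≤ a` and all orders `≥ o` is a subspace (`MvPowerSeries.min_order_le_add`, `le_order_smul`).
`lam_mul`: `M.mul`, `vecLam_mul`, `Centre.eq_one`.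
`gain`: split `S j` by the value `a` and the position `l`
(`Finset.sum_fiberwise_of_maps_to`, `Finset.sum_image`); apply `comb` to each
`S j a l = {α | (a, α, l) ∈ S j}`, `a > 0`, with `m = k - (D + c1 * k0 ^ D)`, `γ = k0 * m`,
`G = lm ∘ ι` of `box d (k0 ^ d) m` (`LeafVal.comap`, `ncard_vals`, `finrank_box`, `eq_zero_of_mem_box`,
`m ^ d ≤ d! * (m + d).choose d`); closure: `P * C E` with `IsIota.exists_monomial` lies in
`box d (k0 ^ d) (m + d)`, so its value lies in `O k` (`evP_mem_of_mem_box`). Then use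
`(1 - exp (-η)) exp (-η j) ≤ lw J η j ≤ (1 - exp (-η)) exp (-η j) + (if j = J then exp (-η J) else 0)`,
`hnum` and `Tail`. `dstep_fam`: `exp (-u) ≤ 1 - u + u ^ 2 / 2`, `1 + x ≤ exp x`, `sum_vals_le`,
`Fam.cost_eq`, and `1 ≤ σ` (`IsVal.one_le_cost` for the family itself). -/

open Set Filter Topology

noncomputable section

namespace Vale.Agent.P271.Core

variable {Y R : Type} [CommRing R] [Algebra ℂ R] {C : Core Y R} {V : R → ℝ} {b : ℝ} {d : ℕ}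
  {y : Fin d → R} {w : R} {Q : Polynomial (MvPolynomial (Fin d) ℂ)} {J : ℕ}
  {y0 : Fin d → ℂ} {w0 : ℂ}
  {ι : Polynomial (MvPolynomial (Fin d) ℂ) →ₐ[ℂ] MvPowerSeries (Fin d) ℂ}

theorem dsta_gap (hV : C.IsVal V b) (J O : ℕ) : ∀ᶠ s in 𝓝[>] (0 : ℝ), ∀ f ∈ C.O J, ∀ g ∈ C.O J,
    V f < V g → V f < V g * Real.exp (-s * O) := by
  have h1 := hV.na.finite_values (C.O J)
  have h2 : ∀ᶠ s in 𝓝[>] (0 : ℝ), ∀ a ∈ V '' (C.O J : Set R), ∀ a' ∈ V '' (C.O J : Set R),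
      a < a' → a < a' * Real.exp (-s * O) := by
    refine h1.eventually_all.2 fun a _ => h1.eventually_all.2 fun a' _ => ?_
    by_cases h : a < a'
    · have h3 : Continuous fun s : ℝ => a' * Real.exp (-s * O) := by fun_prop
      have h4 := (h3.tendsto' 0 a' (by simp)).mono_left (nhdsWithin_le_nhds (s := Ioi 0))
      exact (h4.eventually (lt_mem_nhds h)).mono fun s hs _ => hs
    · exact Eventually.of_forall fun s h' => absurd h' h
  exact h2.mono fun s hs f hf g hg => hs _ ⟨f, hf, rfl⟩ _ ⟨g, hg, rfl⟩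

theorem dsta_gen (hV : C.IsVal V b) (hc : C.Centre V y w Q) (M : C.ModData V y w Q J)
    (hι : IsIota Q y0 w0 ι) {O : ℕ} {s : ℝ} (hs : 0 < s)
    (hg : ∀ f ∈ C.O J, ∀ g ∈ C.O J, V f < V g → V f < V g * Real.exp (-s * O)) {f v : R}
    (hf : f ∈ C.O J) (hv : v ∈ C.O J) (hv0 : v ≠ 0)
    (h : pw s O (lamOf M ι v) ≤ pw s O (lamOf M ι f)) : V v ≤ V f ∧ (0 < V f →
      ∀ l, ((go O (lamOf M ι f) : ℕ) : ℕ∞) ≤ (ι (M.Φ (V f) v l)).order) := by
  rw [pw, pw, ga_lamOf, ga_lamOf] at h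
  have h1 : V v ≤ V f := by
    refine not_lt.1 fun hlt => ?_
    have h2 : V v * Real.exp (-s * O) ≤ V v * Real.exp (-s * go O (lamOf M ι v)) := by
      refine mul_le_mul_of_nonneg_left (Real.exp_le_exp.2 ?_) (hV.na.nonneg v)
      have : (go O (lamOf M ι v) : ℝ) ≤ O := by exact_mod_cast min_le_right _ _
      nlinarith
    have h3 : V f * Real.exp (-s * go O (lamOf M ι f)) ≤ V f := by
      refine mul_le_of_le_one_right (hV.na.nonneg f) (Real.exp_le_one_iff.2 ?_)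
      have : (0 : ℝ) ≤ go O (lamOf M ι f) := Nat.cast_nonneg _
      nlinarith
    linarith [hg f hf v hv hlt]
  refine ⟨h1, fun h0 l => ?_⟩
  rcases h1.eq_or_lt with h2 | h2
  · rw [← h2] at h0 ⊢
    rw [← h2, mul_le_mul_iff_right₀ h0, Real.exp_le_exp, neg_mul, neg_mul, neg_le_neg_iff,
      mul_le_mul_iff_right₀ hs, Nat.cast_le] at h
    refine le_trans ?_ (degree_vecLam_le (dsta_ne hV hc M hι hv hv0) l)
    exact_mod_cast h.trans (min_le_left _ _)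
  · rw [dsta_zero hV hc M hι hv h2, MvPowerSeries.order_zero]
    exact le_top

theorem dsta_span (hV : C.IsVal V b) (M : C.ModData V y w Q J) {a : ℝ} (ha : 0 ≤ a) {o : ℕ∞}
    {T : Set R} (hT : ∀ v ∈ T, V v ≤ a ∧ (0 < a → ∀ l, o ≤ (ι (M.Φ a v l)).order)) {v : R}
    (hv : v ∈ Submodule.span ℂ T) : V v ≤ a ∧ (0 < a → ∀ l, o ≤ (ι (M.Φ a v l)).order) := by
  refine ⟨hV.na.le_of_mem_span ha (fun v hv => (hT v hv).1) hv, fun h0 l => ?_⟩
  induction hv using Submodule.span_induction with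
  | mem v hv => exact (hT v hv).2 h0 l
  | zero =>
    rw [map_zero, Pi.zero_apply, map_zero, MvPowerSeries.order_zero]
    exact le_top
  | add u v _ _ hu hv =>
    rw [map_add, Pi.add_apply, map_add]
    exact (le_min hu hv).trans MvPowerSeries.min_order_le_add
  | smul c v _ hv =>
    rw [map_smul, Pi.smul_apply, map_smul]
    exact hv.trans MvPowerSeries.le_order_smul

theorem dsta_exp {u : ℝ} (hu : 0 ≤ u) : Real.exp (-u) ≤ 1 - u + u ^ 2 / 2 := by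
  have h1 := Real.quadratic_le_exp_of_nonneg hu
  have h2 : 0 ≤ 1 - u + u ^ 2 / 2 := by nlinarith [sq_nonneg (u - 1)]
  rw [Real.exp_neg, inv_le_iff_one_le_mul₀ (Real.exp_pos u)]
  nlinarith [mul_le_mul_of_nonneg_left h1 h2, sq_nonneg (u ^ 2)]

theorem exists_fam (hV : C.IsVal V b) (hc : C.Centre V y w Q) (M : C.ModData V y w Q J) (O : ℕ) :
    ∀ᶠ s in 𝓝[>] (0 : ℝ), ∀ y0 w0 ι, IsIota Q y0 w0 ι → ∀ S : ℕ → Finset (Gam d),
      (∀ j ≤ J, (S j : Set (Gam d)) = vals (C.O j) (lamOf M ι)) →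
      ∃ F : C.Fam J, Adm M ι O s F ∧ ∀ η,
        F.cost η = ∑ j ∈ Finset.range (J + 1), lw J η j * ∑ γ ∈ S j, pw s O γ ∧
        ∑ i, lw J η (F.lev i) * V (F.f i) =
          ∑ j ∈ Finset.range (J + 1), lw J η j * ∑ γ ∈ S j, ga γ := by
  filter_upwards [dsta_gap hV J O, self_mem_nhdsWithin] with s hg hs y0 w0 ι hι S hS
  have h1 : ∀ j, ∀ γ ∈ vals (C.O j) (lamOf M ι), ∃ f, f ∈ C.O j ∧ f ≠ 0 ∧ lamOf M ι f = γ := by
    rintro j γ ⟨f, hf, rfl⟩
    exact ⟨f, hf.1, hf.2, rfl⟩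
  choose! u hu using h1
  have h2 : ∀ i : (Finset.range (J + 1)).sigma S, i.1.1 ≤ J := fun i =>
    Nat.lt_succ_iff.1 (Finset.mem_range.1 (Finset.mem_sigma.1 i.2).1)
  have h3 : ∀ i : (Finset.range (J + 1)).sigma S,
      u i.1.1 i.1.2 ∈ C.O i.1.1 ∧ u i.1.1 i.1.2 ≠ 0 ∧ lamOf M ι (u i.1.1 i.1.2) = i.1.2 := fun i =>
    hu _ _ (hS _ (h2 i) ▸ Finset.mem_coe.2 (Finset.mem_sigma.1 i.2).2)
  have h4 : ∀ i : (Finset.range (J + 1)).sigma S, V (u i.1.1 i.1.2) = ga i.1.2 := fun i => by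
    rw [← ga_lamOf (ι := ι) M, (h3 i).2.2]
  have h5 : ∀ i : (Finset.range (J + 1)).sigma S, u i.1.1 i.1.2 ∈ C.O J := fun i =>
    C.mono (h2 i) (h3 i).1
  let F : C.Fam J :=
    { I := (Finset.range (J + 1)).sigma S
      lev := fun i => i.1.1
      f := fun i => u i.1.1 i.1.2
      V := fun i => pw s O i.1.2
      lev_le := h2
      mem := fun i => (h3 i).1
      nonneg := fun i => mul_nonneg (h4 i ▸ hV.na.nonneg _) (Real.exp_pos _).le
      span := fun j hj => by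
        refine (((leafVal_lamOf hV hc M hι).mono (C.mono hj)).span_vals (u j) (hu j)).trans
          (Submodule.span_mono ?_)
        rintro _ ⟨γ, hγ, rfl⟩
        rw [← hS j hj] at hγ
        exact ⟨⟨⟨j, γ⟩, Finset.mem_sigma.2 ⟨Finset.mem_range.2 (Nat.lt_succ_of_le hj), hγ⟩⟩,
          rfl, rfl⟩ }
  refine ⟨F, fun i => ⟨u i.1.1 i.1.2, h5 i, go O i.1.2, min_le_right _ _, ?_, fun v hv => ?_⟩,
    fun η => ⟨?_, ?_⟩⟩
  · rw [h4]
    rfl
  · refine dsta_span hV M (hV.na.nonneg _) ?_ hv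
    rintro _ ⟨i', hi', rfl⟩
    have h6 := dsta_gen hV hc M hι hs hg (h5 i) (h5 i') (h3 i').2.1 (by
      rw [(h3 i).2.2, (h3 i').2.2]
      exact hi'.2)
    rwa [(h3 i).2.2] at h6
  · simp only [Finset.mul_sum]
    rw [Finset.sum_sigma', ← Finset.sum_coe_sort]
    rfl
  · simp only [Finset.mul_sum]
    rw [Finset.sum_sigma', ← Finset.sum_coe_sort ((Finset.range (J + 1)).sigma S)]
    exact Finset.sum_congr rfl fun i _ => congrArg (lw J η i.1.1 * ·) (h4 i)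

theorem gain (hV : C.IsVal V b) (hc : C.Centre V y w Q) (M : C.ModData V y w Q J)
    (hι : IsIota Q y0 w0 ι) {S : ℕ → Finset (Gam d)}
    (hS : ∀ j ≤ J, (S j : Set (Gam d)) = vals (C.O j) (lamOf M ι)) {k : ℕ} {κ ηm η : ℝ}
    (hκ : 0 < κ) (hηm : 0 < ηm) (h1 : ηm ≤ η) (h2 : η ≤ C.θ * C.k0 * κ)
    (hk : C.D + C.c1 * C.k0 ^ C.D < k)
    (hnum : (1 / κ + 2) * (Real.exp (C.θ * C.k0 * κ * k) - 1) ≤
      C.k0 * ((k : ℝ) - (C.D + C.c1 * C.k0 ^ C.D : ℕ))) (ht : C.Tail k J ηm κ) :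
    d * (1 / κ + 1) * (∑ j ∈ Finset.range (J + 1), lw J η j * ∑ γ ∈ S j, ga γ) - 1 / 2 ≤
      ∑ j ∈ Finset.range (J + 1), lw J η j * ∑ γ ∈ S j, ga γ * go (C.Om J) γ :=
  gain_aux hV hc M hι hS hκ hηm h1 h2 hk hnum ht

theorem dstep_fam (hV : C.IsVal V b) (hc : C.Centre V y w Q) (M : C.ModData V y w Q J)
    {k : ℕ} {κ ηm η z : ℝ} (hκ : 0 < κ) (hηm : 0 < ηm) (h1 : ηm ≤ η) (h2 : η ≤ C.θ * C.k0 * κ)
    (hk : C.D + C.c1 * C.k0 ^ C.D < k)
    (hnum : (1 / κ + 2) * (Real.exp (C.θ * C.k0 * κ * k) - 1) ≤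
      C.k0 * ((k : ℝ) - (C.D + C.c1 * C.k0 ^ C.D : ℕ))) (ht : C.Tail k J ηm κ)
    (hz : ∃ F : C.Fam J, ∑ i, lw J η (F.lev i) * V (F.f i) ≤ z) :
    ∀ᶠ s in 𝓝[>] (0 : ℝ), ∀ y0 w0 ι, IsIota Q y0 w0 ι → ∃ F : C.Fam J, Adm M ι (C.Om J) s F ∧
      F.cost η ≤ z * Real.exp (-s * (d / κ + 1 / 2) + s ^ 2 * (C.Om J : ℝ) ^ 2 / 2) := by
  classical
  obtain ⟨F0, hF0⟩ := hz
  have hη : 0 < η := hηm.trans_le h1
  filter_upwards [exists_fam hV hc M (C.Om J), self_mem_nhdsWithin] with s hs hs0 y0 w0 ι hι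
  have hs0' : 0 < s := hs0
  have hl : ∀ j ≤ J, LeafVal (C.O j) (lamOf M ι) := fun j hj =>
    (leafVal_lamOf hV hc M hι).mono (C.mono hj)
  have h3 : ∀ j, ∃ S : Finset (Gam d), ∀ hj : j ≤ J, S = (hl j hj).finite_vals.toFinset := by
    intro j
    by_cases hj : j ≤ J
    · exact ⟨(hl j hj).finite_vals.toFinset, fun _ => rfl⟩
    · exact ⟨∅, fun h => absurd h hj⟩
  choose S hS using h3
  have hS' : ∀ j ≤ J, (S j : Set (Gam d)) = vals (C.O j) (lamOf M ι) := fun j hj => by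
    rw [hS j hj, Set.Finite.coe_toFinset]
  obtain ⟨F, hF, hF'⟩ := hs y0 w0 ι hι S hS'
  refine ⟨F, hF, ?_⟩
  have h4 := gain hV hc M hι hS' hκ hηm h1 h2 hk hnum ht
  have h5 := hV.one_le_cost F hη
  rw [(hF' η).2] at h5
  have h6 : ∑ j ∈ Finset.range (J + 1), lw J η j * ∑ γ ∈ S j, ga γ ≤ z := by
    rw [F0.cost_eq η fun i => V (F0.f i)] at hF0
    refine le_trans (Finset.sum_le_sum fun j hj => ?_) hF0
    have hj' : j ≤ J := Nat.lt_succ_iff.1 (Finset.mem_range.1 hj)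
    refine mul_le_mul_of_nonneg_left ?_ (lw_pos J hη j).le
    rw [hS j hj']
    refine sum_vals_le hV.na (hl j hj') (fun _ => rfl) _ F0.f (fun i hi => ?_) ?_
    · exact (Finset.mem_filter.1 hi).2 ▸ F0.mem i
    · refine (F0.span j hj').trans (Submodule.span_mono (image_mono fun i hi => ?_))
      exact Finset.mem_coe.2 (Finset.mem_filter.2 ⟨Finset.mem_univ i, hi⟩)
  have h7 : F.cost η ≤ (1 + s ^ 2 * (C.Om J : ℝ) ^ 2 / 2) *
      (∑ j ∈ Finset.range (J + 1), lw J η j * ∑ γ ∈ S j, ga γ) -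
      s * ∑ j ∈ Finset.range (J + 1), lw J η j * ∑ γ ∈ S j, ga γ * go (C.Om J) γ := by
    rw [(hF' η).1]
    simp only [Finset.mul_sum, ← Finset.sum_sub_distrib]
    refine Finset.sum_le_sum fun j hj => Finset.sum_le_sum fun γ hγ => ?_
    have hj' : j ≤ J := Nat.lt_succ_iff.1 (Finset.mem_range.1 hj)
    have a1 : 0 ≤ ga γ := by
      obtain ⟨f, -, rfl⟩ : γ ∈ vals (C.O j) (lamOf M ι) := hS' j hj' ▸ Finset.mem_coe.2 hγ
      exact hV.na.nonneg f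
    have a2 : (go (C.Om J) γ : ℝ) ≤ C.Om J := by exact_mod_cast min_le_right _ _
    have a3 : (0 : ℝ) ≤ go (C.Om J) γ := Nat.cast_nonneg _
    have a4 := dsta_exp (mul_nonneg hs0'.le a3)
    have a5 : (s * go (C.Om J) γ) ^ 2 ≤ s ^ 2 * (C.Om J : ℝ) ^ 2 := by
      rw [mul_pow]
      exact mul_le_mul_of_nonneg_left (pow_le_pow_left₀ a3 a2 2) (sq_nonneg s)
    have a6 : Real.exp (-s * go (C.Om J) γ) ≤
        1 + s ^ 2 * (C.Om J : ℝ) ^ 2 / 2 - s * go (C.Om J) γ := by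
      rw [neg_mul]
      linarith
    have a7 := mul_le_mul_of_nonneg_left a6 (mul_nonneg (lw_pos J hη j).le a1)
    rw [pw]
    linarith
  have h8 : (1 : ℝ) ≤ d := by exact_mod_cast hc.one_le
  generalize ∑ j ∈ Finset.range (J + 1), lw J η j * ∑ γ ∈ S j, ga γ * go (C.Om J) γ = G at h4 h7
  generalize ∑ j ∈ Finset.range (J + 1), lw J η j * ∑ γ ∈ S j, ga γ = σ at h4 h5 h6 h7
  have h9 : (d / κ + 1 / 2) * σ ≤ G := by
    refine le_trans ?_ h4
    rw [div_eq_mul_one_div (d : ℝ) κ]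
    nlinarith [mul_le_mul_of_nonneg_right h8 (zero_le_one.trans h5)]
  have h10 := Real.add_one_le_exp (-s * (d / κ + 1 / 2) + s ^ 2 * (C.Om J : ℝ) ^ 2 / 2)
  have h11 := mul_le_mul_of_nonneg_left h10 (zero_le_one.trans h5)
  have h12 := mul_le_mul_of_nonneg_left h9 hs0'.le
  refine le_trans ?_ (mul_le_mul_of_nonneg_right h6 (Real.exp_pos _).le)
  linarith

end Vale.Agent.P271.Core
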