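import Vale.Agent.P271.GoodB
import Vale.Agent.P271.Prim

/-! The graded pieces of the valuation as modules over the ring of the centre.

Hints. `Centre.prime`, `Centre.eq_one`: `V` is multiplicative and at most one. `exists_mod_pos`: call
`e : Fin r → R` admissible if `e l ∈ O J`, `V (e l) ≤ a`, and `V (∑ evP y w (P l) * e l) < a` forces
`Q ∣ P l` for all `l`. An admissible family is linearly independent over `ℂ` (constants are not
divisible by `Q`), so `r ≤ finrank (O J)`; take one of maximal length. For `f ∈ O J` with `V f ≤ a`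
maximality gives a relation with `¬ Q ∣ P0`; multiply by `P'` from `exists_mul_sub_C` to get
`V (aeval y E * f - ∑ evP y w (P l) * e l) < a`, `E ≠ 0`. Do this for a basis of
`O J ⊓ ball a`, take the product of the `E` as common denominator, extend the linear map to `R`
(`LinearMap.exists_extend`), and pad with zeros up to `finrank (O J)`. For `a ≤ 0` take for `Φ a` the
coordinates in a basis of `O J`, as constant polynomials. -/

open Set

noncomputable section

namespace Vale.Agent.P271.Core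

variable {Y R : Type} [CommRing R] [Algebra ℂ R] {C : Core Y R} {V : R → ℝ} {b : ℝ} {d : ℕ}
  {y : Fin d → R} {w : R} {Q : Polynomial (MvPolynomial (Fin d) ℂ)}

theorem Centre.natDegree_pos (h : C.Centre V y w Q) : 0 < Q.natDegree :=
  (pow_pos C.k0_pos d).trans_le h.deg

theorem Centre.prime (h : C.Centre V y w Q) (hV : C.IsVal V b) :
    ∀ P P', Q ∣ P * P' → Q ∣ P ∨ Q ∣ P' := by
  intro P P' hP
  rw [← h.ker, map_mul, hV.mul] at hP
  rw [← h.ker, ← h.ker]
  by_contra hc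
  obtain ⟨h1, h2⟩ := not_or.1 hc
  exact hP.not_ge (one_le_mul_of_one_le_of_one_le (not_lt.1 h1) (not_lt.1 h2))

theorem Centre.eq_one (h : C.Centre V y w Q) (hV : C.IsVal V b) {P} (hP : ¬ Q ∣ P) :
    V (evP y w P) = 1 :=
  le_antisymm (hV.le_one _) (not_lt.1 (mt (h.ker P).1 hP))

theorem Centre.not_dvd_C (h : C.Centre V y w Q) {E : MvPolynomial (Fin d) ℂ} (hE : E ≠ 0) :
    ¬ Q ∣ Polynomial.C E :=
  h.monic.not_dvd_of_natDegree_lt (Polynomial.C_ne_zero.2 hE)
    (by rw [Polynomial.natDegree_C]; exact h.natDegree_pos)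

theorem mod_evP_C (y : Fin d → R) (w : R) (E : MvPolynomial (Fin d) ℂ) :
    evP y w (Polynomial.C E) = MvPolynomial.aeval y E :=
  Polynomial.aevalTower_C _ _ _

theorem Centre.aeval_eq_one (h : C.Centre V y w Q) (hV : C.IsVal V b)
    {E : MvPolynomial (Fin d) ℂ} (hE : E ≠ 0) : V (MvPolynomial.aeval y E) = 1 :=
  mod_evP_C y w E ▸ h.eq_one hV (h.not_dvd_C hE)

theorem Centre.not_dvd_derivative (h : C.Centre V y w Q) : ¬ Q ∣ Q.derivative :=
  h.monic.not_dvd_of_natDegree_lt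
    (fun e => h.natDegree_pos.ne' (Polynomial.derivative_eq_zero.1 e))
    (Polynomial.natDegree_derivative_lt h.natDegree_pos.ne')

theorem mod_const (h : C.Centre V y w Q) {c : ℂ} (hc : Q ∣ algebraMap ℂ _ c) : c = 0 :=
  by_contra fun h0 => h.not_dvd_C (E := MvPolynomial.C c) (MvPolynomial.C_ne_zero.2 h0) hc

theorem mod_mul_le (hV : C.IsVal V b) (g f : R) : V (g * f) ≤ V f := by
  rw [hV.mul]
  exact mul_le_of_le_one_left (hV.na.nonneg f) (hV.le_one g)

theorem mod_mul_lt (hV : C.IsVal V b) (h : C.Centre V y w Q) {P} (hP : Q ∣ P) {f : R} {a : ℝ}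
    (ha : 0 < a) (hf : V f ≤ a) : V (evP y w P * f) < a := by
  rw [hV.mul]
  exact (mul_le_mul_of_nonneg_left hf (hV.na.nonneg _)).trans_lt
    (mul_lt_of_lt_one_left ha ((h.ker P).2 hP))

theorem mod_sub_lt (hV : C.IsVal V b) {f g : R} {a : ℝ} (hf : V f < a) (hg : V g < a) :
    V (f - g) < a :=
  (hV.na.sub f g).trans_lt (max_lt hf hg)

/-- A maximal independent family. -/
theorem mod_max (hV : C.IsVal V b) (h : C.Centre V y w Q) (J : ℕ) {a : ℝ} (ha : 0 < a) :
    ∃ r ≤ Module.finrank ℂ (C.O J), ∃ e : Fin r → R, (∀ l, V (e l) ≤ a) ∧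
      (∀ P : Fin r → _, V (∑ l, evP y w (P l) * e l) < a → ∀ l, Q ∣ P l) ∧
      ∀ f ∈ C.O J, V f ≤ a → ∃ E : MvPolynomial (Fin d) ℂ, E ≠ 0 ∧ ∃ P : Fin r → _,
        V (MvPolynomial.aeval y E * f - ∑ l, evP y w (P l) * e l) < a := by
  classical
  let A : ℕ → Prop := fun r => ∃ e : Fin r → R, (∀ l, e l ∈ C.O J) ∧ (∀ l, V (e l) ≤ a) ∧
    ∀ P : Fin r → _, V (∑ l, evP y w (P l) * e l) < a → ∀ l, Q ∣ P l
  have hA : ∀ r, A r → r ≤ Module.finrank ℂ (C.O J) := by
    rintro r ⟨e, h1, -, h2⟩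
    have h3 : LinearIndependent ℂ e := Fintype.linearIndependent_iff.2 fun c hc l =>
      mod_const h (h2 (fun l => algebraMap ℂ _ (c l)) (by
        simp only [AlgHom.commutes, ← Algebra.smul_def, hc, hV.na.zero, ha]) l)
    simpa using (LinearIndependent.of_comp (v := fun l => (⟨e l, h1 l⟩ : C.O J)) (C.O J).subtype
      h3).fintype_card_le_finrank
  have h0 : A 0 := ⟨fun l => l.elim0, fun l => l.elim0, fun l => l.elim0, fun _ _ l => l.elim0⟩
  have h1 := Nat.findGreatest_spec (Nat.zero_le (Module.finrank ℂ (C.O J))) h0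
  have h2 : ¬ A (Nat.findGreatest A (Module.finrank ℂ (C.O J)) + 1) := fun h2 =>
    Nat.findGreatest_is_greatest (Nat.lt_succ_self _) (hA _ h2) h2
  generalize Nat.findGreatest A (Module.finrank ℂ (C.O J)) = r at h1 h2
  have h3 := hA r h1
  obtain ⟨e, e1, e2, e3⟩ := h1
  refine ⟨r, h3, e, e2, e3, fun f hf hfa => ?_⟩
  obtain ⟨P, hP, hP'⟩ : ∃ P : Fin (r + 1) → _,
      V (evP y w (P 0) * f + ∑ l, evP y w (P l.succ) * e l) < a ∧ ¬ ∀ l, Q ∣ P l := by
    by_contra hc
    refine h2 ⟨Fin.cons f e, Fin.cases hf e1, Fin.cases hfa e2, fun P hP => by_contra fun hP' =>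
      hc ⟨P, ?_, hP'⟩⟩
    simpa only [Fin.sum_univ_succ, Fin.cons_zero, Fin.cons_succ] using hP
  have h4 : ¬ Q ∣ P 0 := fun h4 => hP' (Fin.cases h4 (e3 (fun l => P l.succ) (by
    simpa only [add_sub_cancel_left] using mod_sub_lt hV hP (mod_mul_lt hV h h4 ha hfa))))
  obtain ⟨P', E, hE, h5⟩ := exists_mul_sub_C h.monic (h.prime hV) h4
  refine ⟨E, hE, fun l => -(P' * P l.succ), lt_of_eq_of_lt (congrArg V ?_)
    (mod_sub_lt hV ((mod_mul_le hV (evP y w P') _).trans_lt hP) (mod_mul_lt hV h h5 ha hfa))⟩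
  simp only [map_neg, map_mul, map_sub, mod_evP_C, neg_mul, Finset.sum_neg_distrib, mul_add,
    Finset.mul_sum, mul_assoc]
  ring

theorem mod_pos (hV : C.IsVal V b) (h : C.Centre V y w Q) (J : ℕ) {a : ℝ} (ha : 0 < a) {n : ℕ}
    (hn : Module.finrank ℂ (C.O J) ≤ n) : ∃ (e : Fin n → R) (g : MvPolynomial (Fin d) ℂ)
      (Φ : R →ₗ[ℂ] (Fin n → Polynomial (MvPolynomial (Fin d) ℂ))), g ≠ 0 ∧ (∀ l, V (e l) ≤ a) ∧
      (∀ f ∈ C.O J, V f ≤ a →
        V (MvPolynomial.aeval y g * f - ∑ l, evP y w (Φ f l) * e l) < a) ∧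
      ∀ f f' P, V (∑ l, evP y w (Φ f' l - P * Φ f l) * e l) < a →
        ∀ l, Q ∣ Φ f' l - P * Φ f l := by
  classical
  obtain ⟨r, hr, e, h1, h2, h3⟩ := mod_max hV h J ha
  obtain ⟨k, rfl⟩ := Nat.exists_eq_add_of_le (hr.trans hn)
  let W := C.O J ⊓ hV.na.ball a ha.le
  let β := Module.finBasis ℂ W
  choose E hE P hP using fun i => h3 (β i) (β i).2.1 (β i).2.2
  obtain ⟨Φ, hΦ⟩ := LinearMap.exists_extend
    (β.constr ℂ fun i l => Polynomial.C (∏ j ∈ Finset.univ.erase i, E j) * P i l)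
  let L : R →ₗ[ℂ] R := LinearMap.mulLeft ℂ (MvPolynomial.aeval y (∏ j, E j)) -
    ∑ l, LinearMap.mulRight ℂ (e l) ∘ₗ (evP y w).toLinearMap ∘ₗ LinearMap.proj l ∘ₗ Φ
  have hL : ∀ f, L f = MvPolynomial.aeval y (∏ j, E j) * f - ∑ l, evP y w (Φ f l) * e l :=
    fun f => by simp [L, -map_prod]
  refine ⟨Fin.append e 0, ∏ j, E j,
    LinearMap.pi (Fin.append (fun l => LinearMap.proj l ∘ₗ Φ) 0),
    Finset.prod_ne_zero_iff.2 fun i _ => hE i, ?_, fun f hf hfa => ?_, fun f f' P' hP' => ?_⟩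
  · refine Fin.addCases (fun l => ?_) fun l => ?_
    · rw [Fin.append_left]
      exact h1 l
    · rw [Fin.append_right]
      exact hV.na.zero.le.trans ha.le
  · simp only [Fin.sum_univ_add, LinearMap.pi_apply, Fin.append_left, Fin.append_right,
      Pi.zero_apply, mul_zero, Finset.sum_const_zero, add_zero, LinearMap.comp_apply,
      LinearMap.proj_apply]
    rw [← hL, show f = W.subtype ⟨f, hf, hfa⟩ from rfl, ← β.sum_repr ⟨f, hf, hfa⟩, map_sum, map_sum]
    refine hV.na.sum_lt _ _ ha fun i _ => ?_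
    rw [map_smul, map_smul]
    refine (hV.na.smul_le _ _).trans_lt (lt_of_eq_of_lt (congrArg V ?_)
      ((mod_mul_le hV (MvPolynomial.aeval y (∏ j ∈ Finset.univ.erase i, E j)) _).trans_lt (hP i)))
    rw [hL, ← LinearMap.comp_apply Φ, hΦ, β.constr_basis,
      ← Finset.prod_erase_mul _ _ (Finset.mem_univ i)]
    simp only [map_mul, mod_evP_C, mul_sub, Finset.mul_sum, mul_assoc, Submodule.subtype_apply]
  · simp only [Fin.sum_univ_add, LinearMap.pi_apply, Fin.append_left, Fin.append_right,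
      Pi.zero_apply, mul_zero, Finset.sum_const_zero, add_zero, LinearMap.comp_apply,
      LinearMap.proj_apply] at hP'
    refine Fin.addCases (fun l => ?_) fun l => ?_
    · simpa only [LinearMap.pi_apply, Fin.append_left, LinearMap.comp_apply,
        LinearMap.proj_apply] using h2 _ hP' l
    · simp

theorem exists_modData (hV : C.IsVal V b) (h : C.Centre V y w Q) (J : ℕ) :
    Nonempty (C.ModData V y w Q J) := by
  have key : ∀ a : ℝ, ∃ (e : Fin (Module.finrank ℂ (C.O J)) → R) (g : MvPolynomial (Fin d) ℂ)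
      (Φ : R →ₗ[ℂ] (Fin (Module.finrank ℂ (C.O J)) → Polynomial (MvPolynomial (Fin d) ℂ))),
      g ≠ 0 ∧ (0 < a → ∀ l, V (e l) ≤ a) ∧ (0 < a → ∀ f ∈ C.O J, V f ≤ a →
        V (MvPolynomial.aeval y g * f - ∑ l, evP y w (Φ f l) * e l) < a) ∧
      (∀ f ∈ C.O J, V f < a → ∀ l, Q ∣ Φ f l) ∧
      (∀ f ∈ C.O J, f ≠ 0 → V f = a → ∃ l, ¬ Q ∣ Φ f l) ∧
      (0 < a → ∀ f ∈ C.O J, V f ≤ a → ∀ P, evP y w P * f ∈ C.O J →
        ∀ l, Q ∣ Φ (evP y w P * f) l - P * Φ f l) := by
    intro a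
    rcases le_or_gt a 0 with ha | ha
    · obtain ⟨Ψ, hΨ⟩ := LinearMap.exists_extend (Module.finBasis ℂ (C.O J)).equivFun.toLinearMap
      refine ⟨0, 1, (Algebra.linearMap ℂ _).compLeft _ ∘ₗ Ψ, one_ne_zero, fun h => (h.not_ge ha).elim,
        fun h => (h.not_ge ha).elim, fun f _ hf => (hf.not_ge (ha.trans (hV.na.nonneg f))).elim,
        fun f hf h0 _ => not_forall.1 fun hc => h0 ?_, fun h => (h.not_ge ha).elim⟩
      have h1 : (Module.finBasis ℂ (C.O J)).equivFun ⟨f, hf⟩ = 0 :=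
        (LinearMap.congr_fun hΨ ⟨f, hf⟩).symm.trans (funext fun l => mod_const h (hc l))
      exact congrArg Subtype.val ((LinearEquiv.map_eq_zero_iff _).1 h1)
    obtain ⟨e, g, Φ, h1, h2, h3, h4⟩ := mod_pos hV h J ha le_rfl
    refine ⟨e, g, Φ, h1, fun _ => h2, fun _ => h3, fun f hf hfa => ?_,
      fun f hf _ hfa => not_forall.1 fun hc => ?_, fun _ f hf hfa P hP => h4 _ _ _ ?_⟩
    · have h5 := mod_sub_lt hV ((mod_mul_le hV (MvPolynomial.aeval y g) f).trans_lt hfa)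
        (h3 f hf hfa.le)
      simpa only [zero_mul, sub_zero] using
        h4 f f 0 (by simpa only [zero_mul, sub_zero, sub_sub_cancel] using h5)
    · have h5 := (hV.na.add _ _).trans_lt (max_lt (h3 f hf hfa.le)
        (hV.na.sum_lt Finset.univ _ ha fun l _ => mod_mul_lt hV h (hc l) ha (h2 l)))
      rw [sub_add_cancel, hV.mul, h.aeval_eq_one hV h1, one_mul] at h5
      exact h5.ne hfa
    · refine lt_of_eq_of_lt (congrArg V ?_) (mod_sub_lt hV
        ((mod_mul_le hV (evP y w P) _).trans_lt (h3 f hf hfa))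
        (h3 _ hP ((mod_mul_le hV _ f).trans hfa)))
      simp only [map_sub, map_mul, sub_mul, mul_sub, Finset.sum_sub_distrib, Finset.mul_sum,
        mul_assoc]
      ring
  choose e g Φ h1 h2 h3 h4 h5 h6 using key
  exact ⟨⟨e, g, Φ, h1, h2, h3, h4, fun f hf h0 => h5 _ f hf h0 rfl, h6⟩⟩

end Vale.Agent.P271.Core
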