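import Mathlib

/-! Newton iteration in an adically complete ring, for polynomials that need not be monic. -/

open Polynomial
open scoped Ring

namespace Vale.Agent.P271

theorem PS_hensel {R : Type} [CommRing R] (I : Ideal R) [IsAdicComplete I R] (f : R[X]) (a₀ : R)
    (h₁ : f.eval a₀ ∈ I) (h₂ : IsUnit (Ideal.Quotient.mk I (f.derivative.eval a₀))) :
    ∃ a : R, f.IsRoot a ∧ a - a₀ ∈ I := by
  classical
  let f' := derivative f
  let c : ℕ → R := fun n => Nat.recOn n a₀ fun _ b => b - f.eval b * (f'.eval b)⁻¹ʳ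
  have hc : ∀ n, c (n + 1) = c n - f.eval (c n) * (f'.eval (c n))⁻¹ʳ := by
    intro n
    simp only [c]
  have hc_mod : ∀ n, c n ≡ a₀ [SMOD I] := by
    intro n
    induction n with
    | zero => rfl
    | succ n ih =>
      rw [hc, sub_eq_add_neg, ← add_zero a₀]
      refine ih.add ?_
      rw [SModEq.zero, Ideal.neg_mem_iff]
      refine I.mul_mem_right _ ?_
      rw [← SModEq.zero] at h₁ ⊢
      exact (ih.eval f).trans h₁
  have hf'c : ∀ n, IsUnit (f'.eval (c n)) := by
    intro n
    have := isLocalHom_of_le_jacobson_bot I (IsAdicComplete.le_jacobson_bot I)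
    apply IsUnit.of_map (Ideal.Quotient.mk I)
    have e : Ideal.Quotient.mk I (f'.eval (c n)) = Ideal.Quotient.mk I (f'.eval a₀) :=
      SModEq.def.mp ((hc_mod n).eval _)
    rw [e]
    exact h₂
  have hfcI : ∀ n, f.eval (c n) ∈ I ^ (n + 1) := by
    intro n
    induction n with
    | zero => rw [zero_add, pow_one]; exact h₁
    | succ n ih =>
      obtain ⟨k, hk⟩ := f.binomExpansion (c n) (-(f.eval (c n) * (f'.eval (c n))⁻¹ʳ))
      rw [hc, sub_eq_add_neg, hk]
      have e : f'.eval (c n) * (f'.eval (c n))⁻¹ʳ = 1 := Ring.mul_inverse_cancel _ (hf'c n)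
      have e2 : eval (c n) f + eval (c n) (derivative f) * -(eval (c n) f * (eval (c n) f')⁻¹ʳ) +
          k * (-(eval (c n) f * (eval (c n) f')⁻¹ʳ)) ^ 2 =
          (k * (eval (c n) f')⁻¹ʳ ^ 2) * (eval (c n) f * eval (c n) f) := by
        have e' : eval (c n) (derivative f) * (f'.eval (c n))⁻¹ʳ = 1 := e
        linear_combination (-eval (c n) f) * e'
      rw [e2]
      refine Ideal.mul_mem_left _ _ ?_
      have h3 : eval (c n) f * eval (c n) f ∈ I ^ (n + 1) * I ^ (n + 1) := Ideal.mul_mem_mul ih ih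
      rw [← pow_add] at h3
      exact Ideal.pow_le_pow_right (by omega) h3
  have aux : ∀ m n, m ≤ n → c m ≡ c n [SMOD (I ^ m • ⊤ : Ideal R)] := by
    intro m n hmn
    rw [← Ideal.one_eq_top, Ideal.smul_eq_mul, mul_one]
    obtain ⟨k, rfl⟩ := Nat.exists_eq_add_of_le hmn
    clear hmn
    induction k with
    | zero => rw [add_zero]
    | succ k ih =>
      rw [← add_assoc, hc, ← add_zero (c m), sub_eq_add_neg]
      refine ih.add ?_
      symm
      rw [SModEq.zero, Ideal.neg_mem_iff]
      refine Ideal.mul_mem_right _ _ (Ideal.pow_le_pow_right ?_ (hfcI _))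
      rw [add_assoc]
      exact le_self_add
  obtain ⟨a, ha⟩ := IsPrecomplete.prec' c (aux _ _)
  refine ⟨a, ?_, ?_⟩
  · show f.IsRoot a
    suffices ∀ n, f.eval a ≡ 0 [SMOD (I ^ n • ⊤ : Ideal R)] by exact IsHausdorff.haus' _ this
    intro n
    specialize ha n
    rw [← Ideal.one_eq_top, Ideal.smul_eq_mul, mul_one] at ha ⊢
    refine (ha.symm.eval f).trans ?_
    rw [SModEq.zero]
    exact Ideal.pow_le_pow_right le_self_add (hfcI _)
  · specialize ha (0 + 1)
    rw [hc, pow_one, ← Ideal.one_eq_top, Ideal.smul_eq_mul, mul_one, sub_eq_add_neg] at ha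
    rw [← SModEq.sub_mem, ← add_zero a₀]
    refine ha.symm.trans (SModEq.rfl.add ?_)
    rw [SModEq.zero, Ideal.neg_mem_iff]
    exact Ideal.mul_mem_right _ _ h₁

end Vale.Agent.P271
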