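import Vale.Agent.P271.Leaf
import Vale.Agent.P271.Prim
import Vale.Agent.P271.PSX1

/-! Leading monomials of power series and the formal root of a polynomial.

Hints. `lm_mul`: as in `MvPowerSeries.lexOrder_mul` (the coefficient of `lm φ + lm ψ` in the product is
the product of the leading coefficients, and smaller monomials have coefficient zero;
`DegLex` is an ordered cancellative monoid). `exists_iota`: let `sh : MvPolynomial (Fin d) ℂ →ₐ PS d` be
`aeval fun i => X i + C (y0 i)`, `q = Q.map sh`, `D0 = evP y0 w0 Q' ≠ 0`. Iterate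
`ω (m+1) = ω m - D0⁻¹ • q.eval (ω m)`, `ω 0 = C w0`. With `Polynomial.evalSubFactor` or
`Polynomial.binomExpansion` show `m + 1 ≤ order (q.eval (ω m))` and `constantCoeff (ω m) = w0`. Define
the limit by `coeff α ω = coeff α (ω (degree α))`; `ω - ω m` has order `≥ m + 1`, so `q.eval ω` has
infinite order. Take `ι = Polynomial.aevalTower sh ω`. `IsIota.eq_zero_iff`: `exists_mul_sub_C` and
the injectivity of `sh` (translation is an automorphism of the polynomial ring, and
`MvPolynomial.coe_injective`). -/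

open Set

noncomputable section

namespace Vale.Agent.P271

variable {d : ℕ}

open Classical in
/-- The least monomial of a power series for the degree lexicographic order. -/
def lm (φ : MvPowerSeries (Fin d) ℂ) : DegLex (Fin d →₀ ℕ) :=
  if h : {α : DegLex (Fin d →₀ ℕ) | MvPowerSeries.coeff (ofDegLex α) φ ≠ 0}.Nonempty then
    wellFounded_lt.min _ h
  else 0

theorem lm_spec {φ : MvPowerSeries (Fin d) ℂ} (h : φ ≠ 0) :
    MvPowerSeries.coeff (ofDegLex (lm φ)) φ ≠ 0 ∧
      ∀ α, MvPowerSeries.coeff (ofDegLex α) φ ≠ 0 → lm φ ≤ α := by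
  have hne : {α : DegLex (Fin d →₀ ℕ) | MvPowerSeries.coeff (ofDegLex α) φ ≠ 0}.Nonempty := by
    by_contra hc
    apply h
    ext α
    by_contra hα
    exact hc ⟨toDegLex α, by simpa using hα⟩
  have e : lm φ = wellFounded_lt.min _ hne := by
    unfold lm
    rw [dif_pos hne]
  rw [e]
  exact ⟨wellFounded_lt.min_mem _ hne, fun α hα => not_lt.1 (wellFounded_lt.not_lt_min _ hα)⟩

theorem PS_coeff_of_lt {φ : MvPowerSeries (Fin d) ℂ} {α : DegLex (Fin d →₀ ℕ)} (hα : α < lm φ) :
    MvPowerSeries.coeff (ofDegLex α) φ = 0 := by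
  by_cases h : φ = 0
  · simp [h]
  · by_contra hc
    exact absurd ((lm_spec h).2 α hc) (not_le.2 hα)

theorem PS_lm_eq {φ : MvPowerSeries (Fin d) ℂ} {α : DegLex (Fin d →₀ ℕ)}
    (h1 : MvPowerSeries.coeff (ofDegLex α) φ ≠ 0)
    (h2 : ∀ β, β < α → MvPowerSeries.coeff (ofDegLex β) φ = 0) : lm φ = α := by
  have h : φ ≠ 0 := by
    rintro rfl
    simp at h1
  refine le_antisymm ((lm_spec h).2 α h1) (not_lt.1 fun hlt => (lm_spec h).1 (h2 _ hlt))

theorem lm_mul {φ ψ : MvPowerSeries (Fin d) ℂ} (h : φ ≠ 0) (h' : ψ ≠ 0) :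
    lm (φ * ψ) = lm φ + lm ψ := by
  classical
  refine PS_lm_eq ?_ fun β hβ => ?_
  · rw [ofDegLex_add, MvPowerSeries.coeff_mul,
      Finset.sum_eq_single_of_mem (ofDegLex (lm φ), ofDegLex (lm ψ)) (by simp)]
    · exact mul_ne_zero (lm_spec h).1 (lm_spec h').1
    · rintro ⟨u, v⟩ huv hne
      rw [Finset.HasAntidiagonal.mem_antidiagonal] at huv
      have e : toDegLex u + toDegLex v = lm φ + lm ψ := by
        rw [← toDegLex_add]
        exact congrArg toDegLex huv
      rcases trichotomy_of_add_eq_add e with h3 | h3 | h3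
      · exact absurd (by rw [← h3.1, ← h3.2]; rfl) hne
      · have := PS_coeff_of_lt h3
        rw [ofDegLex_toDegLex] at this
        rw [this, zero_mul]
      · have := PS_coeff_of_lt h3
        rw [ofDegLex_toDegLex] at this
        rw [this, mul_zero]
  · rw [MvPowerSeries.coeff_mul]
    refine Finset.sum_eq_zero ?_
    rintro ⟨u, v⟩ huv
    rw [Finset.HasAntidiagonal.mem_antidiagonal] at huv
    have e : toDegLex u + toDegLex v = β := by
      rw [← toDegLex_add]
      exact congrArg toDegLex huv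
    by_cases h3 : toDegLex u < lm φ
    · have := PS_coeff_of_lt h3
      rw [ofDegLex_toDegLex] at this
      rw [this, zero_mul]
    · by_cases h4 : toDegLex v < lm ψ
      · have := PS_coeff_of_lt h4
        rw [ofDegLex_toDegLex] at this
        rw [this, mul_zero]
      · exact absurd (e ▸ add_le_add (not_lt.1 h3) (not_lt.1 h4)) (not_le.2 hβ)

theorem leafVal_lm : LeafVal (⊤ : Submodule ℂ (MvPowerSeries (Fin d) ℂ)) lm := by
  refine ⟨fun c u _ hc hu => ?_, fun u _ v _ _ _ huv => ?_, fun u _ v _ hu hv huv => ?_⟩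
  · refine PS_lm_eq ?_ fun β hβ => ?_
    · rw [map_smul, smul_eq_mul]
      exact mul_ne_zero hc (lm_spec hu).1
    · rw [map_smul, PS_coeff_of_lt hβ, smul_zero]
  · by_contra hc
    rw [not_le, lt_min_iff] at hc
    apply (lm_spec huv).1
    rw [map_add, PS_coeff_of_lt hc.1, PS_coeff_of_lt hc.2, add_zero]
  · obtain ⟨c, hc0⟩ : ∃ c : ℂ, c * MvPowerSeries.coeff (ofDegLex (lm v)) v =
        MvPowerSeries.coeff (ofDegLex (lm v)) u := ⟨_, div_mul_cancel₀ _ (lm_spec hv).1⟩
    refine ⟨c, ?_⟩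
    rw [or_iff_not_imp_left]
    intro hne
    by_contra hc
    rw [not_lt] at hc
    apply (lm_spec hne).1
    rw [map_sub, map_smul, smul_eq_mul]
    rcases hc.lt_or_eq with hlt | heq
    · rw [PS_coeff_of_lt hlt, PS_coeff_of_lt (hlt.trans_eq huv), mul_zero, sub_zero]
    · rw [heq, huv, hc0, sub_self]

theorem order_eq_degree_lm {φ : MvPowerSeries (Fin d) ℂ} (h : φ ≠ 0) :
    φ.order = ((ofDegLex (lm φ)).degree : ℕ) := by
  refine le_antisymm (MvPowerSeries.order_le (lm_spec h).1) (MvPowerSeries.nat_le_order ?_)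
  intro α hα
  by_contra hc
  have h1 := Finsupp.DegLex.monotone_degree ((lm_spec h).2 (toDegLex α) hc)
  simp only [ofDegLex_toDegLex] at h1
  omega

theorem lm_monomial (α : Fin d →₀ ℕ) :
    lm (MvPowerSeries.monomial α (1 : ℂ)) = toDegLex α := by
  refine PS_lm_eq ?_ fun β hβ => ?_
  · rw [ofDegLex_toDegLex, MvPowerSeries.coeff_monomial_same]
    exact one_ne_zero
  · refine MvPowerSeries.coeff_monomial_ne ?_ _
    rintro rfl
    exact lt_irrefl _ hβ

theorem vecLam_mul {m : ℕ} {c : MvPowerSeries (Fin d) ℂ} (hc : c ≠ 0)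
    {φ : Fin m → MvPowerSeries (Fin d) ℂ} (h : φ ≠ 0) :
    vecLam lm (fun l => c * φ l) =
      toLex (lm c + (ofLex (vecLam lm φ)).1, (ofLex (vecLam lm φ)).2) := by
  obtain ⟨l, hl, e, hmin⟩ := vecLam_spec lm h
  have h' : (fun l => c * φ l) ≠ 0 := fun h0 => mul_ne_zero hc hl (congrFun h0 l)
  obtain ⟨l', hl', e', hmin'⟩ := vecLam_spec lm h'
  have hl2 : φ l' ≠ 0 := right_ne_zero_of_mul hl'
  have h1 := hmin l' hl2
  have h2 := hmin' l (mul_ne_zero hc hl)
  rw [e] at h1
  rw [e', lm_mul hc hl2, lm_mul hc hl] at h2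
  rw [e', e, lm_mul hc hl2]
  simp only [ofLex_toLex]
  refine le_antisymm h2 ?_
  rw [Prod.Lex.toLex_le_toLex] at h1 ⊢
  rcases h1 with h1 | h1
  · exact Or.inl (add_lt_add_right h1 _)
  · exact Or.inr ⟨congrArg (lm c + ·) h1.1, h1.2⟩

theorem degree_vecLam_le {m : ℕ} {φ : Fin m → MvPowerSeries (Fin d) ℂ} (h : φ ≠ 0) (l : Fin m) :
    (((ofDegLex (ofLex (vecLam lm φ)).1).degree : ℕ) : ℕ∞) ≤ (φ l).order := by
  by_cases hl : φ l = 0
  · rw [hl, MvPowerSeries.order_zero]
    exact le_top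
  · obtain ⟨l', -, -, hmin⟩ := vecLam_spec lm h
    have h1 := hmin l hl
    have h2 : (ofLex (vecLam lm φ)).1 ≤ lm (φ l) := Prod.Lex.monotone_fst _ _ h1
    rw [order_eq_degree_lm hl]
    exact_mod_cast Finsupp.DegLex.monotone_degree h2

variable {Q : Polynomial (MvPolynomial (Fin d) ℂ)} {y0 : Fin d → ℂ} {w0 : ℂ}

theorem PS_algHom_ext {A : Type} [CommRing A] [Algebra ℂ A]
    {f g : Polynomial (MvPolynomial (Fin d) ℂ) →ₐ[ℂ] A}
    (h1 : ∀ i, f (Polynomial.C (MvPolynomial.X i)) = g (Polynomial.C (MvPolynomial.X i)))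
    (h2 : f Polynomial.X = g Polynomial.X) : f = g := by
  refine Polynomial.algHom_ext' ?_ h2
  refine MvPolynomial.algHom_ext fun i => ?_
  exact h1 i

theorem exists_iota (h0 : evP y0 w0 Q = 0) (h1 : evP y0 w0 Q.derivative ≠ 0) :
    ∃ ι, IsIota Q y0 w0 ι := by
  let sh : MvPolynomial (Fin d) ℂ →ₐ[ℂ] MvPowerSeries (Fin d) ℂ :=
    MvPolynomial.aeval fun i => MvPowerSeries.X i + MvPowerSeries.C (y0 i)
  let I : Ideal (MvPowerSeries (Fin d) ℂ) := Ideal.span (range MvPowerSeries.X)
  have hev : ∀ (a : MvPowerSeries (Fin d) ℂ) (P : Polynomial (MvPolynomial (Fin d) ℂ)),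
      (P.map (sh : MvPolynomial (Fin d) ℂ →+* MvPowerSeries (Fin d) ℂ)).eval a =
        Polynomial.aevalTower sh a P := fun a P => by
    rw [Polynomial.eval_map]
    rfl
  have hI : ∀ P : Polynomial (MvPolynomial (Fin d) ℂ),
      Ideal.Quotient.mk I (Polynomial.aevalTower sh (MvPowerSeries.C w0) P) =
        algebraMap ℂ _ (evP y0 w0 P) := by
    have e : (Ideal.Quotient.mkₐ ℂ I).comp (Polynomial.aevalTower sh (MvPowerSeries.C w0)) =
        (Algebra.ofId ℂ _).comp (evP y0 w0) := by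
      refine PS_algHom_ext (fun i => ?_) ?_
      · have hX : Ideal.Quotient.mk I (MvPowerSeries.X i) = 0 :=
          Ideal.Quotient.eq_zero_iff_mem.2 (Ideal.subset_span ⟨i, rfl⟩)
        simp only [AlgHom.comp_apply, Polynomial.aevalTower_C, evP, sh, MvPolynomial.aeval_X,
          Ideal.Quotient.mkₐ_eq_mk, map_add, hX, zero_add, Algebra.ofId_apply]
        rfl
      · simp only [AlgHom.comp_apply, Polynomial.aevalTower_X, evP,
          Ideal.Quotient.mkₐ_eq_mk, Algebra.ofId_apply]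
        rfl
    intro P
    exact DFunLike.congr_fun e P
  obtain ⟨a, ha, ha'⟩ := PS_hensel I
    (Q.map (sh : MvPolynomial (Fin d) ℂ →+* MvPowerSeries (Fin d) ℂ)) (MvPowerSeries.C w0)
    (by rw [hev, ← Ideal.Quotient.eq_zero_iff_mem, hI, h0, map_zero])
    (by
      rw [Polynomial.derivative_map, hev, hI]
      exact (isUnit_iff_ne_zero.2 h1).map _)
  refine ⟨Polynomial.aevalTower sh a, fun i => ?_, ?_, ?_⟩
  · rw [Polynomial.aevalTower_C]
    exact MvPolynomial.aeval_X _ _
  · rw [Polynomial.aevalTower_X]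
    have hle : I ≤ RingHom.ker (MvPowerSeries.constantCoeff (σ := Fin d) (R := ℂ)) := by
      refine Ideal.span_le.2 ?_
      rintro _ ⟨i, rfl⟩
      exact MvPowerSeries.constantCoeff_X i
    have h2 := hle ha'
    rw [RingHom.mem_ker, map_sub, MvPowerSeries.constantCoeff_C, sub_eq_zero] at h2
    exact h2
  · rw [← hev]
    exact ha

theorem PS_shift (y0 : Fin d → ℂ) (E : MvPolynomial (Fin d) ℂ) :
    MvPolynomial.aeval (fun i => MvPolynomial.X i - MvPolynomial.C (y0 i))
      (MvPolynomial.aeval (fun i => MvPolynomial.X i + MvPolynomial.C (y0 i)) E :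
        MvPolynomial (Fin d) ℂ) = E := by
  induction E using MvPolynomial.induction_on with
  | C a => simp
  | add p q hp hq => rw [map_add, map_add, hp, hq]
  | mul_X p i hp => rw [map_mul, map_mul, hp]; simp

namespace IsIota
variable {ι : Polynomial (MvPolynomial (Fin d) ℂ) →ₐ[ℂ] MvPowerSeries (Fin d) ℂ}

theorem constantCoeff (h : IsIota Q y0 w0 ι) (P : Polynomial (MvPolynomial (Fin d) ℂ)) :
    MvPowerSeries.constantCoeff (ι P) = evP y0 w0 P := by
  let cc : MvPowerSeries (Fin d) ℂ →ₐ[ℂ] ℂ :=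
    { MvPowerSeries.constantCoeff (σ := Fin d) (R := ℂ) with
      commutes' := fun c => MvPowerSeries.constantCoeff_C c }
  have hcc : ∀ φ, cc φ = MvPowerSeries.constantCoeff φ := fun _ => rfl
  have e : cc.comp ι = evP y0 w0 := by
    refine PS_algHom_ext (fun i => ?_) ?_
    · rw [AlgHom.comp_apply, h.map_y, hcc, map_add, MvPowerSeries.constantCoeff_X,
        MvPowerSeries.constantCoeff_C, zero_add, evP, Polynomial.aevalTower_C, MvPolynomial.aeval_X]
    · rw [AlgHom.comp_apply, hcc, h.map_w, evP, Polynomial.aevalTower_X]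
  exact DFunLike.congr_fun e P

theorem map_C (h : IsIota Q y0 w0 ι) (E : MvPolynomial (Fin d) ℂ) :
    ι (Polynomial.C E) = ((MvPolynomial.aeval
      (fun i => MvPolynomial.X i + MvPolynomial.C (y0 i)) E : MvPolynomial (Fin d) ℂ) :
        MvPowerSeries (Fin d) ℂ) := by
  induction E using MvPolynomial.induction_on with
  | C a =>
    have e : Polynomial.C (MvPolynomial.C a : MvPolynomial (Fin d) ℂ) = algebraMap ℂ _ a := rfl
    rw [e, AlgHom.commutes, MvPolynomial.aeval_C, MvPolynomial.algebraMap_eq, MvPolynomial.coe_C]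
    rfl
  | add p q hp hq => rw [map_add, map_add, map_add, MvPolynomial.coe_add, hp, hq]
  | mul_X p i hp =>
    rw [map_mul, map_mul, map_mul, MvPolynomial.coe_mul, hp, h.map_y, MvPolynomial.aeval_X,
      MvPolynomial.coe_add, MvPolynomial.coe_X, MvPolynomial.coe_C]

theorem eq_zero_iff (h : IsIota Q y0 w0 ι) (hQ : Q.Monic)
    (hp : ∀ P P', Q ∣ P * P' → Q ∣ P ∨ Q ∣ P') (P : Polynomial (MvPolynomial (Fin d) ℂ)) :
    ι P = 0 ↔ Q ∣ P := by
  constructor
  · intro h0
    by_contra hP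
    obtain ⟨P', E, hE, c, hc⟩ := exists_mul_sub_C hQ hp hP
    have h1 := congrArg ι hc
    rw [map_sub, map_mul, map_mul, h0, h.map_Q, zero_mul, zero_mul, zero_sub, neg_eq_zero,
      h.map_C, MvPolynomial.coe_eq_zero_iff] at h1
    apply hE
    rw [← PS_shift y0 E, h1, map_zero]
  · rintro ⟨c, rfl⟩
    rw [map_mul, h.map_Q, zero_mul]

/-- The monomial `α` is the expansion of a polynomial of degree `|α|` in `y`. -/
theorem exists_monomial (h : IsIota Q y0 w0 ι) (α : Fin d →₀ ℕ) :
    ∃ E : MvPolynomial (Fin d) ℂ, E.totalDegree ≤ α.degree ∧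
      ι (Polynomial.C E) = MvPowerSeries.monomial α 1 := by
  refine ⟨∏ i, (MvPolynomial.X i - MvPolynomial.C (y0 i)) ^ α i, ?_, ?_⟩
  · refine (MvPolynomial.totalDegree_finsetProd _ _).trans ?_
    rw [Finsupp.degree_eq_sum]
    refine Finset.sum_le_sum fun i _ => (MvPolynomial.totalDegree_pow _ _).trans ?_
    have h1 : (MvPolynomial.X i - MvPolynomial.C (y0 i) : MvPolynomial (Fin d) ℂ).totalDegree ≤ 1 := by
      refine (MvPolynomial.totalDegree_sub _ _).trans ?_
      rw [MvPolynomial.totalDegree_X, MvPolynomial.totalDegree_C]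
      simp
    exact (Nat.mul_le_mul_left _ h1).trans (by rw [mul_one])
  · rw [h.map_C, ← MvPolynomial.coe_monomial]
    congr 1
    rw [map_prod, MvPolynomial.monomial_eq, map_one, one_mul, Finsupp.prod_fintype _ _ (by simp)]
    refine Finset.prod_congr rfl fun i _ => ?_
    simp

end IsIota

end Vale.Agent.P271
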