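import Vale.Agent.P271.Orth
import Vale.Agent.P271.PS
import Vale.Agent.P271.Mod
import Vale.Agent.P271.Comb
import Vale.Agent.P271.Chain

/-! The refined valuation. -/

open Set Filter Topology

noncomputable section

namespace Vale.Agent.P271.Core

variable {Y R : Type} [CommRing R] [Algebra ℂ R] {C : Core Y R} {V : R → ℝ} {b : ℝ} {d : ℕ}
  {y : Fin d → R} {w : R} {Q : Polynomial (MvPolynomial (Fin d) ℂ)} {J : ℕ}
  {y0 : Fin d → ℂ} {w0 : ℂ}
  {ι : Polynomial (MvPolynomial (Fin d) ℂ) →ₐ[ℂ] MvPowerSeries (Fin d) ℂ}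

/-- The value group of the refined valuation. -/
abbrev Gam (d : ℕ) : Type := ℝᵒᵈ ×ₗ (DegLex (Fin d →₀ ℕ) ×ₗ ℕ)

/-- The refined valuation. -/
def lamOf (M : C.ModData V y w Q J)
    (ι : Polynomial (MvPolynomial (Fin d) ℂ) →ₐ[ℂ] MvPowerSeries (Fin d) ℂ) (f : R) : Gam d :=
  toLex (OrderDual.toDual (V f), vecLam lm fun l => ι (M.Φ (V f) f l))

/-- The value of `V`. -/
def ga (γ : Gam d) : ℝ := OrderDual.ofDual (ofLex γ).1

/-- The truncated order of vanishing. -/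
def go (O : ℕ) (γ : Gam d) : ℕ := min (ofDegLex (ofLex (ofLex γ).2).1).degree O

/-- The perturbed weight. -/
def pw (s : ℝ) (O : ℕ) (γ : Gam d) : ℝ := ga γ * Real.exp (-s * go O γ)

theorem ga_lamOf (M : C.ModData V y w Q J) (f : R) : ga (lamOf M ι f) = V f := rfl

theorem dsta_ne (hV : C.IsVal V b) (hc : C.Centre V y w Q) (M : C.ModData V y w Q J)
    (hι : IsIota Q y0 w0 ι) {f : R} (hf : f ∈ C.O J) (h0 : f ≠ 0) :
    (fun l => ι (M.Φ (V f) f l)) ≠ 0 := by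
  obtain ⟨l, hl⟩ := M.ndvd f hf h0
  exact fun h => hl ((hι.eq_zero_iff hc.monic (hc.prime hV) _).1 (congrFun h l))

theorem dsta_zero (hV : C.IsVal V b) (hc : C.Centre V y w Q) (M : C.ModData V y w Q J)
    (hι : IsIota Q y0 w0 ι) {a : ℝ} {f : R} (hf : f ∈ C.O J) (h : V f < a) (l) :
    ι (M.Φ a f l) = 0 :=
  (hι.eq_zero_iff hc.monic (hc.prime hV) _).2 (M.dvd a f hf h l)

theorem leafVal_lamOf (hV : C.IsVal V b) (hc : C.Centre V y w Q) (M : C.ModData V y w Q J)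
    (hι : IsIota Q y0 w0 ι) : LeafVal (C.O J) (lamOf M ι) :=
  LeafVal.refine hV.na leafVal_lm.vec (fun a => (ι.toLinearMap.compLeft _) ∘ₗ M.Φ a)
    (fun _ _ hf h => funext fun l => dsta_zero hV hc M hι hf h l)
    fun _ hf h0 => dsta_ne hV hc M hι hf h0

theorem lam_mul (hV : C.IsVal V b) (hc : C.Centre V y w Q) (M : C.ModData V y w Q J)
    (hι : IsIota Q y0 w0 ι) {f : R} (hf : f ∈ C.O J) (h0 : 0 < V f) {P} (hP : ¬ Q ∣ P)
    (hm : evP y w P * f ∈ C.O J) :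
    lamOf M ι (evP y w P * f) = toLex ((ofLex (lamOf M ι f)).1,
      toLex (lm (ι P) + (ofLex (ofLex (lamOf M ι f)).2).1, (ofLex (ofLex (lamOf M ι f)).2).2)) := by
  have h1 : V (evP y w P * f) = V f := by rw [hV.mul, hc.eq_one hV hP, one_mul]
  have h2 : (fun l => ι (M.Φ (V f) (evP y w P * f) l)) = fun l => ι P * ι (M.Φ (V f) f l) := by
    funext l
    have h3 := (hι.eq_zero_iff hc.monic (hc.prime hV) _).2 (M.mul _ h0 f hf le_rfl P hm l)
    rwa [map_sub, map_mul ι, sub_eq_zero] at h3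
  have h3 : ι P ≠ 0 := fun h => hP ((hι.eq_zero_iff hc.monic (hc.prime hV) _).1 h)
  have h4 : f ≠ 0 := fun h => by
    rw [h, hV.na.zero] at h0
    exact h0.false
  rw [lamOf, h1, h2, vecLam_mul h3 (dsta_ne hV hc M hι hf h4)]
  rfl

end Vale.Agent.P271.Core
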