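import Vale.Agent.P271.FInt

/-! Pigeonhole lemmas.

Hints. `exists_grid`: round the real and imaginary parts to multiples of `ρ / 2`
(`Fintype.piFinset`). `exists_root_near`: `q = ∏ (X - C root)` over `ℂ`. `lipschitz_evP`: induction on
polynomials for the statement bounded and Lipschitz on the bounded set, or
`ContDiffOn.exists_lipschitzOnWith` on a compact convex set. `exists_cell`: cover by the cells indexed
by a grid point `y0` and a root `w0` of `Q.map (eval y0)` (monic of the same degree). -/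

open MeasureTheory Set

noncomputable section

namespace Vale.Agent.P271

theorem pig_round {x B ρ : ℝ} (hρ : 0 < ρ) (hx : |x| ≤ B) :
    round (x / ρ) ∈ Finset.Icc (-(⌈|B| / ρ⌉₊ + 1 : ℤ)) (⌈|B| / ρ⌉₊ + 1) ∧
      |x - round (x / ρ) * ρ| ≤ ρ / 2 := by
  have h1 := abs_sub_round (x / ρ)
  have h2 : |x / ρ| ≤ ⌈|B| / ρ⌉₊ := by
    rw [abs_div, abs_of_pos hρ]
    exact (div_le_div_of_nonneg_right (hx.trans (le_abs_self B)) hρ.le).trans (Nat.le_ceil _)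
  rw [abs_le] at h1 h2
  refine ⟨Finset.mem_Icc.2 ⟨?_, ?_⟩, ?_⟩
  · have : (-(⌈|B| / ρ⌉₊ + 1 : ℝ)) ≤ round (x / ρ) := by linarith
    exact_mod_cast this
  · have : (round (x / ρ) : ℝ) ≤ ⌈|B| / ρ⌉₊ + 1 := by linarith
    exact_mod_cast this
  · have e : x - round (x / ρ) * ρ = (x / ρ - round (x / ρ)) * ρ := by field_simp
    rw [e, abs_le]
    constructor <;> nlinarith

theorem pig_grid (B : ℝ) {ρ : ℝ} (hρ : 0 < ρ) (h1 : ρ ≤ 1) : ∃ S : Finset ℂ,
    (S.card : ℝ) ≤ ((2 * |B| + 5) / ρ) ^ 2 ∧ ∀ z : ℂ, ‖z‖ ≤ B → ∃ z0 ∈ S, ‖z - z0‖ ≤ ρ := by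
  classical
  set T := Finset.Icc (-(⌈|B| / ρ⌉₊ + 1 : ℤ)) (⌈|B| / ρ⌉₊ + 1) with hT
  refine ⟨(T ×ˢ T).image fun a => ⟨a.1 * ρ, a.2 * ρ⟩, ?_, fun z hz => ?_⟩
  · have h2 : T.card = 2 * ⌈|B| / ρ⌉₊ + 3 := by
      rw [hT, Int.card_Icc]
      omega
    have h3 : (T.card : ℝ) ≤ (2 * |B| + 5) / ρ := by
      have h4 := Nat.ceil_lt_add_one (show 0 ≤ |B| / ρ by positivity)
      have h5 : (5 : ℝ) ≤ 5 / ρ := by
        rw [le_div_iff₀ hρ]
        linarith
      rw [h2, add_div, mul_div_assoc]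
      push_cast
      linarith
    refine le_trans (Nat.cast_le.2 Finset.card_image_le) ?_
    rw [Finset.card_product, Nat.cast_mul, ← sq]
    exact pow_le_pow_left₀ (Nat.cast_nonneg _) h3 2
  · obtain ⟨a1, a2⟩ := pig_round hρ ((Complex.abs_re_le_norm z).trans hz)
    obtain ⟨b1, b2⟩ := pig_round hρ ((Complex.abs_im_le_norm z).trans hz)
    refine ⟨_, Finset.mem_image_of_mem _ (Finset.mk_mem_product a1 b1),
      (Complex.norm_le_abs_re_add_abs_im _).trans ?_⟩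
    simp only [Complex.sub_re, Complex.sub_im]
    linarith

theorem exists_grid (d : ℕ) (B : ℝ) : ∃ K : ℝ, 1 ≤ K ∧ ∀ ρ : ℝ, 0 < ρ → ρ ≤ 1 →
    ∃ Z : Finset (Fin d → ℂ), (Z.card : ℝ) ≤ K / ρ ^ (2 * d) ∧
      ∀ y : Fin d → ℂ, ‖y‖ ≤ B → ∃ y0 ∈ Z, ‖y - y0‖ ≤ ρ := by
  refine ⟨(2 * |B| + 5) ^ (2 * d), one_le_pow₀ (by linarith [abs_nonneg B]), fun ρ hρ h1 => ?_⟩
  obtain ⟨S, hS, h⟩ := pig_grid B hρ h1
  refine ⟨Fintype.piFinset fun _ => S, ?_, fun y hy => ?_⟩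
  · rw [Fintype.card_piFinset_const, ← div_pow, pow_mul, Nat.cast_pow]
    exact pow_le_pow_left₀ (Nat.cast_nonneg _) hS d
  · choose y0 h2 h3 using fun i => h (y i) ((norm_le_pi_norm y i).trans hy)
    exact ⟨y0, Fintype.mem_piFinset.2 h2, (pi_norm_le_iff_of_nonneg hρ.le).2 h3⟩

theorem exists_root_near {q : Polynomial ℂ} (hq : q.Monic) (hd : 0 < q.natDegree) (w : ℂ) :
    ∃ w0 ∈ q.roots, ‖w - w0‖ ^ q.natDegree ≤ ‖q.eval w‖ := by
  classical
  have hc : q.roots.card = q.natDegree := IsAlgClosed.card_roots_eq_natDegree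
  have hne : q.roots.toFinset.Nonempty := by
    rw [Multiset.toFinset_nonempty, ← Multiset.card_pos]
    omega
  obtain ⟨w0, h0, h1⟩ := Finset.exists_min_image _ (fun r => ‖w - r‖) hne
  refine ⟨w0, Multiset.mem_toFinset.1 h0, ?_⟩
  have key : ∀ s : Multiset ℂ, (∀ r ∈ s, ‖w - w0‖ ≤ ‖w - r‖) →
      ‖w - w0‖ ^ s.card ≤ ‖(s.map fun r => w - r).prod‖ := fun s => by
    induction s using Multiset.induction_on with
    | empty => simp
    | cons a s ih =>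
      intro h
      rw [Multiset.card_cons, Multiset.map_cons, Multiset.prod_cons, norm_mul, pow_succ']
      exact mul_le_mul (h a (Multiset.mem_cons_self a s))
        (ih fun r hr => h r (Multiset.mem_cons_of_mem hr)) (by positivity) (norm_nonneg _)
  rw [(IsAlgClosed.splits q).eval_eq_prod_roots_of_monic hq, ← hc]
  exact key _ fun r hr => h1 r (Multiset.mem_toFinset.2 hr)

theorem outer_pigeon {Y ι : Type} (ν : OuterMeasure Y) (Z : Finset ι) {E : Set Y} (A : ι → Set Y)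
    (h : E ⊆ ⋃ i ∈ Z, A i) (hE : ν E ≠ 0) : ∃ i ∈ Z, ν E ≤ Z.card * ν (A i) := by
  have h1 : ν E ≤ ∑ i ∈ Z, ν (A i) := (measure_mono h).trans (measure_biUnion_finset_le Z A)
  rcases Z.eq_empty_or_nonempty with rfl | hne
  · exact absurd (by simpa using h1) hE
  obtain ⟨i, hi, h2⟩ := Finset.exists_max_image Z (fun i => ν (A i)) hne
  exact ⟨i, hi, h1.trans ((Finset.sum_le_card_nsmul _ _ _ h2).trans_eq (nsmul_eq_mul _ _))⟩

theorem evP_eq_eval {d : ℕ} (y : Fin d → ℂ) (w : ℂ) (P : Polynomial (MvPolynomial (Fin d) ℂ)) :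
    evP y w P = (P.map (MvPolynomial.eval y)).eval w := by
  rw [Polynomial.eval_map, ← MvPolynomial.coe_aeval_eq_eval]
  rfl

theorem pig_contDiff {d : ℕ} (P : Polynomial (MvPolynomial (Fin d) ℂ)) :
    ContDiff ℂ 1 fun x : (Fin d → ℂ) × ℂ => evP x.1 x.2 P := by
  have h : ∀ a : MvPolynomial (Fin d) ℂ,
      ContDiff ℂ 1 fun x : (Fin d → ℂ) × ℂ => MvPolynomial.eval x.1 a := fun a => by
    induction a using MvPolynomial.induction_on with
    | C c => simpa using contDiff_const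
    | add p q hp hq => simpa using hp.add hq
    | mul_X p i hp => simpa using hp.mul (by fun_prop)
  simp only [evP_eq_eval]
  induction P using Polynomial.induction_on' with
  | add p q hp hq => simpa using hp.add hq
  | monomial m a => simpa using (h a).mul (contDiff_snd.pow m)

theorem lipschitz_evP {d : ℕ} (P : Polynomial (MvPolynomial (Fin d) ℂ)) (B : ℝ) :
    ∃ K : ℝ, 0 ≤ K ∧ ∀ (y y' : Fin d → ℂ) (w w' : ℂ), ‖y‖ ≤ B → ‖y'‖ ≤ B → ‖w‖ ≤ B → ‖w'‖ ≤ B →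
      ‖evP y w P‖ ≤ K ∧ ‖evP y w P - evP y' w' P‖ ≤ K * (‖y - y'‖ + ‖w - w'‖) := by
  have hc := isCompact_closedBall (0 : (Fin d → ℂ) × ℂ) B
  obtain ⟨K, hK⟩ := ((pig_contDiff P).locallyLipschitz.locallyLipschitzOn
    (s := Metric.closedBall 0 B)).exists_lipschitzOnWith_of_compact hc
  obtain ⟨M, hM⟩ := hc.exists_bound_of_continuousOn (pig_contDiff P).continuous.continuousOn
  refine ⟨K + |M|, by positivity, fun y y' w w' h1 h2 h3 h4 => ?_⟩
  have a1 : (y, w) ∈ Metric.closedBall (0 : (Fin d → ℂ) × ℂ) B :=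
    mem_closedBall_zero_iff.2 (max_le h1 h3)
  have a2 : (y', w') ∈ Metric.closedBall (0 : (Fin d → ℂ) × ℂ) B :=
    mem_closedBall_zero_iff.2 (max_le h2 h4)
  refine ⟨(hM _ a1).trans (by linarith [le_abs_self M, K.coe_nonneg]), ?_⟩
  have h5 := hK.dist_le_mul _ a1 _ a2
  rw [dist_eq_norm, Prod.dist_eq, dist_eq_norm, dist_eq_norm] at h5
  exact h5.trans (mul_le_mul (by linarith [abs_nonneg M])
    (max_le_add_of_nonneg (norm_nonneg _) (norm_nonneg _)) (by positivity) (by positivity))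

theorem exists_cell {d : ℕ} {Q : Polynomial (MvPolynomial (Fin d) ℂ)} (hQ : Q.Monic)
    (hd : 0 < Q.natDegree) (B : ℝ) : ∃ K : ℝ, 1 ≤ K ∧ ∀ ρ : ℝ, 0 < ρ → ρ ≤ 1 →
      ∀ {Y : Type} (ν : OuterMeasure Y) (E : Set Y) (yp : Y → Fin d → ℂ) (wp : Y → ℂ),
        (∀ p ∈ E, ‖yp p‖ ≤ B) → ν E ≠ 0 → ∃ y0 w0, evP y0 w0 Q = 0 ∧
          ν E ≤ ENNReal.ofReal (K / ρ ^ (2 * d)) * ν {p | p ∈ E ∧ ‖yp p - y0‖ ≤ ρ ∧
            ‖wp p - w0‖ ^ Q.natDegree ≤ ‖evP y0 (wp p) Q‖} := by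
  classical
  obtain ⟨K, hK, h⟩ := exists_grid d B
  have hd' : (1 : ℝ) ≤ Q.natDegree := by exact_mod_cast hd
  refine ⟨K * Q.natDegree, by nlinarith, fun ρ hρ h1 Y ν E yp wp hB hE => ?_⟩
  obtain ⟨Z, hZ, hy⟩ := h ρ hρ h1
  have hm : ∀ y0 : Fin d → ℂ, (Q.map (MvPolynomial.eval y0)).natDegree = Q.natDegree :=
    fun y0 => hQ.natDegree_map _
  obtain ⟨i, hi, h2⟩ := outer_pigeon ν
    (Z.sigma fun y0 => (Q.map (MvPolynomial.eval y0)).roots.toFinset) (E := E)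
    (fun i => {p | p ∈ E ∧ ‖yp p - i.1‖ ≤ ρ ∧
      ‖wp p - i.2‖ ^ Q.natDegree ≤ ‖evP i.1 (wp p) Q‖}) (fun p hp => by
      obtain ⟨y0, a1, a2⟩ := hy _ (hB p hp)
      obtain ⟨w0, b1, b2⟩ := exists_root_near (hQ.map (MvPolynomial.eval y0))
        (by rw [hm]; exact hd) (wp p)
      rw [hm, ← evP_eq_eval] at b2
      exact mem_iUnion₂.2 ⟨⟨y0, w0⟩, Finset.mem_sigma.2 ⟨a1, Multiset.mem_toFinset.2 b1⟩,
        hp, a2, b2⟩) hE
  refine ⟨i.1, i.2, ?_, h2.trans (mul_le_mul_left ?_ _)⟩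
  · rw [evP_eq_eval]
    exact Polynomial.isRoot_of_mem_roots (Multiset.mem_toFinset.1 (Finset.mem_sigma.1 hi).2)
  · have h3 : (Z.sigma fun y0 => (Q.map (MvPolynomial.eval y0)).roots.toFinset).card ≤
        Z.card * Q.natDegree := by
      rw [Finset.card_sigma]
      exact Finset.sum_le_card_nsmul _ _ _ fun y0 _ =>
        (Multiset.toFinset_card_le _).trans ((Polynomial.card_roots' _).trans (hm y0).le)
    rw [← ENNReal.ofReal_natCast]
    refine ENNReal.ofReal_le_ofReal ((Nat.cast_le.2 h3).trans ?_)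
    rw [Nat.cast_mul, mul_div_right_comm]
    exact mul_le_mul_of_nonneg_right hZ (Nat.cast_nonneg _)

end Vale.Agent.P271
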