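import Vale.Agent.P271.Mod
import Vale.Agent.P271.Pig

/-! The point of the hypersurface found by pigeonhole is not too close to the discriminant.

Hints. Let `B0` bound `ev (y i)` and `ev w` on `r < δ0` (`C.bdd`), `B = B0 + 1`. Eventually in `s`,
`V (evP y w Q) ≤ exp (-s)` (it is `< 1` by `Centre.ker`), and then
`V (evP y w Q) + δ' ≤ exp (-s / 2)` for small `δ'`, so `‖Q (y p, w p)‖ ≤ exp (-s T / 4)`. With
`lipschitz_evP` and `ev_evP`: `‖w p - w0‖ ^ N ≤ ‖evP y0 (w p) Q‖ ≤ (1 + L) exp (-s T / 4)`, so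
`‖w p - w0‖ ≤ (1 + L) exp (-s T / (4 N))`. Also `‖Q' (y p, w p)‖ ≥ exp (-δ' T / 2)` because
`V (evP y w Q') = 1` (`Centre.eq_one`, `Centre.not_dvd_derivative`). All required inequalities have the
form `K exp (-c T) ≤ K' exp (-E δ' T)` with `c > 0` fixed, true when `δ'` is small and `T ≥ 1 / δ'`. -/

open Set Filter Topology

noncomputable section

namespace Vale.Agent.P271.Core

variable {Y R : Type} [CommRing R] [Algebra ℂ R] {C : Core Y R} {V : R → ℝ} {b : ℝ} {d : ℕ}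
  {y : Fin d → R} {w : R} {Q : Polynomial (MvPolynomial (Fin d) ℂ)}

/-- The point `p` witnesses the values of `V` on `S` at the scale `T`. -/
def Wit (C : Core Y R) (V : R → ℝ) (S : Finset R) (δ T : ℝ) (p : Y) : Prop :=
  C.r p < δ ∧ ∀ f ∈ S,
    ‖C.ev f p‖ ^ 2 ≤ (V f + δ) ^ T ∧ (V f = 1 → Real.exp (-δ * T) ≤ ‖C.ev f p‖ ^ 2)

/-- The point `p` lies in the cell of `(y0, w0)`. -/
def Cell (C : Core Y R) (y : Fin d → R) (w : R) (Q : Polynomial (MvPolynomial (Fin d) ℂ))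
    (ρ : ℝ) (y0 : Fin d → ℂ) (w0 : ℂ) (p : Y) : Prop :=
  evP y0 w0 Q = 0 ∧ ‖(fun i => C.ev (y i) p) - y0‖ ≤ ρ ∧
    ‖C.ev w p - w0‖ ^ Q.natDegree ≤ ‖evP y0 (C.ev w p) Q‖

theorem exp_small {c : ℝ} (hc : 0 < c) (K E : ℝ) {K' : ℝ} (hK' : 0 < K') :
    ∃ δ1 > (0 : ℝ), ∀ δ', 0 < δ' → δ' ≤ δ1 → ∀ T, 1 / δ' ≤ T →
      K * Real.exp (-c * T) ≤ K' * Real.exp (-E * δ' * T) := by
  have hE : 0 < |E| + 1 := by positivity
  have hK : 0 < |K| + 1 := by positivity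
  refine ⟨min (c / (2 * (|E| + 1))) (c * K' / (2 * (|K| + 1))), by positivity,
    fun δ' h0 h1 T hT => ?_⟩
  have h2 : δ' * (2 * (|E| + 1)) ≤ c := (le_div_iff₀ (by positivity)).1 (h1.trans (min_le_left _ _))
  have h3 : δ' * (2 * (|K| + 1)) ≤ c * K' :=
    (le_div_iff₀ (by positivity)).1 (h1.trans (min_le_right _ _))
  have h4 : 1 ≤ T * δ' := (div_le_iff₀ h0).1 hT
  have hT0 : 0 < T := (one_div_pos.2 h0).trans_le hT
  have h5 : K ≤ K' * Real.exp (c * T / 2) := by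
    have h6 : c * T / 2 ≤ Real.exp (c * T / 2) := by linarith [Real.add_one_le_exp (c * T / 2)]
    have h7 : 2 * (|K| + 1) ≤ c * K' * T := by
      nlinarith [mul_le_mul_of_nonneg_left h3 hT0.le, mul_le_mul_of_nonneg_left h4 hK.le]
    nlinarith [le_abs_self K, mul_le_mul_of_nonneg_left h6 hK'.le]
  have h8 : c * T / 2 + -c * T ≤ -E * δ' * T := by
    have : E * δ' ≤ c / 2 := by nlinarith [le_abs_self E]
    nlinarith
  calc K * Real.exp (-c * T) ≤ K' * Real.exp (c * T / 2) * Real.exp (-c * T) := by gcongr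
    _ = K' * Real.exp (c * T / 2 + -c * T) := by rw [Real.exp_add]; ring
    _ ≤ K' * Real.exp (-E * δ' * T) := by gcongr

theorem DStB_bound (C : Core Y R) (y : Fin d → R) (w : R) : ∃ B : ℝ, 0 ≤ B ∧ ∃ δ > (0 : ℝ),
    ∀ p, C.r p < δ → ‖fun i => C.ev (y i) p‖ ≤ B ∧ ‖C.ev w p‖ ≤ B := by
  classical
  choose c δ hδ h using C.bdd
  have hne : (insert w (Finset.univ.image y)).Nonempty := Finset.insert_nonempty _ _
  refine ⟨∑ f ∈ insert w (Finset.univ.image y), |c f|, by positivity,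
    (insert w (Finset.univ.image y)).inf' hne δ, (Finset.lt_inf'_iff _).2 fun f _ => hδ f,
    fun p hp => ?_⟩
  have key : ∀ f ∈ insert w (Finset.univ.image y),
      ‖C.ev f p‖ ≤ ∑ f ∈ insert w (Finset.univ.image y), |c f| := fun f hf =>
    ((h f p (hp.trans_le (Finset.inf'_le _ hf))).trans (le_abs_self _)).trans
      (Finset.single_le_sum (f := fun f => |c f|) (fun _ _ => abs_nonneg _) hf)
  exact ⟨(pi_norm_le_iff_of_nonneg (by positivity)).2 fun i => key _ (by simp), key _ (by simp)⟩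

theorem est_disc (hV : C.IsVal V b) (hc : C.Centre V y w Q) :
    ∃ B : ℝ, ∀ᶠ s in 𝓝[>] (0 : ℝ), ∀ (K : ℝ) (E : ℕ), ∃ δ1 > (0 : ℝ), ∀ δ', 0 < δ' → δ' ≤ δ1 →
      ∀ T, 1 / δ' ≤ T → ∀ S : Finset R, evP y w Q ∈ S → evP y w Q.derivative ∈ S →
      ∀ p y0 w0, C.Wit V S δ' T p → C.Cell y w Q (Real.exp (-s * T / 2)) y0 w0 p →
        Real.exp (-δ' * T / 2) / 2 ≤ ‖evP y0 w0 Q.derivative‖ ∧ ‖y0‖ ≤ B ∧ ‖w0‖ ≤ B ∧
        K * Real.exp (-s * T / 2) ≤ (Real.exp (-δ' * T / 2) / 2) ^ E ∧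
        K * ‖C.ev w p - w0‖ ≤ (Real.exp (-δ' * T / 2) / 2) ^ E := by
  obtain ⟨B0, hB0, δ0, hδ0, hb⟩ := DStB_bound C y w
  obtain ⟨L, hL, hLQ⟩ := lipschitz_evP Q (B0 + 1)
  obtain ⟨L', hL', hLQ'⟩ := lipschitz_evP Q.derivative (B0 + 1)
  have hq : V (evP y w Q) < 1 := (hc.ker Q).2 dvd_rfl
  have hq' : V (evP y w Q.derivative) = 1 := hc.eq_one hV hc.not_dvd_derivative
  have hN := hc.natDegree_pos
  have hN' : (1 : ℝ) ≤ Q.natDegree := by exact_mod_cast hN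
  have hev : ∀ᶠ s in 𝓝[>] (0 : ℝ), V (evP y w Q) < Real.exp (-s) := by
    refine Eventually.filter_mono nhdsWithin_le_nhds ?_
    have : Tendsto (fun s : ℝ => Real.exp (-s)) (𝓝 0) (𝓝 1) :=
      Continuous.tendsto' (by fun_prop) _ _ (by simp)
    exact this.eventually (lt_mem_nhds hq)
  refine ⟨B0 + 1, ?_⟩
  filter_upwards [hev, self_mem_nhdsWithin] with s hs hs0 K E
  have hs0 : 0 < s := hs0
  obtain ⟨c, hcd⟩ : ∃ c, c = s / (4 * Q.natDegree) := ⟨_, rfl⟩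
  have hc0 : 0 < c := by rw [hcd]; positivity
  have hcs : c ≤ s / 4 := hcd ▸ div_le_div_of_nonneg_left hs0.le (by norm_num) (by linarith)
  have hgap : 0 < Real.exp (-s / 2) - Real.exp (-s) :=
    sub_pos.2 (Real.exp_lt_exp.2 (by linarith))
  obtain ⟨δ1, h1, e1⟩ := exp_small hc0 (1 + L) 0 one_pos
  obtain ⟨δ2, h2, e2⟩ := exp_small hc0 (L' * (2 + L)) (1 / 2) (K' := 1 / 2) (by norm_num)
  obtain ⟨δ3, h3, e3⟩ := exp_small hc0 (|K| * (1 + L)) (E / 2) (K' := (1 / 2) ^ E) (by positivity)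
  refine ⟨min (min δ0 (Real.exp (-s / 2) - Real.exp (-s))) (min δ1 (min δ2 δ3)), by positivity,
    fun δ' h0 hδ T hT S hS hS' p y0 w0 hw hcell => ?_⟩
  simp only [le_min_iff] at hδ
  obtain ⟨⟨g0, g1⟩, g2, g3, g4⟩ := hδ
  have hT0 : 0 < T := (one_div_pos.2 h0).trans_le hT
  replace e1 := e1 δ' h0 g2 T hT
  replace e2 := e2 δ' h0 g3 T hT
  replace e3 := e3 δ' h0 g4 T hT
  obtain ⟨hy, hwp⟩ := hb p (hw.1.trans_le g0)
  obtain ⟨-, c2, c3⟩ := hcell
  have m1 := mul_pos hs0 hT0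
  have m2 := mul_pos hc0 hT0
  have m3 := mul_le_mul_of_nonneg_right hcs hT0.le
  have hρ1 : Real.exp (-s * T / 2) ≤ Real.exp (-c * T) := Real.exp_le_exp.2 (by linarith)
  have hρ2 : Real.exp (-c * T) ≤ 1 := Real.exp_le_one_iff.2 (by linarith)
  have hρ3 : Real.exp (-s * T / 2) ≤ Real.exp (-s * T / 4) := Real.exp_le_exp.2 (by linarith)
  have hy0 : ‖y0‖ ≤ B0 + 1 := by
    have := norm_sub_norm_le y0 fun i => C.ev (y i) p
    rw [norm_sub_rev] at this
    linarith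
  have a1 : ‖evP (fun i => C.ev (y i) p) (C.ev w p) Q‖ ≤ Real.exp (-s * T / 4) := by
    rw [← ev_evP]
    have b1 := (hw.2 _ hS).1
    have b2 : (V (evP y w Q) + δ') ^ T ≤ Real.exp (-s / 2) ^ T :=
      Real.rpow_le_rpow (add_nonneg (hV.na.nonneg _) h0.le) (by linarith) hT0.le
    have b3 : Real.exp (-s / 2) ^ T = Real.exp (-s * T / 4) ^ 2 := by
      rw [← Real.exp_mul, ← Real.exp_nat_mul]; congr 1; push_cast; ring
    exact (pow_le_pow_iff_left₀ (norm_nonneg _) (Real.exp_pos _).le two_ne_zero).1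
      (b1.trans (b2.trans_eq b3))
  have a2 : ‖evP y0 (C.ev w p) Q‖ ≤ (1 + L) * Real.exp (-s * T / 4) := by
    have b1 := (hLQ (fun i => C.ev (y i) p) y0 (C.ev w p) (C.ev w p) (by linarith) hy0
      (by linarith) (by linarith)).2
    rw [sub_self, norm_zero, add_zero] at b1
    have b2 := norm_sub_norm_le (evP y0 (C.ev w p) Q) (evP (fun i => C.ev (y i) p) (C.ev w p) Q)
    rw [norm_sub_rev] at b2
    linarith [mul_le_mul_of_nonneg_left (c2.trans hρ3) hL]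
  have a3 : ‖C.ev w p - w0‖ ≤ (1 + L) * Real.exp (-c * T) := by
    refine (pow_le_pow_iff_left₀ (norm_nonneg _) (by positivity) hN.ne').1 (c3.trans (a2.trans ?_))
    have b1 : Real.exp (-c * T) ^ Q.natDegree = Real.exp (-s * T / 4) := by
      rw [← Real.exp_nat_mul, hcd]; congr 1; field_simp
    rw [mul_pow, b1]
    gcongr
    exact le_self_pow₀ (by linarith) hN.ne'
  have hw0 : ‖w0‖ ≤ B0 + 1 := by
    have := norm_sub_norm_le w0 (C.ev w p)
    rw [norm_sub_rev] at this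
    simp only [neg_zero, zero_mul, Real.exp_zero, mul_one] at e1
    linarith
  have a4 : Real.exp (-δ' * T / 2) ≤ ‖evP (fun i => C.ev (y i) p) (C.ev w p) Q.derivative‖ := by
    rw [← ev_evP]
    have b1 := (hw.2 _ hS').2 hq'
    have b3 : Real.exp (-δ' * T / 2) ^ 2 = Real.exp (-δ' * T) := by
      rw [← Real.exp_nat_mul]; congr 1; push_cast; ring
    exact (pow_le_pow_iff_left₀ (Real.exp_pos _).le (norm_nonneg _) two_ne_zero).1
      (b3.trans_le b1)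
  have a5 : (Real.exp (-δ' * T / 2) / 2) ^ E = (1 / 2) ^ E * Real.exp (-(E / 2) * δ' * T) := by
    have : -((E : ℝ) / 2) * δ' * T = E * (-δ' * T / 2) := by ring
    rw [this, Real.exp_nat_mul, ← mul_pow]
    congr 1; ring
  refine ⟨?_, hy0, hw0, ?_, ?_⟩
  · have b1 := (hLQ' (fun i => C.ev (y i) p) y0 (C.ev w p) w0 (by linarith) hy0
      (by linarith) hw0).2
    have b2 := norm_sub_norm_le (evP (fun i => C.ev (y i) p) (C.ev w p) Q.derivative)
      (evP y0 w0 Q.derivative)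
    have b3 : -(1 / 2) * δ' * T = -δ' * T / 2 := by ring
    rw [b3] at e2
    linarith [mul_le_mul_of_nonneg_left (add_le_add (c2.trans hρ1) a3) hL']
  · rw [a5]
    refine le_trans ?_ e3
    calc K * Real.exp (-s * T / 2) ≤ |K| * Real.exp (-c * T) :=
          mul_le_mul (le_abs_self K) hρ1 (Real.exp_pos _).le (abs_nonneg K)
      _ ≤ _ := by gcongr; linarith [mul_nonneg (abs_nonneg K) hL]
  · rw [a5]
    refine le_trans ?_ e3
    rw [mul_assoc]
    exact mul_le_mul (le_abs_self K) a3 (norm_nonneg _) (abs_nonneg K)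

end Vale.Agent.P271.Core
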