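import Vale.Agent.P271.PS
import Vale.Agent.P271.Pig

/-! A formal order of vanishing gives a quantitative estimate near the point.

Hints. Work in `A = MvPolynomial (Fin d) ℂ` with the norm `N1 G = ∑ α ∈ support, ‖coeff α G‖`
(subadditive, submultiplicative; `‖eval Y G‖ ≤ N1 G * ρ ^ o` if `‖Y‖ ≤ ρ ≤ 1` and all monomials of `G`
have degree `≥ o`). Let `sh = aeval fun i => X i + C (y0 i)`, `q = Q.map sh`, `D0 = evP y0 w0 Q'`,
`ω 0 = C w0`, `ω (m+1) = ω m - D0⁻¹ • q.eval (ω m)` in `A`. By induction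
`N1 (ω m) ≤ K m / Δ ^ E m` (uniformly for `‖y0‖, ‖w0‖ ≤ B`; `N1 (sh G) ≤ N1 G * (1 + B) ^ deg G`), and
as power series `q.eval (ω m)` has order `≥ m + 1`, `ω m` has constant term `w0`. Both `ω m` and
`ι X` are roots of `q` modulo order `m + 1` with the same constant term, and
`q.eval a - q.eval b = (a - b) * h` where `h` has constant term `D0 ≠ 0`; so `ι X - ω m` has order
`≥ m + 1`, and `(P.map sh).eval (ω O)` has order `≥ o`. Finally, with `Y = y - y0` and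
`v = eval Y (ω O)`: `evP y w Q - evP y v Q = (w - v) * h (y, w, v)` with
`‖h (y, w, v) - D0‖ ≤ L (‖y - y0‖ + ‖w - w0‖ + ‖v - w0‖) ≤ Δ / 2` (a fixed polynomial function,
Lipschitz on bounded sets), which bounds `‖w - v‖`; and `P` is Lipschitz in the last variable. You may
use `lipschitz_evP` from `Pig.lean` (import it). -/

open Set

noncomputable section

namespace Vale.Agent.P271

section alg

variable {d : ℕ} {R S : Type} [CommRing R] [Algebra ℂ R] [CommRing S] [Algebra ℂ S]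

theorem newt_eval (y : Fin d → R) (w : R) (P : Polynomial (MvPolynomial (Fin d) ℂ)) :
    evP y w P =
      (P.map (MvPolynomial.aeval y : MvPolynomial (Fin d) ℂ →ₐ[ℂ] R).toRingHom).eval w := by
  rw [Polynomial.eval_map]
  rfl

theorem newt_nat (φ : R →ₐ[ℂ] S) (y : Fin d → R) (w : R)
    (P : Polynomial (MvPolynomial (Fin d) ℂ)) :
    φ (evP y w P) = evP (fun i => φ (y i)) (φ w) P := by
  have h : φ.comp (evP y w) = evP (fun i => φ (y i)) (φ w) := by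
    refine Polynomial.algHom_ext' (MvPolynomial.algHom_ext fun i => ?_) ?_ <;> simp [evP]
  exact DFunLike.congr_fun h P

/-- The simplified Newton iteration. -/
def newtSeq (Q : Polynomial (MvPolynomial (Fin d) ℂ)) (y : Fin d → R) (w0 c : ℂ) : ℕ → R
  | 0 => algebraMap ℂ R w0
  | m + 1 => newtSeq Q y w0 c m - c • evP y (newtSeq Q y w0 c m) Q

theorem newt_seq_nat (φ : R →ₐ[ℂ] S) (Q : Polynomial (MvPolynomial (Fin d) ℂ)) (y : Fin d → R)
    (w0 c : ℂ) (m : ℕ) : φ (newtSeq Q y w0 c m) = newtSeq Q (fun i => φ (y i)) w0 c m := by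
  induction m with
  | zero => exact φ.commutes w0
  | succ m ih => rw [newtSeq, newtSeq, map_sub, map_smul, newt_nat, ih]

end alg

section formal

variable {d : ℕ} {Q : Polynomial (MvPolynomial (Fin d) ℂ)} {y0 : Fin d → ℂ} {w0 : ℂ}
  {ι : Polynomial (MvPolynomial (Fin d) ℂ) →ₐ[ℂ] MvPowerSeries (Fin d) ℂ}

theorem newt_iota (h : IsIota Q y0 w0 ι) (P : Polynomial (MvPolynomial (Fin d) ℂ)) :
    ι P = evP (fun i => MvPowerSeries.X i + MvPowerSeries.C (y0 i)) (ι Polynomial.X) P := by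
  have e : ι = evP (fun i => MvPowerSeries.X i + MvPowerSeries.C (y0 i)) (ι Polynomial.X) := by
    refine Polynomial.algHom_ext' (MvPolynomial.algHom_ext fun i => ?_) ?_
    · simpa [evP] using h.map_y i
    · simp [evP]
  exact DFunLike.congr_fun e P

theorem newt_order (h : IsIota Q y0 w0 ι) (hD : evP y0 w0 Q.derivative ≠ 0) (m : ℕ) :
    ((m + 1 : ℕ) : ℕ∞) ≤ (newtSeq Q (fun i => MvPowerSeries.X i + MvPowerSeries.C (y0 i)) w0
      (evP y0 w0 Q.derivative)⁻¹ m - ι Polynomial.X).order := by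
  induction m with
  | zero =>
    refine MvPowerSeries.one_le_order_iff_constCoeff_eq_zero.2 ?_
    rw [map_sub, h.map_w, newtSeq]
    exact sub_self w0
  | succ m ih =>
    rw [newtSeq]
    generalize newtSeq Q (fun i => MvPowerSeries.X i + MvPowerSeries.C (y0 i)) w0
      (evP y0 w0 Q.derivative)⁻¹ m = a at ih ⊢
    obtain ⟨δ, rfl⟩ : ∃ δ, a = ι Polynomial.X + δ := ⟨a - ι Polynomial.X, by ring⟩
    rw [add_sub_cancel_left] at ih
    have h0 : MvPowerSeries.constantCoeff δ = 0 :=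
      MvPowerSeries.one_le_order_iff_constCoeff_eq_zero.1
        (le_trans (by exact_mod_cast Nat.le_add_left 1 m) ih)
    obtain ⟨k, hk⟩ := (Q.map (MvPolynomial.aeval fun i => MvPowerSeries.X i +
      MvPowerSeries.C (y0 i) : MvPolynomial (Fin d) ℂ →ₐ[ℂ] _).toRingHom).binomExpansion
      (ι Polynomial.X) δ
    rw [Polynomial.derivative_map, ← newt_eval, ← newt_eval, ← newt_eval, ← newt_iota h,
      ← newt_iota h, h.map_Q] at hk
    have e : ι Polynomial.X + δ - (evP y0 w0 Q.derivative)⁻¹ •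
        (0 + ι Q.derivative * δ + k * δ ^ 2) - ι Polynomial.X =
        δ * (1 - (evP y0 w0 Q.derivative)⁻¹ • (ι Q.derivative + k * δ)) := by
      simp only [Algebra.smul_def]
      ring
    rw [hk, e, Nat.cast_succ]
    refine (add_le_add ih (MvPowerSeries.one_le_order_iff_constCoeff_eq_zero.2 ?_)).trans
      MvPowerSeries.le_order_mul
    rw [map_sub, map_one, MvPowerSeries.constantCoeff_smul, map_add, map_mul, h0, mul_zero,
      add_zero, h.constantCoeff, smul_eq_mul, inv_mul_cancel₀ hD, sub_self]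

theorem newt_coeff (h : IsIota Q y0 w0 ι) (hD : evP y0 w0 Q.derivative ≠ 0) {O o : ℕ} (ho : o ≤ O)
    {P : Polynomial (MvPolynomial (Fin d) ℂ)} (hP : (o : ℕ∞) ≤ (ι P).order) (α : Fin d →₀ ℕ)
    (hα : α.degree < o) : MvPolynomial.coeff α
      (evP (fun i => MvPolynomial.X i + MvPolynomial.C (y0 i))
        (newtSeq Q (fun i => MvPolynomial.X i + MvPolynomial.C (y0 i)) w0
          (evP y0 w0 Q.derivative)⁻¹ O) P) = 0 := by
  have e : ∀ G : MvPolynomial (Fin d) ℂ, MvPolynomial.coeToMvPowerSeries.algHom ℂ G = G := by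
    intro G
    simp
  rw [← MvPolynomial.coeff_coe, ← e, newt_nat, newt_seq_nat]
  simp only [e, MvPolynomial.coe_add, MvPolynomial.coe_X, MvPolynomial.coe_C]
  have h1 := newt_order h hD O
  generalize newtSeq Q (fun i => MvPowerSeries.X i + MvPowerSeries.C (y0 i)) w0
    (evP y0 w0 Q.derivative)⁻¹ O = a at h1 ⊢
  obtain ⟨k, hk⟩ := Polynomial.sub_dvd_eval_sub a (ι Polynomial.X)
    (P.map (MvPolynomial.aeval fun i => MvPowerSeries.X i +
      MvPowerSeries.C (y0 i) : MvPolynomial (Fin d) ℂ →ₐ[ℂ] _).toRingHom)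
  rw [← newt_eval, ← newt_eval, ← newt_iota h, sub_eq_iff_eq_add] at hk
  rw [hk]
  refine MvPowerSeries.coeff_of_lt_order (lt_of_lt_of_le (by exact_mod_cast hα)
    ((le_min ?_ hP).trans MvPowerSeries.min_order_le_add))
  refine le_trans ?_ ((h1.trans le_self_add).trans MvPowerSeries.le_order_mul)
  exact_mod_cast ho.trans (Nat.le_succ O)

end formal

theorem newt_schwarz {d : ℕ} (G : MvPolynomial (Fin d) ℂ) {o : ℕ}
    (hG : ∀ α : Fin d →₀ ℕ, α.degree < o → MvPolynomial.coeff α G = 0) {M r ρ : ℝ}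
    (hM : ∀ Y : Fin d → ℂ, ‖Y‖ ≤ r → ‖MvPolynomial.aeval Y G‖ ≤ M) {Y : Fin d → ℂ}
    (hY : ‖Y‖ ≤ ρ) (hρ : ρ ≤ r) : ‖MvPolynomial.aeval Y G‖ ≤ M * (ρ / r) ^ o := by
  obtain ⟨g, hg⟩ : ∃ g : ℂ → ℂ, g = fun t => ∑ α ∈ G.support,
    MvPolynomial.coeff α G * (∏ i, Y i ^ α i) * t ^ (α.degree - o) := ⟨_, rfl⟩
  have h1 : ∀ t : ℂ, MvPolynomial.aeval (t • Y) G = t ^ o * g t := by
    intro t
    rw [hg, Finset.mul_sum, MvPolynomial.aeval_def, MvPolynomial.eval₂_eq']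
    refine Finset.sum_congr rfl fun α hα => ?_
    have h2 : o ≤ α.degree := not_lt.1 fun h => MvPolynomial.mem_support_iff.1 hα (hG α h)
    have h3 : t ^ α.degree = t ^ o * t ^ (α.degree - o) := by
      rw [← pow_add, Nat.add_sub_cancel' h2]
    simp only [Pi.smul_apply, smul_eq_mul, mul_pow, Finset.prod_mul_distrib,
      Finset.prod_pow_eq_pow_sum, ← Finsupp.degree_eq_sum, h3, Algebra.algebraMap_self,
      RingHom.id_apply]
    ring
  rcases ((norm_nonneg Y).trans hY).eq_or_lt with rfl | hρ0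
  · rcases Nat.eq_zero_or_pos o with rfl | ho
    · simpa using hM Y (hY.trans hρ)
    · have h2 := h1 0
      rw [zero_smul, ← norm_le_zero_iff.1 hY, zero_pow ho.ne', zero_mul] at h2
      rw [h2, zero_div, zero_pow ho.ne', norm_zero, mul_zero]
  have h2 : Differentiable ℂ g := by
    rw [hg]
    fun_prop
  have h3 : 1 ≤ r / ρ := (one_le_div hρ0).2 hρ
  have h4 : (0 : ℝ) < r / ρ := one_pos.trans_le h3
  have h5 := h1 1
  rw [one_smul, one_pow, one_mul] at h5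
  rw [h5]
  refine Complex.norm_le_of_forall_mem_frontier_norm_le (U := Metric.ball 0 (r / ρ))
    Metric.isBounded_ball h2.diffContOnCl (fun t ht => ?_) ?_
  · rw [frontier_ball _ h4.ne', mem_sphere_zero_iff_norm] at ht
    have h6 := hM (t • Y) (by
      rw [norm_smul, ht]
      exact (mul_le_mul_of_nonneg_left hY h4.le).trans_eq (div_mul_cancel₀ _ hρ0.ne'))
    rw [h1, norm_mul, norm_pow, ht] at h6
    rw [← inv_div r ρ, inv_pow, ← div_eq_mul_inv, le_div_iff₀' (pow_pos h4 o)]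
    exact h6
  · rw [closure_ball _ h4.ne', mem_closedBall_zero_iff, norm_one]
    exact h3

theorem newt_family {d : ℕ} {Λ : Type} [Fintype Λ] (P : Λ → Polynomial (MvPolynomial (Fin d) ℂ))
    (B : ℝ) : ∃ K : ℝ, 0 ≤ K ∧ ∀ c : Λ → ℂ, (∀ l, ‖c l‖ ≤ 1) →
      ∀ (y y' : Fin d → ℂ) (w w' : ℂ), ‖y‖ ≤ B → ‖y'‖ ≤ B → ‖w‖ ≤ B → ‖w'‖ ≤ B →
      ‖evP y w (∑ l, c l • P l)‖ ≤ K ∧ ‖evP y w (∑ l, c l • P l) - evP y' w' (∑ l, c l • P l)‖ ≤
        K * (‖y - y'‖ + ‖w - w'‖) := by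
  choose K hK0 hK using fun l => lipschitz_evP (P l) B
  refine ⟨∑ l, K l, Finset.sum_nonneg fun l _ => hK0 l, fun c hc y y' w w' h1 h2 h3 h4 => ?_⟩
  simp only [map_sum, map_smul, ← Finset.sum_sub_distrib, ← smul_sub, Finset.sum_mul]
  constructor <;> refine norm_sum_le_of_le _ fun l _ => ?_ <;> rw [norm_smul]
  · exact (mul_le_of_le_one_left (norm_nonneg _) (hc l)).trans (hK l y y' w w' h1 h2 h3 h4).1
  · exact (mul_le_of_le_one_left (norm_nonneg _) (hc l)).trans (hK l y y' w w' h1 h2 h3 h4).2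

theorem newt_near {a a0 : ℂ} {B : ℝ} (h0 : ‖a0‖ ≤ B) (h : ‖a - a0‖ ≤ 1) : ‖a‖ ≤ B + 1 :=
  (norm_le_norm_add_norm_sub' a a0).trans (add_le_add h0 h)

theorem newt_iter {d : ℕ} {Q : Polynomial (MvPolynomial (Fin d) ℂ)} {B L Δ lam : ℝ}
    (hL : ∀ (y y' : Fin d → ℂ) (w w' : ℂ), ‖y‖ ≤ B + 1 → ‖y'‖ ≤ B + 1 → ‖w‖ ≤ B + 1 →
      ‖w'‖ ≤ B + 1 → ‖evP y w Q - evP y' w' Q‖ ≤ L * (‖y - y'‖ + ‖w - w'‖))
    (hL0 : 0 ≤ L) (hΔ : 0 < Δ) (hlam : 1 + L / Δ ≤ lam) {y0 y : Fin d → ℂ} {w0 c : ℂ}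
    (hc : ‖c‖ ≤ Δ⁻¹) (hy0 : ‖y0‖ ≤ B) (hw0 : ‖w0‖ ≤ B) (hQ : evP y0 w0 Q = 0) {O : ℕ}
    (hy : lam ^ O * ‖y - y0‖ ≤ 1) {m : ℕ} (hm : m ≤ O) :
    ‖newtSeq Q y w0 c m - w0‖ + ‖y - y0‖ ≤ lam ^ m * ‖y - y0‖ := by
  have h1 : 1 ≤ lam := (le_add_of_nonneg_right (div_nonneg hL0 hΔ.le)).trans hlam
  have h2 : ∀ m ≤ O, lam ^ m * ‖y - y0‖ ≤ 1 := fun m hm =>
    (mul_le_mul_of_nonneg_right (pow_le_pow_right₀ h1 hm) (norm_nonneg _)).trans hy
  have h3 : ‖y‖ ≤ B + 1 := (norm_le_norm_add_norm_sub' y y0).trans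
    (add_le_add hy0 (by simpa using h2 0 (Nat.zero_le O)))
  induction m with
  | zero => simp [newtSeq]
  | succ m ih =>
    have h4 := ih (Nat.le_of_succ_le hm)
    have h5 := h2 m (Nat.le_of_succ_le hm)
    rw [newtSeq]
    generalize newtSeq Q y w0 c m = v at h4 ⊢
    have h6 := hL y y0 v w0 h3 (by linarith) (newt_near hw0 (by linarith [norm_nonneg (y - y0)]))
      (by linarith)
    rw [hQ, sub_zero] at h6
    have h7 : ‖c • evP y v Q‖ ≤ L / Δ * (‖y - y0‖ + ‖v - w0‖) := by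
      rw [norm_smul, div_eq_inv_mul, mul_assoc]
      exact mul_le_mul hc h6 (norm_nonneg _) (inv_nonneg.2 hΔ.le)
    have h8 := norm_sub_le (v - w0) (c • evP y v Q)
    have h9 := mul_le_mul_of_nonneg_right hlam (add_nonneg (norm_nonneg (v - w0))
      (norm_nonneg (y - y0)))
    have h10 := mul_le_mul_of_nonneg_left h4 (zero_le_one.trans h1)
    rw [sub_right_comm, pow_succ', mul_assoc]
    linarith

theorem newt_root {d : ℕ} (Q : Polynomial (MvPolynomial (Fin d) ℂ)) {Δ r : ℝ} {y : Fin d → ℂ}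
    {w0 D w v : ℂ} (hΔ : 0 < Δ) (hD : Δ ≤ ‖D‖)
    (h : ∀ z, ‖z - w0‖ ≤ r → ‖evP y z Q.derivative - D‖ ≤ Δ / 2) (hw : ‖w - w0‖ ≤ r)
    (hv : ‖v - w0‖ ≤ r) : ‖w - v‖ ≤ 2 / Δ * (‖evP y w Q‖ + ‖evP y v Q‖) := by
  have h1 : ∀ z, HasDerivAt (fun z => evP y z Q - D * z) (evP y z Q.derivative - D) z := by
    intro z
    simp only [evP_eq_eval, ← Polynomial.derivative_map]
    exact ((Polynomial.hasDerivAt _ z).fun_sub ((hasDerivAt_id z).const_mul D)).congr_deriv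
      (by rw [mul_one])
  have h2 := (convex_closedBall w0 r).norm_image_sub_le_of_norm_hasDerivWithin_le
    (fun z _ => (h1 z).hasDerivWithinAt) (fun z hz => h z (mem_closedBall_iff_norm.1 hz))
    (mem_closedBall_iff_norm.2 hv) (mem_closedBall_iff_norm.2 hw)
  have h3 : D * (w - v) =
      evP y w Q - evP y v Q - (evP y w Q - D * w - (evP y v Q - D * v)) := by ring
  have h4 := norm_sub_le (evP y w Q - evP y v Q) (evP y w Q - D * w - (evP y v Q - D * v))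
  rw [← h3, norm_mul] at h4
  have h5 := norm_sub_le (evP y w Q) (evP y v Q)
  have h6 := mul_le_mul_of_nonneg_right hD (norm_nonneg (w - v))
  rw [div_mul_eq_mul_div, le_div_iff₀ hΔ]
  linarith

theorem newt_small {d : ℕ} {Q : Polynomial (MvPolynomial (Fin d) ℂ)} {y0 : Fin d → ℂ} {w0 : ℂ}
    {ι : Polynomial (MvPolynomial (Fin d) ℂ) →ₐ[ℂ] MvPowerSeries (Fin d) ℂ}
    (h : IsIota Q y0 w0 ι) (hD : evP y0 w0 Q.derivative ≠ 0) {O o : ℕ} (ho : o ≤ O)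
    {P : Polynomial (MvPolynomial (Fin d) ℂ)} (hP : (o : ℕ∞) ≤ (ι P).order) {M lam ρ : ℝ}
    (hM0 : 0 ≤ M) (hlam : 1 ≤ lam) (hM : ∀ y : Fin d → ℂ, lam ^ O * ‖y - y0‖ ≤ 1 →
      ‖evP y (newtSeq Q y w0 (evP y0 w0 Q.derivative)⁻¹ O) P‖ ≤ M) {y : Fin d → ℂ}
    (hy : ‖y - y0‖ ≤ ρ) (hρ : lam ^ O * ρ ≤ 1) :
    ‖evP y (newtSeq Q y w0 (evP y0 w0 Q.derivative)⁻¹ O) P‖ ≤ M * (lam ^ (O * O) * ρ ^ o) := by
  have e : ∀ Y : Fin d → ℂ, MvPolynomial.aeval Y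
      (evP (fun i => MvPolynomial.X i + MvPolynomial.C (y0 i))
        (newtSeq Q (fun i => MvPolynomial.X i + MvPolynomial.C (y0 i)) w0
          (evP y0 w0 Q.derivative)⁻¹ O) P) =
      evP (Y + y0) (newtSeq Q (Y + y0) w0 (evP y0 w0 Q.derivative)⁻¹ O) P := by
    intro Y
    rw [newt_nat, newt_seq_nat]
    simp only [map_add, MvPolynomial.aeval_X, MvPolynomial.aeval_C, Algebra.algebraMap_self,
      RingHom.id_apply]
    rfl
  have h0 : 0 < lam ^ O := pow_pos (one_pos.trans_le hlam) O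
  have h1 := newt_schwarz _ (newt_coeff h hD ho hP) (M := M) (r := (lam ^ O)⁻¹) (fun Y hY => by
    rw [e]
    refine hM _ ?_
    rwa [add_sub_cancel_right, ← le_inv_mul_iff₀ h0, mul_one]) hy
    (by rwa [← le_inv_mul_iff₀ h0, mul_one] at hρ)
  rw [e, sub_add_cancel, div_inv_eq_mul, mul_pow, ← pow_mul, mul_comm (ρ ^ o)] at h1
  exact h1.trans (mul_le_mul_of_nonneg_left (mul_le_mul_of_nonneg_right
    (pow_le_pow_right₀ hlam (Nat.mul_le_mul_left O ho))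
    (pow_nonneg ((norm_nonneg _).trans hy) o)) hM0)

theorem newt {d : ℕ} (Q : Polynomial (MvPolynomial (Fin d) ℂ)) {Λ : Type} [Fintype Λ]
    (P : Λ → Polynomial (MvPolynomial (Fin d) ℂ)) (B : ℝ) (O : ℕ) :
    ∃ (K : ℝ) (E : ℕ), 1 ≤ K ∧ ∀ y0 w0 ι, IsIota Q y0 w0 ι → ∀ (Δ ρ ε : ℝ) (y : Fin d → ℂ) (w : ℂ),
      0 < Δ → Δ ≤ 1 → Δ ≤ ‖evP y0 w0 Q.derivative‖ → ‖y0‖ ≤ B → ‖w0‖ ≤ B → ‖y - y0‖ ≤ ρ →
      K * ρ ≤ Δ ^ E → K * ‖w - w0‖ ≤ Δ ^ E → ‖evP y w Q‖ ≤ ε →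
      ∀ c : Λ → ℂ, (∀ l, ‖c l‖ ≤ 1) → ∀ o ≤ O, (o : ℕ∞) ≤ (ι (∑ l, c l • P l)).order →
        ‖evP y w (∑ l, c l • P l)‖ ≤ K / Δ ^ E * (ρ ^ o + ε) := by
  obtain ⟨L, hL0, hL⟩ := lipschitz_evP Q (B + 1)
  obtain ⟨L', hL0', hL'⟩ := lipschitz_evP Q.derivative (B + 1)
  obtain ⟨M, hM0, hM⟩ := newt_family P (B + 1)
  obtain ⟨T, hT⟩ : ∃ T, T = 1 + L + 4 * L' + M := ⟨_, rfl⟩
  have hT1 : 1 ≤ T := by linarith
  refine ⟨3 * T ^ (O * O + O + 3), O * O + O + 3, by linarith [one_le_pow₀ (n := O * O + O + 3) hT1],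
    fun y0 w0 ι hι Δ ρ ε y w hΔ hΔ1 hD hy0 hw0 hy hρ hw hε c hc o ho hP => ?_⟩
  obtain ⟨lam, hlam⟩ : ∃ lam, lam = T / Δ := ⟨_, rfl⟩
  have a0 : lam * Δ = T := by rw [hlam, div_mul_cancel₀ _ hΔ.ne']
  have a1 : T ≤ lam := by
    rw [hlam]
    exact le_div_self (zero_le_one.trans hT1) hΔ hΔ1
  have a2 : 1 ≤ lam := hT1.trans a1
  have a3 : 1 + L / Δ ≤ lam := by
    rw [hlam, ← div_self hΔ.ne', ← add_div]
    exact div_le_div_of_nonneg_right (by linarith) hΔ.le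
  have a4 : 2 / Δ ≤ 2 * lam := by
    rw [hlam, ← mul_div_assoc]
    exact div_le_div_of_nonneg_right (by linarith) hΔ.le
  have a5 : ∀ {x : ℝ}, 0 ≤ x → 3 * T ^ (O * O + O + 3) * x ≤ Δ ^ (O * O + O + 3) →
      ∀ m ≤ O + 1, lam ^ m * x ≤ 1 := by
    intro x hx h m hm
    have b1 : lam ^ (O * O + O + 3) * x ≤ 1 := by
      rw [hlam, div_pow, div_mul_eq_mul_div, div_le_one (pow_pos hΔ _)]
      linarith [mul_nonneg (pow_nonneg (zero_le_one.trans hT1) (O * O + O + 3)) hx]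
    exact (mul_le_mul_of_nonneg_right (pow_le_pow_right₀ a2 (by omega)) hx).trans b1
  have hρ0 : 0 ≤ ρ := (norm_nonneg _).trans hy
  have hε0 : 0 ≤ ε := (norm_nonneg _).trans hε
  have a6 := a5 hρ0 hρ
  have a7 := a5 (norm_nonneg _) hw
  have hD0 : evP y0 w0 Q.derivative ≠ 0 := norm_pos_iff.1 (hΔ.trans_le hD)
  have hQ : evP y0 w0 Q = 0 := by rw [← hι.constantCoeff, hι.map_Q, map_zero]
  have it : ∀ y : Fin d → ℂ, lam ^ O * ‖y - y0‖ ≤ 1 →
      ‖newtSeq Q y w0 (evP y0 w0 Q.derivative)⁻¹ O - w0‖ + ‖y - y0‖ ≤ lam ^ O * ‖y - y0‖ :=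
    fun y hy => newt_iter (fun y y' w w' h1 h2 h3 h4 => (hL y y' w w' h1 h2 h3 h4).2) hL0 hΔ a3
      (by rw [norm_inv]; exact inv_anti₀ hΔ hD) hy0 hw0 hQ hy le_rfl
  have bd : ∀ y : Fin d → ℂ, lam ^ O * ‖y - y0‖ ≤ 1 →
      ‖y‖ ≤ B + 1 ∧ ‖newtSeq Q y w0 (evP y0 w0 Q.derivative)⁻¹ O‖ ≤ B + 1 := by
    intro y hy
    have b1 := (it y hy).trans hy
    exact ⟨(norm_le_norm_add_norm_sub' y y0).trans (add_le_add hy0
      ((le_add_of_nonneg_left (norm_nonneg _)).trans b1)),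
      newt_near hw0 ((le_add_of_nonneg_right (norm_nonneg _)).trans b1)⟩
  have hO : 0 ≤ lam ^ O := pow_nonneg (zero_le_one.trans a2) O
  have hyO : lam ^ O * ‖y - y0‖ ≤ lam ^ O * ρ := mul_le_mul_of_nonneg_left hy hO
  have hy1 := hyO.trans (a6 O (Nat.le_succ O))
  have s1 := newt_small hι hD0 ho hP hM0 a2 (fun y hy =>
    (hM c hc y y _ _ (bd y hy).1 (bd y hy).1 (bd y hy).2 (bd y hy).2).1) hy (a6 O (Nat.le_succ O))
  have s2 := newt_small hι hD0 ho (P := Q)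
    (by rw [hι.map_Q, MvPowerSeries.order_zero]; exact le_top) hL0 a2 (fun y hy =>
    (hL y y _ _ (bd y hy).1 (bd y hy).1 (bd y hy).2 (bd y hy).2).1) hy (a6 O (Nat.le_succ O))
  have s3 := it y hy1
  obtain ⟨s4, s5⟩ := bd y hy1
  generalize newtSeq Q y w0 (evP y0 w0 Q.derivative)⁻¹ O = v at s1 s2 s3 s5
  have hl0 : 0 < lam := one_pos.trans_le a2
  have r1 : ∀ {x : ℝ}, lam * x ≤ 1 → x ≤ lam⁻¹ := fun h => by
    rwa [← le_inv_mul_iff₀ hl0, mul_one] at h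
  have r2 : lam⁻¹ ≤ 1 := inv_le_one_of_one_le₀ a2
  have r3 : ‖w - w0‖ ≤ lam⁻¹ := r1 (by simpa using a7 1 (by omega))
  have r4 : ‖y - y0‖ ≤ lam⁻¹ := hy.trans (r1 (by simpa using a6 1 (by omega)))
  have r5 : ‖v - w0‖ ≤ lam⁻¹ := by
    refine ((le_add_of_nonneg_right (norm_nonneg _)).trans s3).trans (hyO.trans (r1 ?_))
    rw [← mul_assoc, ← pow_succ']
    exact a6 _ le_rfl
  have r6 : L' * (lam⁻¹ + lam⁻¹) ≤ Δ / 2 := by
    rw [← two_mul, ← mul_assoc, ← div_eq_mul_inv, div_le_div_iff₀ hl0 two_pos, mul_comm Δ, a0]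
    linarith
  have s6 := newt_root Q hΔ hD (y := y) (fun z hz => ((hL' y y0 z w0 s4 (by linarith)
    (newt_near hw0 (hz.trans r2)) (by linarith)).2.trans
    (mul_le_mul_of_nonneg_left (add_le_add r4 hz) hL0')).trans r6) r3 r5
  have s7 := (hM c hc y y w v s4 s4 (newt_near hw0 (r3.trans r2)) s5).2
  rw [sub_self, norm_zero, zero_add] at s7
  have s8 := norm_le_norm_add_norm_sub' (evP y w (∑ l, c l • P l)) (evP y v (∑ l, c l • P l))
  rw [mul_div_assoc, ← div_pow, ← hlam]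
  have hX : 0 ≤ lam ^ (O * O) * ρ ^ o := mul_nonneg (pow_nonneg hl0.le _) (pow_nonneg hρ0 _)
  have t1 : ‖evP y w Q‖ + ‖evP y v Q‖ ≤ ε + lam * (lam ^ (O * O) * ρ ^ o) :=
    add_le_add hε (s2.trans (mul_le_mul_of_nonneg_right (by linarith) hX))
  have t2 : ‖w - v‖ ≤ 2 * lam * (ε + lam * (lam ^ (O * O) * ρ ^ o)) :=
    s6.trans (mul_le_mul a4 t1 (add_nonneg (norm_nonneg _) (norm_nonneg _)) (by positivity))
  have t3 : M * ‖w - v‖ ≤ lam * (2 * lam * (ε + lam * (lam ^ (O * O) * ρ ^ o))) :=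
    mul_le_mul (by linarith) t2 (norm_nonneg _) hl0.le
  have t4 : M * (lam ^ (O * O) * ρ ^ o) ≤ lam * (lam ^ (O * O) * ρ ^ o) :=
    mul_le_mul_of_nonneg_right (by linarith) hX
  have t5 : ∀ m ≤ O * O + O + 3, lam ^ m ≤ lam ^ (O * O + O + 3) := fun m hm =>
    pow_le_pow_right₀ a2 hm
  have t6 := mul_le_mul_of_nonneg_right (t5 (O * O + 1) (by omega)) (pow_nonneg hρ0 o)
  have t7 := mul_le_mul_of_nonneg_right (t5 (O * O + 3) (by omega)) (pow_nonneg hρ0 o)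
  have t8 := mul_le_mul_of_nonneg_right (t5 2 (by omega)) hε0
  have t9 := mul_nonneg (pow_nonneg hl0.le (O * O + O + 3)) hε0
  rw [pow_add lam (O * O) 1] at t6
  rw [pow_add lam (O * O) 3] at t7
  linarith

end Vale.Agent.P271
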