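import Vale.Agent.P271.DStB
import Vale.Agent.P271.Newt

/-! The pointwise estimate for the refined valuation.

Hints. Let `𝒜 = V '' O J` (finite). For `a ∈ 𝒜` choose a linear projection `pr a : R →ₗ R` onto
`O J ⊓ ball a` that is the identity there (`LinearMap.exists_extend` or `Submodule.exists_isCompl`), put
`g' a l = pr a (g l)` and `rem a l = aeval y (M.g a) * g' a l - ∑ l', evP y w (M.Φ a (g' a l) l') * M.e a l'`.
Let `S` contain `evP y w Q`, `evP y w Q'`, and for `a ∈ 𝒜` all `aeval y (M.g a)`, `M.e a l'`, `g' a l`,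
`rem a l`. Eventually in `s`: `V (rem a l) ≤ a * exp (-s O)` for `a > 0` and
`V (evP y w Q) ≤ exp (-s O) / 1` (all are strict inequalities at `s = 0`). If `v = ∑ c l • g l` has
`V v ≤ a` then `v = ∑ c l • g' a l`. For `a = 0`: `‖ev v p‖ ≤ card Λ * δ1 ^ (T / 2)`. For `a > 0`:
`aeval y (g a) * v = ∑ l', evP y w (∑ c l • Φ a (g' a l) l') * e a l' + ∑ c l • rem a l`; apply `newt`
(one family `P` indexed by `Λ` for each `(a, l')`, or take the maximum of the finitely many constants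
`K`, `E`) with `Δ = exp (-δ1 T / 2) / 2`, `ρ = exp (-s T / 2)`, `ε = (exp (-s O) + δ1) ^ (T / 2)` and
`est_disc`. With `x = exp (-s o) ≥ exp (-s O)` everything is bounded by
`K' * exp ((E + 1) δ1 T) * ((x + δ1) (a + δ1) + δ1) ^ T ≤ (a x + δ) ^ T` for `δ1` small and `T ≥ 1 / δ1`
(finitely many pairs `(a, o)`; see `final_absorb`). -/

open Set Filter Topology

noncomputable section

namespace Vale.Agent.P271.Core

variable {Y R : Type} [CommRing R] [Algebra ℂ R] {C : Core Y R} {V : R → ℝ} {b : ℝ} {d : ℕ}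
  {y : Fin d → R} {w : R} {Q : Polynomial (MvPolynomial (Fin d) ℂ)} {J : ℕ}

theorem final_absorb (K E : ℝ) {δ : ℝ} (hδ : 0 < δ) :
    ∃ δ0 > (0 : ℝ), ∀ δ1, 0 < δ1 → δ1 ≤ δ0 → ∀ T, 1 / δ1 ≤ T → ∀ u : ℝ, 0 ≤ u → u ≤ 1 →
      K * Real.exp (E * δ1 * T) * (u + 3 * δ1) ^ T ≤ (u + δ) ^ T := by
  have hq : 1 < (1 + δ) / (1 + δ / 2) := by
    rw [lt_div_iff₀ (by positivity)]; linarith
  set q := (1 + δ) / (1 + δ / 2) with hqd
  have hq0 : 0 < q := lt_trans one_pos hq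
  obtain ⟨δ', hδ', h⟩ := exp_small (Real.log_pos hq) K E one_pos
  refine ⟨min δ' (δ / 6), lt_min hδ' (by positivity), fun δ1 h0 h1 T hT u hu hu1 => ?_⟩
  have hT0 : 0 ≤ T := le_trans (by positivity) hT
  have h2 := h δ1 h0 (h1.trans (min_le_left _ _)) T hT
  have h3 : δ1 ≤ δ / 6 := h1.trans (min_le_right _ _)
  have h4 : K * Real.exp (E * δ1 * T) ≤ q ^ T := by
    rw [Real.rpow_def_of_pos hq0]
    have h5 := mul_le_mul_of_nonneg_right h2
      (Real.exp_pos (Real.log q * T + E * δ1 * T)).le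
    rw [one_mul, mul_assoc, ← Real.exp_add, ← Real.exp_add] at h5
    have e1 : -Real.log q * T + (Real.log q * T + E * δ1 * T) = E * δ1 * T := by ring
    have e2 : -E * δ1 * T + (Real.log q * T + E * δ1 * T) = Real.log q * T := by ring
    rwa [e1, e2] at h5
  have h6 : q * (u + 3 * δ1) ≤ u + δ := by
    have h7 : q * (u + δ / 2) ≤ u + δ := by
      rw [hqd, div_mul_eq_mul_div, div_le_iff₀ (by positivity)]
      nlinarith
    exact le_trans (mul_le_mul_of_nonneg_left (by linarith) hq0.le) h7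
  calc K * Real.exp (E * δ1 * T) * (u + 3 * δ1) ^ T ≤ q ^ T * (u + 3 * δ1) ^ T :=
        mul_le_mul_of_nonneg_right h4 (Real.rpow_nonneg (by positivity) _)
    _ = (q * (u + 3 * δ1)) ^ T := (Real.mul_rpow hq0.le (by positivity)).symm
    _ ≤ (u + δ) ^ T := Real.rpow_le_rpow (by positivity) h6 hT0

theorem dstc_iff {P : ℝ → Prop} :
    (∀ᶠ δ1 in 𝓝[>] (0 : ℝ), P δ1) ↔ ∃ δ0 > (0 : ℝ), ∀ δ1, 0 < δ1 → δ1 ≤ δ0 → P δ1 := by
  constructor
  · intro h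
    obtain ⟨u, hu, h⟩ := mem_nhdsGT_iff_exists_Ioc_subset.1 h
    exact ⟨u, hu, fun δ1 h0 h1 => h ⟨h0, h1⟩⟩
  · rintro ⟨u, hu, h⟩
    exact mem_nhdsGT_iff_exists_Ioc_subset.2 ⟨u, hu, fun δ1 h1 => h δ1 h1.1 h1.2⟩

theorem dstc_ev {x a : ℝ} (h : x < a) (O : ℕ) :
    ∀ᶠ s in 𝓝[>] (0 : ℝ), x ≤ a * Real.exp (-s * O) := by
  have h1 : Continuous fun s : ℝ => a * Real.exp (-s * O) := by fun_prop
  have h2 : Tendsto (fun s : ℝ => a * Real.exp (-s * O)) (𝓝 0) (𝓝 a) := by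
    simpa using h1.tendsto 0
  exact ((h2.eventually (lt_mem_nhds h)).mono fun _ hs => hs.le).filter_mono nhdsWithin_le_nhds

theorem dstc_proj (U : Submodule ℂ R) {Λ : Type} [Fintype Λ] (g : Λ → R) :
    ∃ g' : Λ → R, (∀ l, g' l ∈ U) ∧
      ∀ c : Λ → ℂ, ∑ l, c l • g l ∈ U → ∑ l, c l • g l = ∑ l, c l • g' l := by
  obtain ⟨π, hπ⟩ := LinearMap.exists_leftInverse_of_injective U.subtype U.ker_subtype
  refine ⟨fun l => π (g l), fun l => (π (g l)).2, fun c hc => ?_⟩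
  have h1 : π (∑ l, c l • g l) = ⟨_, hc⟩ := LinearMap.congr_fun hπ ⟨_, hc⟩
  have h2 := congrArg Subtype.val h1
  rw [map_sum] at h2
  simpa using h2.symm

theorem Wit.dstc_mono {S S' : Finset R} {δ T : ℝ} {p : Y} (h : C.Wit V S' δ T p) (hS : S ⊆ S') :
    C.Wit V S δ T p := ⟨h.1, fun f hf => h.2 f (hS hf)⟩

theorem dstc_half {z T : ℝ} (hz : 0 ≤ z) : (z ^ (T / 2)) ^ 2 = z ^ T := by
  rw [← Real.rpow_natCast, ← Real.rpow_mul hz]
  congr 1
  push_cast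
  ring

theorem Wit.dstc_le (hV : C.IsVal V b) {S : Finset R} {δ T : ℝ} {p : Y} (h : C.Wit V S δ T p)
    (hδ : 0 < δ) (hT : 0 ≤ T) {f : R} (hf : f ∈ S) {z : ℝ} (hz : V f + δ ≤ z) :
    ‖C.ev f p‖ ≤ z ^ (T / 2) := by
  have h0 : 0 ≤ V f + δ := add_nonneg (hV.na.nonneg f) hδ.le
  have h1 : 0 ≤ z := h0.trans hz
  rw [← sq_le_sq₀ (norm_nonneg _) (Real.rpow_nonneg h1 _), dstc_half h1]
  exact (h.2 f hf).1.trans (Real.rpow_le_rpow h0 hz hT)

theorem Wit.dstc_ge {S : Finset R} {δ T : ℝ} {p : Y} (h : C.Wit V S δ T p)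
    {f : R} (hf : f ∈ S) (h1 : V f = 1) : Real.exp (-δ * T / 2) ≤ ‖C.ev f p‖ := by
  rw [← sq_le_sq₀ (Real.exp_pos _).le (norm_nonneg _), sq, ← Real.exp_add]
  have e : -δ * T / 2 + -δ * T / 2 = -δ * T := by ring
  rw [e]
  exact (h.2 f hf).2 h1

theorem dstc_sum {Λ : Type} [Fintype Λ] (f : Λ → R) {c : Λ → ℂ} (hc : ∀ l, ‖c l‖ ≤ 1) (p : Y)
    {Z : ℝ} (h : ∀ l, ‖C.ev (f l) p‖ ≤ Z) :
    ‖C.ev (∑ l, c l • f l) p‖ ≤ Fintype.card Λ * Z := by
  rw [map_sum, Finset.sum_apply]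
  refine (norm_sum_le _ _).trans ?_
  have h1 : ∀ l ∈ (Finset.univ : Finset Λ), ‖C.ev (c l • f l) p‖ ≤ Z := fun l _ => by
    rw [map_smul, Pi.smul_apply, norm_smul]
    exact (mul_le_of_le_one_left (norm_nonneg _) (hc l)).trans (h l)
  simpa using Finset.sum_le_card_nsmul _ _ _ h1

/-- The estimate for one value `a`. -/
def DstcEst (M : C.ModData V y w Q J) {Λ : Type} [Fintype Λ] (g : Λ → R) (O : ℕ) (a : ℝ)
    (S : Finset R) (s δ δ1 : ℝ) : Prop :=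
  ∀ T, 1 / δ1 ≤ T → ∀ p y0 w0, C.Wit V S δ1 T p →
    C.Cell y w Q (Real.exp (-s * T / 2)) y0 w0 p →
    ∀ ι, IsIota Q y0 w0 ι → ∀ o ≤ O, ∀ c : Λ → ℂ, (∀ l, ‖c l‖ ≤ 1) →
      V (∑ l, c l • g l) ≤ a →
      (0 < a → ∀ l', (o : ℕ∞) ≤ (ι (M.Φ a (∑ l, c l • g l) l')).order) →
      ‖C.ev (∑ l, c l • g l) p‖ ^ 2 ≤ (a * Real.exp (-s * o) + δ) ^ T

theorem dstc_zero (hV : C.IsVal V b) (M : C.ModData V y w Q J)
    {Λ : Type} [Fintype Λ] {g : Λ → R} (O : ℕ) :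
    ∃ S : Finset R, ∀ᶠ s in 𝓝[>] (0 : ℝ), ∀ δ > (0 : ℝ), ∀ᶠ δ1 in 𝓝[>] (0 : ℝ),
      DstcEst M g O 0 S s δ δ1 := by
  classical
  obtain ⟨g', hg', hs⟩ := dstc_proj (hV.na.ball 0 le_rfl) g
  refine ⟨Finset.univ.image g', Eventually.of_forall fun s δ hδ => ?_⟩
  filter_upwards [dstc_iff.2 (final_absorb ((Fintype.card Λ : ℝ) ^ 2) 0 hδ),
    self_mem_nhdsWithin] with δ1 h1 h0
  intro T hT p y0 w0 hw _ ι _ o _ c hc hv _
  have h0' : 0 < δ1 := h0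
  have hT0 : 0 ≤ T := le_trans (by positivity) hT
  have h2 : ‖C.ev (∑ l, c l • g l) p‖ ≤ Fintype.card Λ * (0 + 3 * δ1) ^ (T / 2) := by
    rw [hs c hv]
    refine dstc_sum g' hc p fun l => hw.dstc_le hV h0' hT0 (Finset.mem_image_of_mem _
      (Finset.mem_univ l)) ?_
    have : V (g' l) ≤ 0 := hg' l
    linarith
  have h3 := h1 T hT 0 le_rfl zero_le_one
  rw [zero_mul, zero_mul, Real.exp_zero, mul_one] at h3
  rw [zero_mul]
  refine le_trans ?_ h3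
  rw [← dstc_half (T := T) (by positivity : (0 : ℝ) ≤ 0 + 3 * δ1), ← mul_pow]
  exact pow_le_pow_left₀ (norm_nonneg _) h2 2

theorem dstc_ident (M : C.ModData V y w Q J) {Λ : Type} [Fintype Λ] (g : Λ → R) (a : ℝ)
    (c : Λ → ℂ) :
    MvPolynomial.aeval y (M.g a) * ∑ l, c l • g l =
      ∑ l', evP y w (M.Φ a (∑ l, c l • g l) l') * M.e a l' +
        ∑ l, c l • (MvPolynomial.aeval y (M.g a) * g l -
          ∑ l', evP y w (M.Φ a (g l) l') * M.e a l') := by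
  simp only [map_sum, map_smul, Finset.sum_apply, Pi.smul_apply, smul_sub, Finset.sum_sub_distrib,
    Finset.mul_sum, Finset.sum_mul, Finset.smul_sum, mul_smul_comm, smul_mul_assoc]
  rw [Finset.sum_comm]
  ring

theorem dstc_num {A G K m n δ1 T Z : ℝ} {E : ℕ} (hA : 0 ≤ A) (hK : 1 ≤ K) (hm : 0 ≤ m)
    (hn : 0 ≤ n) (hZ : 0 ≤ Z) (h0 : 0 ≤ δ1 * T) (hG : Real.exp (-δ1 * T / 2) ≤ G)
    (h : G * A ≤ m * (K / (Real.exp (-δ1 * T / 2) / 2) ^ E * (2 * Z)) + n * Z) :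
    A ^ 2 ≤ ((2 * m * K + n) * 2 ^ E) ^ 2 * Real.exp (((E : ℝ) + 1) * δ1 * T) * Z ^ 2 := by
  set X := Real.exp (δ1 * T / 2) with hX
  have hX1 : 1 ≤ X := Real.one_le_exp (by linarith)
  have hX0 : 0 < X := lt_of_lt_of_le one_pos hX1
  have e1 : Real.exp (-δ1 * T / 2) = X⁻¹ := by
    rw [hX, ← Real.exp_neg]; congr 1; ring
  have e2 : Real.exp (((E : ℝ) + 1) * δ1 * T) = (X ^ (E + 1)) ^ 2 := by
    rw [hX, ← Real.exp_nat_mul, ← Real.exp_nat_mul]; congr 1; push_cast; ring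
  have e3 : K / (X⁻¹ / 2) ^ E = K * (2 * X) ^ E := by
    rw [div_eq_mul_inv K, ← inv_pow]; congr 2; field_simp
  rw [e1] at hG
  rw [e1, e3] at h
  have h1 : 1 ≤ (2 * X) ^ E := one_le_pow₀ (by linarith)
  have h2 : X⁻¹ * A ≤ (2 * m * K + n) * (2 * X) ^ E * Z := by
    have h3 : n * Z ≤ n * Z * (2 * X) ^ E := le_mul_of_one_le_right (mul_nonneg hn hZ) h1
    have h4 := mul_le_mul_of_nonneg_right hG hA
    nlinarith
  have h5 : A ≤ (2 * m * K + n) * 2 ^ E * X ^ (E + 1) * Z := by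
    rw [inv_mul_le_iff₀ hX0] at h2
    refine h2.trans (le_of_eq ?_)
    rw [mul_pow, pow_succ]
    ring
  rw [e2, ← mul_pow, ← mul_pow]
  exact pow_le_pow_left₀ hA h5 2

theorem dstc_pos (hV : C.IsVal V b) (hc : C.Centre V y w Q) (M : C.ModData V y w Q J)
    {Λ : Type} [Fintype Λ] {g : Λ → R} (hg : ∀ l, g l ∈ C.O J) (O : ℕ) {a : ℝ} (ha : 0 < a)
    (ha1 : a ≤ 1) :
    ∃ S : Finset R, ∀ᶠ s in 𝓝[>] (0 : ℝ), ∀ δ > (0 : ℝ), ∀ᶠ δ1 in 𝓝[>] (0 : ℝ),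
      DstcEst M g O a S s δ δ1 := by
  classical
  obtain ⟨g', hg', hs⟩ := dstc_proj (C.O J ⊓ hV.na.ball a ha.le) g
  obtain ⟨B, hB⟩ := est_disc hV hc
  obtain ⟨K, E, hK, hN⟩ := newt Q
    (fun x : Λ × Fin (Module.finrank ℂ (C.O J)) => M.Φ a (g' x.1) x.2) B O
  set rem : Λ → R := fun l => MvPolynomial.aeval y (M.g a) * g' l -
    ∑ l', evP y w (M.Φ a (g' l) l') * M.e a l' with hrem
  have hr : ∀ l, V (rem l) < a := fun l => M.rem a ha _ (hg' l).1 (hg' l).2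
  have hQ : V (evP y w Q) < 1 := (hc.ker Q).2 dvd_rfl
  refine ⟨{evP y w Q, evP y w Q.derivative, MvPolynomial.aeval y (M.g a)} ∪
    (Finset.univ.image (M.e a) ∪ Finset.univ.image rem), ?_⟩
  filter_upwards [hB, dstc_ev hQ O, eventually_all.2 fun l => dstc_ev (hr l) O,
    self_mem_nhdsWithin] with s h1 h2 h3 hs0 δ hδ
  have hs0' : 0 < s := hs0
  filter_upwards [dstc_iff.2 (h1 K E), dstc_iff.2 (final_absorb (((2 * (Fintype.card
    (Fin (Module.finrank ℂ (C.O J))) : ℝ) * K + Fintype.card Λ) * 2 ^ E) ^ 2) ((E : ℝ) + 1) hδ),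
    self_mem_nhdsWithin, dstc_iff.2 ⟨1, one_pos, fun δ1 _ h => h⟩] with δ1 h4 h5 h0 hδ1
  intro T hT p y0 w0 hw hcell ι hι o ho c hcl hv hord
  have h0' : 0 < δ1 := h0
  have hT0 : 0 ≤ T := le_trans (by positivity) hT
  obtain ⟨d1, d2, d3, d4, d5⟩ := h4 T hT _ (by simp) (by simp) p y0 w0 hw hcell
  set x := Real.exp (-s * o) with hx
  have hx0 : 0 < x := Real.exp_pos _
  have hx1 : x ≤ 1 := Real.exp_le_one_iff.2 (by
    have : 0 ≤ s * o := by positivity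
    linarith)
  have hxO : Real.exp (-s * O) ≤ x := Real.exp_le_exp.2 (by
    have h6 : (o : ℝ) ≤ O := by exact_mod_cast ho
    nlinarith)
  have hmem : ∑ l, c l • g l ∈ C.O J ⊓ hV.na.ball a ha.le :=
    ⟨Submodule.sum_mem _ fun l _ => Submodule.smul_mem _ _ (hg l), hv⟩
  rw [hs c hmem] at hord ⊢
  have hZ0 : 0 ≤ a * x + 3 * δ1 := by positivity
  have hQp : ‖evP (fun i => C.ev (y i) p) (C.ev w p) Q‖ ≤ (x + δ1) ^ (T / 2) := by
    rw [← ev_evP]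
    exact hw.dstc_le hV h0' hT0 (by simp) (by linarith)
  have hρ : Real.exp (-s * T / 2) ^ o ≤ (x + δ1) ^ (T / 2) := by
    have e : Real.exp (-s * T / 2) ^ o = x ^ (T / 2) := by
      rw [hx, ← Real.exp_mul, ← Real.exp_nat_mul]; congr 1; ring
    rw [e]
    exact Real.rpow_le_rpow hx0.le (by linarith) (by linarith)
  have hΔ1 : Real.exp (-δ1 * T / 2) / 2 ≤ 1 := by
    have h6 : Real.exp (-δ1 * T / 2) ≤ 1 := Real.exp_le_one_iff.2 (by
      have : 0 ≤ δ1 * T := by positivity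
      linarith)
    linarith
  have hKΔ : 0 ≤ K / (Real.exp (-δ1 * T / 2) / 2) ^ E := by positivity
  have hP : ∀ l', ‖C.ev (evP y w (M.Φ a (∑ l, c l • g' l) l') * M.e a l') p‖ ≤
      K / (Real.exp (-δ1 * T / 2) / 2) ^ E * (2 * (a * x + 3 * δ1) ^ (T / 2)) := by
    intro l'
    have e : ∑ z : Λ × Fin (Module.finrank ℂ (C.O J)),
        (if z.2 = l' then c z.1 else 0) • M.Φ a (g' z.1) z.2 = M.Φ a (∑ l, c l • g' l) l' := by
      rw [Fintype.sum_prod_type]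
      simp [ite_smul]
    have h6 := hN y0 w0 ι hι _ _ _ (fun i => C.ev (y i) p) (C.ev w p) (by positivity) hΔ1 d1 d2 d3
      hcell.2.1 d4 d5 hQp (fun z => if z.2 = l' then c z.1 else 0)
      (fun z => by
        by_cases hz : z.2 = l'
        · simpa [hz] using hcl z.1
        · simp [hz]) o ho (by rw [e]; exact hord ha l')
    rw [e] at h6
    have h7 : ‖C.ev (M.e a l') p‖ ≤ (a + δ1) ^ (T / 2) :=
      hw.dstc_le hV h0' hT0 (by simp) (by linarith [M.e_le a ha l'])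
    have h8 : (x + δ1) ^ (T / 2) * (a + δ1) ^ (T / 2) ≤ (a * x + 3 * δ1) ^ (T / 2) := by
      rw [← Real.mul_rpow (by positivity) (by positivity)]
      exact Real.rpow_le_rpow (by positivity) (by nlinarith) (by linarith)
    rw [map_mul, Pi.mul_apply, norm_mul, ev_evP]
    calc _ ≤ K / (Real.exp (-δ1 * T / 2) / 2) ^ E * (2 * (x + δ1) ^ (T / 2)) *
          (a + δ1) ^ (T / 2) :=
          mul_le_mul (h6.trans (mul_le_mul_of_nonneg_left (by linarith) hKΔ)) h7 (norm_nonneg _)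
            (by positivity)
      _ = K / (Real.exp (-δ1 * T / 2) / 2) ^ E *
          (2 * ((x + δ1) ^ (T / 2) * (a + δ1) ^ (T / 2))) := by ring
      _ ≤ _ := mul_le_mul_of_nonneg_left (by linarith) hKΔ
  have hR : ‖C.ev (∑ l, c l • rem l) p‖ ≤ Fintype.card Λ * (a * x + 3 * δ1) ^ (T / 2) := by
    refine dstc_sum rem hcl p fun l => hw.dstc_le hV h0' hT0 (by simp) ?_
    have h6 := h3 l
    have h7 := mul_le_mul_of_nonneg_left hxO ha.le
    linarith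
  have hG := hw.dstc_ge (f := MvPolynomial.aeval y (M.g a)) (by simp)
    (hc.aeval_eq_one hV (M.g_ne a))
  have hmain : ‖C.ev (MvPolynomial.aeval y (M.g a)) p‖ * ‖C.ev (∑ l, c l • g' l) p‖ ≤
      (Fintype.card (Fin (Module.finrank ℂ (C.O J))) : ℝ) *
        (K / (Real.exp (-δ1 * T / 2) / 2) ^ E * (2 * (a * x + 3 * δ1) ^ (T / 2))) +
        Fintype.card Λ * (a * x + 3 * δ1) ^ (T / 2) := by
    rw [← norm_mul, ← Pi.mul_apply, ← map_mul, dstc_ident M g' a c, map_add, Pi.add_apply]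
    refine (norm_add_le _ _).trans (add_le_add ?_ hR)
    have h6 := dstc_sum (C := C) (fun l' => evP y w (M.Φ a (∑ l, c l • g' l) l') * M.e a l')
      (c := fun _ => 1) (fun _ => by simp) p hP
    simpa only [one_smul] using h6
  have h9 := dstc_num (norm_nonneg _) hK (by positivity) (by positivity)
    (Real.rpow_nonneg hZ0 _) (by positivity) hG hmain
  rw [dstc_half hZ0] at h9
  exact h9.trans (h5 T hT (a * x) (by positivity) (by nlinarith))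

theorem dstep_est (hV : C.IsVal V b) (hc : C.Centre V y w Q) (M : C.ModData V y w Q J)
    {Λ : Type} [Fintype Λ] {g : Λ → R} (hg : ∀ l, g l ∈ C.O J) {O : ℕ} :
    ∃ S : Finset R, ∀ᶠ s in 𝓝[>] (0 : ℝ), ∀ δ > (0 : ℝ), ∃ δ0 > (0 : ℝ), ∀ δ1, 0 < δ1 → δ1 ≤ δ0 →
      ∀ T, 1 / δ1 ≤ T → ∀ p y0 w0, C.Wit V S δ1 T p →
        C.Cell y w Q (Real.exp (-s * T / 2)) y0 w0 p → evP y0 w0 Q.derivative ≠ 0 ∧
        ∀ ι, IsIota Q y0 w0 ι → ∀ f0 ∈ C.O J, ∀ o ≤ O, ∀ c : Λ → ℂ, (∀ l, ‖c l‖ ≤ 1) →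
          V (∑ l, c l • g l) ≤ V f0 →
          (0 < V f0 → ∀ l', (o : ℕ∞) ≤ (ι (M.Φ (V f0) (∑ l, c l • g l) l')).order) →
          ‖C.ev (∑ l, c l • g l) p‖ ^ 2 ≤ (V f0 * Real.exp (-s * o) + δ) ^ T := by
  classical
  have hfin := hV.na.finite_values (C.O J)
  have key : ∀ a : hfin.toFinset, ∃ S : Finset R, ∀ᶠ s in 𝓝[>] (0 : ℝ), ∀ δ > (0 : ℝ),
      ∀ᶠ δ1 in 𝓝[>] (0 : ℝ), DstcEst M g O a S s δ δ1 := by
    rintro ⟨a, ha⟩
    obtain ⟨f0, -, rfl⟩ := hfin.mem_toFinset.1 ha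
    rcases (hV.na.nonneg f0).eq_or_lt with h | h
    · simp only [← h]
      exact dstc_zero hV M O
    · exact dstc_pos hV hc M hg O h (hV.le_one f0)
  choose S hS using key
  obtain ⟨B, hB⟩ := est_disc hV hc
  refine ⟨{evP y w Q, evP y w Q.derivative} ∪ Finset.univ.biUnion S, ?_⟩
  filter_upwards [hB, eventually_all.2 hS] with s h1 h2 δ hδ
  refine dstc_iff.1 ?_
  filter_upwards [dstc_iff.2 (h1 1 0), eventually_all.2 fun a => h2 a δ hδ] with δ1 h3 h4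
  intro T hT p y0 w0 hw hcell
  refine ⟨?_, fun ι hι f0 hf0 => ?_⟩
  · have h5 := (h3 T hT _ (by simp) (by simp) p y0 w0 hw hcell).1
    exact norm_pos_iff.1 (lt_of_lt_of_le (by positivity) h5)
  · refine h4 ⟨V f0, hfin.mem_toFinset.2 ⟨f0, hf0, rfl⟩⟩ T hT p y0 w0 (hw.dstc_mono ?_) hcell ι hι
    exact (Finset.subset_biUnion_of_mem S (Finset.mem_univ _)).trans Finset.subset_union_right

end Vale.Agent.P271.Core
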