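import Vale.Agent.P271.Orth

/-! First order conditions at a minimiser whose centre is the point.

Hints. `first_order`: the function `s ↦ α s + κ log (∑ p i exp (s q i))` vanishes at `0`, and its
derivative there is `α + κ ∑ p i q i`. `point`: take `exists_compat`, `Z = ∑ V (f i) exp (-η j i)`; then
`1 ≤ Z ≤ z` (`ach_of_compat`, `IsVal.good`, `Ach.one_le`), so every competitor has
`G ≥ b + lam η + κ log Z`. Put `p i = V (f i) exp (-η j i) / Z`, `c i = κ p i`, `a i = -log (V (f i))`
(so `V ^ (1 - s) = V * exp (s a)` also for `V = 0`, and `V ≤ exp (-a)`). Competitors: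
`η + s` (degree bound), `Good.scale` with `1 - s` (`b ≤ ∑ c a`), and `C.sc` with `Λ = Empty` applied to
`V (f i)` and `exp (-a' i) ^ s` (the last clause). `μ0 > 0` with `V (t k) ≤ exp (-μ0)` for the finitely
many `k`; the joint `Good` is `IsVal.good` for `Sum.elim t f` and `Good.comp`. -/

open Set Filter Topology

noncomputable section

namespace Vale.Agent.P271

theorem first_order {I : Type} [Fintype I] {p q : I → ℝ} (hp : ∀ i, 0 ≤ p i) (h1 : ∑ i, p i = 1)
    {α κ : ℝ} (h : ∀ᶠ s in 𝓝[>] (0 : ℝ), 0 ≤ α * s + κ * Real.log (∑ i, p i * Real.exp (s * q i))) :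
    0 ≤ α + κ * ∑ i, p i * q i := by
  have h0 : ∑ i, p i * Real.exp (0 * q i) = 1 := by simpa using h1
  have h2 : HasDerivAt (fun s : ℝ => ∑ i, p i * Real.exp (s * q i)) (∑ i, p i * q i) 0 := by
    refine HasDerivAt.fun_sum fun i _ => ?_
    have := (((hasDerivAt_id (0 : ℝ)).mul_const (q i)).exp).const_mul (p i)
    simpa using this
  have h3 : HasDerivAt (fun s : ℝ => α * s + κ * Real.log (∑ i, p i * Real.exp (s * q i)))
      (α * 1 + κ * ((∑ i, p i * q i) / ∑ i, p i * Real.exp (0 * q i))) 0 :=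
    ((hasDerivAt_id (0 : ℝ)).const_mul α).add ((h2.log (by rw [h0]; exact one_ne_zero)).const_mul κ)
  rw [h0, mul_one, div_one] at h3
  refine ge_of_tendsto h3.tendsto_slope_zero_right ?_
  filter_upwards [h, self_mem_nhdsWithin] with s hs hs0
  rw [h0, Real.log_one, zero_add, mul_zero, mul_zero, add_zero, sub_zero, smul_eq_mul]
  exact mul_nonneg (inv_nonneg.2 (le_of_lt hs0)) hs

namespace Core
variable {Y R : Type} [CommRing R] [Algebra ℂ R] {C : Core Y R}

theorem point {J : ℕ} {ηm κ b η z : ℝ} (hηm : 0 < ηm) (hκ : 0 < κ) (h : C.IsMin J ηm κ b η z)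
    {V : R → ℝ} (hV : C.IsVal V b)
    (hz : ∃ F : C.Fam J, ∑ i, lw J η (F.lev i) * V (F.f i) ≤ z) (ht : ∀ k, V (C.t k) < 1) :
    C.Concl := by
  have hη : 0 < η := hηm.trans_le h.le
  obtain ⟨I, _, j, f, h1, h2, h3⟩ := C.exists_compat hV.na J
  have hv : ∀ i, 0 ≤ V (f i) := fun i => hV.na.nonneg _
  have hg := hV.good f
  obtain ⟨Z, hZ⟩ : ∃ Z, Z = ∑ i, V (f i) * Real.exp (-η * j i) := ⟨_, rfl⟩
  have hZ1 : 1 ≤ Z := hZ ▸ (C.ach_of_compat h1 h2 hv hg η).one_le hη
  have hZ0 : 0 < Z := one_pos.trans_le hZ1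
  have hZz : Z ≤ z := by
    obtain ⟨F, hF⟩ := hz
    exact hZ ▸ (h3 F η hη).trans hF
  obtain ⟨p, hp⟩ : ∃ p : I → ℝ, ∀ i, p i = V (f i) * Real.exp (-η * j i) / Z := ⟨_, fun _ => rfl⟩
  have hp0 : ∀ i, 0 ≤ p i := fun i => by
    have := hv i
    rw [hp]
    positivity
  have hp1 : ∑ i, p i = 1 := by
    simp only [hp]
    rw [← Finset.sum_div, ← hZ, div_self hZ0.ne']
  have key : ∀ (q : I → ℝ) (α : ℝ), (∀ s : ℝ, 0 < s → s < 1 → ∃ (b' η' : ℝ) (W : I → ℝ),
      η ≤ η' ∧ (∀ i, 0 ≤ W i) ∧ Good C.ν C.r (fun i => C.ev (f i)) W b' ∧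
      b' - b + (C.n + 1 / 2) / C.k0 * (η' - η) = α * s ∧
      ∀ i, W i * Real.exp (-η' * j i) = V (f i) * Real.exp (-η * j i) * Real.exp (s * q i)) →
      0 ≤ α + ∑ i, κ * p i * q i := by
    intro q α hs
    have := first_order (q := q) (α := α) (κ := κ) hp0 hp1 (by
      filter_upwards [Ioo_mem_nhdsGT one_pos] with s hs'
      obtain ⟨b', η', W, a1, a2, a3, a4, a5⟩ := hs s hs'.1 hs'.2
      have hA := C.ach_of_compat h1 h2 a2 a3 η'
      have e : ∑ i, W i * Real.exp (-η' * j i) = Z * ∑ i, p i * Real.exp (s * q i) := by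
        rw [Finset.mul_sum]
        refine Finset.sum_congr rfl fun i _ => ?_
        rw [a5, hp]
        field_simp
      rw [e] at hA
      have h4 := hA.one_le (hη.trans_le a1)
      have h5 := h.min _ _ _ (h.le.trans a1) hA
      have h6 : ∑ i, p i * Real.exp (s * q i) ≠ 0 := fun h0 => by
        rw [h0, mul_zero] at h4
        linarith
      have h7 := mul_le_mul_of_nonneg_left (Real.log_le_log hZ0 hZz) hκ.le
      rw [G, G, Real.log_mul hZ0.ne' h6] at h5
      linarith)
    simpa only [Finset.mul_sum, mul_assoc] using this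
  have hμ : ∀ᶠ μ in 𝓝[>] (0 : ℝ), ∀ k, V (C.t k) < Real.exp (-μ) :=
    eventually_all.2 fun k => mem_nhdsWithin_of_mem_nhds
      (continuousAt_const.eventually_lt (by fun_prop) (by simpa using ht k))
  obtain ⟨μ0, hμ1, hμ0⟩ := (hμ.and self_mem_nhdsWithin).exists
  refine ⟨I, inferInstance, j, f, fun i => κ * p i, fun i => -Real.log (V (f i)), b, μ0,
    fun i => (h1 i).2, fun i => mul_nonneg hκ.le (hp0 i),
    fun i => neg_nonneg.2 (Real.log_nonpos (hv i) (hV.le_one _)), ?_, hμ0, ?_, ?_,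
    fun a' β ha' hβ => ?_⟩
  · have h4 := key (fun i => -(j i : ℝ)) ((C.n + 1 / 2) / C.k0) fun s hs _ =>
      ⟨b, η + s, _, by linarith, hv, hg, by ring, fun i => by
        rw [mul_assoc, ← Real.exp_add]
        ring_nf⟩
    have hk : (0 : ℝ) < C.k0 := by exact_mod_cast C.k0_pos
    simp only [mul_neg, Finset.sum_neg_distrib] at h4
    rw [mul_comm, ← le_div_iff₀ hk]
    linarith
  · have h4 := (hV.good (Sum.elim C.t f)).comp (fun i => hV.na.nonneg _) id
      (V' := Sum.elim (fun _ => Real.exp (-μ0)) fun i => Real.exp (- -Real.log (V (f i)))) (by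
        rintro (k | i)
        · exact (hμ1 k).le
        · simpa using Real.le_exp_log (V (f i)))
    have e : (fun i => C.ev (Sum.elim C.t f (id i))) =
        Sum.elim (fun k => C.ev (C.t k)) fun i => C.ev (f i) := by
      funext i
      cases i <;> rfl
    exact e ▸ h4
  · have h4 := key (fun i => -Real.log (V (f i))) (-b) fun s hs hs1 =>
      ⟨(1 - s) * b, η, _, le_rfl, fun i => Real.rpow_nonneg (hv i) _,
        hg.scale hv (sub_pos.2 hs1), by ring, fun i => by
          rcases (hv i).eq_or_lt with h0 | h0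
          · rw [← h0, Real.zero_rpow (sub_pos.2 hs1).ne', zero_mul, zero_mul]
          · rw [Real.rpow_sub h0, Real.rpow_one, Real.rpow_def_of_pos h0, div_eq_mul_inv,
              ← Real.exp_neg]
            ring_nf⟩
    linarith
  · have h4 := key (fun i => -a' i) β fun s hs _ =>
      ⟨b + s * β, η, (fun i => V (f i)) * fun i => Real.exp (-a' i) ^ s, le_rfl,
        fun i => mul_nonneg (hv i) (by positivity),
        C.sc I Empty J f Empty.elim _ _ b (s * β) (fun i => C.mono (h1 i).1 (h1 i).2)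
          (fun l => l.elim) hv (fun i => by positivity) (hg.mgood _)
          ((hβ.scale (fun i => (Real.exp_pos _).le) hs).mgood _), by ring, fun i => by
          rw [Pi.mul_apply, ← Real.exp_mul]
          ring_nf⟩
    simp only [mul_neg, Finset.sum_neg_distrib] at h4
    linarith

end Core

end Vale.Agent.P271
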