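import Vale.Agent.P271.GoodB

/-! The valuation attached to a good family.

Hints. Call `N ⊆ ℝ × Y` negligible if for some `δ > 0` and all `T ≥ 1 / δ` one has
`ν {p | r p < δ ∧ (T, p) ∈ N} < ofReal (exp (-(b + δ) T))`. Negligible sets form an ideal (for a
union take a smaller `δ`, so that `2 exp (-(b + δ1) T) ≤ exp (-(b + δ) T)`; outer measures are monotone
and subadditive), so their complements form a filter `𝓝0`. The sets
`G δ = {(T, p) | ∀ i, ‖f i p‖ ^ 2 ≤ (V i + δ) ^ T} ∩ {T > 0}` increase with `δ` and are not negligible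
(`Good.large`), so `𝓝0 ⊓ ⨅ δ > 0, 𝓟 (G δ)` is not `⊥`; take an ultrafilter `𝒲` below it. Along `𝒲`,
`T → ∞` and `r p → 0` (the sets `T < T0` and `δ ≤ r p` are negligible). Define `W g` as the limit along
`𝒲` of `min 2 ((‖ev g p‖ ^ 2) ^ (1 / T))` (compactness of `Icc 0 2`, `IsCompact.ultrafilter_le_nhds`);
since `ev g` is bounded near `r = 0`, also `(‖ev g p‖ ^ 2) ^ (1 / T)` tends to `W g ≤ 1`. A member of
`𝒲` is not negligible, which gives `wit`. `exists_field`: `{V < 1}` is a prime ideal `p`; take the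
fraction field of the quotient. -/

open MeasureTheory Set Filter Topology

noncomputable section

namespace Vale.Agent.P271.Core

section Neg
variable {Y : Type} (ν : OuterMeasure Y) (r : Y → ℝ) (b : ℝ)

/-- The set `N` is small at the scale `δ`. -/
def valSm (δ : ℝ) (N : Set (ℝ × Y)) : Prop :=
  ∀ T, 1 / δ ≤ T → ν {p | r p < δ ∧ (T, p) ∈ N} < ENNReal.ofReal (Real.exp (-(b + δ) * T))

/-- Negligible sets. -/
def valNeg (N : Set (ℝ × Y)) : Prop := ∃ δ > (0 : ℝ), valSm ν r b δ N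

variable {ν r b}

theorem valSm.mono {δ δ' : ℝ} {N N' : Set (ℝ × Y)} (h : valSm ν r b δ N) (h0 : 0 < δ')
    (hδ : δ' ≤ δ) (hN : N' ⊆ N) {T : ℝ} (hT : 1 / δ' ≤ T) :
    ν {p | r p < δ' ∧ (T, p) ∈ N'} < ENNReal.ofReal (Real.exp (-(b + δ) * T)) :=
  lt_of_le_of_lt (measure_mono fun _ hp => And.intro (hp.1.trans_le hδ) (hN hp.2))
    (h T ((one_div_le_one_div_of_le h0 hδ).trans hT))

theorem val_exp_le {δ δ' T : ℝ} (h0 : 0 < δ') (hδ : δ' ≤ δ) (hT : 1 / δ' ≤ T) :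
    ENNReal.ofReal (Real.exp (-(b + δ) * T)) ≤ ENNReal.ofReal (Real.exp (-(b + δ') * T)) :=
  ENNReal.ofReal_le_ofReal (Real.exp_le_exp.2
    (mul_le_mul_of_nonneg_right (by linarith) (le_trans (by positivity) hT)))

theorem valNeg.mono {N N' : Set (ℝ × Y)} (h : valNeg ν r b N) (hN : N' ⊆ N) : valNeg ν r b N' := by
  obtain ⟨δ, hδ, h⟩ := h
  exact ⟨δ, hδ, fun T hT => h.mono hδ le_rfl hN hT⟩

theorem valNeg_of_empty {N : Set (ℝ × Y)} {δ : ℝ} (hδ : 0 < δ)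
    (h : ∀ T p, 1 / δ ≤ T → r p < δ → (T, p) ∉ N) : valNeg ν r b N := by
  refine ⟨δ, hδ, fun T hT => ?_⟩
  have e : {p | r p < δ ∧ (T, p) ∈ N} = ∅ := eq_empty_of_forall_notMem fun p hp => h T p hT hp.1 hp.2
  rw [e, measure_empty]
  exact ENNReal.ofReal_pos.2 (Real.exp_pos _)

theorem valNeg.union {N N' : Set (ℝ × Y)} (h : valNeg ν r b N) (h' : valNeg ν r b N') :
    valNeg ν r b (N ∪ N') := by
  obtain ⟨δ1, h1, h⟩ := h
  obtain ⟨δ2, h2, h'⟩ := h'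
  obtain ⟨δ, h0, l1, l2⟩ : ∃ δ : ℝ, 0 < δ ∧ 2 * δ ≤ δ1 ∧ 2 * δ ≤ δ2 :=
    ⟨min δ1 δ2 / 2, by positivity, by linarith [min_le_left δ1 δ2], by linarith [min_le_right δ1 δ2]⟩
  refine ⟨δ, h0, fun T hT => ?_⟩
  have hT2 : 1 / (2 * δ) ≤ T := (one_div_le_one_div_of_le h0 (by linarith)).trans hT
  have a1 := (h.mono h0 (by linarith) le_rfl hT).trans_le (val_exp_le (by linarith) l1 hT2)
  have a2 := (h'.mono h0 (by linarith) le_rfl hT).trans_le (val_exp_le (by linarith) l2 hT2)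
  have a3 : {p | r p < δ ∧ (T, p) ∈ N ∪ N'} ⊆
      {p | r p < δ ∧ (T, p) ∈ N} ∪ {p | r p < δ ∧ (T, p) ∈ N'} :=
    fun p hp => hp.2.imp (fun a => ⟨hp.1, a⟩) fun a => ⟨hp.1, a⟩
  refine ((measure_mono a3).trans (measure_union_le _ _)).trans_lt
    ((ENNReal.add_lt_add a1 a2).trans_le ?_)
  rw [← ENNReal.ofReal_add (Real.exp_pos _).le (Real.exp_pos _).le]
  refine ENNReal.ofReal_le_ofReal ?_
  have e : -(b + δ) * T = -(b + 2 * δ) * T + δ * T := by ring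
  have a4 : 1 ≤ δ * T := by rwa [div_le_iff₀' h0] at hT
  have a5 := Real.add_one_le_exp (δ * T)
  have a6 := mul_le_mul_of_nonneg_left (show 2 ≤ Real.exp (δ * T) by linarith)
    (Real.exp_pos (-(b + 2 * δ) * T)).le
  rw [e, Real.exp_add]
  linarith

theorem val_ultra {I : Type} {f : I → Y → ℂ} {V : I → ℝ} (hV : ∀ i, 0 ≤ V i)
    (h : Good ν r f V b) : ∃ 𝒲 : Ultrafilter (ℝ × Y), Tendsto Prod.fst (𝒲 : Filter (ℝ × Y)) atTop ∧
      (∀ δ > (0 : ℝ), ∀ᶠ q in (𝒲 : Filter (ℝ × Y)), r q.2 < δ) ∧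
      (∀ δ > (0 : ℝ), ∀ᶠ q in (𝒲 : Filter (ℝ × Y)), ∀ i, ‖f i q.2‖ ^ 2 ≤ (V i + δ) ^ q.1) ∧
      ∀ s ∈ 𝒲, ¬ valNeg ν r b s := by
  let G : ℝ → Set (ℝ × Y) := fun δ => {q | 0 ≤ q.1 ∧ ∀ i, ‖f i q.2‖ ^ 2 ≤ (V i + δ) ^ q.1}
  have hG : ∀ δ δ', 0 < δ → δ ≤ δ' → G δ ⊆ G δ' := fun δ δ' h0 hδ q hq =>
    ⟨hq.1, fun i => (hq.2 i).trans
      (Real.rpow_le_rpow (add_nonneg (hV i) h0.le) (by linarith) hq.1)⟩
  have h0 : valNeg ν r b ∅ := valNeg_of_empty one_pos fun _ _ _ _ => notMem_empty _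
  let F : Filter (ℝ × Y) :=
    { sets := {s | ∃ δ > (0 : ℝ), valNeg ν r b (G δ ∩ sᶜ)}
      univ_sets := ⟨1, one_pos, h0.mono fun q hq => hq.2 (mem_univ _)⟩
      sets_of_superset := by
        rintro s t ⟨δ, hδ, hs⟩ hst
        exact ⟨δ, hδ, hs.mono fun q hq => ⟨hq.1, fun a => hq.2 (hst a)⟩⟩
      inter_sets := by
        rintro s t ⟨δ, hδ, hs⟩ ⟨δ', hδ', ht⟩
        refine ⟨min δ δ', lt_min hδ hδ', (hs.union ht).mono fun q hq => ?_⟩
        exact (not_and_or.1 hq.2).imp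
          (fun a => ⟨hG _ _ (lt_min hδ hδ') (min_le_left _ _) hq.1, a⟩)
          fun a => ⟨hG _ _ (lt_min hδ hδ') (min_le_right _ _) hq.1, a⟩ }
  have hF : F.NeBot := by
    rw [← forall_mem_nonempty_iff_neBot]
    rintro s ⟨δ, hδ, δ', hδ', hs⟩
    by_contra hne
    obtain ⟨T, hT, hν⟩ := h (min δ δ') (lt_min hδ hδ')
    have hT0 : 0 ≤ T := le_trans (by positivity) hT
    refine (hν.trans_lt ((measure_mono fun p hp => ?_).trans_lt
      (hs.mono (lt_min hδ hδ') (min_le_right _ _) le_rfl hT))).not_ge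
      (val_exp_le (lt_min hδ hδ') (min_le_right _ _) hT)
    exact ⟨hp.1, hG _ _ (lt_min hδ hδ') (min_le_left _ _) ⟨hT0, hp.2⟩, fun a => hne ⟨_, a⟩⟩
  have hm : ∀ s, valNeg ν r b sᶜ → s ∈ Ultrafilter.of F := fun s hs =>
    Ultrafilter.of_le F ⟨1, one_pos, hs.mono inter_subset_right⟩
  refine ⟨Ultrafilter.of F, tendsto_atTop.2 fun T0 => hm _ ?_, fun δ hδ => hm _ ?_,
    fun δ hδ => Ultrafilter.of_le F ⟨δ, hδ, h0.mono fun q hq => hq.2 hq.1.2⟩, fun s hs hn => ?_⟩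
  · refine valNeg_of_empty (δ := 1 / (|T0| + 1)) (by positivity) fun T p hT _ a => a ?_
    rw [one_div_one_div] at hT
    exact (le_abs_self T0).trans (le_trans (by linarith) hT)
  · exact valNeg_of_empty hδ fun T p _ hp a => a hp
  · exact Ultrafilter.compl_mem_iff_notMem.1 (hm sᶜ (by rwa [compl_compl])) hs

end Neg

theorem val_tendsto_one {Z : Type} {l : Filter Z} {T : Z → ℝ} (hT : Tendsto T l atTop) {K : ℝ}
    (hK : 0 < K) : Tendsto (fun q => K ^ (T q)⁻¹) l (𝓝 1) := by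
  have h := (Real.continuousAt_const_rpow (b := 0) hK.ne').tendsto.comp
    (tendsto_inv_atTop_zero.comp hT)
  rwa [Real.rpow_zero] at h

theorem val_lim {Z : Type} (𝒲 : Ultrafilter Z) {T : Z → ℝ} (hT : Tendsto T (𝒲 : Filter Z) atTop)
    {g : Z → ℝ} {K : ℝ} (h0 : ∀ q, 0 ≤ g q) (hg : ∀ᶠ q in (𝒲 : Filter Z), g q ≤ K) :
    ∃ w, w ≤ 1 ∧ Tendsto (fun q => (g q ^ 2) ^ (T q)⁻¹) (𝒲 : Filter Z) (𝓝 w) := by
  have h1 := val_tendsto_one hT (K := K ^ 2 + 1) (by positivity)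
  have h2 : ∀ᶠ q in (𝒲 : Filter Z), (g q ^ 2) ^ (T q)⁻¹ ≤ (K ^ 2 + 1) ^ (T q)⁻¹ := by
    filter_upwards [hg, hT.eventually_ge_atTop 0] with q hq hq0
    exact Real.rpow_le_rpow (sq_nonneg _)
      ((pow_le_pow_left₀ (h0 q) hq 2).trans (by linarith)) (inv_nonneg.2 hq0)
  obtain ⟨w, -, hw⟩ := (isCompact_Icc (a := (0 : ℝ)) (b := 2)).ultrafilter_le_nhds
    (𝒲.map fun q => (g q ^ 2) ^ (T q)⁻¹) (by
      rw [le_principal_iff, Ultrafilter.coe_map, mem_map]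
      filter_upwards [h2, h1.eventually_le_const one_lt_two] with q a1 a2
      exact ⟨Real.rpow_nonneg (sq_nonneg _) _, a1.trans a2⟩)
  exact ⟨w, le_of_tendsto_of_tendsto hw h1 h2, hw⟩

theorem val_add {x y : ℂ} {s : ℝ} (hs : 0 ≤ s) :
    (‖x + y‖ ^ 2) ^ s ≤ 4 ^ s * max ((‖x‖ ^ 2) ^ s) ((‖y‖ ^ 2) ^ s) := by
  wlog hxy : ‖x‖ ≤ ‖y‖ generalizing x y
  · rw [add_comm, max_comm]
    exact this (not_le.1 hxy).le
  have h1 : ‖x + y‖ ^ 2 ≤ 4 * ‖y‖ ^ 2 := by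
    have := pow_le_pow_left₀ (norm_nonneg _) ((norm_add_le x y).trans
      (show ‖x‖ + ‖y‖ ≤ 2 * ‖y‖ by linarith)) 2
    linarith
  refine (Real.rpow_le_rpow (sq_nonneg _) h1 hs).trans ?_
  rw [Real.mul_rpow (by norm_num) (sq_nonneg _)]
  exact mul_le_mul_of_nonneg_left (le_max_right _ _) (by positivity)

variable {Y R : Type} [CommRing R] [Algebra ℂ R] {C : Core Y R}

theorem exists_val {I : Type} [Finite I] {f : I → R} {V : I → ℝ} {b : ℝ} (hV : ∀ i, 0 ≤ V i)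
    (h : Good C.ν C.r (fun i => C.ev (f i)) V b) :
    ∃ W : R → ℝ, C.IsVal W b ∧ ∀ i, W (f i) ≤ V i := by
  obtain ⟨𝒲, hT, hr, hf, hn⟩ := val_ultra hV h
  have hlim : ∀ g : R, ∃ w, w ≤ 1 ∧
      Tendsto (fun q : ℝ × Y => (‖C.ev g q.2‖ ^ 2) ^ q.1⁻¹) (𝒲 : Filter (ℝ × Y)) (𝓝 w) := by
    intro g
    obtain ⟨K, δ, hδ, hK⟩ := C.bdd g
    exact val_lim 𝒲 hT (fun q => norm_nonneg _) ((hr δ hδ).mono fun q hq => hK _ hq)
  choose W hW1 hW using hlim
  have hT0 := hT.eventually_gt_atTop 0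
  have hnn : ∀ g, 0 ≤ W g := fun g =>
    ge_of_tendsto' (hW g) fun q => Real.rpow_nonneg (sq_nonneg _) _
  have hvan : ∀ g, (∃ δ > (0 : ℝ), ∀ p, C.r p < δ → C.ev g p = 0) → W g = 0 := by
    rintro g ⟨δ, hδ, hg⟩
    refine tendsto_nhds_unique (hW g) (tendsto_const_nhds.congr' ?_)
    filter_upwards [hr δ hδ, hT0] with q hq hq0
    rw [hg _ hq, norm_zero, zero_pow two_ne_zero, Real.zero_rpow (inv_pos.2 hq0).ne']
  have hmul : ∀ g g', W (g * g') = W g * W g' := fun g g' =>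
    tendsto_nhds_unique (hW _) (((hW g).mul (hW g')).congr fun q => by
      rw [map_mul, Pi.mul_apply, norm_mul, mul_pow, Real.mul_rpow (sq_nonneg _) (sq_nonneg _)])
  have hunit : ∀ g, (∃ c > (0 : ℝ), ∃ δ > (0 : ℝ), ∀ p, C.r p < δ → c ≤ ‖C.ev g p‖) →
      W g = 1 := by
    rintro g ⟨c, hc, δ, hδ, hg⟩
    refine le_antisymm (hW1 g)
      (le_of_tendsto_of_tendsto (val_tendsto_one hT (K := c ^ 2) (by positivity)) (hW g) ?_)
    filter_upwards [hr δ hδ, hT0] with q hq hq0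
    exact Real.rpow_le_rpow (sq_nonneg _) (pow_le_pow_left₀ hc.le (hg _ hq) 2) (inv_pos.2 hq0).le
  refine ⟨W, ⟨⟨hnn, hvan 0 ⟨1, one_pos, fun p _ => by simp⟩, fun c g hc => ?_, fun g g' => ?_⟩,
    hW1, hmul, hunit, hvan, fun S δ hδ => ?_⟩, fun i => ?_⟩
  · rw [Algebra.smul_def, hmul, hunit _ ⟨‖c‖, norm_pos_iff.2 hc, 1, one_pos, fun p _ => by simp⟩,
      one_mul]
  · have h1 := (val_tendsto_one hT (K := 4) (by norm_num)).mul ((hW g).max (hW g'))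
    rw [one_mul] at h1
    refine le_of_tendsto_of_tendsto (hW _) h1 ?_
    filter_upwards [hT0] with q hq0
    rw [map_add, Pi.add_apply]
    exact val_add (inv_pos.2 hq0).le
  · have hs : {q : ℝ × Y | ∀ g ∈ S, ‖C.ev g q.2‖ ^ 2 ≤ (W g + δ) ^ q.1 ∧
        (W g = 1 → Real.exp (-δ * q.1) ≤ ‖C.ev g q.2‖ ^ 2)} ∈ 𝒲 := by
      refine (eventually_all_finset S).2 fun g _ => Eventually.and ?_ ?_
      · filter_upwards [hT0, (hW g).eventually_le_const (lt_add_of_pos_right _ hδ)] with q hq0 hq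
        exact (Real.rpow_inv_le_iff_of_pos (sq_nonneg _) (add_nonneg (hnn g) hδ.le) hq0).1 hq
      · refine eventually_imp_distrib_left.2 fun hg => ?_
        have h1 : Real.exp (-δ) < W g := by
          rw [hg]
          exact Real.exp_lt_one_iff.2 (by linarith)
        filter_upwards [hT0, (hW g).eventually_const_le h1] with q hq0 hq
        rw [Real.exp_mul]
        exact (Real.le_rpow_inv_iff_of_pos (Real.exp_pos _).le (sq_nonneg _) hq0).1 hq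
    by_contra hc
    refine hn _ hs ⟨δ, hδ, fun T hT => ?_⟩
    by_contra hc'
    exact hc ⟨T, hT, not_lt.1 hc'⟩
  · refine le_of_forall_pos_le_add fun δ hδ => le_of_tendsto (hW (f i)) ?_
    filter_upwards [hT0, hf δ hδ] with q hq0 hq
    exact (Real.rpow_inv_le_iff_of_pos (sq_nonneg _) (add_nonneg (hV i) hδ.le) hq0).2 (hq i)

theorem IsVal.exists_field {V : R → ℝ} {b : ℝ} (h : C.IsVal V b) :
    ∃ (F : Type) (_ : Field F) (_ : Algebra ℂ F) (π : R →ₐ[ℂ] F), ∀ f, π f = 0 ↔ V f < 1 := by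
  let p : Ideal R :=
    { carrier := {f | V f < 1}
      add_mem' := fun hf hg => (h.na.add _ _).trans_lt (max_lt hf hg)
      zero_mem' := h.na.zero.trans_lt one_pos
      smul_mem' := fun a f hf => by
        change V (a * f) < 1
        rw [h.mul]
        exact (mul_le_of_le_one_left (h.na.nonneg f) (h.le_one a)).trans_lt hf }
  have hp : p.IsPrime := by
    refine ⟨(Ideal.ne_top_iff_one p).2 fun h1 => ?_, fun {f g} hfg => ?_⟩
    · exact (h.unit 1 ⟨1, one_pos, 1, one_pos, fun p _ => by simp⟩).not_lt h1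
    · by_contra hc
      obtain ⟨h1, h2⟩ := not_or.1 hc
      have h3 : V (f * g) < 1 := hfg
      rw [h.mul] at h3
      exact h3.not_ge (one_le_mul_of_one_le_of_one_le (not_lt.1 h1) (not_lt.1 h2))
  refine ⟨FractionRing (R ⧸ p), inferInstance, inferInstance,
    (IsScalarTower.toAlgHom ℂ (R ⧸ p) (FractionRing (R ⧸ p))).comp (Ideal.Quotient.mkₐ ℂ p),
    fun f => ?_⟩
  exact ((map_eq_zero_iff _ (IsFractionRing.injective (R ⧸ p) (FractionRing (R ⧸ p)))).trans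
    Ideal.Quotient.eq_zero_iff_mem)

theorem val_map_evP {F : Type} [CommRing F] [Algebra ℂ F] (π : R →ₐ[ℂ] F) {d : ℕ} (y : Fin d → R)
    (w : R) (P : Polynomial (MvPolynomial (Fin d) ℂ)) :
    π (evP y w P) = evP (fun i => π (y i)) (π w) P := by
  have e : π.comp (evP y w) = evP (fun i => π (y i)) (π w) :=
    Polynomial.algHom_ext' (MvPolynomial.algHom_ext fun i => by simp [evP]) (by simp [evP])
  exact DFunLike.congr_fun e P

/-- The dichotomy for the centre of a valuation. If `π (t k) = c` then `V (t k - c) < 1`, so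
`t k - c` vanishes at `x` (by `cont` and `unit`) and `c = 0`. -/
theorem IsVal.centre {V : R → ℝ} {b : ℝ} (h : C.IsVal V b) :
    (∀ k, V (C.t k) < 1) ∨ ∃ (d : ℕ) (y : Fin d → R) (w : R)
      (Q : Polynomial (MvPolynomial (Fin d) ℂ)), C.Centre V y w Q := by
  obtain ⟨F, _, _, π, hπ⟩ := h.exists_field
  rcases C.deg F π (fun f hf h0 => (h.unit f hf).not_lt ((hπ f).1 h0))
    (fun f hf => (hπ f).2 ((h.van f hf).trans_lt one_pos)) with
    hc | ⟨d, y, w, Q, h1, hD, hy, ⟨w', hw', rfl⟩, hQ, hdeg, hker⟩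
  · refine Or.inl fun k => ?_
    obtain ⟨c, hc⟩ := hc 1 (π (C.t k)) ⟨_, C.t_mem k, rfl⟩
    have h1 : V (C.t k - algebraMap ℂ R c) < 1 := (hπ _).1 (by simp [hc])
    by_cases h0 : c = 0
    · simpa [h0] using h1
    have h2 : 0 < ‖c‖ / 2 := half_pos (norm_pos_iff.2 h0)
    obtain ⟨δ, hδ, h3⟩ := C.cont 1 _ (C.t_mem k) _ h2
    refine absurd h1 (h.unit _ ⟨_, h2, δ, hδ, fun p hp => ?_⟩).not_lt
    have h4 := h3 p hp
    rw [C.t_x, sub_zero] at h4
    have h5 : C.ev (C.t k - algebraMap ℂ R c) p = C.ev (C.t k) p - c := by simp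
    have h6 := norm_sub_norm_le c (C.ev (C.t k) p)
    rw [h5, norm_sub_rev]
    linarith
  · choose y' hy' hyy using hy
    obtain rfl : y = fun i => π (y' i) := funext fun i => (hyy i).symm
    exact Or.inr ⟨d, y', w', Q, h1, hD, hy', hw', hQ, hdeg, fun P => by
      rw [← hπ, val_map_evP]
      exact hker P⟩

end Vale.Agent.P271.Core
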