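import Vale.Agent.P271.DStA
import Vale.Agent.P271.DStC
import Vale.Agent.P271.Val
import Vale.Agent.P271.Point

/-! The centre of a minimiser is the point; conclusion of the valuation argument.

Hints. `dstep_mach`: given `δ`, take `δ1 ≤ δ / 2` from `dstep_est`, so small that the `ev (y i)` are
bounded by `B` on `r < δ1` and that `K ≤ exp (δ / 2 * T)` for `T ≥ 1 / δ1` (`K` from `exists_cell`).
`IsVal.wit` gives `T` and the set `E`; `exists_cell` with `ρ = exp (-s T / 2)` gives a cell of outer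
measure at least `exp (-(b + δ1) T) * exp (-s d T) / K`; it is nonempty, so `exists_iota` applies.
`dstep`: `ach_of_mach`, and `IsMin.min` for `(b + s d, η, z * exp (…))` with `s * Om ^ 2 < 1`. -/

open Set Filter Topology

noncomputable section

namespace Vale.Agent.P271.Core

variable {Y R : Type} [CommRing R] [Algebra ℂ R] {C : Core Y R} {V : R → ℝ} {b : ℝ} {d : ℕ}
  {y : Fin d → R} {w : R} {Q : Polynomial (MvPolynomial (Fin d) ℂ)} {J : ℕ}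

theorem dstep_mach (hV : C.IsVal V b) (hc : C.Centre V y w Q) (M : C.ModData V y w Q J)
    {Λ : Type} [Fintype Λ] {g : Λ → R} (hg : ∀ l, g l ∈ C.O J) (O : ℕ) :
    ∀ᶠ s in 𝓝[>] (0 : ℝ), ∀ η z : ℝ,
      (∀ y0 w0 ι, IsIota Q y0 w0 ι → ∃ F : C.Fam J, Adm M ι O s F ∧ F.cost η ≤ z) →
      C.MAch J g (b + s * d) η z := by
  obtain ⟨S, hS⟩ := dstep_est hV hc M hg (O := O)
  obtain ⟨B, -, δB, hδB, hB⟩ := DStB_bound C y w
  obtain ⟨K, hK, hcell⟩ := exists_cell hc.monic hc.natDegree_pos B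
  filter_upwards [hS, self_mem_nhdsWithin] with s hs hs0 η z hF δ hδ
  have hs0 : 0 < s := hs0
  obtain ⟨δ0, hδ0, hest⟩ := hs δ hδ
  obtain ⟨δK, hδK, eK⟩ := exp_small (half_pos hδ) K 0 one_pos
  obtain ⟨δ1, h0, g0, g1, g2, g3⟩ : ∃ δ1 > (0 : ℝ), δ1 ≤ δ0 ∧ δ1 ≤ δ / 2 ∧ δ1 ≤ δB ∧ δ1 ≤ δK :=
    ⟨min (min δ0 (δ / 2)) (min δB δK), by positivity, by simp, by simp, by simp, by simp⟩
  obtain ⟨T, hT, hE⟩ := hV.wit S δ1 h0
  have hT0 : 0 < T := (one_div_pos.2 h0).trans_le hT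
  have hE0 : C.ν {p | C.Wit V S δ1 T p} ≠ 0 :=
    ((ENNReal.ofReal_pos.2 (Real.exp_pos _)).trans_le hE).ne'
  have m1 := mul_pos hs0 hT0
  obtain ⟨y0, w0, hQ0, hν⟩ := hcell (Real.exp (-s * T / 2)) (Real.exp_pos _)
    (Real.exp_le_one_iff.2 (by linarith)) C.ν {p | C.Wit V S δ1 T p} (fun p i => C.ev (y i) p)
    (fun p => C.ev w p) (fun p hp => (hB p (hp.1.trans_le g2)).1) hE0
  obtain ⟨p0, hp0⟩ : {p | p ∈ {p | C.Wit V S δ1 T p} ∧
      ‖(fun i => C.ev (y i) p) - y0‖ ≤ Real.exp (-s * T / 2) ∧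
      ‖C.ev w p - w0‖ ^ Q.natDegree ≤ ‖evP y0 (C.ev w p) Q‖}.Nonempty := by
    by_contra hn
    rw [not_nonempty_iff_eq_empty.1 hn] at hν
    simp only [MeasureTheory.measure_empty, mul_zero, nonpos_iff_eq_zero] at hν
    exact hE0 hν
  obtain ⟨ι, hι⟩ := exists_iota hQ0 (hest δ1 h0 g0 T hT p0 y0 w0 hp0.1 ⟨hQ0, hp0.2⟩).1
  obtain ⟨F, hA, hcost⟩ := hF y0 w0 ι hι
  refine ⟨T, (one_div_le_one_div_of_le h0 (by linarith)).trans hT, F, by linarith, ?_⟩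
  have hk : K / Real.exp (-s * T / 2) ^ (2 * d) ≤ Real.exp ((δ / 2 + s * d) * T) := by
    have e1 := eK δ1 h0 g3 T hT
    simp only [neg_zero, zero_mul, Real.exp_zero, mul_one] at e1
    rw [div_le_iff₀ (by positivity), ← Real.exp_nat_mul, ← Real.exp_add]
    have e2 : (δ / 2 + s * d) * T + ((2 * d : ℕ) : ℝ) * (-s * T / 2) = -(-(δ / 2) * T) := by
      push_cast; ring
    rw [e2, Real.exp_neg, ← one_div, le_div_iff₀ (Real.exp_pos _)]
    exact e1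
  have h1 := (hE.trans hν).trans (mul_le_mul_left (ENNReal.ofReal_le_ofReal hk) _)
  have h2 := ENNReal.div_le_of_le_mul' h1
  rw [← ENNReal.ofReal_div_of_pos (Real.exp_pos _), ← Real.exp_sub] at h2
  refine le_trans (ENNReal.ofReal_le_ofReal (Real.exp_le_exp.2 ?_))
    (h2.trans (MeasureTheory.measure_mono fun p hp => ⟨hp.1.1.trans_le (by linarith), ?_⟩))
  · linarith [mul_le_mul_of_nonneg_right g1 hT0.le]
  · intro i c hc1 hlow
    obtain ⟨f0, hf0, o, ho, e, hv⟩ := hA i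
    rw [e]
    exact (hest δ1 h0 g0 T hT p y0 w0 hp.1 ⟨hQ0, hp.2⟩).2 ι hι f0 hf0 o ho c hc1
      (hv _ hlow).1 (hv _ hlow).2

theorem dstep (hV : C.IsVal V b) (hc : C.Centre V y w Q) {k : ℕ} {κ ηm η z : ℝ} (hκ : 0 < κ)
    (hηm : 0 < ηm) (h : C.IsMin J ηm κ b η z) (h2 : η ≤ C.θ * C.k0 * κ)
    (hk : C.D + C.c1 * C.k0 ^ C.D < k)
    (hnum : (1 / κ + 2) * (Real.exp (C.θ * C.k0 * κ * k) - 1) ≤
      C.k0 * ((k : ℝ) - (C.D + C.c1 * C.k0 ^ C.D : ℕ))) (ht : C.Tail k J ηm κ)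
    (hz : ∃ F : C.Fam J, ∑ i, lw J η (F.lev i) * V (F.f i) ≤ z) : False := by
  obtain ⟨M⟩ := exists_modData hV hc J
  obtain ⟨g, hg1, hg2⟩ := C.exists_basis J
  have hg : ∀ l, g l ∈ C.O J := fun l => hg2 ▸ Submodule.subset_span ⟨l, rfl⟩
  have hη : 0 < η := hηm.trans_le h.le
  have h3 : ∀ᶠ s in 𝓝[>] (0 : ℝ), s * (C.Om J : ℝ) ^ 2 < 1 := by
    refine Eventually.filter_mono nhdsWithin_le_nhds ?_
    have : Tendsto (fun s : ℝ => s * (C.Om J : ℝ) ^ 2) (𝓝 0) (𝓝 0) :=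
      Continuous.tendsto' (by fun_prop) _ _ (by simp)
    exact this.eventually (gt_mem_nhds one_pos)
  obtain ⟨s, ⟨⟨h4, h5⟩, h6⟩, hs⟩ := ((((dstep_fam hV hc M hκ hηm h.le h2 hk hnum ht hz).and
    (dstep_mach hV hc M hg (C.Om J))).and h3).and self_mem_nhdsWithin).exists
  have hs : 0 < s := hs
  have h7 := h.min _ _ _ h.le (ach_of_mach hg1 hg2 hη (h5 η _ h4))
  have hz0 : 0 < z := one_pos.trans_le (h.ach.one_le hη)
  simp only [G] at h7
  rw [Real.log_mul hz0.ne' (Real.exp_pos _).ne', Real.log_exp] at h7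
  have e : κ * (-s * (d / κ + 1 / 2) + s ^ 2 * (C.Om J : ℝ) ^ 2 / 2) =
      -(s * d) - κ * s * (1 - s * (C.Om J : ℝ) ^ 2) / 2 := by
    field_simp; ring
  have h8 : 0 < κ * s * (1 - s * (C.Om J : ℝ) ^ 2) := mul_pos (mul_pos hκ hs) (by linarith)
  rw [mul_add, e] at h7
  linarith

theorem concl (C : Core Y R) : C.Concl := by
  classical
  have hθ0 : 0 < C.θ := by unfold θ; positivity
  have hθ1 : C.θ < 1 := by
    unfold θ
    rw [div_lt_one (by positivity)]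
    linarith
  obtain ⟨k, hk, κ0, hκ0, hnum⟩ := exists_k hθ0 hθ1 C.k0_pos (C.D + C.c1 * C.k0 ^ C.D)
  have hk0 : 0 < k := lt_of_le_of_lt (Nat.zero_le _) hk
  let J0 : ℝ → ℝ → ℕ := fun κ ηm => if h : 0 < ηm then (C.exists_J0 hk0 h κ).choose else 0
  obtain ⟨κ, ηm, J, b, η, z, hκ, hκ', hηm, hJ, hmin, hη⟩ := C.exists_small hκ0 J0
  have ht : C.Tail k J ηm κ := by
    refine (C.exists_J0 hk0 hηm κ).choose_spec J ?_
    simpa [J0, hηm] using hJ
  obtain ⟨F, hF, hc⟩ := hmin.ach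
  obtain ⟨V, hV, hle⟩ := exists_val F.nonneg hF
  have hz : ∃ F : C.Fam J, ∑ i, lw J η (F.lev i) * V (F.f i) ≤ z :=
    ⟨F, (Finset.sum_le_sum fun i _ => mul_le_mul_of_nonneg_left (hle i)
      (lw_pos J (hηm.trans_le hmin.le) _).le).trans hc⟩
  rcases hV.centre with h | ⟨d, y, w, Q, h⟩
  · exact point hηm hκ hmin hV hz h
  · exact (dstep hV h hκ hηm hmin hη hk (hnum κ hκ hκ') ht hz).elim

end Vale.Agent.P271.Core
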