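import Mathlib

/-! Filtered integrality.

Hints. `FInt W ℓ f` holds iff `C f * X ^ ℓ` is integral over the Rees algebra `rees W`
(take the coefficient of `X ^ (N * ℓ)` of an integral equation). All closure properties then come
from those of `IsIntegral` (`isIntegral_trans`, `IsIntegral.add`, `IsIntegral.mul`,
`adjoin_le_integralClosure`). -/

open Polynomial

noncomputable section

namespace Vale.Agent.P271

variable {R : Type} [CommRing R] [Algebra ℂ R]

/-- `f` satisfies a monic equation whose `i`-th coefficient lies in `W ^ (i * ℓ)`. -/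
def FInt (W : Submodule ℂ R) (ℓ : ℕ) (f : R) : Prop :=
  ∃ (N : ℕ) (a : ℕ → R), 0 < N ∧ (∀ i, a i ∈ W ^ (i * ℓ)) ∧
    f ^ N + ∑ i ∈ Finset.range N, a (i + 1) * f ^ (N - (i + 1)) = 0

/-- The filtration generated by `W1` in level one and `W2` in level `ℓ`. -/
def fil (W1 W2 : Submodule ℂ R) (ℓ j : ℕ) : Submodule ℂ R :=
  ⨆ b : ℕ, ⨆ _ : b * ℓ ≤ j, W1 ^ (j - b * ℓ) * W2 ^ b

/-- The span of `1` and the `y i`. -/
def lin {ι : Type} (y : ι → R) : Submodule ℂ R := Submodule.span ℂ (insert 1 (Set.range y))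

/-- The value of a polynomial in `y` and `w`. -/
def evP {d : ℕ} (y : Fin d → R) (w : R) : Polynomial (MvPolynomial (Fin d) ℂ) →ₐ[ℂ] R :=
  Polynomial.aevalTower (MvPolynomial.aeval y) w

/-- The Rees algebra of `W`. -/
def rees (W : Submodule ℂ R) : Subalgebra ℂ R[X] :=
  Algebra.adjoin ℂ {g | ∃ v ∈ W, g = C v * X}

theorem coeff_mem_of_mem_rees {W : Submodule ℂ R} {g : R[X]} (hg : g ∈ rees W) (m : ℕ) :
    g.coeff m ∈ W ^ m := by
  unfold rees at hg
  induction hg using Algebra.adjoin_induction generalizing m with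
  | mem x hx =>
    obtain ⟨v, hv, rfl⟩ := hx
    rw [coeff_C_mul, coeff_X]
    split_ifs with h
    · subst h; simpa using hv
    · simp
  | algebraMap c =>
    rw [Polynomial.algebraMap_apply, coeff_C]
    split_ifs with h
    · subst h; rw [pow_zero]; exact Submodule.mem_one.2 ⟨c, rfl⟩
    · exact Submodule.zero_mem _
  | add x y _ _ hx hy => rw [coeff_add]; exact Submodule.add_mem _ (hx m) (hy m)
  | mul x y _ _ hx hy =>
    rw [coeff_mul]
    refine Submodule.sum_mem _ fun p hp => ?_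
    rw [← Finset.HasAntidiagonal.mem_antidiagonal.1 hp, pow_add]
    exact Submodule.mul_mem_mul (hx _) (hy _)

theorem C_mul_X_pow_mem_rees {W : Submodule ℂ R} {m : ℕ} {v : R} (hv : v ∈ W ^ m) :
    C v * X ^ m ∈ rees W := by
  induction m generalizing v with
  | zero =>
    rw [pow_zero] at hv
    obtain ⟨c, rfl⟩ := Submodule.mem_one.1 hv
    rw [pow_zero, mul_one, ← Polynomial.algebraMap_apply]
    exact Subalgebra.algebraMap_mem _ c
  | succ m ih =>
    rw [pow_succ] at hv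
    refine Submodule.mul_induction_on hv (fun a ha b hb => ?_) (fun a b ha hb => ?_)
    · have e : C (a * b) * X ^ (m + 1) = (C a * X ^ m) * (C b * X) := by
        rw [map_mul]; ring
      rw [e]
      exact Subalgebra.mul_mem _ (ih ha) (Algebra.subset_adjoin ⟨b, hb, rfl⟩)
    · rw [map_add, add_mul]; exact Subalgebra.add_mem _ ha hb

theorem FInt_isIntegral_of_eq {A B : Type} [CommRing A] [CommRing B] [Algebra A B] {x : B} {N : ℕ}
    (a : ℕ → A) (h : x ^ N + ∑ i ∈ Finset.range N, algebraMap A B (a i) * x ^ (N - (i + 1)) = 0) :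
    IsIntegral A x := by
  refine ⟨X ^ N + ∑ i ∈ Finset.range N, C (a i) * X ^ (N - (i + 1)), ?_, ?_⟩
  · refine monic_X_pow_add ?_
    refine (degree_sum_le _ _).trans_lt ?_
    refine (Finset.sup_lt_iff (WithBot.bot_lt_coe N)).2 fun i hi => ?_
    refine (degree_C_mul_X_pow_le _ _).trans_lt ?_
    have h1 := Finset.mem_range.1 hi
    have h2 : N - (i + 1) < N := by omega
    exact WithBot.coe_lt_coe.2 h2
  · rw [eval₂_add, eval₂_X_pow, eval₂_finsetSum]
    simpa [eval₂_mul, eval₂_C, eval₂_X_pow] using h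

theorem fInt_iff {W : Submodule ℂ R} {ℓ : ℕ} {f : R} :
    FInt W ℓ f ↔ IsIntegral (rees W) (C f * X ^ ℓ : R[X]) := by
  constructor
  · rintro ⟨N, a, -, ha, h⟩
    refine FInt_isIntegral_of_eq (N := N)
      (fun i => (⟨C (a (i + 1)) * X ^ ((i + 1) * ℓ), C_mul_X_pow_mem_rees (ha _)⟩ : rees W)) ?_
    have e : (C f * X ^ ℓ : R[X]) ^ N + ∑ i ∈ Finset.range N,
        (C (a (i + 1)) * X ^ ((i + 1) * ℓ)) * (C f * X ^ ℓ : R[X]) ^ (N - (i + 1)) =
        C (f ^ N + ∑ i ∈ Finset.range N, a (i + 1) * f ^ (N - (i + 1))) * X ^ (N * ℓ) := by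
      rw [map_add, map_sum, add_mul, Finset.sum_mul]
      congr 1
      · rw [mul_pow, ← pow_mul, map_pow, mul_comm ℓ N]
      · refine Finset.sum_congr rfl fun i hi => ?_
        have hi' := Finset.mem_range.1 hi
        obtain ⟨k, hk⟩ : ∃ k, N = (i + 1) + k := ⟨N - (i + 1), by omega⟩
        have hk' : N - (i + 1) = k := by omega
        rw [hk', map_mul, map_pow, hk]; ring
    rw [h, map_zero, zero_mul] at e
    exact e
  · rintro ⟨p, hp, h⟩
    rcases subsingleton_or_nontrivial R with hR | hR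
    · exact ⟨1, fun _ => 0, one_pos, fun _ => Submodule.zero_mem _, Subsingleton.elim _ _⟩
    have hn : 0 < p.natDegree := by
      rcases Nat.eq_zero_or_pos p.natDegree with h0 | h0
      · rw [hp.natDegree_eq_zero.1 h0, eval₂_one] at h
        exact absurd h one_ne_zero
      · exact h0
    refine ⟨p.natDegree, fun i => (p.coeff (p.natDegree - i) : R[X]).coeff (i * ℓ), hn,
      fun i => coeff_mem_of_mem_rees (p.coeff _).2 _, ?_⟩
    rw [eval₂_eq_sum_range] at h
    have h2 := congrArg (fun g : R[X] => g.coeff (p.natDegree * ℓ)) h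
    simp only [finsetSum_coeff, coeff_zero] at h2
    have e : ∀ k ∈ Finset.range (p.natDegree + 1),
        (algebraMap (rees W) R[X] (p.coeff k) * (C f * X ^ ℓ) ^ k).coeff (p.natDegree * ℓ) =
        (p.coeff k : R[X]).coeff ((p.natDegree - k) * ℓ) * f ^ k := by
      intro k hk
      have hk' := Finset.mem_range.1 hk
      have e1 : p.natDegree * ℓ = (p.natDegree - k) * ℓ + ℓ * k := by
        rw [mul_comm ℓ k, ← add_mul]; congr 1; omega
      rw [mul_pow, ← pow_mul, ← map_pow, ← mul_assoc, e1, coeff_mul_X_pow, coeff_mul_C]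
      rfl
    rw [Finset.sum_congr rfl e, Finset.sum_range_succ, ← Finset.sum_range_reflect] at h2
    have e2 : (p.coeff p.natDegree : R[X]) = 1 := by
      rw [hp.coeff_natDegree]; rfl
    rw [e2, Nat.sub_self, zero_mul, coeff_one_zero, one_mul, add_comm] at h2
    rw [← h2]
    congr 1
    refine Finset.sum_congr rfl fun i hi => ?_
    have hi' := Finset.mem_range.1 hi
    have e3 : p.natDegree - 1 - i = p.natDegree - (i + 1) := by omega
    have e4 : p.natDegree - (p.natDegree - (i + 1)) = i + 1 := by omega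
    rw [e3, e4]

theorem FInt.of_mem {W : Submodule ℂ R} {ℓ : ℕ} {f : R} (h : f ∈ W ^ ℓ) : FInt W ℓ f :=
  fInt_iff.2 (isIntegral_algebraMap (x := (⟨_, C_mul_X_pow_mem_rees h⟩ : rees W)))

theorem FInt.add {W : Submodule ℂ R} {ℓ : ℕ} {f g : R} (hf : FInt W ℓ f) (hg : FInt W ℓ g) :
    FInt W ℓ (f + g) := by
  rw [fInt_iff] at hf hg ⊢
  rw [map_add, add_mul]; exact hf.add hg

theorem FInt.smul {W : Submodule ℂ R} {ℓ : ℕ} {f : R} (hf : FInt W ℓ f) (c : ℂ) :
    FInt W ℓ (c • f) := by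
  rw [fInt_iff] at hf ⊢
  have h1 : IsIntegral (rees W) (algebraMap ℂ R[X] c) :=
    isIntegral_algebraMap (x := (⟨_, Subalgebra.algebraMap_mem (rees W) c⟩ : rees W))
  have h2 := h1.mul hf
  rw [Algebra.smul_def, map_mul, mul_assoc, ← Polynomial.algebraMap_apply]
  exact h2

theorem FInt.mul {W : Submodule ℂ R} {ℓ m : ℕ} {f g : R} (hf : FInt W ℓ f) (hg : FInt W m g) :
    FInt W (ℓ + m) (f * g) := by
  rw [fInt_iff] at hf hg ⊢
  have e : (C (f * g) * X ^ (ℓ + m) : R[X]) = (C f * X ^ ℓ) * (C g * X ^ m) := by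
    rw [map_mul]; ring
  rw [e]; exact hf.mul hg

theorem FInt.of_mem_span {W : Submodule ℂ R} {ℓ : ℕ} {S : Set R} (hS : ∀ f ∈ S, FInt W ℓ f)
    {f : R} (hf : f ∈ Submodule.span ℂ S) : FInt W ℓ f := by
  induction hf using Submodule.span_induction with
  | mem x hx => exact hS x hx
  | zero => exact FInt.of_mem (Submodule.zero_mem _)
  | add x y _ _ hx hy => exact hx.add hy
  | smul c x _ hx => exact hx.smul c

theorem FInt_pow_le_pow {W W' : Submodule ℂ R} (h : W ≤ W') (m : ℕ) : W ^ m ≤ W' ^ m := by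
  induction m with
  | zero => simp
  | succ m ih => rw [pow_succ, pow_succ]; exact mul_le_mul' ih h

theorem FInt.mono {W W' : Submodule ℂ R} (h : W ≤ W') {ℓ : ℕ} {f : R} (hf : FInt W ℓ f) :
    FInt W' ℓ f := by
  obtain ⟨N, a, hN, ha, e⟩ := hf
  exact ⟨N, a, hN, fun i => FInt_pow_le_pow h _ (ha i), e⟩

theorem FInt.trans {W W' : Submodule ℂ R} (h : ∀ v ∈ W, FInt W' 1 v) {ℓ : ℕ} {f : R}
    (hf : FInt W ℓ f) : FInt W' ℓ f := by
  rw [fInt_iff] at hf ⊢
  have hle : rees W ≤ (integralClosure (rees W') R[X]).restrictScalars ℂ := by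
    refine Algebra.adjoin_le ?_
    rintro _ ⟨v, hv, rfl⟩
    have := fInt_iff.1 (h v hv)
    rw [pow_one] at this
    exact this
  let φ : rees W →+* integralClosure (rees W') R[X] :=
    { toFun := fun g => ⟨g.1, hle g.2⟩
      map_one' := rfl
      map_mul' := fun _ _ => rfl
      map_zero' := rfl
      map_add' := fun _ _ => rfl }
  have h2 : IsIntegral (integralClosure (rees W') R[X]) (RingHom.id R[X] (C f * X ^ ℓ)) :=
    IsIntegral.map_of_comp_eq φ (RingHom.id R[X]) (RingHom.ext fun _ => rfl) hf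
  exact isIntegral_trans _ h2

theorem FInt.map {S : Type} [CommRing S] [Algebra ℂ S] (φ : R →ₐ[ℂ] S) {W : Submodule ℂ R}
    {ℓ : ℕ} {f : R} (hf : FInt W ℓ f) : FInt (W.map φ.toLinearMap) ℓ (φ f) := by
  obtain ⟨N, a, hN, ha, e⟩ := hf
  refine ⟨N, fun i => φ (a i), hN, fun i => ?_, ?_⟩
  · rw [← Submodule.map_pow]; exact ⟨a i, ha i, rfl⟩
  · have := congrArg φ e
    simpa [map_add, map_sum, map_mul, map_pow] using this

theorem map_mulLeft_pow (W : Submodule ℂ R) (c : R) (m : ℕ) :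
    (W.map (LinearMap.mulLeft ℂ c)) ^ m = (W ^ m).map (LinearMap.mulLeft ℂ (c ^ m)) := by
  induction m with
  | zero => simp
  | succ m ih =>
    rw [pow_succ, ih, pow_succ W]
    apply le_antisymm
    · rw [Submodule.mul_le]
      rintro _ ⟨a, ha, rfl⟩ _ ⟨b, hb, rfl⟩
      refine ⟨a * b, Submodule.mul_mem_mul ha hb, ?_⟩
      simp only [LinearMap.mulLeft_apply]; ring
    · rw [Submodule.map_le_iff_le_comap, Submodule.mul_le]
      intro a ha b hb
      have e : LinearMap.mulLeft ℂ (c ^ (m + 1)) (a * b) =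
          LinearMap.mulLeft ℂ (c ^ m) a * LinearMap.mulLeft ℂ c b := by
        simp only [LinearMap.mulLeft_apply]; ring
      rw [Submodule.mem_comap, e]
      exact Submodule.mul_mem_mul ⟨a, ha, rfl⟩ ⟨b, hb, rfl⟩

/-- Rescaling of a homogeneous equation. -/
theorem FInt.scale {W : Submodule ℂ R} {ℓ : ℕ} {f : R} (hf : FInt W ℓ f) (c : R) :
    FInt (W.map (LinearMap.mulLeft ℂ c)) ℓ (c ^ ℓ * f) := by
  obtain ⟨N, a, hN, ha, e⟩ := hf
  refine ⟨N, fun i => c ^ (i * ℓ) * a i, hN, fun i => ?_, ?_⟩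
  · rw [map_mulLeft_pow]; exact ⟨a i, ha i, rfl⟩
  · have e2 : (c ^ ℓ * f) ^ N + ∑ i ∈ Finset.range N,
        c ^ ((i + 1) * ℓ) * a (i + 1) * (c ^ ℓ * f) ^ (N - (i + 1)) =
        c ^ (N * ℓ) * (f ^ N + ∑ i ∈ Finset.range N, a (i + 1) * f ^ (N - (i + 1))) := by
      rw [mul_add, Finset.mul_sum]
      congr 1
      · rw [mul_pow, ← pow_mul, mul_comm ℓ N]
      · refine Finset.sum_congr rfl fun i hi => ?_
        have hi' := Finset.mem_range.1 hi
        obtain ⟨k, hk⟩ : ∃ k, N = (i + 1) + k := ⟨N - (i + 1), by omega⟩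
        have hk' : N - (i + 1) = k := by omega
        rw [hk', hk]; ring
    rw [e, mul_zero] at e2
    exact e2

theorem pow_mono_of_one_mem {W : Submodule ℂ R} (h : (1 : R) ∈ W) {j k : ℕ} (hjk : j ≤ k) :
    W ^ j ≤ W ^ k := by
  induction k, hjk using Nat.le_induction with
  | base => exact le_rfl
  | succ k _ ih =>
    refine ih.trans fun x hx => ?_
    rw [pow_succ, ← mul_one x]
    exact Submodule.mul_mem_mul hx h

theorem FInt_one_mem_lin {ι : Type} (y : ι → R) : (1 : R) ∈ lin y :=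
  Submodule.subset_span (Set.mem_insert _ _)

theorem FInt_mem_lin {ι : Type} (y : ι → R) (i : ι) : y i ∈ lin y :=
  Submodule.subset_span (Set.mem_insert_of_mem _ ⟨i, rfl⟩)

theorem FInt_lin_poly {ι : Type} {y : ι → R} {f : R} (hf : f ∈ lin y) :
    ∃ P : MvPolynomial ι ℂ, P.totalDegree ≤ 1 ∧ MvPolynomial.aeval y P = f := by
  unfold lin at hf
  induction hf using Submodule.span_induction with
  | mem x hx =>
    rcases hx with rfl | ⟨i, rfl⟩
    · exact ⟨1, by simp, map_one _⟩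
    · exact ⟨MvPolynomial.X i, (MvPolynomial.totalDegree_X i).le, MvPolynomial.aeval_X _ _⟩
  | zero => exact ⟨0, by simp, map_zero _⟩
  | add x z _ _ hx hz =>
    obtain ⟨P, hP, rfl⟩ := hx
    obtain ⟨Q, hQ, rfl⟩ := hz
    exact ⟨P + Q, (MvPolynomial.totalDegree_add _ _).trans (max_le hP hQ), map_add _ _ _⟩
  | smul c x _ hx =>
    obtain ⟨P, hP, rfl⟩ := hx
    exact ⟨c • P, (MvPolynomial.totalDegree_smul_le _ _).trans hP, map_smul _ _ _⟩

theorem FInt_prod_mem {ι : Type} (y : ι → R) (s : Finset ι) (k : ι → ℕ) :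
    ∏ i ∈ s, y i ^ k i ∈ lin y ^ (∑ i ∈ s, k i) := by
  classical
  induction s using Finset.induction_on with
  | empty => rw [Finset.prod_empty, Finset.sum_empty, pow_zero]; exact Submodule.one_le.1 le_rfl
  | insert i s hi ih =>
    rw [Finset.prod_insert hi, Finset.sum_insert hi, pow_add]
    exact Submodule.mul_mem_mul (Submodule.pow_mem_pow _ (FInt_mem_lin y i) _) ih

/-- The powers of `lin y` are the values of polynomials of bounded degree. -/
theorem mem_lin_pow_iff {ι : Type} {y : ι → R} {m : ℕ} {f : R} :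
    f ∈ lin y ^ m ↔ ∃ P : MvPolynomial ι ℂ, P.totalDegree ≤ m ∧ MvPolynomial.aeval y P = f := by
  constructor
  · intro hf
    induction m generalizing f with
    | zero =>
      rw [pow_zero] at hf
      obtain ⟨c, rfl⟩ := Submodule.mem_one.1 hf
      exact ⟨MvPolynomial.C c, (MvPolynomial.totalDegree_C c).le, MvPolynomial.aeval_C _ _⟩
    | succ m ih =>
      rw [pow_succ] at hf
      refine Submodule.mul_induction_on hf (fun a ha b hb => ?_) (fun a b ha hb => ?_)
      · obtain ⟨P, hP, rfl⟩ := ih ha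
        obtain ⟨Q, hQ, rfl⟩ := FInt_lin_poly hb
        exact ⟨P * Q, (MvPolynomial.totalDegree_mul _ _).trans (add_le_add hP hQ), map_mul _ _ _⟩
      · obtain ⟨P, hP, rfl⟩ := ha
        obtain ⟨Q, hQ, rfl⟩ := hb
        exact ⟨P + Q, (MvPolynomial.totalDegree_add _ _).trans (max_le hP hQ), map_add _ _ _⟩
  · rintro ⟨P, hP, rfl⟩
    rw [P.as_sum, map_sum]
    refine Submodule.sum_mem _ fun s hs => ?_
    rw [MvPolynomial.aeval_monomial, ← Algebra.smul_def]
    refine Submodule.smul_mem _ _ ?_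
    exact pow_mono_of_one_mem (FInt_one_mem_lin y) ((MvPolynomial.le_totalDegree hs).trans hP)
      (FInt_prod_mem y s.support s)

theorem FInt.isIntegral {ι : Type} {y : ι → R} {ℓ : ℕ} {f : R} (hf : FInt (lin y) ℓ f) :
    IsIntegral (Algebra.adjoin ℂ (Set.range y)) f := by
  obtain ⟨N, a, -, ha, e⟩ := hf
  have hm : ∀ i, a i ∈ Algebra.adjoin ℂ (Set.range y) := by
    intro i
    obtain ⟨P, -, hP⟩ := mem_lin_pow_iff.1 (ha i)
    rw [Algebra.adjoin_range_eq_range_aeval]
    exact ⟨P, hP⟩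
  exact FInt_isIntegral_of_eq (N := N)
    (fun i => (⟨a (i + 1), hm _⟩ : Algebra.adjoin ℂ (Set.range y))) e

theorem FInt_le_fil (W1 W2 : Submodule ℂ R) {ℓ j b : ℕ} (h : b * ℓ ≤ j) :
    W1 ^ (j - b * ℓ) * W2 ^ b ≤ fil W1 W2 ℓ j :=
  le_iSup₂_of_le (f := fun (b : ℕ) (_ : b * ℓ ≤ j) => W1 ^ (j - b * ℓ) * W2 ^ b) b h le_rfl

theorem one_mem_fil (W1 W2 : Submodule ℂ R) (ℓ : ℕ) : (1 : R) ∈ fil W1 W2 ℓ 0 := by
  refine FInt_le_fil W1 W2 (b := 0) (by simp) ?_
  simp only [zero_mul, Nat.sub_self, pow_zero, mul_one]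
  exact Submodule.one_le.1 le_rfl

theorem fil_mono {W1 : Submodule ℂ R} (h : (1 : R) ∈ W1) (W2 : Submodule ℂ R) (ℓ : ℕ) :
    Monotone (fil W1 W2 ℓ) := by
  intro j k hjk
  refine iSup₂_le fun b hb => ?_
  refine le_trans ?_ (FInt_le_fil W1 W2 (b := b) (hb.trans hjk))
  exact mul_le_mul' (pow_mono_of_one_mem h (by omega)) le_rfl

theorem mul_mem_fil {W1 W2 : Submodule ℂ R} {ℓ j k : ℕ} {f g : R} (hf : f ∈ fil W1 W2 ℓ j)
    (hg : g ∈ fil W1 W2 ℓ k) : f * g ∈ fil W1 W2 ℓ (j + k) := by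
  have H : fil W1 W2 ℓ j * fil W1 W2 ℓ k ≤ fil W1 W2 ℓ (j + k) := by
    conv_lhs => unfold fil
    simp only [Submodule.iSup_mul, Submodule.mul_iSup]
    refine iSup₂_le fun b hb => iSup₂_le fun c hc => ?_
    have h1 : (c + b) * ℓ ≤ j + k := by rw [add_mul]; omega
    refine le_trans (le_of_eq ?_) (FInt_le_fil W1 W2 h1)
    have e : j + k - (c + b) * ℓ = (j - c * ℓ) + (k - b * ℓ) := by rw [add_mul]; omega
    rw [e, pow_add, pow_add]; ring
  exact H (Submodule.mul_mem_mul hf hg)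

theorem le_fil_one (W1 W2 : Submodule ℂ R) (ℓ : ℕ) : W1 ≤ fil W1 W2 ℓ 1 := by
  refine le_trans (le_of_eq ?_) (FInt_le_fil W1 W2 (b := 0) (by simp))
  simp

theorem le_fil_level (W1 W2 : Submodule ℂ R) (ℓ : ℕ) : W2 ≤ fil W1 W2 ℓ ℓ := by
  refine le_trans (le_of_eq ?_) (FInt_le_fil W1 W2 (b := 1) (by simp))
  simp

theorem map_fil {S : Type} [CommRing S] [Algebra ℂ S] (φ : R →ₐ[ℂ] S) (W1 W2 : Submodule ℂ R)
    (ℓ j : ℕ) : (fil W1 W2 ℓ j).map φ.toLinearMap =
      fil (W1.map φ.toLinearMap) (W2.map φ.toLinearMap) ℓ j := by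
  unfold fil
  simp only [Submodule.map_iSup, Submodule.map_mul, Submodule.map_pow]

theorem FInt_lin_pow_le {ι : Type} [Fintype ι] (y : ι → R) (m : ℕ) :
    lin y ^ m ≤ Submodule.span ℂ (Set.range fun α : ι → Fin (m + 1) => ∏ i, y i ^ (α i : ℕ)) := by
  intro f hf
  obtain ⟨P, hP, rfl⟩ := mem_lin_pow_iff.1 hf
  rw [P.as_sum, map_sum]
  refine Submodule.sum_mem _ fun s hs => ?_
  rw [MvPolynomial.aeval_monomial, ← Algebra.smul_def]
  refine Submodule.smul_mem _ _ (Submodule.subset_span ?_)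
  have hs' : ∀ i, s i < m + 1 := fun i =>
    Nat.lt_succ_of_le (((MvPolynomial.monomial_le_degreeOf i hs).trans
      (MvPolynomial.degreeOf_le_totalDegree P i)).trans hP)
  refine ⟨fun i => ⟨s i, hs' i⟩, ?_⟩
  rw [Finsupp.prod_fintype _ _ (fun i => pow_zero _)]

/-- Polynomial growth of the filtration. -/
theorem finrank_fil_le (W1 W2 : Submodule ℂ R) [FiniteDimensional ℂ W1] [FiniteDimensional ℂ W2]
    {ℓ : ℕ} (hℓ : 0 < ℓ) : ∃ C E : ℕ, ∀ j, FiniteDimensional ℂ (fil W1 W2 ℓ j) ∧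
      Module.finrank ℂ (fil W1 W2 ℓ j) ≤ C * (j + 1) ^ E := by
  classical
  have hfg : (W1 ⊔ W2).FG :=
    Submodule.FG.sup (Module.Finite.iff_fg.1 inferInstance) (Module.Finite.iff_fg.1 inferInstance)
  obtain ⟨d, y, hy⟩ := Submodule.fg_iff_exists_fin_generating_family.1 hfg
  have hl : W1 ⊔ W2 ≤ lin y := by
    rw [← hy]; exact Submodule.span_mono (Set.subset_insert _ _)
  refine ⟨1, d, fun j => ?_⟩
  have h1 : fil W1 W2 ℓ j ≤ lin y ^ j := by
    refine iSup₂_le fun b hb => ?_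
    refine (mul_le_mul' (FInt_pow_le_pow (le_sup_left.trans hl) _)
      (FInt_pow_le_pow (le_sup_right.trans hl) _)).trans ?_
    rw [← pow_add]
    refine pow_mono_of_one_mem (FInt_one_mem_lin y) ?_
    have : b ≤ b * ℓ := Nat.le_mul_of_pos_right b hℓ
    omega
  have h2 := h1.trans (FInt_lin_pow_le y j)
  have := FiniteDimensional.span_of_finite ℂ
    (Set.finite_range fun α : Fin d → Fin (j + 1) => ∏ i, y i ^ (α i : ℕ))
  refine ⟨Submodule.finiteDimensional_of_le h2, (Submodule.finrank_mono h2).trans ?_⟩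
  refine (finrank_range_le_card _).trans ?_
  simp

end Vale.Agent.P271
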