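import Vale.Agent.P271.FInt

/-! Noether normalisation by linear changes of variables, with control of the degrees.

Hints. `fn_step`: let `F ≠ 0` of total degree `e` kill `w`, and let `Fe` be its homogeneous
component of degree `e`. Choose `c` with `eval (Fin.snoc c 1) Fe ≠ 0` (a point where `Fe * X last`
does not vanish, rescaled by homogeneity; `MvPolynomial.funext`). Put `w' i = w i - c i • w last`.
For each monomial of degree `m ≤ e`, `∏ (w' i + c i • t) ^ α i * t ^ α last`, `t = w last`, lies in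
`c ^ α • t ^ m + ∑ i = 1..m, (lin w') ^ i * t ^ (m - i)`; a clean way is to work in the Rees
algebra: `C t * X` is a root of a polynomial over `rees (lin w')` whose leading coefficient is the
unit `Fe (c, 1)` (homogenise with `X = C 1 * X`). `fn`: induction on the number of elements. -/

noncomputable section

namespace Vale.Agent.P271

variable {R : Type} [CommRing R] [Algebra ℂ R]

open Polynomial

theorem fn_point {r : ℕ} {F : MvPolynomial (Fin (r + 1)) ℂ} (hF : F ≠ 0) :
    ∃ c : Fin (r + 1) → ℂ, c (Fin.last r) = 1 ∧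
      ∑ α ∈ F.support, (if ∑ j, α j = F.totalDegree then F.coeff α * ∏ j, c j ^ α j else 0) ≠ 0 := by
  classical
  have hdeg : ∀ α : Fin (r + 1) →₀ ℕ, α.degree = ∑ j, α j := fun α => Finsupp.degree_eq_sum α
  have h1 : MvPolynomial.homogeneousComponent F.totalDegree F ≠ 0 := by
    obtain ⟨α, hα, e⟩ := Finset.exists_mem_eq_sup F.support (MvPolynomial.support_nonempty.2 hF)
      fun s : Fin (r + 1) →₀ ℕ => s.sum fun _ e => e
    intro h0
    have h2 := MvPolynomial.coeff_homogeneousComponent F.totalDegree F α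
    rw [h0, MvPolynomial.coeff_zero, if_pos] at h2
    · exact MvPolynomial.mem_support_iff.1 hα h2.symm
    · exact e.symm
  have h2 : MvPolynomial.homogeneousComponent F.totalDegree F * MvPolynomial.X (Fin.last r) ≠ 0 :=
    mul_ne_zero h1 (MvPolynomial.X_ne_zero _)
  obtain ⟨a, ha⟩ : ∃ a : Fin (r + 1) → ℂ, MvPolynomial.eval a
      (MvPolynomial.homogeneousComponent F.totalDegree F * MvPolynomial.X (Fin.last r)) ≠ 0 := by
    by_contra hn
    push Not at hn
    exact h2 (MvPolynomial.funext fun a => by rw [hn a, map_zero])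
  rw [map_mul, MvPolynomial.eval_X, mul_ne_zero_iff] at ha
  obtain ⟨ha1, ha2⟩ := ha
  refine ⟨fun j => a j / a (Fin.last r), div_self ha2, fun h0 => ha1 ?_⟩
  rw [MvPolynomial.homogeneousComponent_apply, Finset.sum_filter]
  have h3 := congrArg (fun z => z * a (Fin.last r) ^ F.totalDegree) h0
  simp only [zero_mul, Finset.sum_mul] at h3
  rw [map_sum]
  refine Eq.trans (Finset.sum_congr rfl fun α _ => ?_) h3
  rw [hdeg]
  split_ifs with h
  · rw [MvPolynomial.eval_monomial, Finsupp.prod_fintype _ _ (fun _ => pow_zero _), ← h, mul_assoc,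
      ← Finset.prod_pow_eq_pow_sum, ← Finset.prod_mul_distrib]
    refine congrArg _ (Finset.prod_congr rfl fun j _ => ?_)
    rw [← mul_pow, div_mul_cancel₀ _ ha2]
  · rw [zero_mul, map_zero]

theorem fn_prod {A ι : Type} [CommRing A] (s : Finset ι) (L : ι → A[X]) (k : ι → ℕ)
    (h : ∀ j, (L j).natDegree ≤ 1) :
    (∏ j ∈ s, L j ^ k j).natDegree ≤ ∑ j ∈ s, k j ∧
      (∏ j ∈ s, L j ^ k j).coeff (∑ j ∈ s, k j) = ∏ j ∈ s, (L j).coeff 1 ^ k j := by
  classical
  induction s using Finset.induction_on with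
  | empty => simp
  | insert j s hj ih =>
    have h1 : (L j ^ k j).natDegree ≤ k j := by
      simpa using natDegree_pow_le_of_le (k j) (h j)
    have h2 : (L j ^ k j).coeff (k j) = (L j).coeff 1 ^ k j := by
      simpa using coeff_pow_of_natDegree_le (m := k j) (h j)
    rw [Finset.prod_insert hj, Finset.sum_insert hj, Finset.prod_insert hj]
    exact ⟨natDegree_mul_le_of_le h1 ih.1, by
      rw [coeff_mul_add_eq_of_natDegree_le h1 ih.1, h2, ih.2]⟩

theorem fn_int {B : Type} [CommRing B] [Algebra ℂ B] (A : Subalgebra ℂ B) {r : ℕ}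
    {F : MvPolynomial (Fin r) ℂ} {c : Fin r → ℂ}
    (hc : ∑ α ∈ F.support,
      (if ∑ j, α j = F.totalDegree then F.coeff α * ∏ j, c j ^ α j else 0) ≠ 0)
    (x : A) (u : Fin r → A) (T : B) (w : Fin r → B) (hw : MvPolynomial.aeval w F = 0)
    (hu : ∀ j, (u j : B) + c j • T = w j * x) : IsIntegral A T := by
  classical
  set e := F.totalDegree with he
  set g := ∑ α ∈ F.support, (if ∑ j, α j = e then F.coeff α * ∏ j, c j ^ α j else 0) with hg
  let L : Fin r → A[X] := fun j => C (algebraMap ℂ A (c j)) * X + C (u j)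
  have hL : ∀ j, (L j).natDegree ≤ 1 := fun j => natDegree_linear_le
  have hL1 : ∀ j, (L j).coeff 1 = algebraMap ℂ A (c j) := fun j => by simp [L]
  have hLT : ∀ j, aeval T (L j) = w j * x := fun j => by
    rw [← hu j]
    simp only [L, map_add, map_mul, aeval_C, aeval_X]
    rw [← IsScalarTower.algebraMap_apply, ← Algebra.smul_def, add_comm]
    rfl
  have hle : ∀ α ∈ F.support, ∑ j, α j ≤ e := fun α hα => by
    have := MvPolynomial.le_totalDegree hα
    rwa [Finsupp.sum_fintype _ _ (fun _ => rfl)] at this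
  let p : A[X] := ∑ α ∈ F.support,
    C (algebraMap ℂ A (F.coeff α) * x ^ (e - ∑ j, α j)) * ∏ j, L j ^ α j
  have hp1 : p.natDegree ≤ e := by
    refine natDegree_sum_le_of_forall_le _ _ fun α hα => ?_
    exact (natDegree_C_mul_le _ _).trans ((fn_prod _ L α hL).1.trans (hle α hα))
  have hp2 : p.coeff e = algebraMap ℂ A g := by
    rw [hg, map_sum, finsetSum_coeff]
    refine Finset.sum_congr rfl fun α hα => ?_
    rw [coeff_C_mul]
    split_ifs with h
    · have h2 := (fn_prod Finset.univ L α hL).2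
      rw [h] at h2
      rw [h, h2, Nat.sub_self, pow_zero, mul_one, map_mul, map_prod]
      simp only [hL1, map_pow]
    · rw [coeff_eq_zero_of_natDegree_lt
        ((fn_prod _ L α hL).1.trans_lt (lt_of_le_of_ne (hle α hα) h)), mul_zero, map_zero]
  have hp3 : aeval T p = 0 := by
    have h1 : aeval T p = MvPolynomial.aeval w F * (x : B) ^ e := by
      rw [MvPolynomial.aeval_def, MvPolynomial.eval₂_eq', Finset.sum_mul, map_sum]
      refine Finset.sum_congr rfl fun α hα => ?_
      rw [map_mul, aeval_C, map_prod, map_mul, map_pow, ← IsScalarTower.algebraMap_apply]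
      simp only [map_pow, hLT, mul_pow]
      rw [Finset.prod_mul_distrib, Finset.prod_pow_eq_pow_sum]
      have h2 : (x : B) ^ e = (x : B) ^ (e - ∑ j, α j) * (x : B) ^ (∑ j, α j) := by
        rw [← pow_add, Nat.sub_add_cancel (hle α hα)]
      rw [h2]
      change _ * (x : B) ^ _ * _ = _
      ring
    rw [h1, hw, zero_mul]
  refine ⟨C (algebraMap ℂ A g⁻¹) * p, ?_, ?_⟩
  · refine monic_of_natDegree_le_of_coeff_eq_one e ((natDegree_C_mul_le _ _).trans hp1) ?_
    rw [coeff_C_mul, hp2, ← map_mul, inv_mul_cancel₀ hc, map_one]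
  · rw [← aeval_def, map_mul, hp3, mul_zero]

theorem fn_one_mem {ι : Type} (y : ι → R) : (1 : R) ∈ lin y :=
  Submodule.subset_span (Set.mem_insert _ _)

theorem fn_mem {ι : Type} (y : ι → R) (i : ι) : y i ∈ lin y :=
  Submodule.subset_span (Set.mem_insert_of_mem _ ⟨i, rfl⟩)

theorem fn_step {r : ℕ} (w : Fin (r + 1) → R) (h : ¬ AlgebraicIndependent ℂ w) :
    ∃ c : Fin r → ℂ, FInt (lin fun i : Fin r => w i.castSucc - c i • w (Fin.last r)) 1
      (w (Fin.last r)) := by
  rw [algebraicIndependent_iff] at h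
  push Not at h
  obtain ⟨F, hw, hF⟩ := h
  obtain ⟨c, hc1, hc⟩ := fn_point hF
  refine ⟨fun i => c i.castSucc, fInt_iff.2 ?_⟩
  set W := lin fun i : Fin r => w i.castSucc - c i.castSucc • w (Fin.last r) with hW
  have hm : ∀ j, w j - c j • w (Fin.last r) ∈ W ^ 1 := fun j => by
    rw [pow_one]
    refine Fin.lastCases ?_ (fun i => ?_) j
    · rw [hc1, one_smul, sub_self]
      exact W.zero_mem
    · exact fn_mem (fun i : Fin r => w i.castSucc - c i.castSucc • w (Fin.last r)) i
  have h1 : (1 : R) ∈ W ^ 1 := by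
    rw [pow_one]
    exact fn_one_mem _
  refine fn_int (rees W) hc ⟨_, C_mul_X_pow_mem_rees h1⟩
    (fun j => ⟨_, C_mul_X_pow_mem_rees (hm j)⟩) _ (fun j => C (w j)) ?_ fun j => ?_
  · have h2 := MvPolynomial.comp_aeval_apply (f := w) (CAlgHom (R := ℂ) (A := R)) F
    rw [hw, map_zero] at h2
    exact h2.symm
  · simp only [map_sub, map_one, one_mul, ← smul_C, sub_mul, smul_mul_assoc, sub_add_cancel]

theorem fn [Nontrivial R] {r : ℕ} (w : Fin r → R) :
    ∃ (d : ℕ) (y : Fin d → R), d ≤ r ∧ AlgebraicIndependent ℂ y ∧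
      (∀ i, y i ∈ Submodule.span ℂ (Set.range w)) ∧ ∀ v ∈ lin w, FInt (lin y) 1 v := by
  induction r with
  | zero =>
    exact ⟨0, w, le_rfl, algebraicIndependent_empty_type, fun i => i.elim0,
      fun v hv => FInt.of_mem (by rwa [pow_one])⟩
  | succ r ih =>
    by_cases h : AlgebraicIndependent ℂ w
    · exact ⟨r + 1, w, le_rfl, h, fun i => Submodule.subset_span ⟨i, rfl⟩,
        fun v hv => FInt.of_mem (by rwa [pow_one])⟩
    obtain ⟨c, hc⟩ := fn_step w h
    obtain ⟨d, y, hd, hy, hs, hi⟩ := ih fun i : Fin r => w i.castSucc - c i • w (Fin.last r)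
    refine ⟨d, y, hd.trans (Nat.le_succ r), hy, fun i => ?_, fun v hv => ?_⟩
    · refine (Submodule.span_le.2 ?_ : _ ≤ Submodule.span ℂ (Set.range w)) (hs i)
      rintro _ ⟨j, rfl⟩
      exact Submodule.sub_mem _ (Submodule.subset_span ⟨_, rfl⟩)
        (Submodule.smul_mem _ _ (Submodule.subset_span ⟨_, rfl⟩))
    · refine FInt.trans hi (FInt.of_mem_span ?_ hv)
      rintro f (rfl | ⟨j, rfl⟩)
      · exact FInt.of_mem (by rw [pow_one]; exact fn_one_mem _)
      · refine Fin.lastCases hc (fun i => ?_) j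
        rw [← sub_add_cancel (w i.castSucc) (c i • w (Fin.last r))]
        refine FInt.add (FInt.of_mem ?_) (hc.smul _)
        rw [pow_one]
        exact fn_mem (fun i : Fin r => w i.castSucc - c i • w (Fin.last r)) i

theorem fn_card (d j : ℕ) :
    Nat.card {n : Fin d →₀ ℕ | (n.sum fun _ e => e) ≤ j} = (j + d).choose d := by
  have hs : ∀ n : Fin d →₀ ℕ, (n.sum fun _ e => e) = ∑ i, n i := fun n =>
    Finsupp.sum_fintype _ _ fun _ => rfl
  let E : {n : Fin d →₀ ℕ | (n.sum fun _ e => e) ≤ j} ≃ {P : Fin (d + 1) → ℕ // ∑ i, P i = j} :=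
    { toFun := fun n => ⟨Fin.cons (j - ∑ i, n.1 i) n.1, by
        have h := n.2
        rw [Set.mem_ofPred_eq, hs] at h
        rw [Fin.sum_univ_succ]
        simp only [Fin.cons_zero, Fin.cons_succ]
        omega⟩
      invFun := fun P => ⟨Finsupp.equivFunOnFinite.symm fun i => P.1 i.succ, by
        have h := P.2
        rw [Fin.sum_univ_succ] at h
        rw [Set.mem_ofPred_eq, hs]
        simp only [Finsupp.coe_equivFunOnFinite_symm]
        omega⟩
      left_inv := fun n => by
        ext i
        simp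
      right_inv := fun P => by
        have h := P.2
        rw [Fin.sum_univ_succ] at h
        ext i
        refine Fin.cases ?_ (fun i => ?_) i
        · simp only [Fin.cons_zero, Finsupp.coe_equivFunOnFinite_symm]
          omega
        · simp }
  rw [Nat.card_congr (E.trans (Sym.equivNatSumOfFintype (Fin (d + 1)) j).symm),
    Nat.card_eq_fintype_card, Sym.card_sym_eq_choose, Fintype.card_fin,
    show d + 1 + j - 1 = j + d by omega, Nat.choose_symm_add]

/-- The dimension of the space of polynomials of degree at most `j` in independent elements. -/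
theorem finrank_lin_pow {d : ℕ} {y : Fin d → R} (hy : AlgebraicIndependent ℂ y) (j : ℕ) :
    FiniteDimensional ℂ ↥(lin y ^ j) ∧ Module.finrank ℂ ↥(lin y ^ j) = (j + d).choose d := by
  have h1 : lin y ^ j = (MvPolynomial.restrictTotalDegree (Fin d) ℂ j).map
      (MvPolynomial.aeval y : MvPolynomial (Fin d) ℂ →ₐ[ℂ] R).toLinearMap := by
    ext f
    rw [mem_lin_pow_iff, Submodule.mem_map]
    simp only [MvPolynomial.mem_restrictTotalDegree, AlgHom.toLinearMap_apply]
  have E := Submodule.equivMapOfInjective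
    (MvPolynomial.aeval y : MvPolynomial (Fin d) ℂ →ₐ[ℂ] R).toLinearMap hy
    (MvPolynomial.restrictTotalDegree (Fin d) ℂ j)
  rw [h1]
  refine ⟨Module.Finite.equiv E, ?_⟩
  rw [← E.finrank_eq, ← fn_card]
  exact Module.finrank_eq_nat_card_basis (MvPolynomial.basisRestrictSupport ℂ _)

end Vale.Agent.P271
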