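import Vale.Agent.P271.CDefs

/-! Elementary properties of `Good`, of the weights `lw`, and of non-archimedean seminorms. -/

open MeasureTheory Set Filter Topology

noncomputable section

namespace Vale.Agent.P271

theorem absorb {K V δ' δ : ℝ} (hV : 0 ≤ V) (h0 : 0 < δ') (h : δ' < δ) :
    ∀ᶠ T : ℝ in atTop, K * (V + δ') ^ T ≤ (V + δ) ^ T := by
  have h1 : 0 < V + δ' := by linarith
  have h2 : 1 < (V + δ) / (V + δ') := (one_lt_div h1).2 (by linarith)
  filter_upwards [(tendsto_rpow_atTop_of_base_gt_one _ h2).eventually_ge_atTop K] with T hT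
  rw [Real.div_rpow (by linarith) h1.le, le_div_iff₀ (Real.rpow_pos_of_pos h1 T)] at hT
  exact hT

theorem goodb_exp {b δ' δ T : ℝ} (h : δ' ≤ δ) (hT : 0 ≤ T) :
    ENNReal.ofReal (Real.exp (-(b + δ) * T)) ≤ ENNReal.ofReal (Real.exp (-(b + δ') * T)) :=
  ENNReal.ofReal_le_ofReal (Real.exp_le_exp.2 (by nlinarith))

theorem goodb_pos {δ T : ℝ} (hδ : 0 < δ) (hT : 1 / δ ≤ T) : 0 < T :=
  lt_of_lt_of_le (by positivity) hT

theorem goodb_small {δ : ℝ} (hδ : 0 < δ) (T0 : ℝ) :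
    ∃ δ' > (0 : ℝ), δ' ≤ δ ∧ ∀ T, 1 / δ' ≤ T → T0 ≤ T ∧ 1 / δ ≤ T := by
  have h0 : 0 < |T0| + 1 := by positivity
  have h1 : 0 < min δ (1 / (|T0| + 1)) := lt_min hδ (by positivity)
  refine ⟨_, h1, min_le_left _ _, fun T hT => ⟨?_, ?_⟩⟩
  · have h2 := one_div_le_one_div_of_le h1 (min_le_right δ (1 / (|T0| + 1)))
    rw [one_div_one_div] at h2
    linarith [le_abs_self T0]
  · exact (one_div_le_one_div_of_le h1 (min_le_left _ _)).trans hT

theorem goodb_min {ι : Type} [Finite ι] {δ : ι → ℝ} (h : ∀ i, 0 < δ i) :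
    ∃ d > (0 : ℝ), ∀ i, d ≤ δ i := by
  have h1 : ∀ᶠ d in 𝓝[>] (0 : ℝ), ∀ i, d ≤ δ i :=
    (eventually_all.2 fun i => eventually_le_nhds (h i)).filter_mono nhdsWithin_le_nhds
  obtain ⟨d, h2, h3⟩ := (h1.and self_mem_nhdsWithin).exists
  exact ⟨d, h3, h2⟩

theorem goodb_ne {Y : Type} {ν : OuterMeasure Y} {S : Set Y} (h : 0 < ν S) : S.Nonempty :=
  Set.nonempty_iff_ne_empty.2 fun e => h.ne' (by rw [e, measure_empty])

section
variable {Y : Type} {ν : OuterMeasure Y} {r : Y → ℝ} {I : Type} {f : I → Y → ℂ} {V : I → ℝ} {b : ℝ}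

theorem Good.large (h : Good ν r f V b) (hV : ∀ i, 0 ≤ V i) {δ : ℝ} (hδ : 0 < δ) (T0 : ℝ) :
    ∃ T : ℝ, T0 ≤ T ∧ 1 / δ ≤ T ∧ ENNReal.ofReal (Real.exp (-(b + δ) * T)) ≤
      ν {p | r p < δ ∧ ∀ i, ‖f i p‖ ^ 2 ≤ (V i + δ) ^ T} := by
  obtain ⟨δ', h0, h1, h2⟩ := goodb_small hδ T0
  obtain ⟨T, hT, hν⟩ := h δ' h0
  have hT0 := (goodb_pos h0 hT).le
  refine ⟨T, (h2 T hT).1, (h2 T hT).2, ((goodb_exp h1 hT0).trans hν).trans (ν.mono ?_)⟩
  rintro p ⟨hp, hf⟩
  exact ⟨hp.trans_le h1, fun i => (hf i).trans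
    (Real.rpow_le_rpow (by linarith [hV i]) (by linarith) hT0)⟩

theorem goodb_ev (h : Good ν r f V b) (hV : ∀ i, 0 ≤ V i) {δ : ℝ} (hδ : 0 < δ) {q : ℝ → Prop}
    (hq : ∀ᶠ T in atTop, q T) : ∃ T : ℝ, q T ∧ 1 / δ ≤ T ∧
      ENNReal.ofReal (Real.exp (-(b + δ) * T)) ≤
        ν {p | r p < δ ∧ ∀ i, ‖f i p‖ ^ 2 ≤ (V i + δ) ^ T} := by
  obtain ⟨T0, hT0⟩ := eventually_atTop.1 hq
  obtain ⟨T, h1, h2⟩ := h.large hV hδ T0
  exact ⟨T, hT0 T h1, h2⟩

open Classical in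
theorem Good.transfer [Fintype I] (h : Good ν r f V b) (hV : ∀ i, 0 ≤ V i) {I' : Type} [Finite I']
    {f' : I' → Y → ℂ} {V' : I' → ℝ} (hV' : ∀ i, 0 ≤ V' i)
    (hf : ∀ i', ∃ K : ℝ, ∃ δ0 > (0 : ℝ), ∀ p, r p < δ0 →
      ‖f' i' p‖ ≤ K * ∑ i with V i ≤ V' i', ‖f i p‖) : Good ν r f' V' b := by
  intro δ hδ
  choose K δ0 hδ0 hK using hf
  obtain ⟨d, hd, hdδ⟩ := goodb_min hδ0
  have h0 : 0 < min (δ / 2) d := lt_min (by linarith) hd
  have h1 : min (δ / 2) d < δ := (min_le_left _ _).trans_lt (by linarith)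
  obtain ⟨T, hq, hT, hν⟩ := goodb_ev h hV h0 (eventually_all.2 fun i' =>
    absorb (K := K i' ^ 2 * (Fintype.card I) ^ 2) (hV' i') h0 h1)
  have hT0 := (goodb_pos h0 hT).le
  refine ⟨T, (one_div_le_one_div_of_le h0 h1.le).trans hT,
    ((goodb_exp h1.le hT0).trans hν).trans (ν.mono ?_)⟩
  rintro p ⟨hp, hfp⟩
  refine ⟨hp.trans h1, fun i' => le_trans ?_ (hq i')⟩
  obtain ⟨W, hW⟩ : ∃ W, W = (V' i' + min (δ / 2) d) ^ T := ⟨_, rfl⟩
  have hW0 : 0 ≤ W := hW ▸ Real.rpow_nonneg (by linarith [hV' i']) _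
  have h2 : ∑ i with V i ≤ V' i', ‖f i p‖ ≤ Fintype.card I * √W := by
    have h3 : ∀ i ∈ Finset.univ.filter fun i => V i ≤ V' i', ‖f i p‖ ≤ √W := fun i hi => by
      refine Real.le_sqrt_of_sq_le ((hfp i).trans ?_)
      rw [hW]
      exact Real.rpow_le_rpow (by linarith [hV i]) (by linarith [(Finset.mem_filter.1 hi).2]) hT0
    refine (Finset.sum_le_card_nsmul _ _ _ h3).trans ?_
    rw [nsmul_eq_mul]
    exact mul_le_mul_of_nonneg_right (by exact_mod_cast Finset.card_le_univ _) (Real.sqrt_nonneg _)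
  have h4 := hK i' p (hp.trans_le ((min_le_right _ _).trans (hdδ i')))
  have h5 : 0 ≤ ∑ i with V i ≤ V' i', ‖f i p‖ := Finset.sum_nonneg fun i _ => norm_nonneg _
  have h6 : ‖f' i' p‖ ≤ |K i'| * (Fintype.card I * √W) :=
    h4.trans ((mul_le_mul_of_nonneg_right (le_abs_self _) h5).trans
      (mul_le_mul_of_nonneg_left h2 (abs_nonneg _)))
  have h7 := pow_le_pow_left₀ (norm_nonneg _) h6 2
  rw [mul_pow, mul_pow, sq_abs, Real.sq_sqrt hW0] at h7
  rw [← hW, mul_assoc]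
  exact h7

theorem Good.comp (h : Good ν r f V b) (hV : ∀ i, 0 ≤ V i) {I' : Type} (τ : I' → I) {V' : I' → ℝ}
    (hV' : ∀ i, V (τ i) ≤ V' i) : Good ν r (fun i => f (τ i)) V' b := by
  intro δ hδ
  obtain ⟨T, hT, hν⟩ := h δ hδ
  refine ⟨T, hT, hν.trans (ν.mono ?_)⟩
  rintro p ⟨hp, hf⟩
  exact ⟨hp, fun i => (hf (τ i)).trans (Real.rpow_le_rpow (by linarith [hV (τ i)])
    (by linarith [hV' i]) (goodb_pos hδ hT).le)⟩

theorem Good.scale [Finite I] (h : Good ν r f V b) (hV : ∀ i, 0 ≤ V i) {t : ℝ} (ht : 0 < t) :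
    Good ν r f (fun i => V i ^ t) (t * b) := by
  intro δ hδ
  have h1 : ∀ i, ∀ᶠ d in 𝓝 (0 : ℝ), (V i + d) ^ t < V i ^ t + δ := fun i => by
    have hc : ContinuousAt (fun d : ℝ => (V i + d) ^ t) 0 :=
      (continuous_const.add continuous_id).continuousAt.rpow_const (Or.inr ht.le)
    exact hc.eventually (gt_mem_nhds (by simpa using hδ))
  have h2 : ∀ᶠ d in 𝓝[>] (0 : ℝ), (∀ i, (V i + d) ^ t < V i ^ t + δ) ∧ d ≤ δ ∧ d ≤ δ / t :=
    ((eventually_all.2 h1).and ((eventually_le_nhds hδ).and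
      (eventually_le_nhds (div_pos hδ ht)))).filter_mono nhdsWithin_le_nhds
  obtain ⟨d, ⟨h3, h4, h5⟩, h6⟩ := (h2.and self_mem_nhdsWithin).exists
  have h6 : 0 < d := h6
  obtain ⟨T, hT, hν⟩ := h d h6
  have hT0 := goodb_pos h6 hT
  have e : T = t * (T / t) := by field_simp
  refine ⟨T / t, ?_, le_trans ?_ (hν.trans (ν.mono ?_))⟩
  · have h7 := (one_div_le_one_div_of_le h6 h5).trans hT
    rw [one_div_div] at h7
    rw [le_div_iff₀ ht]
    rw [div_mul_eq_mul_div, one_mul]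
    exact h7
  · refine le_of_eq_of_le ?_ (goodb_exp h5 hT0.le)
    congr 2
    field_simp
  · rintro p ⟨hp, hf⟩
    refine ⟨hp.trans_le h4, fun i => (hf i).trans ?_⟩
    have h8 : 0 ≤ V i + d := by linarith [hV i]
    rw [e, Real.rpow_mul h8, ← e]
    exact Real.rpow_le_rpow (Real.rpow_nonneg h8 _) (h3 i).le (div_pos hT0 ht).le

theorem Good.nonneg (h : Good ν r f V b) (hν : ν univ ≠ ⊤) : 0 ≤ b := by
  by_contra hb
  have hb' : 0 < -b / 2 := by linarith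
  obtain ⟨δ', h0, h1, h2⟩ := goodb_small hb' ((ν univ).toReal / (-b / 2))
  obtain ⟨T, hT, hl⟩ := h δ' h0
  have h3 := ((goodb_exp h1 (goodb_pos h0 hT).le).trans hl).trans (ν.mono (subset_univ _))
  have h4 := (ENNReal.ofReal_le_iff_le_toReal hν).1 h3
  have h5 := (div_le_iff₀ hb').1 (h2 T hT).1
  have h6 := Real.add_one_le_exp (-(b + -b / 2) * T)
  linarith

theorem Good.one_le (h : Good ν r f V b) (hV : ∀ i, 0 ≤ V i) {i : I}
    (hf : ∃ c > (0 : ℝ), ∃ δ > (0 : ℝ), ∀ p, r p < δ → c ≤ ‖f i p‖) : 1 ≤ V i := by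
  obtain ⟨c, hc, δ, hδ, hf⟩ := hf
  by_contra hV1
  have h0 : 0 < min δ ((1 - V i) / 2) := lt_min hδ (by linarith)
  have h1 : min δ ((1 - V i) / 2) < 1 - V i := (min_le_right _ _).trans_lt (by linarith)
  obtain ⟨T, hq, -, hν⟩ := goodb_ev h hV h0 (absorb (K := 2 / c ^ 2) (hV i) h0 h1)
  rw [add_sub_cancel, Real.one_rpow, div_mul_eq_mul_div, div_le_one (by positivity)] at hq
  have h2 := (ENNReal.ofReal_pos.2 (Real.exp_pos _)).trans_le hν
  obtain ⟨p, hp, hfp⟩ := goodb_ne h2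
  have h3 := pow_le_pow_left₀ hc.le (hf p (hp.trans_le (min_le_left _ _))) 2
  have h4 := hfp i
  have h5 : 0 < c ^ 2 := by positivity
  linarith

theorem Good.mgood (h : Good ν r f V b) {Λ : Type} [Fintype Λ] (g : Λ → Y → ℂ) :
    MGood ν r f g V b := by
  intro δ hδ
  obtain ⟨T, hT, hν⟩ := h δ hδ
  exact ⟨T, hT, 0, fun _ _ => by simpa using hδ.le, by simpa using hν⟩

theorem MGood.of_le {Λ : Type} [Fintype Λ] {g g' : Λ → Y → ℂ} {f' : I → Y → ℂ}
    (h : MGood ν r f g V b) (hV : ∀ i, 0 ≤ V i)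
    (hf : ∃ δ0 > (0 : ℝ), ∀ p, r p < δ0 → ∀ i (c : Λ → ℂ),
      ‖f' i p + ∑ l, c l * g' l p‖ ≤ ‖f i p + ∑ l, c l * g l p‖) : MGood ν r f' g' V b := by
  obtain ⟨δ0, hδ0, hf⟩ := hf
  intro δ hδ
  have h0 : 0 < min δ δ0 := lt_min hδ hδ0
  have h1 := min_le_left δ δ0
  obtain ⟨T, hT, c, hc, hν⟩ := h _ h0
  have hT0 := (goodb_pos h0 hT).le
  refine ⟨T, (one_div_le_one_div_of_le h0 h1).trans hT, c, fun i l => (hc i l).trans h1,
    ((goodb_exp h1 hT0).trans hν).trans (ν.mono ?_)⟩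
  rintro p ⟨hp, hfp⟩
  refine ⟨hp.trans_le h1, fun i => ?_⟩
  exact ((pow_le_pow_left₀ (norm_nonneg _) (hf p (hp.trans_le (min_le_right _ _)) i (c i)) 2).trans
    (hfp i)).trans (Real.rpow_le_rpow (by linarith [hV i]) (by linarith) hT0)

end

theorem lw_pos (J : ℕ) {η : ℝ} (hη : 0 < η) (j : ℕ) : 0 < lw J η j := by
  unfold lw
  split_ifs
  · exact mul_pos (sub_pos.2 (Real.exp_lt_one_iff.2 (by linarith))) (Real.exp_pos _)
  · exact Real.exp_pos _

theorem sum_lw_Icc (J : ℕ) (η : ℝ) {j : ℕ} (hj : j ≤ J) :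
    ∑ l ∈ Finset.Icc j J, lw J η l = Real.exp (-η * j) := by
  induction hj using Nat.decreasingInduction with
  | self => simp [lw]
  | of_succ k hk ih =>
    rw [← Finset.insert_Icc_add_one_left_eq_Icc hk.le, Finset.sum_insert (by simp), ih, lw,
      if_pos hk]
    have e : Real.exp (-η * ((k + 1 : ℕ) : ℝ)) = Real.exp (-η) * Real.exp (-η * k) := by
      rw [← Real.exp_add]
      congr 1
      push_cast
      ring
    rw [e]
    ring

theorem sum_lw (J : ℕ) (η : ℝ) : ∑ l ∈ Finset.range (J + 1), lw J η l = 1 := by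
  rw [Nat.range_succ_eq_Icc_zero, sum_lw_Icc J η (Nat.zero_le J)]
  simp

theorem continuous_lw (J j : ℕ) : Continuous fun η => lw J η j := by
  unfold lw
  split_ifs <;> fun_prop

namespace IsNA
variable {E : Type} [AddCommGroup E] [Module ℂ E] {V : E → ℝ}

theorem neg (h : IsNA V) (f : E) : V (-f) = V f := by
  rw [← neg_one_smul ℂ f, h.smul _ _ (by simp)]

theorem sub (h : IsNA V) (f g : E) : V (f - g) ≤ max (V f) (V g) := by
  rw [sub_eq_add_neg, ← h.neg g]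
  exact h.add _ _

theorem smul_le (h : IsNA V) (c : ℂ) (f : E) : V (c • f) ≤ V f := by
  by_cases hc : c = 0
  · rw [hc, zero_smul, h.zero]
    exact h.nonneg f
  · exact (h.smul c f hc).le

theorem add_eq_of_lt (h : IsNA V) {f g : E} (hfg : V g < V f) : V (f + g) = V f := by
  refine le_antisymm ((h.add f g).trans (max_le le_rfl hfg.le)) ?_
  have h1 := h.sub (f + g) g
  rw [add_sub_cancel_right] at h1
  rcases le_max_iff.1 h1 with h2 | h2
  · exact h2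
  · exact absurd h2 (not_le.2 hfg)

theorem sum_le (h : IsNA V) {ι : Type} (s : Finset ι) (f : ι → E) {a : ℝ} (ha : 0 ≤ a)
    (hf : ∀ i ∈ s, V (f i) ≤ a) : V (∑ i ∈ s, f i) ≤ a :=
  Finset.sum_induction f (fun g => V g ≤ a) (fun _ _ h1 h2 => (h.add _ _).trans (max_le h1 h2))
    (h.zero.trans_le ha) hf

theorem sum_lt (h : IsNA V) {ι : Type} (s : Finset ι) (f : ι → E) {a : ℝ} (ha : 0 < a)
    (hf : ∀ i ∈ s, V (f i) < a) : V (∑ i ∈ s, f i) < a :=
  Finset.sum_induction f (fun g => V g < a) (fun _ _ h1 h2 => (h.add _ _).trans_lt (max_lt h1 h2))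
    (h.zero.trans_lt ha) hf

theorem le_of_mem_span (h : IsNA V) {S : Set E} {a : ℝ} (ha : 0 ≤ a) (hS : ∀ f ∈ S, V f ≤ a)
    {f : E} (hf : f ∈ Submodule.span ℂ S) : V f ≤ a := by
  induction hf using Submodule.span_induction with
  | mem x hx => exact hS x hx
  | zero => exact h.zero.trans_le ha
  | add x y _ _ h1 h2 => exact (h.add _ _).trans (max_le h1 h2)
  | smul c x _ h1 => exact (h.smul_le c x).trans h1

theorem lt_of_mem_span (h : IsNA V) {S : Set E} {a : ℝ} (ha : 0 < a) (hS : ∀ f ∈ S, V f < a)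
    {f : E} (hf : f ∈ Submodule.span ℂ S) : V f < a := by
  induction hf using Submodule.span_induction with
  | mem x hx => exact hS x hx
  | zero => exact h.zero.trans_lt ha
  | add x y _ _ h1 h2 => exact (h.add _ _).trans_lt (max_lt h1 h2)
  | smul c x _ h1 => exact (h.smul_le c x).trans_lt h1

/-- The closed ball of radius `a`. -/
def ball (h : IsNA V) (a : ℝ) (ha : 0 ≤ a) : Submodule ℂ E where
  carrier := {f | V f ≤ a}
  add_mem' := fun hf hg => (h.add _ _).trans (max_le hf hg)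
  zero_mem' := by simpa [h.zero] using ha
  smul_mem' := fun c f hf => (h.smul_le c f).trans hf

theorem goodb_li (h : IsNA V) {ι : Type} {u : ι → E} (h0 : ∀ i, 0 < V (u i))
    (hi : Function.Injective fun i => V (u i)) : LinearIndependent ℂ u := by
  classical
  rw [linearIndependent_iff']
  intro s g hs i hi0
  by_contra hg
  obtain ⟨j, hj, hmax⟩ := (s.filter fun i => g i ≠ 0).exists_max_image (fun i => V (u i))
    ⟨i, Finset.mem_filter.2 ⟨hi0, hg⟩⟩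
  obtain ⟨hj1, hj2⟩ := Finset.mem_filter.1 hj
  have h1 : V (∑ l ∈ s.erase j, g l • u l) < V (g j • u j) := by
    rw [h.smul _ _ hj2]
    refine h.sum_lt _ _ (h0 j) fun l hl => ?_
    by_cases hl0 : g l = 0
    · rw [hl0, zero_smul, h.zero]
      exact h0 j
    · rw [h.smul _ _ hl0]
      exact lt_of_le_of_ne (hmax l (Finset.mem_filter.2 ⟨Finset.mem_of_mem_erase hl, hl0⟩))
        fun e => Finset.ne_of_mem_erase hl (hi e)
  have h2 := h.add_eq_of_lt h1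
  rw [Finset.add_sum_erase s (fun l => g l • u l) hj1, hs, h.zero, h.smul _ _ hj2] at h2
  exact (h0 j).ne h2

/-- On a finite dimensional space there are finitely many values: elements with distinct positive
values are linearly independent. -/
theorem finite_values (h : IsNA V) (U : Submodule ℂ E) [FiniteDimensional ℂ U] :
    (V '' (U : Set E)).Finite := by
  have h1 : ∀ a : ↥(V '' (U : Set E) \ {0}), ∃ u : U, V u = a := fun a => by
    obtain ⟨u, hu, e⟩ := a.2.1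
    exact ⟨⟨u, hu⟩, e⟩
  choose u hu using h1
  have h2 : LinearIndependent ℂ (U.subtype ∘ u) :=
    h.goodb_li (fun a => lt_of_le_of_ne (h.nonneg _) fun e => a.2.2 ((hu a).symm.trans e.symm))
      fun a a' e => Subtype.ext ((hu a).symm.trans (e.trans (hu a')))
  have h3 : Finite ↥(V '' (U : Set E) \ {0}) := (LinearIndependent.of_comp _ h2).finite
  exact Set.Finite.of_sdiff (Set.toFinite _) (Set.finite_singleton 0)

end IsNA

namespace Core
variable {Y R : Type} [CommRing R] [Algebra ℂ R] {C : Core Y R}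

theorem Fam.cost_eq {J : ℕ} (F : C.Fam J) (η : ℝ) (W : F.I → ℝ) :
    ∑ i, lw J η (F.lev i) * W i =
      ∑ j ∈ Finset.range (J + 1), lw J η j * ∑ i with F.lev i = j, W i := by
  rw [← Finset.sum_fiberwise_of_maps_to (g := F.lev) (t := Finset.range (J + 1))
    fun i _ => Finset.mem_range.2 (Nat.lt_succ_of_le (F.lev_le i))]
  refine Finset.sum_congr rfl fun j _ => ?_
  rw [Finset.mul_sum]
  exact Finset.sum_congr rfl fun i hi => by rw [(Finset.mem_filter.1 hi).2]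

theorem Fam.low_le {J : ℕ} (F : C.Fam J) (i : F.I) : F.low i ≤ C.O J := by
  refine Submodule.span_le.2 ?_
  rintro _ ⟨i', -, rfl⟩
  exact C.mono (F.lev_le i') (F.mem i')

theorem goodb_cost {J : ℕ} (F : C.Fam J) {η : ℝ} (hη : 0 < η) {W : F.I → ℝ} (h0 : ∀ i, 0 ≤ W i)
    (h1 : ∀ j ≤ J, ∃ i, F.lev i = j ∧ 1 ≤ W i) : 1 ≤ ∑ i, lw J η (F.lev i) * W i := by
  rw [F.cost_eq, ← sum_lw J η]
  refine Finset.sum_le_sum fun j hj => ?_
  obtain ⟨i, hi, hW⟩ := h1 j (Nat.lt_succ_iff.1 (Finset.mem_range.1 hj))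
  refine le_mul_of_one_le_right (lw_pos J hη j).le (hW.trans ?_)
  exact Finset.single_le_sum (fun i _ => h0 i) (Finset.mem_filter.2 ⟨Finset.mem_univ _, hi⟩)

theorem goodb_one {J : ℕ} (F : C.Fam J) {j : ℕ} (hj : j ≤ J) :
    (1 : R) ∈ Submodule.span ℂ (F.f '' {i | F.lev i = j}) :=
  F.span j hj (C.mono (Nat.zero_le j) C.one_mem)

/-- At each level some member does not vanish at `x`, since the level contains `1`. -/
theorem Ach.one_le {J : ℕ} {b η z : ℝ} (h : C.Ach J b η z) (hη : 0 < η) : 1 ≤ z := by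
  obtain ⟨F, hF, hz⟩ := h
  refine le_trans (goodb_cost F hη F.nonneg fun j hj => ?_) hz
  obtain ⟨i, hi, hx⟩ : ∃ i, F.lev i = j ∧ C.ev (F.f i) C.x ≠ 0 := by
    by_contra hcon
    push Not at hcon
    have h1 : Submodule.span ℂ (F.f '' {i | F.lev i = j}) ≤
        LinearMap.ker ((LinearMap.proj C.x).comp C.ev.toLinearMap) := by
      refine Submodule.span_le.2 ?_
      rintro _ ⟨i, hi, rfl⟩
      exact hcon i hi
    simpa using h1 (goodb_one F hj)
  have hx' := norm_pos_iff.2 hx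
  obtain ⟨δ, hδ, hc⟩ := C.cont _ _ (F.mem i) _ (half_pos hx')
  refine ⟨i, hi, hF.one_le F.nonneg ⟨_, half_pos hx', δ, hδ, fun p hp => ?_⟩⟩
  have h2 := hc p hp
  have h3 := norm_sub_norm_le (C.ev (F.f i) C.x) (C.ev (F.f i) p)
  rw [norm_sub_rev] at h3
  show _ ≤ ‖C.ev (F.f i) p‖
  linarith

theorem Ach.nonneg {J : ℕ} {b η z : ℝ} (h : C.Ach J b η z) : 0 ≤ b := by
  obtain ⟨F, hF, -⟩ := h
  exact hF.nonneg C.ν_fin

theorem IsVal.one {V : R → ℝ} {b : ℝ} (h : C.IsVal V b) : V 1 = 1 :=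
  h.unit 1 ⟨1, one_pos, 1, one_pos, fun p _ => by simp⟩

theorem IsVal.good {V : R → ℝ} {b : ℝ} (h : C.IsVal V b) {I : Type} [Finite I] (f : I → R) :
    Good C.ν C.r (fun i => C.ev (f i)) (fun i => V (f i)) b := by
  intro δ hδ
  obtain ⟨T, hT, hν⟩ := h.wit (Set.finite_range f).toFinset δ hδ
  refine ⟨T, hT, hν.trans (C.ν.mono ?_)⟩
  rintro p ⟨hp, hf⟩
  exact ⟨hp, fun i => (hf (f i) ((Set.Finite.mem_toFinset _).2 ⟨i, rfl⟩)).1⟩

theorem IsVal.one_le_cost {V : R → ℝ} {b : ℝ} (h : C.IsVal V b) {J : ℕ} (F : C.Fam J) {η : ℝ}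
    (hη : 0 < η) : 1 ≤ ∑ i, lw J η (F.lev i) * V (F.f i) := by
  refine goodb_cost F hη (fun i => h.na.nonneg _) fun j hj => ?_
  by_contra hcon
  push Not at hcon
  have h1 := h.na.lt_of_mem_span one_pos (by
    rintro _ ⟨i, hi, rfl⟩
    exact hcon i hi) (goodb_one F hj)
  exact h1.ne h.one

theorem ev_evP {d : ℕ} (y : Fin d → R) (w : R) (P : Polynomial (MvPolynomial (Fin d) ℂ)) (p : Y) :
    C.ev (evP y w P) p = evP (fun i => C.ev (y i) p) (C.ev w p) P := by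
  have h : ((Pi.evalAlgHom ℂ (fun _ : Y => ℂ) p).comp C.ev).comp (evP y w) =
      evP (fun i => C.ev (y i) p) (C.ev w p) := by
    refine Polynomial.algHom_ext' (MvPolynomial.algHom_ext fun i => ?_) ?_
    · simp [evP]
    · simp [evP]
  exact DFunLike.congr_fun h P

end Core

end Vale.Agent.P271
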