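import Vale.Agent.P271.FN

/-! Growth of the filtration in terms of the degree of the primitive element.

Hints. `finrank_box`: the coefficient map is a linear equivalence of `box d N m` with
`Fin N → MvPolynomial.restrictTotalDegree (Fin d) ℂ m`; the dimension of the latter follows from
`finrank_lin_pow` for `y = X` and `mem_lin_pow_iff`. `grow_lower`: `evP y w` is injective on the box
(a multiple of a monic `Q` of degree less than that of `Q` is zero). `exists_gens`: the algebra `S`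
generated over `rees W'` by the finitely many integral elements `C v * X` (`v` in a basis of `W1`) and
`C v * X ^ ℓ` (`v` in a basis of `W2`) is a finite module (`fg_adjoin_of_finite`), with generators
`G 1, …, G m`; it contains `C f * X ^ j` for `f ∈ fil W1 W2 ℓ j`; compare the coefficients of `X ^ j`
and use `coeff_mem_of_mem_rees`, `pow_mono_of_one_mem`. All coefficients of elements of `S` lie in
`Algebra.adjoin ℂ (W' ∪ W1 ∪ W2)`. `grow_upper`: multiply by a common denominator `E` and reduce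
modulo `Q` (`Polynomial.modByMonic`): `aeval y E * fil j ≤ evP y w (box d N (j + c))`. -/

noncomputable section

namespace Vale.Agent.P271

/-- Polynomials of degree less than `N` in the last variable with coefficients of degree at
most `m`. -/
def box (d N m : ℕ) : Submodule ℂ (Polynomial (MvPolynomial (Fin d) ℂ)) where
  carrier := {P | (∀ i, N ≤ i → P.coeff i = 0) ∧ ∀ i, (P.coeff i).totalDegree ≤ m}
  add_mem' := by
    rintro P Q ⟨h1, h2⟩ ⟨h3, h4⟩
    refine ⟨fun i hi => by simp [h1 i hi, h3 i hi], fun i => ?_⟩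
    rw [Polynomial.coeff_add]
    exact (MvPolynomial.totalDegree_add _ _).trans (max_le (h2 i) (h4 i))
  zero_mem' := ⟨fun _ _ => rfl, fun _ => by simp⟩
  smul_mem' := by
    rintro c P ⟨h1, h2⟩
    refine ⟨fun i hi => by simp [h1 i hi], fun i => ?_⟩
    rw [Polynomial.coeff_smul]
    exact (MvPolynomial.totalDegree_smul_le _ _).trans (h2 i)

theorem finrank_box (d N m : ℕ) : FiniteDimensional ℂ (box d N m) ∧
    Module.finrank ℂ (box d N m) = N * (m + d).choose d := by
  obtain ⟨h1, h2⟩ := finrank_lin_pow (MvPolynomial.algebraicIndependent_X (Fin d) ℂ) m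
  set V : Submodule ℂ (MvPolynomial (Fin d) ℂ) := lin MvPolynomial.X ^ m with hV
  have hmem : ∀ p, p ∈ V ↔ p.totalDegree ≤ m := fun p => by
    rw [hV, mem_lin_pow_iff]
    simp only [MvPolynomial.aeval_X_left_apply]
    exact ⟨fun ⟨q, h, e⟩ => e ▸ h, fun h => ⟨p, h, rfl⟩⟩
  let φ : box d N m →ₗ[ℂ] (Fin N → V) :=
    { toFun := fun P i => ⟨P.1.coeff i, (hmem _).2 (P.2.2 i)⟩
      map_add' := fun P Q => funext fun i => Subtype.ext (Polynomial.coeff_add _ _ _)
      map_smul' := fun c P => funext fun i => Subtype.ext (Polynomial.coeff_smul _ _ _) }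
  have hφ : Function.Bijective φ := by
    refine ⟨fun P Q h => Subtype.ext (Polynomial.ext fun i => ?_), fun f => ?_⟩
    · rcases lt_or_ge i N with hi | hi
      · exact congrArg Subtype.val (congrFun h ⟨i, hi⟩)
      · rw [P.2.1 i hi, Q.2.1 i hi]
    · have e : ∀ i, (∑ k : Fin N, Polynomial.monomial (k : ℕ) (f k).1).coeff i =
          if h : i < N then (f ⟨i, h⟩).1 else 0 := fun i => by
        rw [Polynomial.finsetSum_coeff]
        split_ifs with h
        · rw [Finset.sum_eq_single ⟨i, h⟩, Polynomial.coeff_monomial_same]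
          · exact fun k _ hk => Polynomial.coeff_monomial_of_ne _ fun e => hk (Fin.ext e.symm)
          · exact fun k => absurd (Finset.mem_univ _) k
        · exact Finset.sum_eq_zero fun k _ =>
            Polynomial.coeff_monomial_of_ne _ fun e => h (e ▸ k.2)
      refine ⟨⟨∑ k : Fin N, Polynomial.monomial (k : ℕ) (f k).1,
        fun i hi => (e i).trans (dif_neg hi.not_gt), fun i => ?_⟩,
        funext fun i => Subtype.ext ((e i).trans (dif_pos i.2))⟩
      rw [e]
      split_ifs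
      · exact (hmem _).1 (f _).2
      · exact MvPolynomial.totalDegree_zero.trans_le (Nat.zero_le _)
  let ψ := LinearEquiv.ofBijective φ hφ
  refine ⟨ψ.symm.finiteDimensional, ?_⟩
  rw [ψ.finrank_eq, Module.finrank_pi_fintype, Finset.sum_const, Finset.card_univ,
    Fintype.card_fin, h2, smul_eq_mul]

theorem eq_zero_of_mem_box {d N m : ℕ} {P Q : Polynomial (MvPolynomial (Fin d) ℂ)} (hQ : Q.Monic)
    (hN : N ≤ Q.natDegree) (hP : P ∈ box d N m) (h : Q ∣ P) : P = 0 := by
  by_contra h0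
  refine hQ.not_dvd_of_natDegree_lt h0 (lt_of_lt_of_le (not_le.1 fun h1 => h0 ?_) hN) h
  exact Polynomial.leadingCoeff_eq_zero.1 (hP.1 _ h1)

theorem grow_pow_le {S : Type} [CommRing S] [Algebra ℂ S] {A : ℕ → Submodule ℂ S}
    (h1 : (1 : S) ∈ A 0) (hmul : ∀ j k, ∀ f ∈ A j, ∀ g ∈ A k, f * g ∈ A (j + k))
    {W : Submodule ℂ S} {c : ℕ} (hW : W ≤ A c) (m : ℕ) : W ^ m ≤ A (c * m) := by
  induction m with
  | zero => rwa [pow_zero, Submodule.one_le]
  | succ m ih =>
    rw [pow_succ]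
    exact Submodule.mul_le.2 fun f hf g hg => hmul _ _ f (ih hf) g (hW hg)

theorem grow_box_mono {d N m m' : ℕ} (h : m ≤ m') : box d N m ≤ box d N m' :=
  fun _ hP => ⟨hP.1, fun i => (hP.2 i).trans h⟩

theorem grow_C_mul {d N m j : ℕ} {p : MvPolynomial (Fin d) ℂ} (hp : p.totalDegree ≤ j)
    {P : Polynomial (MvPolynomial (Fin d) ℂ)} (hP : P ∈ box d N m) :
    Polynomial.C p * P ∈ box d N (j + m) := by
  refine ⟨fun i hi => ?_, fun i => ?_⟩
  · rw [Polynomial.coeff_C_mul, hP.1 i hi, mul_zero]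
  · rw [Polynomial.coeff_C_mul]
    exact (MvPolynomial.totalDegree_mul _ _).trans (add_le_add hp (hP.2 i))

theorem grow_mod {d : ℕ} (P : Polynomial (MvPolynomial (Fin d) ℂ))
    {Q : Polynomial (MvPolynomial (Fin d) ℂ)} (hQ : Q.Monic) :
    ∃ m, P %ₘ Q ∈ box d Q.natDegree m := by
  refine ⟨(P %ₘ Q).support.sup fun i => ((P %ₘ Q).coeff i).totalDegree, fun i hi => ?_,
    fun i => ?_⟩
  · exact Polynomial.coeff_eq_zero_of_degree_lt ((Polynomial.degree_modByMonic_lt P hQ).trans_le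
      (Polynomial.degree_le_natDegree.trans (Nat.cast_le.2 hi)))
  · by_cases h : i ∈ (P %ₘ Q).support
    · exact Finset.le_sup (f := fun i => ((P %ₘ Q).coeff i).totalDegree) h
    · rw [Polynomial.notMem_support_iff.1 h]
      exact MvPolynomial.totalDegree_zero.trans_le (Nat.zero_le _)

variable {R : Type} [CommRing R] [Algebra ℂ R]

theorem grow_evP_C {d : ℕ} (y : Fin d → R) (w : R) (p : MvPolynomial (Fin d) ℂ) :
    evP y w (Polynomial.C p) = MvPolynomial.aeval y p := Polynomial.aevalTower_C _ _ _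

theorem evP_mem_of_mem_box {d N m c : ℕ} {y : Fin d → R} {w : R} {A : ℕ → Submodule ℂ R}
    (h1 : (1 : R) ∈ A 0) (hmono : Monotone A)
    (hmul : ∀ j k, ∀ f ∈ A j, ∀ g ∈ A k, f * g ∈ A (j + k)) (hy : ∀ i, y i ∈ A 1) (hw : w ∈ A c)
    {P : Polynomial (MvPolynomial (Fin d) ℂ)} (hP : P ∈ box d N m) :
    evP y w P ∈ A (m + c * N) := by
  have hl : lin y ≤ A 1 := Submodule.span_le.2 (Set.insert_subset (hmono zero_le_one h1)
    (Set.range_subset_iff.2 hy))
  have hX : evP y w Polynomial.X = w := Polynomial.aevalTower_X _ _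
  rw [P.as_sum_support_C_mul_X_pow, map_sum]
  refine sum_mem fun i hi => ?_
  have hiN : i ≤ N := le_of_not_ge fun h => Polynomial.mem_support_iff.1 hi (hP.1 i h)
  rw [map_mul, map_pow, hX, grow_evP_C]
  refine hmul _ _ _ ?_ _ (hmono (Nat.mul_le_mul_left c hiN) (grow_pow_le h1 hmul
    ((Submodule.span_singleton_le_iff_mem _ _).2 hw) i
      (Submodule.pow_mem_pow _ (Submodule.mem_span_singleton_self w) i)))
  exact one_mul m ▸ grow_pow_le h1 hmul hl m (mem_lin_pow_iff.2 ⟨_, hP.2 i, rfl⟩)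

theorem grow_lower {d N m c : ℕ} {y : Fin d → R} {w : R} {A : ℕ → Submodule ℂ R}
    (h1 : (1 : R) ∈ A 0) (hmono : Monotone A)
    (hmul : ∀ j k, ∀ f ∈ A j, ∀ g ∈ A k, f * g ∈ A (j + k)) (hy : ∀ i, y i ∈ A 1) (hw : w ∈ A c)
    {Q : Polynomial (MvPolynomial (Fin d) ℂ)} (hQ : Q.Monic) (hker : ∀ P, evP y w P = 0 → Q ∣ P)
    (hN : N ≤ Q.natDegree) [FiniteDimensional ℂ (A (m + c * N))] :
    N * (m + d).choose d ≤ Module.finrank ℂ (A (m + c * N)) := by
  rw [← (finrank_box d N m).2]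
  refine LinearMap.finrank_le_finrank_of_injective (f := (evP y w).toLinearMap.restrict
    fun P hP => evP_mem_of_mem_box h1 hmono hmul hy hw hP) ?_
  rw [injective_iff_map_eq_zero]
  exact fun P h => Subtype.ext
    (eq_zero_of_mem_box hQ hN P.2 (hker _ (congrArg Subtype.val h)))

theorem exists_gens {W' W1 W2 : Submodule ℂ R} [FiniteDimensional ℂ W1] [FiniteDimensional ℂ W2]
    {ℓ : ℕ} (h1 : (1 : R) ∈ W') (hW1 : ∀ v ∈ W1, FInt W' 1 v) (hW2 : ∀ v ∈ W2, FInt W' ℓ v) :
    ∃ G : Finset R, (∀ g ∈ G, g ∈ Algebra.adjoin ℂ ((W' : Set R) ∪ (W1 ⊔ W2 : Submodule ℂ R))) ∧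
      ∀ j, fil W1 W2 ℓ j ≤ W' ^ j * Submodule.span ℂ (G : Set R) := by
  classical
  obtain ⟨t1, ht1⟩ := (Submodule.fg_iff_finiteDimensional W1).2 inferInstance
  obtain ⟨t2, ht2⟩ := (Submodule.fg_iff_finiteDimensional W2).2 inferInstance
  have m1 : ∀ v ∈ t1, v ∈ W1 := fun v hv => ht1 ▸ Submodule.subset_span hv
  have m2 : ∀ v ∈ t2, v ∈ W2 := fun v hv => ht2 ▸ Submodule.subset_span hv
  set s : Set (Polynomial R) := Polynomial.monomial 1 '' (t1 : Set R) ∪
    Polynomial.monomial ℓ '' (t2 : Set R) with hs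
  obtain ⟨Γ, hΓ⟩ := fg_adjoin_of_finite (R := rees W') (s := s)
    ((t1.finite_toSet.image _).union (t2.finite_toSet.image _)) (by
      rintro _ (⟨v, hv, rfl⟩ | ⟨v, hv, rfl⟩)
      · rw [← Polynomial.C_mul_X_pow_eq_monomial]
        exact fInt_iff.1 (hW1 v (m1 v hv))
      · rw [← Polynomial.C_mul_X_pow_eq_monomial]
        exact fInt_iff.1 (hW2 v (m2 v hv)))
  set B := Algebra.adjoin ℂ ((W' : Set R) ∪ (W1 ⊔ W2 : Submodule ℂ R)) with hB
  have hBm : ∀ v ∈ W1 ⊔ W2, ∀ k i, (Polynomial.monomial k v).coeff i ∈ B := fun v hv k i => by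
    rw [Polynomial.coeff_monomial]
    split_ifs
    · exact Algebra.subset_adjoin (Or.inr hv)
    · exact zero_mem _
  have hS : ∀ g ∈ Algebra.adjoin (rees W') s, ∀ i, g.coeff i ∈ B := by
    intro g hg
    induction hg using Algebra.adjoin_induction with
    | mem g hg =>
      rcases hg with ⟨v, hv, rfl⟩ | ⟨v, hv, rfl⟩
      · exact hBm v (Submodule.mem_sup_left (m1 v hv)) _
      · exact hBm v (Submodule.mem_sup_right (m2 v hv)) _
    | algebraMap r =>
      exact fun i => grow_pow_le (A := fun _ => B.toSubmodule) (c := 0) (one_mem B)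
        (fun _ _ _ hf _ hg => mul_mem (S := Subalgebra ℂ R) hf hg)
        (fun v hv => Algebra.subset_adjoin (Or.inl hv)) i (coeff_mem_of_mem_rees r.2 i)
    | add g g' _ _ h h' => exact fun i => Polynomial.coeff_add g g' i ▸ add_mem (h i) (h' i)
    | mul g g' _ _ h h' =>
      exact fun i => Polynomial.coeff_mul g g' i ▸ sum_mem fun x _ => mul_mem (h _) (h' _)
  refine ⟨Γ.biUnion Polynomial.coeffs, fun g hg => ?_, fun j => ?_⟩
  · obtain ⟨γ, hγ, hg⟩ := Finset.mem_biUnion.1 hg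
    obtain ⟨i, -, rfl⟩ := Polynomial.mem_coeffs_iff.1 hg
    have h2 : γ ∈ (Algebra.adjoin (rees W') s).toSubmodule := hΓ ▸ Submodule.subset_span hγ
    exact hS γ h2 i
  have hc : ∀ g ∈ Submodule.span (rees W') (Γ : Set (Polynomial R)), ∀ k,
      g.coeff k ∈ W' ^ k * Submodule.span ℂ (Γ.biUnion Polynomial.coeffs : Set R) := by
    intro g hg
    induction hg using Submodule.span_induction with
    | mem g hg =>
      intro k
      rw [← one_mul (g.coeff k), ← one_pow k]
      refine Submodule.mul_mem_mul (Submodule.pow_mem_pow _ h1 k) ?_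
      by_cases h : g.coeff k = 0
      · exact h ▸ zero_mem _
      · exact Submodule.subset_span (Finset.mem_coe.2
          (Finset.mem_biUnion.2 ⟨g, hg, Polynomial.coeff_mem_coeffs h⟩))
    | zero => exact fun k => zero_mem _
    | add g g' _ _ h h' => exact fun i => Polynomial.coeff_add g g' i ▸ add_mem (h i) (h' i)
    | smul r g _ h =>
      intro k
      rw [Subalgebra.smul_def, smul_eq_mul, Polynomial.coeff_mul]
      refine sum_mem fun x hx => ?_
      rw [← Finset.HasAntidiagonal.mem_antidiagonal.1 hx, pow_add, mul_assoc]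
      exact Submodule.mul_mem_mul (coeff_mem_of_mem_rees r.2 _) (h _)
  let A : ℕ → Submodule ℂ R := fun k =>
    ((Algebra.adjoin (rees W') s).restrictScalars ℂ).toSubmodule.comap
      ((Polynomial.monomial k).restrictScalars ℂ)
  have hA : ∀ k v, v ∈ A k ↔ Polynomial.monomial k v ∈ Algebra.adjoin (rees W') s :=
    fun _ _ => Iff.rfl
  have a1 : (1 : R) ∈ A 0 := (hA _ _).2 (one_mem _)
  have a2 : ∀ j k, ∀ f ∈ A j, ∀ g ∈ A k, f * g ∈ A (j + k) := fun j k f hf g hg => by
    rw [hA, ← Polynomial.monomial_mul_monomial]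
    exact mul_mem ((hA _ _).1 hf) ((hA _ _).1 hg)
  have a3 : W1 ≤ A 1 := ht1 ▸ Submodule.span_le.2 fun v hv =>
    (hA _ _).2 (Algebra.subset_adjoin (Or.inl ⟨v, hv, rfl⟩))
  have a4 : W2 ≤ A ℓ := ht2 ▸ Submodule.span_le.2 fun v hv =>
    (hA _ _).2 (Algebra.subset_adjoin (Or.inr ⟨v, hv, rfl⟩))
  have a5 : fil W1 W2 ℓ j ≤ A j := iSup₂_le fun b hb => Submodule.mul_le.2 fun f hf g hg => by
    have := a2 _ _ f (grow_pow_le a1 a2 a3 _ hf) g (grow_pow_le a1 a2 a4 _ hg)
    rwa [one_mul, mul_comm ℓ, Nat.sub_add_cancel hb] at this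
  intro f hf
  have h2 : Polynomial.monomial j f ∈ (Algebra.adjoin (rees W') s).toSubmodule :=
    (hA _ _).1 (a5 hf)
  have h3 := hc _ (hΓ ▸ h2) j
  rwa [Polynomial.coeff_monomial_same] at h3

theorem grow_upper {F : Type} [Field F] [Algebra ℂ F] {d : ℕ} {y : Fin d → F} {w : F}
    (hy : AlgebraicIndependent ℂ y) {W1 W2 : Submodule ℂ F} [FiniteDimensional ℂ W1]
    [FiniteDimensional ℂ W2] {ℓ : ℕ} (hW1 : ∀ v ∈ W1, FInt (lin y) 1 v)
    (hW2 : ∀ v ∈ W2, FInt (lin y) ℓ v) {Q : Polynomial (MvPolynomial (Fin d) ℂ)} (hQ : Q.Monic)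
    (h0 : evP y w Q = 0)
    (hrat : ∀ f ∈ Algebra.adjoin ℂ (Set.range y ∪ (W1 ⊔ W2 : Submodule ℂ F)),
      ∃ E : MvPolynomial (Fin d) ℂ, E ≠ 0 ∧ ∃ P, MvPolynomial.aeval y E * f = evP y w P) :
    ∃ c : ℕ, ∀ j, Module.finrank ℂ (fil W1 W2 ℓ j) ≤ Q.natDegree * (j + c + d).choose d := by
  classical
  obtain ⟨G, hG, hfil⟩ := exists_gens (W' := lin y)
    (Submodule.subset_span (Set.mem_insert _ _)) hW1 hW2
  have hle : Algebra.adjoin ℂ ((lin y : Set F) ∪ (W1 ⊔ W2 : Submodule ℂ F)) ≤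
      Algebra.adjoin ℂ (Set.range y ∪ (W1 ⊔ W2 : Submodule ℂ F)) := by
    refine Algebra.adjoin_le (Set.union_subset ?_ fun v hv => Algebra.subset_adjoin (Or.inr hv))
    exact (Submodule.span_le (p := (Algebra.adjoin ℂ _).toSubmodule)).2
      (Set.insert_subset (one_mem (S := Subalgebra ℂ F) _)
        fun v hv => Algebra.subset_adjoin (Or.inl hv))
  choose! E hE P hP using fun g hg => hrat g (hle (hG g hg))
  have hE0 : MvPolynomial.aeval y (∏ g ∈ G, E g) ≠ 0 := fun h =>
    Finset.prod_ne_zero_iff.2 hE (hy (h.trans (map_zero _).symm))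
  choose m hm using fun g => grow_mod (Polynomial.C (∏ g' ∈ G.erase g, E g') * P g) hQ
  refine ⟨G.sup m, fun j => ?_⟩
  have h1 : Submodule.span ℂ (G : Set F) ≤
      ((box d Q.natDegree (G.sup m)).map (evP y w).toLinearMap).comap
        (LinearMap.mulLeft ℂ (MvPolynomial.aeval y (∏ g ∈ G, E g))) := by
    refine Submodule.span_le.2 fun g hg => ⟨_, grow_box_mono (Finset.le_sup hg) (hm g), ?_⟩
    rw [AlgHom.toLinearMap_apply, Polynomial.modByMonic_eq_sub_mul_div, map_sub, map_mul _ Q, h0,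
      zero_mul, sub_zero, map_mul, grow_evP_C, ← hP g hg, ← mul_assoc, ← map_mul,
      Finset.prod_erase_mul _ _ hg, LinearMap.mulLeft_apply]
  have h2 : ∀ f ∈ fil W1 W2 ℓ j, LinearMap.mulLeft ℂ (MvPolynomial.aeval y (∏ g ∈ G, E g)) f ∈
      (box d Q.natDegree (j + G.sup m)).map (evP y w).toLinearMap := by
    refine fun f hf => Submodule.mem_comap.1 (Submodule.mul_le.2 (fun u hu v hv => ?_) (hfil j hf))
    obtain ⟨p, hp, rfl⟩ := mem_lin_pow_iff.1 hu
    obtain ⟨T, hT, e⟩ := h1 hv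
    refine ⟨_, grow_C_mul hp hT, ?_⟩
    rw [AlgHom.toLinearMap_apply] at e ⊢
    rw [map_mul, grow_evP_C, e, LinearMap.mulLeft_apply, LinearMap.mulLeft_apply, mul_left_comm]
  obtain ⟨h3, h4⟩ := finrank_box d Q.natDegree (j + G.sup m)
  rw [← h4]
  refine le_trans (LinearMap.finrank_le_finrank_of_injective
    (f := LinearMap.restrict _ h2) fun u v h => Subtype.ext ?_) (Submodule.finrank_map_le _ _)
  exact mul_left_cancel₀ hE0 (congrArg Subtype.val h)

end Vale.Agent.P271
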