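import Vale.Agent.P271.Sieg
import Vale.Agent.P271.FN

/-! Noether normalisation of an immersive linear system.

Hints. `exists_homogenize`: induct on monomials (`MvPolynomial.induction_on'''` or the sum over
the support): the monomial `α` lifts to `σ ^ (m - |α|) * ∏ s i ^ α i`.
`eval_mul_eq_zero`: homogenise `F` and `G` to sections `f`, `g`; then `σ * (f * g) = 0` on `X`,
and `Atl.eq_zero_or_eq_zero` applies.
`exists_noether`: take `σ = s i0 ≠ 0`, the ring `R = ({p // σ p ≠ 0} → ℂ)`, the elements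
`s i / σ` (reindexed by `Fin r`), and apply `fn`. The `y l` lie in the span of the `s i / σ`, so they
are `w l / σ` with `w l` in the span of the `s i`. The bound `d ≤ n`: homogenisation embeds the
polynomials of degree `≤ j`, a space of dimension `(j + d).choose d`, in `H0 (u ^ j)`, whose dimension
is at most `C (j + 1) ^ n` (`siegel`); compare the growth. No common zero: homogenise the equation
`FInt (lin y) 1 (s i / σ)` (use `mem_lin_pow_iff` and `exists_homogenize` for the family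
`Fin.cons σ w` or `Option.elim`): `s i ^ N + ∑ a k * s i ^ (N - k)` is a section that vanishes where
`σ ≠ 0`, so everywhere (`Atl.dense_ne_zero` or `eq_zero_or_eq_zero`), and `a k` vanishes at a
common zero of `σ` and the `w l` for `k ≥ 1`. -/

open Set Filter Topology

noncomputable section

namespace Vale.Agent.P271

theorem intA_prod_mem {X ι : Type} {s : ι → X → ℂ} {W : Submodule ℂ (X → ℂ)} (hs : ∀ i, s i ∈ W)
    (α : ι → ℕ) (S : Finset ι) : ∏ i ∈ S, s i ^ α i ∈ W ^ ∑ i ∈ S, α i := by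
  classical
  induction S using Finset.induction_on with
  | empty =>
    rw [Finset.prod_empty, Finset.sum_empty, pow_zero]
    exact Submodule.one_le.1 le_rfl
  | insert i S hi ih =>
    rw [Finset.prod_insert hi, Finset.sum_insert hi, pow_add]
    exact Submodule.mul_mem_mul (Submodule.pow_mem_pow W (hs i) _) ih

theorem exists_homogenize {X ι : Type} {s : ι → X → ℂ} {σ : X → ℂ} {W : Submodule ℂ (X → ℂ)}
    (hσ : σ ∈ W) (hs : ∀ i, s i ∈ W) {m : ℕ} {P : MvPolynomial ι ℂ} (hP : P.totalDegree ≤ m) :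
    ∃ f ∈ W ^ m, ∀ p, σ p ≠ 0 → f p = σ p ^ m * MvPolynomial.eval (fun i => s i p / σ p) P := by
  have hd : ∀ α ∈ P.support, ∑ i ∈ α.support, α i ≤ m := fun α hα =>
    (MvPolynomial.le_totalDegree hα).trans hP
  refine ⟨∑ α ∈ P.support, P.coeff α •
    (σ ^ (m - ∑ i ∈ α.support, α i) * ∏ i ∈ α.support, s i ^ α i), ?_, fun p hp => ?_⟩
  · refine Submodule.sum_mem _ fun α hα => Submodule.smul_mem _ _ ?_
    have h := Submodule.mul_mem_mul (Submodule.pow_mem_pow W hσ (m - ∑ i ∈ α.support, α i))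
      (intA_prod_mem hs α α.support)
    rwa [← pow_add, Nat.sub_add_cancel (hd α hα)] at h
  · rw [MvPolynomial.eval_eq, Finset.mul_sum, Finset.sum_apply]
    refine Finset.sum_congr rfl fun α hα => ?_
    obtain ⟨k, rfl⟩ := Nat.exists_eq_add_of_le (hd α hα)
    simp only [Pi.smul_apply, Pi.mul_apply, Pi.pow_apply, Finset.prod_apply, smul_eq_mul, div_pow,
      Finset.prod_div_distrib, Finset.prod_pow_eq_pow_sum, Nat.add_sub_cancel_left, pow_add]
    field_simp

/-- Division by `τ` on the set where `σ` does not vanish. -/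
def intARho {X : Type} (σ τ : X → ℂ) : (X → ℂ) →ₗ[ℂ] ({p // σ p ≠ 0} → ℂ) where
  toFun f p := f p / τ p
  map_add' f g := by
    funext p
    simp [add_div]
  map_smul' c f := by
    funext p
    simp [mul_div_assoc]

theorem intA_aeval {Y ι : Type} (y : ι → Y → ℂ) (P : MvPolynomial ι ℂ) (p : Y) :
    MvPolynomial.aeval y P p = MvPolynomial.eval (fun l => y l p) P := by
  induction P using MvPolynomial.induction_on with
  | C a => simp
  | add P Q h1 h2 => simp [h1, h2]
  | mul_X P i h => simp [h]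

theorem intA_val {σ t : ℂ} (hσ : σ ≠ 0) {j N : ℕ} {a c : ℕ → ℂ}
    (h : ∀ k ≤ N, a k = σ ^ (k * j) * c k)
    (h0 : (t / σ ^ j) ^ N + ∑ k ∈ Finset.range N, c (k + 1) * (t / σ ^ j) ^ (N - (k + 1)) = 0) :
    t ^ N + ∑ k ∈ Finset.range N, a (k + 1) * t ^ (N - (k + 1)) = 0 := by
  have h1 := congrArg (fun z => (σ ^ j) ^ N * z) h0
  simp only [mul_zero, mul_add, Finset.mul_sum] at h1
  rw [← h1]
  congr 1
  · rw [div_pow]
    field_simp
  · refine Finset.sum_congr rfl fun k hk => ?_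
    have hk' : k + 1 ≤ N := Finset.mem_range.1 hk
    rw [h _ hk']
    obtain ⟨l, rfl⟩ := Nat.exists_eq_add_of_le hk'
    rw [Nat.add_sub_cancel_left, mul_comm (k + 1) j, pow_mul, pow_add (σ ^ j) (k + 1) l, div_pow]
    field_simp

theorem intA_growth {d n C : ℕ} (h : ∀ j, (j + d).choose d ≤ C * (j + 1) ^ n) : d ≤ n := by
  by_contra hn
  have h1 := Nat.pow_succ_le_ascFactorial (d.factorial * C + 1) d
  rw [Nat.ascFactorial_eq_factorial_mul_choose] at h1
  have h2 := Nat.mul_le_mul_left d.factorial (h (d.factorial * C))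
  have h3 : (d.factorial * C + 1) ^ (n + 1) ≤ (d.factorial * C + 1) ^ d :=
    Nat.pow_le_pow_right (Nat.succ_pos _) (not_le.1 hn)
  have h4 := h3.trans (h1.trans h2)
  rw [pow_succ', ← mul_assoc] at h4
  have h5 := Nat.le_of_mul_le_mul_right h4 (by positivity)
  omega

variable {n : ℕ} {X : Type} [TopologicalSpace X] [T2Space X] [CompactSpace X] [ConnectedSpace X]
  {A : Atl n X} {u : A.ι → X → ℂ}

omit [T2Space X] [CompactSpace X] [ConnectedSpace X] in
theorem intA_pow_le {W : Submodule ℂ (X → ℂ)} (h : W ≤ A.H0 u) (m : ℕ) :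
    W ^ m ≤ A.H0 (u ^ m) := by
  have h1 := Atl.pow_le_H0_pow (A := A) (u := u) (W := W) (j := 1) (by rwa [pow_one]) m
  rwa [mul_one] at h1

omit [T2Space X] [CompactSpace X] [ConnectedSpace X] in
theorem intA_sec {j N : ℕ} {t : X → ℂ} (ht : t ∈ A.H0 (u ^ j)) {a : ℕ → X → ℂ}
    (ha : ∀ k, a k ∈ A.H0 (u ^ (k * j))) :
    t ^ N + ∑ k ∈ Finset.range N, a (k + 1) * t ^ (N - (k + 1)) ∈ A.H0 (u ^ (N * j)) := by
  have hp : ∀ m, t ^ m ∈ A.H0 (u ^ (m * j)) := fun m => by
    have h := Atl.pow_mem_H0 ht m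
    rwa [← pow_mul, mul_comm] at h
  refine Submodule.add_mem _ (hp N) (Submodule.sum_mem _ fun k hk => ?_)
  have h := Atl.mul_mem_H0_pow (ha (k + 1)) (hp (N - (k + 1)))
  rwa [← add_mul, Nat.add_sub_cancel' (Finset.mem_range.1 hk)] at h

theorem eval_mul_eq_zero (hu : A.IsGauge u) {ι : Type} {s : ι → X → ℂ} {σ : X → ℂ}
    (hσ : σ ∈ A.H0 u) (hs : ∀ i, s i ∈ A.H0 u) {F G : MvPolynomial ι ℂ}
    (h : ∀ p, σ p ≠ 0 → MvPolynomial.eval (fun i => s i p / σ p) (F * G) = 0) :
    (∀ p, σ p ≠ 0 → MvPolynomial.eval (fun i => s i p / σ p) F = 0) ∨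
      ∀ p, σ p ≠ 0 → MvPolynomial.eval (fun i => s i p / σ p) G = 0 := by
  obtain ⟨f, hf, ef⟩ := exists_homogenize hσ hs (P := F) le_rfl
  obtain ⟨g, hg, eg⟩ := exists_homogenize hσ hs (P := G) le_rfl
  have hf' := intA_pow_le le_rfl _ hf
  have hg' := intA_pow_le le_rfl _ hg
  have h1 : σ * (f * g) = 0 := by
    funext p
    by_cases hp : σ p = 0
    · simp [hp]
    · have h2 := h p hp
      rw [map_mul] at h2
      simp only [Pi.mul_apply, ef p hp, eg p hp, Pi.zero_apply]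
      linear_combination σ p * σ p ^ F.totalDegree * σ p ^ G.totalDegree * h2
  rcases Atl.eq_zero_or_eq_zero hu (hu.pow _) hσ (Atl.mul_mem_H0_pow hf' hg') h1 with h2 | h2
  · exact Or.inl fun p hp => (hp (congrFun h2 p)).elim
  · refine (Atl.eq_zero_or_eq_zero (hu.pow _) (hu.pow _) hf' hg' h2).imp
      (fun h3 p hp => ?_) fun h3 p hp => ?_
    · exact (mul_eq_zero.1 ((ef p hp).symm.trans (congrFun h3 p))).resolve_left (pow_ne_zero _ hp)
    · exact (mul_eq_zero.1 ((eg p hp).symm.trans (congrFun h3 p))).resolve_left (pow_ne_zero _ hp)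

theorem exists_noether (hu : A.IsGauge u) {ι : Type} [Fintype ι] {s : ι → X → ℂ}
    (hs : A.Imm u s) :
    ∃ (σ : X → ℂ) (d : ℕ) (w : Fin d → X → ℂ), σ ∈ Submodule.span ℂ (range s) ∧
      (∀ l, w l ∈ Submodule.span ℂ (range s)) ∧ d ≤ n ∧ (∀ p, σ p = 0 → ∃ l, w l p ≠ 0) ∧
      (∀ F : MvPolynomial (Fin d) ℂ, F ≠ 0 →
        ∃ p, σ p ≠ 0 ∧ MvPolynomial.eval (fun l => w l p / σ p) F ≠ 0) ∧
      ∀ i, ∃ G : Polynomial (MvPolynomial (Fin d) ℂ), G.Monic ∧ ∀ p, σ p ≠ 0 →
        G.eval₂ (MvPolynomial.eval fun l => w l p / σ p) (s i p / σ p) = 0 := by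
  obtain ⟨p0⟩ : Nonempty X := inferInstance
  obtain ⟨i0, hi0⟩ := hs.bpf p0
  obtain ⟨σ, hσ⟩ : ∃ σ, σ = s i0 := ⟨_, rfl⟩
  rw [← hσ] at hi0
  have hσs : σ ∈ Submodule.span ℂ (range s) := Submodule.subset_span ⟨i0, hσ.symm⟩
  have hle : Submodule.span ℂ (range s) ≤ A.H0 u :=
    Submodule.span_le.2 (range_subset_iff.2 hs.mem)
  have : Nonempty {p // σ p ≠ 0} := ⟨⟨p0, hi0⟩⟩
  obtain ⟨d, y, -, hy, hsp, hint⟩ :=
    fn fun k => intARho σ σ (s ((Fintype.equivFin ι).symm k))
  have hw : ∀ l, ∃ w ∈ Submodule.span ℂ (range s), intARho σ σ w = y l := fun l =>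
    Submodule.mem_map.1 ((Submodule.span_le.2 (range_subset_iff.2 fun k =>
      Submodule.mem_map_of_mem (Submodule.subset_span (mem_range_self _)))) (hsp l))
  choose w hw1 hw2 using hw
  have hev : ∀ (P : MvPolynomial (Fin d) ℂ) (p : X) (hp : σ p ≠ 0),
      MvPolynomial.aeval y P ⟨p, hp⟩ = MvPolynomial.eval (fun l => w l p / σ p) P := by
    intro P p hp
    rw [intA_aeval]
    simp only [← hw2]
    rfl
  have hP : ∀ i, ∃ (N : ℕ) (P : ℕ → MvPolynomial (Fin d) ℂ), 0 < N ∧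
      (∀ k, (P k).totalDegree ≤ k * 1) ∧ ∀ p, σ p ≠ 0 → (s i p / σ p) ^ N +
        ∑ k ∈ Finset.range N, MvPolynomial.eval (fun l => w l p / σ p) (P (k + 1)) *
          (s i p / σ p) ^ (N - (k + 1)) = 0 := by
    intro i
    obtain ⟨N, a, hN, ha, h0⟩ := hint (intARho σ σ (s i)) (Submodule.subset_span
      (mem_insert_of_mem _ ⟨Fintype.equivFin ι i, by simp⟩))
    choose P hP1 hP2 using fun k => mem_lin_pow_iff.1 (ha k)
    refine ⟨N, P, hN, hP1, fun p hp => ?_⟩
    have h1 := congrFun h0 ⟨p, hp⟩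
    simp only [Pi.add_apply, Pi.pow_apply, Finset.sum_apply, Pi.mul_apply, ← hP2, hev] at h1
    exact h1
  refine ⟨σ, d, w, hσs, hw1, ?_, fun p hp => ?_, fun F hF => ?_, fun i => ?_⟩
  · obtain ⟨C, hC⟩ := siegel A hu
    refine intA_growth (C := C) fun j => ?_
    have := (hC j).1
    rw [← (finrank_lin_pow hy j).2]
    refine le_trans ?_ ((Submodule.finrank_map_le (intARho σ (σ ^ j)) _).trans (hC j).2)
    refine Submodule.finrank_mono fun f hf => ?_
    obtain ⟨P, h1, rfl⟩ := mem_lin_pow_iff.1 hf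
    obtain ⟨g, hg, eg⟩ := exists_homogenize hσs hw1 h1
    refine ⟨g, intA_pow_le hle _ hg, funext fun p => ?_⟩
    rw [hev P p.1 p.2]
    change g p / σ p ^ j = _
    rw [eg p p.2, mul_div_cancel_left₀ _ (pow_ne_zero _ p.2)]
  · by_contra hcon
    push Not at hcon
    obtain ⟨i, hi⟩ := hs.bpf p
    obtain ⟨N, P, hN, h1, h2⟩ := hP i
    obtain ⟨W, hW⟩ : ∃ W : Submodule ℂ (X → ℂ),
      W = A.H0 u ⊓ LinearMap.ker (LinearMap.proj (R := ℂ) (φ := fun _ : X => ℂ) p) := ⟨_, rfl⟩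
    have hW1 : W ≤ A.H0 u := hW ▸ inf_le_left
    have hW2 : ∀ k, ∀ f ∈ W ^ (k + 1), f p = 0 := by
      intro k f hf
      rw [pow_succ] at hf
      refine Submodule.mul_induction_on hf (fun a _ b hb => ?_) fun a b ha hb => ?_
      · rw [hW] at hb
        have : b p = 0 := hb.2
        simp [this]
      · simp [ha, hb]
    choose a ha1 ha2 using fun k => exists_homogenize (W := W) (σ := σ) (s := w)
      (hW ▸ ⟨hle hσs, hp⟩) (fun l => hW ▸ ⟨hle (hw1 l), hcon l⟩) (h1 k)
    have h3 := intA_sec (u := u) (j := 1) (N := N) (t := s i) (by simpa using hs.mem i)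
      fun k => intA_pow_le hW1 _ (ha1 k)
    have h4 := Atl.eq_zero_of_eventually (hu.pow _) h3 (p := p0) (by
      filter_upwards [(Atl.isOpen_ne_zero hu (Atl.H0_le_Sec (hle hσs))).mem_nhds hi0] with q hq
      simp only [Pi.add_apply, Pi.pow_apply, Finset.sum_apply, Pi.mul_apply]
      exact intA_val hq (j := 1) (fun k _ => ha2 k q hq) (by simpa using h2 q hq))
    have h5 := congrFun h4 p
    simp only [Pi.add_apply, Pi.pow_apply, Finset.sum_apply, Pi.mul_apply, Pi.zero_apply] at h5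
    rw [Finset.sum_eq_zero fun k _ => by
      rw [hW2 k (a (k + 1)) (by simpa using ha1 (k + 1)), zero_mul], add_zero] at h5
    exact pow_ne_zero N hi h5
  · have h1 : MvPolynomial.aeval y F ≠ 0 := fun h => hF (algebraicIndependent_iff.1 hy F h)
    obtain ⟨p, hp⟩ := Function.ne_iff.1 h1
    exact ⟨p.1, p.2, by rwa [← hev F p.1 p.2]⟩
  · obtain ⟨N, P, hN, -, h2⟩ := hP i
    refine ⟨Polynomial.X ^ N + ∑ k ∈ Finset.range N,
      Polynomial.C (P (k + 1)) * Polynomial.X ^ (N - (k + 1)), ?_, fun p hp => ?_⟩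
    · refine Polynomial.monic_X_pow_add ((Polynomial.degree_sum_le _ _).trans_lt ?_)
      refine (Finset.sup_lt_iff (WithBot.bot_lt_coe N)).2 fun k _ => ?_
      refine (Polynomial.degree_C_mul_X_pow_le _ _).trans_lt ?_
      exact WithBot.coe_lt_coe.2 (by omega : N - (k + 1) < N)
    · simp only [Polynomial.eval₂_add, Polynomial.eval₂_finsetSum, Polynomial.eval₂_mul,
        Polynomial.eval₂_X_pow, Polynomial.eval₂_C]
      exact h2 p hp

end Vale.Agent.P271
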