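import Vale.Agent.P271.IntA

/-! The projection to projective space of dimension `n` is unramified off a hypersurface.

Hints. `exists_disc_one`: let `φ : ℂ[y][S] → ({p // σ p ≠ 0} → ℂ)` be the evaluation at
`(w / σ, t / σ)`. Its kernel is prime (`eval_mul_eq_zero` for the family `Option.elim t w` and
`MvPolynomial.optionEquivLeft`), does not meet `ℂ[y]`, and contains a monic polynomial. Take a nonzero
`G` in the kernel of least degree; the degree is positive, so `G' = derivative G` is not in the kernel.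
The range of `φ` is a domain, integral over `ℂ[y]`, so `φ G'` divides `φ (C D)` for some `D ≠ 0`
(`IsAlgebraic.exists_nonzero_dvd`). `exists_proj`: `D` is the product of the polynomials for
`t = s i`. If `fderiv y z ξ = 0`, differentiate `G (y, s i / σ) = 0` (it holds near `z`) in the
direction `ξ`: `G' (y, s i / σ) * fderiv (s i / σ) z ξ = 0`. (An easy way: along the map
`z ↦ (y z, τ z)` into `(Fin d → ℂ) × ℂ`, the polynomial function `H (y, S) = G.eval₂ (eval y) S` is
differentiable and `fderiv H (y, S) (0, c) = c * G' (y, S)`, `Polynomial.hasDerivAt`.) So all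
`fderiv (s i / σ) z ξ` vanish and `ξ = 0` by `Atl.Imm.exists_fderiv_ne`. Injectivity at one point gives
`n ≤ d`, so `d = n`. -/

open Set Filter Topology

noncomputable section

namespace Vale.Agent.P271

theorem IntB_alg {R : Type} [CommRing R] [IsDomain R] [CharZero R] (P : Ideal (Polynomial R))
    [hP : P.IsPrime] (hC : ∀ r, Polynomial.C r ∈ P → r = 0) {G0 : Polynomial R} (hG0 : G0.Monic)
    (h0 : G0 ∈ P) : ∃ G ∈ P, ∃ D : R, D ≠ 0 ∧ ∃ H, G.derivative * H - Polynomial.C D ∈ P := by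
  classical
  have hex : ∃ k, ∃ G ∈ P, G ≠ 0 ∧ G.natDegree = k := ⟨_, G0, h0, hG0.ne_zero, rfl⟩
  obtain ⟨G, hG, hG1, hk⟩ := Nat.find_spec hex
  have hd : G.natDegree ≠ 0 := by
    intro h
    have h1 := Polynomial.eq_C_of_natDegree_eq_zero h
    have h2 := hC (G.coeff 0) (h1 ▸ hG)
    rw [h2, Polynomial.C_0] at h1
    exact hG1 h1
  have hG' : G.derivative ∉ P := fun h =>
    Nat.find_min hex (hk ▸ Polynomial.natDegree_derivative_lt hd)
      ⟨_, h, Polynomial.derivative_ne_zero.2 hd, rfl⟩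
  have hae : ∀ q : Polynomial R,
      Polynomial.aeval (Ideal.Quotient.mk P Polynomial.X) q = Ideal.Quotient.mk P q := by
    intro q
    have h := Polynomial.aeval_algHom_apply (Ideal.Quotient.mkₐ R P) Polynomial.X q
    rw [Polynomial.aeval_X_left_apply] at h
    exact h
  have hX : IsIntegral R (Ideal.Quotient.mk P Polynomial.X) :=
    ⟨G0, hG0, (hae G0).trans (Ideal.Quotient.eq_zero_iff_mem.2 h0)⟩
  have hI : IsIntegral R (Ideal.Quotient.mk P G.derivative) := by
    rw [← hae]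
    exact adjoin_le_integralClosure hX (Polynomial.aeval_mem_adjoin_singleton _ _)
  obtain ⟨D, hD, c, hc⟩ := hI.isAlgebraic.exists_nonzero_dvd
    (mem_nonZeroDivisors_of_ne_zero fun h => hG' (Ideal.Quotient.eq_zero_iff_mem.1 h))
  obtain ⟨H, rfl⟩ := Ideal.Quotient.mk_surjective c
  refine ⟨G, hG, D, hD, H, Ideal.Quotient.eq.1 ?_⟩
  rw [map_mul, ← hc]
  rfl

theorem IntB_deriv_mv {d : ℕ} {y : ℂ → Fin d → ℂ} (hy : ∀ l, HasDerivAt (fun c => y c l) 0 0)
    (F : MvPolynomial (Fin d) ℂ) : HasDerivAt (fun c => MvPolynomial.eval (y c) F) 0 0 := by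
  induction F using MvPolynomial.induction_on with
  | C a => simpa using hasDerivAt_const (0 : ℂ) a
  | add p q hp hq => simpa using hp.fun_add hq
  | mul_X p l hp => simpa using hp.fun_mul (hy l)

theorem IntB_deriv {d : ℕ} {y : ℂ → Fin d → ℂ} (hy : ∀ l, HasDerivAt (fun c => y c l) 0 0)
    {τ : ℂ → ℂ} {τ' : ℂ} (hτ : HasDerivAt τ τ' 0) (G : Polynomial (MvPolynomial (Fin d) ℂ)) :
    HasDerivAt (fun c => G.eval₂ (MvPolynomial.eval (y c)) (τ c))
      (G.derivative.eval₂ (MvPolynomial.eval (y 0)) (τ 0) * τ') 0 := by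
  induction G using Polynomial.induction_on' with
  | add p q hp hq => simpa [add_mul] using hp.fun_add hq
  | monomial k F =>
    have h := (IntB_deriv_mv hy F).fun_mul (hτ.fun_pow k)
    simp only [Polynomial.eval₂_monomial, Polynomial.derivative_monomial, map_mul, map_natCast]
    refine h.congr_deriv ?_
    ring

variable {n : ℕ} {X : Type} [TopologicalSpace X] [T2Space X] [CompactSpace X] [ConnectedSpace X]
  {A : Atl n X} {u : A.ι → X → ℂ}

theorem exists_disc_one (hu : A.IsGauge u) {σ t : X → ℂ} {d : ℕ} {w : Fin d → X → ℂ}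
    (hσ : σ ∈ A.H0 u) (ht : t ∈ A.H0 u) (hw : ∀ l, w l ∈ A.H0 u)
    (hind : ∀ F : MvPolynomial (Fin d) ℂ, F ≠ 0 →
      ∃ p, σ p ≠ 0 ∧ MvPolynomial.eval (fun l => w l p / σ p) F ≠ 0)
    {G0 : Polynomial (MvPolynomial (Fin d) ℂ)} (hG0 : G0.Monic) (h0 : ∀ p, σ p ≠ 0 →
      G0.eval₂ (MvPolynomial.eval fun l => w l p / σ p) (t p / σ p) = 0) :
    ∃ (G : Polynomial (MvPolynomial (Fin d) ℂ)) (D : MvPolynomial (Fin d) ℂ), D ≠ 0 ∧
      ∀ p, σ p ≠ 0 → G.eval₂ (MvPolynomial.eval fun l => w l p / σ p) (t p / σ p) = 0 ∧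
        (MvPolynomial.eval (fun l => w l p / σ p) D ≠ 0 →
          G.derivative.eval₂ (MvPolynomial.eval fun l => w l p / σ p) (t p / σ p) ≠ 0) := by
  let φ : Polynomial (MvPolynomial (Fin d) ℂ) →+* ({p // σ p ≠ 0} → ℂ) :=
    RingHom.pi fun p => Polynomial.eval₂RingHom
      (MvPolynomial.eval fun l => w l p.1 / σ p.1) (t p.1 / σ p.1)
  have hφ : ∀ G, G ∈ RingHom.ker φ ↔ ∀ p, σ p ≠ 0 →
      G.eval₂ (MvPolynomial.eval fun l => w l p / σ p) (t p / σ p) = 0 := fun G =>
    ⟨fun h p hp => congrFun (RingHom.mem_ker.1 h) ⟨p, hp⟩,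
      fun h => RingHom.mem_ker.2 (funext fun p => h p.1 p.2)⟩
  have hC : ∀ F, Polynomial.C F ∈ RingHom.ker φ → F = 0 := by
    intro F hF
    by_contra h
    obtain ⟨p, hp, h1⟩ := hind F h
    have h2 := (hφ _).1 hF p hp
    rw [Polynomial.eval₂_C] at h2
    exact h1 h2
  have hev : ∀ (G : Polynomial (MvPolynomial (Fin d) ℂ)) (p : X),
      MvPolynomial.eval (fun i : Option (Fin d) => (Option.elim i t w) p / σ p)
        ((MvPolynomial.optionEquivLeft ℂ (Fin d)).symm G) =
      G.eval₂ (MvPolynomial.eval fun l => w l p / σ p) (t p / σ p) := by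
    intro G p
    have e : (fun i : Option (Fin d) => (Option.elim i t w) p / σ p) =
        fun i => Option.elim i (t p / σ p) fun l => w l p / σ p := by
      funext i
      cases i <;> rfl
    rw [e, MvPolynomial.optionEquivLeft_elim_eval, AlgEquiv.apply_symm_apply,
      Polynomial.eval_map]
  have hP : (RingHom.ker φ).IsPrime := by
    refine ⟨fun h => ?_, fun {F G} h => ?_⟩
    · exact one_ne_zero (hC 1 (h ▸ Submodule.mem_top))
    · have hs : ∀ i : Option (Fin d), (Option.elim i t w) ∈ A.H0 u := by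
        intro i
        cases i with
        | none => exact ht
        | some l => exact hw l
      have h1 := eval_mul_eq_zero hu hσ hs
        (F := (MvPolynomial.optionEquivLeft ℂ (Fin d)).symm F)
        (G := (MvPolynomial.optionEquivLeft ℂ (Fin d)).symm G) (fun p hp => by
          rw [← map_mul, hev]
          exact (hφ _).1 h p hp)
      simp only [hev] at h1
      exact h1.imp (hφ _).2 (hφ _).2
  obtain ⟨G, hG, D, hD, H, hH⟩ := IntB_alg (RingHom.ker φ) hC hG0 ((hφ _).2 h0)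
  refine ⟨G, D, hD, fun p hp => ⟨(hφ _).1 hG p hp, fun h1 h2 => h1 ?_⟩⟩
  have h3 := (hφ _).1 hH p hp
  rw [Polynomial.eval₂_sub, Polynomial.eval₂_mul, h2, Polynomial.eval₂_C, zero_mul, zero_sub,
    neg_eq_zero] at h3
  exact h3

/-- The data of a finite projection that is unramified where `D ≠ 0`. -/
structure Proj (A : Atl n X) (u : A.ι → X → ℂ) (σ : X → ℂ) (w : Fin n → X → ℂ)
    (D : MvPolynomial (Fin n) ℂ) : Prop where
  σ_mem : σ ∈ A.H0 u
  w_mem : ∀ l, w l ∈ A.H0 u
  bpf : ∀ p, σ p = 0 → ∃ l, w l p ≠ 0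
  ne : ∃ p, σ p ≠ 0 ∧ MvPolynomial.eval (fun l => w l p / σ p) D ≠ 0
  inj : ∀ a, ∀ z ∈ (A.e a).target, σ ((A.e a).symm z) ≠ 0 →
    MvPolynomial.eval (A.loc a (fun p l => w l p / σ p) z) D ≠ 0 →
      Function.Injective (fderiv ℂ (A.loc a fun p l => w l p / σ p) z)

theorem exists_proj (hu : A.IsGauge u) {ι : Type} [Fintype ι] {s : ι → X → ℂ}
    (hs : A.Imm u s) : ∃ σ w D, σ ∈ Submodule.span ℂ (range s) ∧
      (∀ l, w l ∈ Submodule.span ℂ (range s)) ∧ Proj A u σ w D := by
  classical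
  obtain ⟨σ, d, w, hσ, hw, hdn, hb, hind, hG⟩ := exists_noether hu hs
  have hle : Submodule.span ℂ (range s) ≤ A.H0 u :=
    Submodule.span_le.2 (range_subset_iff.2 hs.mem)
  have hdisc := fun i => (hG i).elim fun G0 h =>
    exists_disc_one hu (hle hσ) (hs.mem i) (fun l => hle (hw l)) hind h.1 h.2
  choose G D hD hGD using hdisc
  have hD0 : ∏ i, D i ≠ 0 := Finset.prod_ne_zero_iff.2 fun i _ => hD i
  have hinj : ∀ a, ∀ z ∈ (A.e a).target, σ ((A.e a).symm z) ≠ 0 →
      MvPolynomial.eval (A.loc a (fun p l => w l p / σ p) z) (∏ i, D i) ≠ 0 →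
        Function.Injective (fderiv ℂ (A.loc a fun p l => w l p / σ p) z) := by
    intro a z hz h0 h1
    rw [injective_iff_map_eq_zero]
    intro ξ hξ
    by_contra hξ0
    obtain ⟨i, hi⟩ := Atl.Imm.exists_fderiv_ne hu hs hz (hle hσ) h0 hξ0
    have hγ : HasDerivAt (fun c : ℂ => z + c • ξ) ξ 0 := by
      simpa using ((hasDerivAt_id (0 : ℂ)).smul_const ξ).const_add z
    have hγ0 : z + (0 : ℂ) • ξ = z := by simp
    have hyd : DifferentiableAt ℂ (A.loc a fun p l => w l p / σ p) z :=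
      differentiableAt_pi.2 fun l =>
        (Atl.analyticAt_div hu (hle (hw l)) (hle hσ) hz h0).differentiableAt
    have hy : HasDerivAt (fun c : ℂ => A.loc a (fun p l => w l p / σ p) (z + c • ξ)) 0 0 := by
      have h2 := hyd.hasFDerivAt.comp_hasDerivAt_of_eq (0 : ℂ) hγ hγ0.symm
      rw [hξ] at h2
      exact h2
    have hτ : HasDerivAt (fun c : ℂ => A.loc a (fun p => s i p / σ p) (z + c • ξ))
        (fderiv ℂ (A.loc a fun p => s i p / σ p) z ξ) 0 :=
      (Atl.analyticAt_div hu (hs.mem i) (hle hσ) hz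
        h0).differentiableAt.hasFDerivAt.comp_hasDerivAt_of_eq (0 : ℂ) hγ hγ0.symm
    have h2 := IntB_deriv (fun l => hasDerivAt_pi.1 hy l) hτ (G i)
    have h3 : ∀ᶠ x in 𝓝 z, σ ((A.e a).symm x) ≠ 0 :=
      ((A.e a).continuousAt_symm hz).eventually
        ((Atl.isOpen_ne_zero hu (Atl.H0_le_Sec (hle hσ))).mem_nhds h0)
    have h4 : Tendsto (fun c : ℂ => z + c • ξ) (𝓝 0) (𝓝 z) := by
      have h5 := hγ.continuousAt.tendsto
      rwa [hγ0] at h5
    have h5 : HasDerivAt (fun c : ℂ => (G i).eval₂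
        (MvPolynomial.eval (A.loc a (fun p l => w l p / σ p) (z + c • ξ)))
        (A.loc a (fun p => s i p / σ p) (z + c • ξ))) 0 0 := by
      refine (hasDerivAt_const (0 : ℂ) (0 : ℂ)).congr_of_eventuallyEq ?_
      filter_upwards [h4.eventually h3] with c hc
      exact (hGD i _ hc).1
    have h6 := h2.unique h5
    rw [hγ0] at h6
    refine (hGD i _ h0).2 (fun h7 => h1 ?_) ((mul_eq_zero.1 h6).resolve_right hi)
    rw [map_prod]
    exact Finset.prod_eq_zero (Finset.mem_univ i) h7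
  obtain ⟨p, hp, hpD⟩ := hind _ hD0
  have hnd : n ≤ d := by
    obtain ⟨a, ha⟩ := A.cover p
    have h1 := hinj a (A.e a p) ((A.e a).map_source ha) (by rwa [(A.e a).left_inv ha])
      (by rwa [A.loc_e a _ ha])
    have h2 := LinearMap.finrank_le_finrank_of_injective
      (f := (fderiv ℂ (A.loc a fun p l => w l p / σ p) (A.e a p)).toLinearMap) h1
    simpa using h2
  obtain rfl : d = n := le_antisymm hdn hnd
  exact ⟨σ, w, ∏ i, D i, hσ, hw, hle hσ, fun l => hle (hw l), hb, ⟨p, hp, hpD⟩, hinj⟩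

end Vale.Agent.P271
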