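import Vale.Agent.P271.Jet

/-! Analytic functions of polynomial growth off a hypersurface are polynomials.

Hints. Along a line `t ↦ y0 + t • u` with `eval y0 D ≠ 0` the polynomial `D` has finitely many
zeros. `isPreconnected_compl`: the complement of a finite set in `ℂ` is path connected
(`Set.Countable.isPathConnected_compl_of_one_lt_rank`), and its image joins two given points.
`exists_poly`: fix `y0` in the domain. On each line the function is analytic off a finite set
and locally bounded, so it extends to an entire function (redefine it by `limUnder` at the bad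
points: `Complex.differentiableOn_update_limUnder_of_bddAbove`, or induct on the finite set) that
grows at most like `(1 + |t|) ^ e`; Cauchy estimates
(`Complex.norm_iteratedDeriv_le_of_forall_mem_sphere_norm_le`) kill the derivatives of order
`> e`, and `Complex.hasSum_taylorSeries_of_entire` at `t = 1` gives
`c (y0 + u) = ∑ k ≤ e, (k!)⁻¹ * jet k y0 c u`. Finish with `exists_mvPolynomial_of_mem_monSpan`
and the substitution `u = y - y0` (`MvPolynomial.aeval fun i => X i - C (y0 i)` does not raise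
the total degree). -/

open Set Filter Topology

noncomputable section

namespace Vale.Agent.P271

variable {n : ℕ}

theorem isOpen_eval_ne (D : MvPolynomial (Fin n) ℂ) :
    IsOpen {y : Cn n | MvPolynomial.eval y D ≠ 0} := 
  isOpen_ne_fun (MvPolynomial.continuous_eval D) continuous_const

theorem poly_line_finite {D : MvPolynomial (Fin n) ℂ} {y0 : Cn n}
    (h : MvPolynomial.eval y0 D ≠ 0) (u : Cn n) :
    {t : ℂ | MvPolynomial.eval (y0 + t • u) D = 0}.Finite := by
  have key : ∀ (t : ℂ) (P : MvPolynomial (Fin n) ℂ), Polynomial.eval t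
      (MvPolynomial.aeval (fun i => Polynomial.C (y0 i) + Polynomial.C (u i) * Polynomial.X) P) =
      MvPolynomial.eval (y0 + t • u) P := by
    intro t P
    induction P using MvPolynomial.induction_on with
    | C a => simp
    | add p q hp hq => simp only [map_add, Polynomial.eval_add, hp, hq]
    | mul_X p i hp =>
      simp only [map_mul, Polynomial.eval_mul, hp, MvPolynomial.aeval_X, MvPolynomial.eval_X,
        Polynomial.eval_add, Polynomial.eval_C, Polynomial.eval_X, Pi.add_apply, Pi.smul_apply,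
        smul_eq_mul]
      ring
  have h0 : MvPolynomial.aeval
      (fun i => Polynomial.C (y0 i) + Polynomial.C (u i) * Polynomial.X) D ≠ 0 := by
    intro h1
    have h2 := key 0 D
    rw [h1, Polynomial.eval_zero, zero_smul, add_zero] at h2
    exact h h2.symm
  refine (Polynomial.finite_setOfPred_isRoot h0).subset fun t ht => ?_
  have ht' : MvPolynomial.eval (y0 + t • u) D = 0 := ht
  rw [← key] at ht'
  exact ht'

theorem isPreconnected_eval_ne (D : MvPolynomial (Fin n) ℂ) :
    IsPreconnected {y : Cn n | MvPolynomial.eval y D ≠ 0} := by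
  refine isPreconnected_of_forall_pair fun x hx y hy => ?_
  have h1 := (poly_line_finite hx (y - x)).countable.isPathConnected_compl_of_one_lt_rank
    (by rw [Complex.rank_real_complex]; exact Cardinal.one_lt_two)
  have h2 : Continuous fun t : ℂ => x + t • (y - x) := by fun_prop
  refine ⟨(fun t : ℂ => x + t • (y - x)) '' {t : ℂ | MvPolynomial.eval (x + t • (y - x)) D = 0}ᶜ,
    ?_, ⟨0, ?_, by simp⟩, ⟨1, ?_, by simp⟩,
    h1.isConnected.isPreconnected.image _ h2.continuousOn⟩
  · rintro _ ⟨t, ht, rfl⟩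
    exact ht
  · have hx' : MvPolynomial.eval x D ≠ 0 := hx
    simpa using hx'
  · have hy' : MvPolynomial.eval y D ≠ 0 := hy
    simpa using hy'

theorem poly_extend {g : ℂ → ℂ} {S : Set ℂ} (hS : S.Finite)
    (hg : ∀ t ∉ S, AnalyticAt ℂ g t) {C : ℝ} {e : ℕ} (hb : ∀ t ∉ S, ‖g t‖ ≤ C * (1 + ‖t‖) ^ e) :
    ∃ G : ℂ → ℂ, Differentiable ℂ G ∧ ∀ t ∉ S, G t = g t := by
  classical
  refine ⟨fun t => if t ∈ S then limUnder (𝓝[≠] t) g else g t, fun t0 => ?_,
    fun t ht => if_neg ht⟩
  by_cases h0 : t0 ∈ S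
  · have hs : Metric.ball t0 1 ∩ (S \ {t0})ᶜ ∈ 𝓝 t0 :=
      inter_mem (Metric.ball_mem_nhds _ one_pos)
        ((hS.subset sdiff_subset).isClosed.isOpen_compl.mem_nhds fun h => h.2 rfl)
    have hn : ∀ t ∈ (Metric.ball t0 1 ∩ (S \ {t0})ᶜ) \ {t0}, t ∉ S :=
      fun t ht h => ht.1.2 ⟨h, ht.2⟩
    have h1 := Complex.differentiableOn_update_limUnder_of_bddAbove (f := g) hs
      (fun t ht => (hg t (hn t ht)).differentiableAt.differentiableWithinAt) ?_
    · refine (h1.differentiableAt hs).congr_of_eventuallyEq ?_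
      filter_upwards [hs] with t ht
      by_cases h2 : t = t0
      · rw [h2, if_pos h0, Function.update_self]
      · rw [if_neg (hn t ⟨ht, h2⟩), Function.update_of_ne h2]
    · refine ⟨|C| * (1 + (‖t0‖ + 1)) ^ e, ?_⟩
      rintro _ ⟨t, ht, rfl⟩
      have h3 : ‖t‖ ≤ ‖t0‖ + 1 := by
        have h4 := ht.1.1
        rw [Metric.mem_ball, dist_eq_norm] at h4
        linarith [norm_sub_norm_le t t0]
      refine (hb t (hn t ht)).trans ?_
      exact mul_le_mul (le_abs_self C) (by gcongr) (by positivity) (abs_nonneg C)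
  · refine (hg t0 h0).differentiableAt.congr_of_eventuallyEq ?_
    filter_upwards [hS.isClosed.isOpen_compl.mem_nhds h0] with t ht
    exact if_neg ht

theorem poly_deriv_zero {G : ℂ → ℂ} (hG : Differentiable ℂ G) {S : Set ℂ} (hS : S.Finite)
    {C : ℝ} {e : ℕ} (hb : ∀ t ∉ S, ‖G t‖ ≤ C * (1 + ‖t‖) ^ e) {k : ℕ} (hk : e < k) :
    iteratedDeriv k G 0 = 0 := by
  obtain ⟨M, hM⟩ := hS.isBounded.exists_norm_le
  have h1 : ∀ᶠ R : ℝ in atTop, ‖iteratedDeriv k G 0‖ ≤ k.factorial * (|C| * 2 ^ e) / R := by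
    filter_upwards [eventually_gt_atTop M, eventually_ge_atTop 1] with R hR hR1
    have hR0 : 0 < R := by linarith
    have h2 := Complex.norm_iteratedDeriv_le_of_forall_mem_sphere_norm_le (c := 0) (R := R)
      (C := |C| * (2 ^ e * R ^ e)) k hR0 hG.diffContOnCl fun z hz => by
        rw [mem_sphere_zero_iff_norm] at hz
        refine (hb z fun h => by linarith [hM z h]).trans ?_
        rw [← mul_pow, hz]
        exact mul_le_mul (le_abs_self C) (by gcongr; linarith) (by positivity) (abs_nonneg C)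
    refine h2.trans ?_
    rw [div_le_div_iff₀ (by positivity) hR0]
    have h3 : R ^ e * R ≤ R ^ k := by
      rw [← pow_succ]
      exact pow_le_pow_right₀ hR1 hk
    have h4 := mul_le_mul_of_nonneg_left h3
      (show (0 : ℝ) ≤ k.factorial * (|C| * 2 ^ e) by positivity)
    linarith
  have h5 : Tendsto (fun R : ℝ => k.factorial * (|C| * 2 ^ e) / R) atTop (𝓝 0) :=
    tendsto_const_nhds.div_atTop tendsto_id
  exact norm_le_zero_iff.1 (ge_of_tendsto h5 h1)

/-- An entire function of one variable with polynomial growth off a finite set. -/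
theorem eq_sum_of_growth {g : ℂ → ℂ} {S : Set ℂ} (hS : S.Finite) (h0 : (0 : ℂ) ∉ S)
    (hg : ∀ t ∉ S, AnalyticAt ℂ g t) {C : ℝ} {e : ℕ} (hb : ∀ t ∉ S, ‖g t‖ ≤ C * (1 + ‖t‖) ^ e)
    {t : ℂ} (ht : t ∉ S) :
    g t = ∑ k ∈ Finset.range (e + 1), (k.factorial : ℂ)⁻¹ * iteratedDeriv k g 0 * t ^ k := by
  obtain ⟨G, hG, h1⟩ := poly_extend hS hg hb
  have h2 : G =ᶠ[𝓝 0] g := by
    filter_upwards [hS.isClosed.isOpen_compl.mem_nhds h0] with s hs using h1 s hs
  have h3 := Complex.hasSum_taylorSeries_of_entire hG 0 t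
  have h4 : ∀ k ∉ Finset.range (e + 1),
      (k.factorial : ℂ)⁻¹ • (t - 0) ^ k • iteratedDeriv k G 0 = 0 := by
    intro k hk
    rw [poly_deriv_zero hG hS (fun s hs => by rw [h1 s hs]; exact hb s hs)
      (show e < k by simpa [Nat.lt_succ_iff] using hk), smul_zero, smul_zero]
  rw [← h1 t ht, h3.unique (hasSum_sum_of_ne_finset_zero h4)]
  refine Finset.sum_congr rfl fun k _ => ?_
  rw [h2.iteratedDeriv_eq k, sub_zero, smul_eq_mul, smul_eq_mul]
  ring

theorem poly_shift (y0 : Cn n) (P : MvPolynomial (Fin n) ℂ) :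
    ∃ Q : MvPolynomial (Fin n) ℂ, Q.totalDegree ≤ P.totalDegree ∧
      ∀ y, MvPolynomial.eval y Q = MvPolynomial.eval (y - y0) P := by
  refine ⟨∑ d ∈ P.support, MvPolynomial.C (P.coeff d) *
    ∏ i ∈ d.support, (MvPolynomial.X i - MvPolynomial.C (y0 i)) ^ d i, ?_, fun y => ?_⟩
  · refine MvPolynomial.totalDegree_finsetSum_le fun d hd => ?_
    refine (MvPolynomial.totalDegree_mul _ _).trans ?_
    rw [MvPolynomial.totalDegree_C, zero_add]
    refine (MvPolynomial.totalDegree_finsetProd _ _).trans (le_trans ?_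
      (MvPolynomial.le_totalDegree hd))
    refine Finset.sum_le_sum fun i _ => (MvPolynomial.totalDegree_pow _ _).trans ?_
    have h1 := MvPolynomial.totalDegree_sub_C_le (MvPolynomial.X i : MvPolynomial (Fin n) ℂ) (y0 i)
    rw [MvPolynomial.totalDegree_X] at h1
    simpa using Nat.mul_le_mul_left (d i) h1
  · rw [MvPolynomial.eval_eq (y - y0) P]
    simp only [map_sum, map_mul, map_prod, map_pow, map_sub, MvPolynomial.eval_C,
      MvPolynomial.eval_X, Pi.sub_apply]

theorem exists_poly {D : MvPolynomial (Fin n) ℂ} {c : Cn n → ℂ}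
    (hc : AnalyticOnNhd ℂ c {y | MvPolynomial.eval y D ≠ 0}) {C : ℝ} {e : ℕ}
    (hb : ∀ y, MvPolynomial.eval y D ≠ 0 → ‖c y‖ ≤ C * (1 + ‖y‖) ^ e) :
    ∃ P : MvPolynomial (Fin n) ℂ, P.totalDegree ≤ e ∧
      ∀ y, MvPolynomial.eval y D ≠ 0 → c y = MvPolynomial.eval y P := by
  by_cases hne : ∃ y0, MvPolynomial.eval y0 D ≠ 0
  swap
  · exact ⟨0, by simp, fun y hy => (hne ⟨y, hy⟩).elim⟩
  obtain ⟨y0, hy0⟩ := hne
  choose P hP1 hP2 using fun k => exists_mvPolynomial_of_mem_monSpan (jet_mem_monSpan k y0 c)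
  obtain ⟨Q, hQ1, hQ2⟩ := poly_shift y0
    (∑ k ∈ Finset.range (e + 1), MvPolynomial.C (k.factorial : ℂ)⁻¹ * P k)
  refine ⟨Q, hQ1.trans (MvPolynomial.totalDegree_finsetSum_le fun k hk => ?_), fun y hy => ?_⟩
  · refine (MvPolynomial.totalDegree_mul _ _).trans ?_
    rw [MvPolynomial.totalDegree_C, zero_add]
    exact (hP1 k).trans (Nat.lt_succ_iff.1 (Finset.mem_range.1 hk))
  · have h1 := eq_sum_of_growth (g := fun t : ℂ => c (y0 + t • (y - y0)))
      (poly_line_finite hy0 (y - y0)) (by simpa using hy0)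
      (fun t ht => AnalyticAt.comp (g := c) (f := fun t : ℂ => y0 + t • (y - y0)) (hc _ ht)
        (by fun_prop))
      (C := |C| * (1 + ‖y0‖ + ‖y - y0‖) ^ e) (e := e) (fun t ht => ?_) (t := 1)
      (by simpa using hy)
    · rw [hQ2]
      simp only [one_smul, add_sub_cancel, one_pow, mul_one] at h1
      rw [h1, map_sum]
      refine Finset.sum_congr rfl fun k _ => ?_
      rw [map_mul, MvPolynomial.eval_C, hP2, jet_eq_iteratedDeriv (hc y0 hy0)]
    · refine (hb _ ht).trans ?_
      rw [mul_assoc, ← mul_pow]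
      refine mul_le_mul (le_abs_self C) (pow_le_pow_left₀ (by positivity) ?_ e) (by positivity)
        (abs_nonneg C)
      have h2 := norm_add_le y0 (t • (y - y0))
      rw [norm_smul] at h2
      have h3 := mul_nonneg (norm_nonneg y0) (norm_nonneg t)
      linarith [norm_nonneg t, norm_nonneg (y - y0)]

end Vale.Agent.P271
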