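import Vale.Agent.P271.IntB
import Vale.Agent.P271.Poly

/-! Symmetric functions along the fibres of the projection.

Hints. `fib σ w y = {p | ∀ l, w l p = y l * σ p}` lies in `σ ≠ 0` by `bpf`, and is closed because
the norms `‖w l - y l • σ‖` are continuous. `local_sheets`: at each point `p` of the fibre over `y0`
the map `Y = loc a (w / σ)` is analytic with bijective differential
(`HasStrictFDerivAt.toOpenPartialHomeomorph`, `AnalyticAt.analyticAt_localInverse` or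
`OpenPartialHomeomorph.analyticAt_symm`), so there is an open `N p ∋ p` on which `w / σ` is
injective with an analytic local inverse. Hence the fibre is discrete and compact, so finite. Shrink to
disjoint neighbourhoods (`Set.Finite.t2_separation`). Properness: the continuous function
`∑ l ‖w l p - y0 l * σ p‖` has a positive minimum on the compact complement of `⋃ N p`, and `‖σ‖`
is bounded, so the fibres over `y` close to `y0` lie in `⋃ N p`. `exists_symm`: let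
`χ y = ∏ p ∈ fibre, (X - C (f p))` with `f = t / σ ^ j` (`Set.Finite.toFinset`, or `finprod`). The
cardinality of the fibre is locally constant on the preconnected set `D ≠ 0`, and positive at one
point. Put `c k y = (χ y).coeff (N - k)`; it is analytic (induction on products of `X - C (g l y)`)
and bounded by `2 ^ N * (B (1 + ‖y‖) ^ j) ^ k` since `‖t‖ ≤ C` and
`‖σ p‖ * (1 + ‖y‖) ≥ max (‖σ p‖, ‖w l p‖) ≥ c > 0`. -/

open Set Filter Topology

noncomputable section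

namespace Vale.Agent.P271

variable {n : ℕ} {X : Type} [TopologicalSpace X] [T2Space X] [CompactSpace X]
  {A : Atl n X} {u : A.ι → X → ℂ} {σ : X → ℂ} {w : Fin n → X → ℂ} {D : MvPolynomial (Fin n) ℂ}

/-- The fibre of the projection. -/
def fib (σ : X → ℂ) (w : Fin n → X → ℂ) (y : Cn n) : Set X := {p | ∀ l, w l p = y l * σ p}

/-- The analytic inverse function theorem. -/
theorem IntC_inverse {F : Cn n → Cn n} {z : Cn n} (hF : AnalyticAt ℂ F z)
    (hi : Function.Injective (fderiv ℂ F z)) :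
    ∃ g : Cn n → Cn n, AnalyticAt ℂ g (F z) ∧ g (F z) = z ∧ (∀ᶠ x in 𝓝 z, g (F x) = x) ∧
      ∀ᶠ y in 𝓝 (F z), F (g y) = y := by
  let L : Cn n ≃L[ℂ] Cn n :=
    (LinearEquiv.ofInjectiveEndo (fderiv ℂ F z : Cn n →ₗ[ℂ] Cn n) hi).toContinuousLinearEquiv
  have hL : fderiv ℂ F z = (L : Cn n →L[ℂ] Cn n) := ContinuousLinearMap.ext fun _ => rfl
  have hs : HasStrictFDerivAt F (L : Cn n →L[ℂ] Cn n) z := hL ▸ hF.hasStrictFDerivAt
  exact ⟨hs.localInverse F L z,
    (hs.toOpenPartialHomeomorph F).analyticAt_symm' hs.mem_toOpenPartialHomeomorph_source hF hL,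
    hs.localInverse_apply_image, hs.eventually_left_inverse, hs.eventually_right_inverse⟩

omit [T2Space X] [CompactSpace X] in
theorem IntC_ne (h : Proj A u σ w D) {y : Cn n} {p : X} (hp : p ∈ fib σ w y) : σ p ≠ 0 := by
  intro h0
  obtain ⟨l, hl⟩ := h.bpf p h0
  exact hl (by rw [hp l, h0, mul_zero])

omit [TopologicalSpace X] [T2Space X] [CompactSpace X] in
theorem IntC_mem {y : Cn n} {p : X} (hp : σ p ≠ 0) :
    p ∈ fib σ w y ↔ (fun l => w l p / σ p) = y := by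
  refine ⟨fun h => funext fun l => ?_, fun h l => ?_⟩
  · rw [h l, mul_div_cancel_right₀ _ hp]
  · rw [← h, div_mul_cancel₀ _ hp]

omit [T2Space X] [CompactSpace X] in
/-- One sheet of the projection. -/
theorem IntC_sheet (hu : A.IsGauge u) (h : Proj A u σ w D) {y0 : Cn n}
    (hy : MvPolynomial.eval y0 D ≠ 0) {p : X} (hp : p ∈ fib σ w y0) :
    ∃ ψ : Cn n → X, ψ y0 = p ∧ ContinuousAt ψ y0 ∧ (∀ᶠ y in 𝓝 y0, ψ y ∈ fib σ w y) ∧
      (∀ᶠ q in 𝓝 p, ∀ y, q ∈ fib σ w y → q = ψ y) ∧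
      ∀ {j : ℕ} {t : X → ℂ}, t ∈ A.H0 (u ^ j) →
        AnalyticAt ℂ (fun y => t (ψ y) / σ (ψ y) ^ j) y0 := by
  obtain ⟨a, ha⟩ := A.cover p
  have hσ := IntC_ne h hp
  have hz := (A.e a).map_source ha
  have hσ' : σ ((A.e a).symm (A.e a p)) ≠ 0 := by rwa [(A.e a).left_inv ha]
  have hFy : A.loc a (fun p l => w l p / σ p) (A.e a p) = y0 := by
    rw [A.loc_e a _ ha]
    exact (IntC_mem hσ).1 hp
  have hF : AnalyticAt ℂ (A.loc a fun p l => w l p / σ p) (A.e a p) :=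
    analyticAt_pi_iff.2 fun l => Atl.analyticAt_div hu (h.w_mem l) h.σ_mem hz hσ'
  obtain ⟨g, hg, hg0, hl, hr⟩ := IntC_inverse hF (h.inj a _ hz hσ' (by rwa [hFy]))
  rw [hFy] at hg hg0 hr
  have h0 : (A.e a).symm (g y0) = p := by rw [hg0, (A.e a).left_inv ha]
  have hc : ContinuousAt (fun y => (A.e a).symm (g y)) y0 :=
    ContinuousAt.comp (g := (A.e a).symm) (by rw [hg0]; exact (A.e a).continuousAt_symm hz)
      hg.continuousAt
  have hne : {q | σ q ≠ 0} ∈ 𝓝 p :=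
    (Atl.isOpen_ne_zero hu (Atl.H0_le_Sec h.σ_mem)).mem_nhds hσ
  refine ⟨fun y => (A.e a).symm (g y), h0, hc, ?_, ?_, fun {j t} ht => ?_⟩
  · filter_upwards [hr, hc.eventually (h0.symm ▸ hne)] with y h1 h2
    exact (IntC_mem h2).2 h1
  · filter_upwards [((A.e a).continuousAt ha).eventually hl, (A.e a).open_source.mem_nhds ha]
      with q h1 h2 y hq
    rw [A.loc_e a _ h2, (IntC_mem (IntC_ne h hq)).1 hq] at h1
    rw [h1, (A.e a).left_inv h2]
  · have h1 := Atl.analyticAt_div (hu.pow j) ht (Atl.pow_mem_H0 h.σ_mem j) hz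
      (pow_ne_zero j hσ')
    rw [← hg0] at h1
    exact h1.comp hg

omit [T2Space X] in
/-- Properness of the projection. -/
theorem IntC_proper (hu : A.IsGauge u) (h : Proj A u σ w D) {y0 : Cn n} {U : Set X}
    (hU : IsOpen U) (hs : fib σ w y0 ⊆ U) : ∀ᶠ y in 𝓝 y0, fib σ w y ⊆ U := by
  have h1 : ∀ᶠ y in 𝓝 y0, ∀ q ∈ Uᶜ, q ∉ fib σ w y := by
    refine hU.isClosed_compl.isCompact.eventually_forall_of_forall_eventually fun p hp => ?_
    obtain ⟨l, hl⟩ : ∃ l, w l p ≠ y0 l * σ p := not_forall.1 fun h2 => hp (hs h2)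
    have c1 : Continuous fun q => ‖(w l - y0 l • σ) q‖ := Atl.continuous_norm_of_mem hu
      (Atl.H0_le_Sec (Submodule.sub_mem _ (h.w_mem l) (Submodule.smul_mem _ _ h.σ_mem)))
    have c2 := Atl.continuous_norm_of_mem hu (Atl.H0_le_Sec h.σ_mem)
    have c3 : Continuous fun z : Cn n × X => ‖z.1 l - y0 l‖ * ‖σ z.2‖ :=
      (((continuous_apply l).comp continuous_fst).sub continuous_const).norm.mul
        (c2.comp continuous_snd)
    have h3 := c3.continuousAt.eventually_lt (x₀ := (y0, p)) (c1.comp continuous_snd).continuousAt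
      (by simpa [sub_eq_zero] using hl)
    filter_upwards [h3] with z hz hq
    refine hz.ne ?_
    simp only [Function.comp_apply, Pi.sub_apply, Pi.smul_apply, smul_eq_mul]
    rw [hq l, ← sub_mul, norm_mul]
  filter_upwards [h1] with y hy q hq
  by_contra h2
  exact hy q h2 hq

omit [T2Space X] in
theorem IntC_finite (hu : A.IsGauge u) (h : Proj A u σ w D) {y0 : Cn n}
    (hy : MvPolynomial.eval y0 D ≠ 0) : (fib σ w y0).Finite := by
  have hc : IsClosed (fib σ w y0) := by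
    have e : fib σ w y0 = ⋂ l, {q | ‖(w l - y0 l • σ) q‖ = 0} := by
      ext q
      simp [fib, sub_eq_zero]
    rw [e]
    exact isClosed_iInter fun l => isClosed_eq (Atl.continuous_norm_of_mem hu
      (Atl.H0_le_Sec (Submodule.sub_mem _ (h.w_mem l) (Submodule.smul_mem _ _ h.σ_mem))))
      continuous_const
  obtain ⟨T, hT, hc⟩ := hc.isCompact.elim_nhds_subcover
    (fun p => {q | q ∈ fib σ w y0 → q = p}) fun p hp => by
      obtain ⟨ψ, h0, -, -, h1, -⟩ := IntC_sheet hu h hy hp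
      filter_upwards [h1] with q hq hq'
      rw [hq y0 hq', h0]
  refine T.finite_toSet.subset fun q hq => ?_
  obtain ⟨p, hp, h1⟩ := mem_iUnion₂.1 (hc hq)
  rw [h1 hq]
  exact hp

theorem local_sheets (hu : A.IsGauge u) (h : Proj A u σ w D) {y0 : Cn n}
    (hy : MvPolynomial.eval y0 D ≠ 0) :
    ∃ (N : ℕ) (ψ : Fin N → Cn n → X),
      (∀ᶠ y in 𝓝 y0, fib σ w y = range (fun l => ψ l y) ∧ Function.Injective fun l => ψ l y) ∧
      ∀ l, ∀ {j : ℕ} {t : X → ℂ}, t ∈ A.H0 (u ^ j) →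
        AnalyticAt ℂ (fun y => t (ψ l y) / σ (ψ l y) ^ j) y0 := by
  obtain ⟨N, p, hp, hr⟩ := (IntC_finite hu h hy).fin_param
  have hm : ∀ l, p l ∈ fib σ w y0 := fun l => hr ▸ mem_range_self l
  choose ψ h0 hc h1 h2 h3 using fun l => IntC_sheet hu h hy (hm l)
  refine ⟨N, ψ, ?_, h3⟩
  have h4 := IntC_proper hu h (y0 := y0)
    (U := ⋃ l, interior {q | ∀ y, q ∈ fib σ w y → q = ψ l y})
    (isOpen_iUnion fun _ => isOpen_interior) (by
      rw [← hr]
      rintro _ ⟨l, rfl⟩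
      exact mem_iUnion.2 ⟨l, mem_interior_iff_mem_nhds.2 (h2 l)⟩)
  have h5 : ∀ᶠ y in 𝓝 y0, ∀ l l', ψ l y = ψ l' y → l = l' := by
    refine eventually_all.2 fun l => eventually_all.2 fun l' => ?_
    by_cases hl : l = l'
    · exact Eventually.of_forall fun _ _ => hl
    · have h6 : ψ l y0 ≠ ψ l' y0 := by
        rw [h0, h0]
        exact fun h7 => hl (hp h7)
      filter_upwards [((hc l).prodMk (hc l')).eventually
        (isClosed_diagonal.isOpen_compl.mem_nhds h6)] with y h7 h8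
      exact absurd h8 h7
  filter_upwards [h4, h5, eventually_all.2 h1] with y h6 h7 h8
  refine ⟨Subset.antisymm (fun q hq => ?_) (range_subset_iff.2 h8), h7⟩
  obtain ⟨l, hl⟩ := mem_iUnion.1 (h6 hq)
  exact ⟨l, (interior_subset hl y hq).symm⟩

open Classical in
/-- The values of a function on a finite set, as a multiset. -/
def IntC_vals (S : Set X) (f : X → ℂ) : Multiset ℂ :=
  if h : S.Finite then h.toFinset.val.map f else 0

omit [TopologicalSpace X] [T2Space X] [CompactSpace X] in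
theorem IntC_vals_range {N : ℕ} {ψ : Fin N → X} (hψ : Function.Injective ψ) (f : X → ℂ) :
    IntC_vals (range ψ) f = Finset.univ.val.map fun l => f (ψ l) := by
  have e : (finite_range ψ).toFinset = Finset.univ.map ⟨ψ, hψ⟩ := by
    ext q
    simp
  rw [IntC_vals, dif_pos (finite_range ψ), e, Finset.map_val, Multiset.map_map]
  rfl

theorem IntC_esymm_le {N : ℕ} {g : Fin N → ℂ} {R : ℝ} (hR : 0 ≤ R) (h : ∀ l, ‖g l‖ ≤ R)
    (k : ℕ) : ‖(Finset.univ.val.map g).esymm k‖ ≤ 2 ^ N * R ^ k := by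
  rw [Finset.esymm_map_val]
  refine (norm_sum_le _ _).trans ((Finset.sum_le_card_nsmul _ _ (R ^ k) fun T hT => ?_).trans ?_)
  · rw [norm_prod, ← (Finset.mem_powersetCard.1 hT).2, ← Finset.prod_const]
    exact Finset.prod_le_prod (fun _ _ => norm_nonneg _) fun l _ => h l
  · rw [Finset.card_powersetCard, Finset.card_univ, Fintype.card_fin, nsmul_eq_mul]
    refine mul_le_mul_of_nonneg_right ?_ (pow_nonneg hR k)
    exact_mod_cast Nat.choose_le_two_pow N k

theorem IntC_vieta {m : Multiset ℂ} {x : ℂ} (hx : x ∈ m) :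
    x ^ m.card + ∑ k ∈ Finset.range m.card,
      (-1) ^ (k + 1) * m.esymm (k + 1) * x ^ (m.card - (k + 1)) = 0 := by
  have h1 := congrArg (Polynomial.eval x) (Multiset.prod_X_sub_X_eq_sum_esymm m)
  rw [Polynomial.eval_multiset_prod, Multiset.prod_eq_zero (by
    simp only [Multiset.map_map, Multiset.mem_map]
    exact ⟨x, hx, by simp⟩), Polynomial.eval_finsetSum, Finset.sum_range_succ'] at h1
  rw [h1, add_comm]
  simp [mul_assoc, Multiset.esymm]

omit [T2Space X] in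
theorem IntC_bound (hu : A.IsGauge u) (h : Proj A u σ w D) {j : ℕ} {t : X → ℂ}
    (ht : t ∈ A.H0 (u ^ j)) :
    ∃ B : ℝ, 1 ≤ B ∧ ∀ y, ∀ p ∈ fib σ w y, ‖t p / σ p ^ j‖ ≤ B * (1 + ‖y‖) ^ j := by
  obtain ⟨C, hC, h1⟩ := Atl.exists_bound (hu.pow j) (Atl.H0_le_Sec ht)
  have c1 : Continuous fun p => ‖σ p‖ + ∑ l, ‖w l p‖ :=
    (Atl.continuous_norm_of_mem hu (Atl.H0_le_Sec h.σ_mem)).add
      (continuous_finsetSum _ fun l _ => Atl.continuous_norm_of_mem hu (Atl.H0_le_Sec (h.w_mem l)))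
  obtain ⟨c, hc, h2⟩ := isCompact_univ.exists_forall_le' c1.continuousOn (a := 0) fun p _ => by
    have h3 : 0 ≤ ∑ l, ‖w l p‖ := Finset.sum_nonneg fun _ _ => norm_nonneg _
    by_cases h4 : σ p = 0
    · obtain ⟨l, hl⟩ := h.bpf p h4
      have h5 : ‖w l p‖ ≤ ∑ l, ‖w l p‖ :=
        Finset.single_le_sum (f := fun l => ‖w l p‖) (fun _ _ => norm_nonneg _) (Finset.mem_univ l)
      linarith [norm_pos_iff.2 hl, norm_nonneg (σ p)]
    · linarith [norm_pos_iff.2 h4]
  refine ⟨max 1 (C * ((n + 1) / c) ^ j), le_max_left _ _, fun y p hp => ?_⟩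
  have hσ := norm_pos_iff.2 (IntC_ne h hp)
  have h3 : ∑ l, ‖w l p‖ ≤ n * (‖y‖ * ‖σ p‖) := by
    refine (Finset.sum_le_card_nsmul _ _ (‖y‖ * ‖σ p‖) fun l _ => ?_).trans (by simp)
    rw [hp l, norm_mul]
    exact mul_le_mul_of_nonneg_right (norm_le_pi_norm y l) hσ.le
  have h4 : ‖σ p‖⁻¹ ≤ (n + 1) / c * (1 + ‖y‖) := by
    have h5 := h2 p (mem_univ p)
    have h6 : (0 : ℝ) ≤ n := n.cast_nonneg
    rw [div_mul_eq_mul_div, le_div_iff₀ hc, inv_mul_le_iff₀ hσ]
    nlinarith [mul_nonneg (norm_nonneg y) hσ.le, mul_nonneg h6 hσ.le]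
  rw [norm_div, norm_pow, div_eq_mul_inv, ← inv_pow]
  calc ‖t p‖ * ‖σ p‖⁻¹ ^ j ≤ C * (((n + 1) / c * (1 + ‖y‖)) ^ j) :=
        mul_le_mul (h1 p) (pow_le_pow_left₀ (inv_nonneg.2 hσ.le) h4 j) (by positivity) hC
    _ = C * ((n + 1) / c) ^ j * (1 + ‖y‖) ^ j := by rw [mul_pow, mul_assoc]
    _ ≤ _ := mul_le_mul_of_nonneg_right (le_max_right _ _) (by positivity)

theorem exists_symm (hu : A.IsGauge u) (h : Proj A u σ w D) {j : ℕ} {t : X → ℂ}
    (ht : t ∈ A.H0 (u ^ j)) :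
    ∃ (N : ℕ) (c : ℕ → Cn n → ℂ) (C : ℝ), 0 < N ∧
      (∀ k, AnalyticOnNhd ℂ (c k) {y | MvPolynomial.eval y D ≠ 0}) ∧
      (∀ k ≤ N, ∀ y, MvPolynomial.eval y D ≠ 0 → ‖c k y‖ ≤ C * (1 + ‖y‖) ^ (k * j)) ∧
      ∀ p, σ p ≠ 0 → MvPolynomial.eval (fun l => w l p / σ p) D ≠ 0 →
        (t p / σ p ^ j) ^ N + ∑ k ∈ Finset.range N,
          c (k + 1) (fun l => w l p / σ p) * (t p / σ p ^ j) ^ (N - (k + 1)) = 0 := by
  obtain ⟨m, hm⟩ : ∃ m : Cn n → Multiset ℂ,
      ∀ y, m y = IntC_vals (fib σ w y) fun p => t p / σ p ^ j := ⟨_, fun _ => rfl⟩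
  have key : ∀ y0, MvPolynomial.eval y0 D ≠ 0 → ∃ (N : ℕ) (ψ : Fin N → Cn n → X),
      (∀ᶠ y in 𝓝 y0, fib σ w y = range (fun l => ψ l y) ∧
        m y = Finset.univ.val.map fun l => t (ψ l y) / σ (ψ l y) ^ j) ∧
      ∀ l, AnalyticAt ℂ (fun y => t (ψ l y) / σ (ψ l y) ^ j) y0 := fun y0 hy => by
    obtain ⟨N, ψ, h1, h2⟩ := local_sheets hu h hy
    refine ⟨N, ψ, h1.mono fun y h3 => ⟨h3.1, ?_⟩, fun l => h2 l ht⟩
    rw [hm, h3.1, IntC_vals_range h3.2]
  have hmem : ∀ p, σ p ≠ 0 → MvPolynomial.eval (fun l => w l p / σ p) D ≠ 0 →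
      t p / σ p ^ j ∈ m fun l => w l p / σ p := fun p hp hy => by
    obtain ⟨N, ψ, h1, -⟩ := key _ hy
    obtain ⟨h2, h3⟩ := h1.self_of_nhds
    obtain ⟨l, hl⟩ : p ∈ range fun l => ψ l fun l => w l p / σ p := h2 ▸ (IntC_mem hp).2 rfl
    rw [h3]
    exact Multiset.mem_map.2 ⟨l, Finset.mem_univ_val l, by rw [show ψ l _ = p from hl]⟩
  have hcont : ContinuousOn (fun y => (m y).card) {y | MvPolynomial.eval y D ≠ 0} := by
    intro y0 hy
    obtain ⟨N, ψ, h1, -⟩ := key y0 hy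
    refine (ContinuousAt.congr (continuousAt_const (y := N)) ?_).continuousWithinAt
    filter_upwards [h1] with y h2
    simp [h2.2]
  obtain ⟨p0, hp0, hy0⟩ := h.ne
  have hcard : ∀ y, MvPolynomial.eval y D ≠ 0 →
      (m y).card = (m fun l => w l p0 / σ p0).card := fun y hy =>
    (isPreconnected_eval_ne D).constant hcont hy hy0
  obtain ⟨B, hB, hb⟩ := IntC_bound hu h ht
  obtain ⟨N, hN⟩ : ∃ N, (m fun l => w l p0 / σ p0).card = N := ⟨_, rfl⟩
  rw [hN] at hcard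
  refine ⟨N, fun k y => (-1) ^ k * (m y).esymm k, 2 ^ N * B ^ N, ?_, fun k y0 hy => ?_,
    fun k hk y hy => ?_, fun p hp hy => ?_⟩
  · rw [← hN]
    exact Multiset.card_pos_iff_exists_mem.2 ⟨_, hmem p0 hp0 hy0⟩
  · obtain ⟨N', ψ, h1, h2⟩ := key y0 hy
    have h3 : AnalyticAt ℂ (fun y => (-1) ^ k * ∑ T ∈ Finset.univ.powersetCard k,
        ∏ l ∈ T, t (ψ l y) / σ (ψ l y) ^ j) y0 :=
      analyticAt_const.mul (Finset.analyticAt_fun_sum _ fun T _ =>
        Finset.analyticAt_fun_prod _ fun l _ => h2 l)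
    refine h3.congr ?_
    filter_upwards [h1] with y h4
    rw [h4.2, Finset.esymm_map_val]
  · obtain ⟨N', ψ, h1, -⟩ := key y hy
    obtain ⟨h2, h3⟩ := h1.self_of_nhds
    have h4 : N' = N := by
      rw [← hcard y hy, h3]
      simp
    subst h4
    have h5 := IntC_esymm_le (g := fun l => t (ψ l y) / σ (ψ l y) ^ j)
      (R := B * (1 + ‖y‖) ^ j) (by positivity) (fun l => hb y _ (h2 ▸ mem_range_self l)) k
    rw [norm_mul, norm_pow, norm_neg, norm_one, one_pow, one_mul, h3]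
    refine h5.trans ?_
    rw [mul_pow, ← pow_mul, mul_comm j k, mul_assoc]
    gcongr
  · have h1 := IntC_vieta (hmem p hp hy)
    rwa [hcard _ hy] at h1

end Vale.Agent.P271
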