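import Vale.Agent.P271.IntC

/-! Sections of powers are integral over an immersive linear system (a form of Chow's theorem).

Hints. Take `exists_proj`, `exists_symm`; `exists_poly` turns `c k` into a polynomial of degree
`≤ k * j` and `exists_homogenize` into `a k ∈ W ^ (k * j)`, `W = span (range s)` (put `a k = 0` for
`k > N`). The section `t ^ N + ∑ a (k+1) * t ^ (N - (k+1))` of `u ^ (N * j)` vanishes on the set
`σ ≠ 0, D ≠ 0`, a neighbourhood of the point given by `Proj.ne` (`Atl.continuousAt_div`), so it is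
zero by `Atl.eq_zero_of_eventually`. -/

open Set Filter Topology

noncomputable section

namespace Vale.Agent.P271

variable {n : ℕ} {X : Type} [TopologicalSpace X] [T2Space X] [CompactSpace X] [ConnectedSpace X]
  {A : Atl n X} {u : A.ι → X → ℂ}

theorem fInt_of_imm (hu : A.IsGauge u) {ι : Type} [Fintype ι] {s : ι → X → ℂ} (hs : A.Imm u s)
    {j : ℕ} {t : X → ℂ} (ht : t ∈ A.H0 (u ^ j)) : FInt (Submodule.span ℂ (range s)) j t := by
  obtain ⟨σ, w, D, hσ, hw, hp⟩ := exists_proj hu hs
  obtain ⟨N, c, C, hN, hc, hb, h0⟩ := exists_symm hu hp ht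
  have hle : Submodule.span ℂ (range s) ≤ A.H0 u :=
    Submodule.span_le.2 (range_subset_iff.2 hs.mem)
  have ha : ∀ k, ∃ a ∈ Submodule.span ℂ (range s) ^ (k * j), k ≤ N → ∀ p, σ p ≠ 0 →
      MvPolynomial.eval (fun l => w l p / σ p) D ≠ 0 →
        a p = σ p ^ (k * j) * c k fun l => w l p / σ p := by
    intro k
    by_cases hk : k ≤ N
    · obtain ⟨P, h1, h2⟩ := exists_poly (hc k) (hb k hk)
      obtain ⟨a, h3, h4⟩ := exists_homogenize hσ hw h1
      exact ⟨a, h3, fun _ p h5 h6 => by rw [h4 p h5, h2 _ h6]⟩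
    · exact ⟨0, Submodule.zero_mem _, fun h => (hk h).elim⟩
  choose a ha1 ha2 using ha
  refine ⟨N, a, hN, ha1, ?_⟩
  obtain ⟨p0, h1, h2⟩ := hp.ne
  refine Atl.eq_zero_of_eventually (hu.pow _)
    (intA_sec ht fun k => intA_pow_le hle _ (ha1 k)) (p := p0) ?_
  have h3 : ContinuousAt (fun p => MvPolynomial.eval (fun l => w l p / σ p) D) p0 :=
    (MvPolynomial.continuous_eval D).continuousAt.comp
      (continuousAt_pi.2 fun l => Atl.continuousAt_div hu (hp.w_mem l) hp.σ_mem h1)
  filter_upwards [(Atl.isOpen_ne_zero hu (Atl.H0_le_Sec hp.σ_mem)).mem_nhds h1,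
    h3.eventually_ne h2] with q h4 h5
  simp only [Pi.add_apply, Pi.pow_apply, Finset.sum_apply, Pi.mul_apply]
  exact intA_val h4 (fun k hk => ha2 k hk q h4 h5) (h0 q h4 h5)

end Vale.Agent.P271
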