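import Vale.Agent.P271.Defs

/-! Jets of analytic functions on `ℂⁿ`.

Hints. `jet k z0 f u` is the `k`-th derivative on the diagonal. Expanding `u = ∑ u i • e i`
(`ContinuousMultilinearMap.map_sum`, `map_smul_univ`) shows that it lies in the span of the
monomial functions of degree `k`, a space spanned by a family indexed by `Sym (Fin n) k`
(`Sym.card_sym_eq_multichoose`). If `f` is analytic at `z0` with power series `p`, then
`jet k z0 f u = k! • p k (fun _ => u)` (`HasFPowerSeriesOnBall.factorial_smul`), and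
`HasFPowerSeriesAt.isBigO_sub_partialSum_pow` is the Taylor estimate. -/

open Set Filter Topology Asymptotics

noncomputable section

namespace Vale.Agent.P271

variable {n : ℕ}

/-- The `k`-th derivative at `z0` on the diagonal. -/
def jet (k : ℕ) (z0 : Cn n) (f : Cn n → ℂ) : Cn n → ℂ :=
  fun u => iteratedFDeriv ℂ k f z0 fun _ => u

/-- The homogeneous polynomial functions of degree `k`. -/
def monSpan (n k : ℕ) : Submodule ℂ (Cn n → ℂ) :=
  Submodule.span ℂ (range fun i : Fin k → Fin n => fun u : Cn n => ∏ l, u (i l))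

instance monSpan_finite (n k : ℕ) : FiniteDimensional ℂ (monSpan n k) :=
  FiniteDimensional.span_of_finite ℂ (finite_range _)

theorem finrank_monSpan_le (n k : ℕ) : Module.finrank ℂ (monSpan n k) ≤ Nat.multichoose n k := by
  classical
  let g : Sym (Fin n) k → Cn n → ℂ := fun s u => ((s : Multiset (Fin n)).map u).prod
  have h1 : monSpan n k ≤ Submodule.span ℂ (range g) := by
    refine Submodule.span_mono ?_
    rintro _ ⟨i, rfl⟩
    refine ⟨⟨Finset.univ.val.map i, by simp⟩, ?_⟩
    funext u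
    show ((Finset.univ.val.map i).map u).prod = ∏ l, u (i l)
    rw [Multiset.map_map]
    rfl
  have : FiniteDimensional ℂ (Submodule.span ℂ (range g)) :=
    FiniteDimensional.span_of_finite ℂ (finite_range _)
  refine (Submodule.finrank_mono h1).trans ((finrank_range_le_card g).trans ?_)
  rw [Sym.card_sym_eq_multichoose, Fintype.card_fin]

theorem jet_diag_mem (k : ℕ) (M : ContinuousMultilinearMap ℂ (fun _ : Fin k => Cn n) ℂ) :
    (fun u : Cn n => M fun _ => u) ∈ monSpan n k := by
  classical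
  have h : (fun u : Cn n => M fun _ => u) =
      ∑ i : Fin k → Fin n, (M fun l => Pi.single (i l) 1) • fun u : Cn n => ∏ l, u (i l) := by
    funext u
    have hu : (fun _ : Fin k => u) = fun _ : Fin k => ∑ j : Fin n, u j • (Pi.single j 1 : Cn n) := by
      funext _ m
      simp [Finset.sum_apply, Pi.single_apply]
    rw [hu, M.map_sum, Finset.sum_apply]
    refine Finset.sum_congr rfl fun i _ => ?_
    rw [M.map_smul_univ, Pi.smul_apply, smul_eq_mul, smul_eq_mul, mul_comm]
  rw [h]
  exact Submodule.sum_mem _ fun i _ => Submodule.smul_mem _ _ (Submodule.subset_span ⟨i, rfl⟩)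

theorem jet_mem_monSpan (k : ℕ) (z0 : Cn n) (f : Cn n → ℂ) : jet k z0 f ∈ monSpan n k :=
  jet_diag_mem k _

/-- A homogeneous polynomial function is the evaluation of a polynomial of degree at most `k`. -/
theorem exists_mvPolynomial_of_mem_monSpan {k : ℕ} {g : Cn n → ℂ} (hg : g ∈ monSpan n k) :
    ∃ P : MvPolynomial (Fin n) ℂ, P.totalDegree ≤ k ∧ ∀ u, MvPolynomial.eval u P = g u := by
  induction hg using Submodule.span_induction with
  | mem x hx =>
    obtain ⟨i, rfl⟩ := hx
    refine ⟨∏ l, MvPolynomial.X (i l), ?_, fun u => by simp⟩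
    refine (MvPolynomial.totalDegree_finsetProd _ _).trans ?_
    simp [MvPolynomial.totalDegree_X]
  | zero => exact ⟨0, by simp, fun u => by simp⟩
  | add x y _ _ hx hy =>
    obtain ⟨P, hP, hP'⟩ := hx
    obtain ⟨Q, hQ, hQ'⟩ := hy
    exact ⟨P + Q, (MvPolynomial.totalDegree_add P Q).trans (max_le hP hQ),
      fun u => by simp [hP', hQ']⟩
  | smul c x _ hx =>
    obtain ⟨P, hP, hP'⟩ := hx
    exact ⟨c • P, (MvPolynomial.totalDegree_smul_le c P).trans hP,
      fun u => by simp [MvPolynomial.smul_eval, hP']⟩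

theorem jet_add {k : ℕ} {z0 : Cn n} {f g : Cn n → ℂ} (hf : AnalyticAt ℂ f z0)
    (hg : AnalyticAt ℂ g z0) : jet k z0 (f + g) = jet k z0 f + jet k z0 g := by
  funext u
  simp only [jet, Pi.add_apply]
  rw [iteratedFDeriv_add_apply hf.contDiffAt hg.contDiffAt]
  rfl

theorem jet_smul {k : ℕ} {z0 : Cn n} {f : Cn n → ℂ} (hf : AnalyticAt ℂ f z0) (c : ℂ) :
    jet k z0 (c • f) = c • jet k z0 f := by
  funext u
  simp only [jet, Pi.smul_apply]
  rw [iteratedFDeriv_const_smul_apply hf.contDiffAt]
  rfl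

theorem jet_eq_series {k : ℕ} {z0 : Cn n} {f : Cn n → ℂ} {p : FormalMultilinearSeries ℂ (Cn n) ℂ}
    (hp : HasFPowerSeriesAt f p z0) (u : Cn n) :
    jet k z0 f u = (k.factorial : ℂ) * p k fun _ => u := by
  obtain ⟨r, hr⟩ := hp
  have h := hr.factorial_smul u k
  rw [nsmul_eq_mul] at h
  exact h.symm

/-- The jet is the iterated derivative along the line through `z0` in the direction `u`. -/
theorem jet_eq_iteratedDeriv {k : ℕ} {z0 : Cn n} {f : Cn n → ℂ} (hf : AnalyticAt ℂ f z0)
    (u : Cn n) : jet k z0 f u = iteratedDeriv k (fun t : ℂ => f (z0 + t • u)) 0 := by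
  obtain ⟨p, hp⟩ := hf
  let L : ℂ →L[ℂ] Cn n := ContinuousLinearMap.toSpanSingleton ℂ u
  have h1 := hp.comp_sub (-z0)
  have h0 : z0 + -z0 = L 0 := by simp
  rw [h0] at h1
  obtain ⟨r, hr⟩ := h1.compContinuousLinearMap
  have h2 := hr.factorial_smul 1 k
  have e : ((fun z => f (z - -z0)) ∘ L) = fun t : ℂ => f (z0 + t • u) := by
    funext t
    simp [L, add_comm]
  rw [e, FormalMultilinearSeries.compContinuousLinearMap_apply, nsmul_eq_mul] at h2
  have e2 : (L ∘ fun _ : Fin k => (1 : ℂ)) = fun _ => u := by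
    funext _
    simp [L]
  rw [e2] at h2
  rw [jet_eq_series hp, iteratedDeriv_eq_iteratedFDeriv, ← h2]

theorem jet_shift {k : ℕ} {z0 : Cn n} {f : Cn n → ℂ} :
    (f =O[𝓝 z0] fun z => ‖z - z0‖ ^ k) ↔ (fun y => f (z0 + y)) =O[𝓝 0] fun y => ‖y‖ ^ k := by
  constructor
  · intro h
    have ht : Tendsto (fun y : Cn n => z0 + y) (𝓝 0) (𝓝 z0) :=
      Continuous.tendsto' (by fun_prop) _ _ (by simp)
    simpa [Function.comp_def] using h.comp_tendsto ht
  · intro h
    have ht : Tendsto (fun z : Cn n => z - z0) (𝓝 z0) (𝓝 0) :=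
      Continuous.tendsto' (by fun_prop) _ _ (by simp)
    simpa [Function.comp_def] using h.comp_tendsto ht

/-- If all jets of order less than `k` vanish then `f` vanishes to order `k`. -/
theorem isBigO_of_jet_eq_zero {k : ℕ} {z0 : Cn n} {f : Cn n → ℂ} (hf : AnalyticAt ℂ f z0)
    (h : ∀ i < k, jet i z0 f = 0) : f =O[𝓝 z0] fun z => ‖z - z0‖ ^ k := by
  obtain ⟨p, hp⟩ := hf
  rw [jet_shift]
  have h1 := hp.isBigO_sub_partialSum_pow k
  have h2 : ∀ y, p.partialSum k y = 0 := by
    intro y
    refine Finset.sum_eq_zero fun i hi => ?_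
    have h3 := congrFun (h i (Finset.mem_range.1 hi)) y
    rw [jet_eq_series hp] at h3
    exact (mul_eq_zero.1 h3).resolve_left (Nat.cast_ne_zero.2 i.factorial_ne_zero)
  simpa [h2] using h1

/-- If `f` vanishes to order `k` then all jets of order less than `k` vanish. -/
theorem jet_eq_zero_of_isBigO {k : ℕ} {z0 : Cn n} {f : Cn n → ℂ} (hf : AnalyticAt ℂ f z0)
    (h : f =O[𝓝 z0] fun z => ‖z - z0‖ ^ k) : ∀ i < k, jet i z0 f = 0 := by
  obtain ⟨p, hp⟩ := hf
  rw [jet_shift] at h
  have key : ∀ i, i < k → ∀ y, (p i fun _ => y) = 0 := by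
    intro i
    refine Nat.strong_induction_on i fun i ih hi => ?_
    have psum : p.partialSum (i + 1) = fun y => p i fun _ => y := by
      funext z
      refine Finset.sum_eq_single _ (fun b hb hnb => ?_) fun hn => ?_
      · have h1 := (Finset.mem_range_succ_iff.mp hb).lt_of_ne hnb
        exact ih b h1 (h1.trans hi) z
      · exact False.elim (hn (Finset.mem_range.mpr (lt_add_one i)))
    have h1 := hp.isBigO_sub_partialSum_pow (i + 1)
    rw [psum] at h1
    have h2 : (fun y : Cn n => ‖y‖ ^ k) =O[𝓝 0] fun y => ‖y‖ ^ (i + 1) := by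
      refine IsBigO.of_bound 1 ?_
      filter_upwards [Metric.ball_mem_nhds (0 : Cn n) one_pos] with y hy
      rw [mem_ball_zero_iff] at hy
      simp only [norm_pow, norm_norm, one_mul]
      exact pow_le_pow_of_le_one (norm_nonneg _) hy.le hi
    have h3 := (h.trans h2).sub h1
    simp only [sub_sub_cancel] at h3
    exact h3.continuousMultilinearMap_apply_eq_zero
  intro i hi
  funext u
  rw [jet_eq_series hp, key i hi, mul_zero, Pi.zero_apply]

/-- The elements whose local expression vanishes to order `k`. -/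
def ordGe {E : Type} [AddCommGroup E] [Module ℂ E] (ℓ : E →ₗ[ℂ] (Cn n → ℂ)) (z0 : Cn n) (k : ℕ) :
    Submodule ℂ E where
  carrier := {v | ℓ v =O[𝓝 z0] fun z => ‖z - z0‖ ^ k}
  add_mem' := by
    intro a b ha hb
    simp only [mem_ofPred_eq, map_add] at *
    exact ha.add hb
  zero_mem' := by
    simp only [mem_ofPred_eq, map_zero]
    exact isBigO_zero _ _
  smul_mem' := by
    intro c a ha
    simp only [mem_ofPred_eq, map_smul] at *
    exact ha.const_smul_left c

/-- The graded pieces of the order filtration are small. -/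
theorem finrank_ordGe_le {E : Type} [AddCommGroup E] [Module ℂ E] (ℓ : E →ₗ[ℂ] (Cn n → ℂ))
    (z0 : Cn n) (U : Submodule ℂ E) [FiniteDimensional ℂ U] (hU : ∀ v ∈ U, AnalyticAt ℂ (ℓ v) z0)
    (k : ℕ) : Module.finrank ℂ ↥(U ⊓ ordGe ℓ z0 k) ≤
      Module.finrank ℂ ↥(U ⊓ ordGe ℓ z0 (k + 1)) + Nat.multichoose n k := by
  let φ : ↥(U ⊓ ordGe ℓ z0 k) →ₗ[ℂ] monSpan n k :=
    { toFun := fun v => ⟨jet k z0 (ℓ v), jet_mem_monSpan _ _ _⟩
      map_add' := fun v w => by
        ext1
        simp only [Submodule.coe_add, map_add]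
        exact jet_add (hU _ v.2.1) (hU _ w.2.1)
      map_smul' := fun c v => by
        ext1
        simp only [Submodule.coe_smul, map_smul, RingHom.id_apply]
        exact jet_smul (hU _ v.2.1) c }
  have h1 := φ.finrank_range_add_finrank_ker
  have h2 : Module.finrank ℂ (LinearMap.range φ) ≤ Nat.multichoose n k :=
    (Submodule.finrank_le _).trans (finrank_monSpan_le n k)
  have h3 : (LinearMap.ker φ).map (U ⊓ ordGe ℓ z0 k).subtype ≤ U ⊓ ordGe ℓ z0 (k + 1) := by
    rintro _ ⟨v, hv, rfl⟩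
    refine ⟨v.2.1, isBigO_of_jet_eq_zero (hU _ v.2.1) fun i hi => ?_⟩
    rcases (Nat.lt_succ_iff.1 hi).lt_or_eq with hi | rfl
    · exact jet_eq_zero_of_isBigO (hU _ v.2.1) v.2.2 i hi
    · exact congrArg Subtype.val (LinearMap.mem_ker.1 hv)
  have h4 := Submodule.finrank_mono h3
  rw [Submodule.finrank_map_subtype_eq] at h4
  omega

end Vale.Agent.P271
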