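import Vale.Agent.P271.GoodB

/-! Valuations with one dimensional leaves.

Hints. `LeafVal.sum`: induction on the finite set (`Finset.induction_on_max_value` or
`induction_on_min_value`); if `lam u < lam v` then `u + v ≠ 0` and `lam (u + v) = lam u` (apply `add`
to `u = (u + v) + (-1) • v`). `finite_vals`: families with distinct values are linearly independent.
`span_vals`: for `u ∈ U` nonzero, downward induction on `lam u` in the finite set of values: subtract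
a multiple of the chosen element with the same value. -/

open Set

noncomputable section

namespace Vale.Agent.P271

variable {E E' Γ : Type} [AddCommGroup E] [Module ℂ E] [AddCommGroup E'] [Module ℂ E']
  [LinearOrder Γ] {U : Submodule ℂ E} {lam : E → Γ}

/-- The set of values on nonzero elements of `U`. -/
def vals (U : Submodule ℂ E) (lam : E → Γ) : Set Γ := lam '' {u | u ∈ U ∧ u ≠ 0}

open Classical in
/-- The valuation of a vector: least value first, then least position. -/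
def vecLam {m : ℕ} (lam : E → Γ) (φ : Fin m → E) : Γ ×ₗ ℕ :=
  if h : (Finset.univ.filter fun l => φ l ≠ 0).Nonempty then
    (Finset.univ.filter fun l => φ l ≠ 0).inf' h fun l => toLex (lam (φ l), (l : ℕ))
  else toLex (lam 0, 0)

theorem vecLam_spec {m : ℕ} (lam : E → Γ) {φ : Fin m → E} (h : φ ≠ 0) :
    ∃ l, φ l ≠ 0 ∧ vecLam lam φ = toLex (lam (φ l), (l : ℕ)) ∧
      ∀ l', φ l' ≠ 0 → vecLam lam φ ≤ toLex (lam (φ l'), (l' : ℕ)) := by
  classical
  have hn : (Finset.univ.filter fun l => φ l ≠ 0).Nonempty := by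
    obtain ⟨l, hl⟩ := Function.ne_iff.1 h
    exact ⟨l, Finset.mem_filter.2 ⟨Finset.mem_univ _, hl⟩⟩
  rw [vecLam, dif_pos hn]
  obtain ⟨l, hl, e⟩ := Finset.exists_mem_eq_inf' hn fun l => toLex (lam (φ l), (l : ℕ))
  exact ⟨l, (Finset.mem_filter.1 hl).2, e, fun l' hl' =>
    Finset.inf'_le _ (Finset.mem_filter.2 ⟨Finset.mem_univ l', hl'⟩)⟩

namespace LeafVal

theorem mono (h : LeafVal U lam) {U' : Submodule ℂ E} (hU : U' ≤ U) : LeafVal U' lam :=
  ⟨fun c u hu => h.smul c u (hU hu), fun u hu v hv => h.add u (hU hu) v (hU hv),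
    fun u hu v hv => h.leaf u (hU hu) v (hU hv)⟩

/-- The elements of value larger than `γ`. -/
def leafGt (h : LeafVal U lam) (γ : Γ) : Submodule ℂ E where
  carrier := {u | u ∈ U ∧ (u ≠ 0 → γ < lam u)}
  add_mem' := by
    rintro u v ⟨hu, hu'⟩ ⟨hv, hv'⟩
    refine ⟨U.add_mem hu hv, fun h0 => ?_⟩
    rcases eq_or_ne u 0 with rfl | h1
    · rw [zero_add] at h0 ⊢
      exact hv' h0
    rcases eq_or_ne v 0 with rfl | h2
    · rw [add_zero]
      exact hu' h1
    exact (lt_min (hu' h1) (hv' h2)).trans_le (h.add u hu v hv h1 h2 h0)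
  zero_mem' := ⟨U.zero_mem, fun h0 => (h0 rfl).elim⟩
  smul_mem' := by
    rintro c u ⟨hu, hu'⟩
    refine ⟨U.smul_mem c hu, fun h0 => ?_⟩
    rw [h.smul c u hu (left_ne_zero_of_smul h0) (right_ne_zero_of_smul h0)]
    exact hu' (right_ne_zero_of_smul h0)

theorem leaf_add_gt (h : LeafVal U lam) {u v : E} (hu : u ∈ U) (h0 : u ≠ 0)
    (hv : v ∈ h.leafGt (lam u)) : u + v ≠ 0 ∧ lam (u + v) = lam u := by
  have h1 : u + v ∉ h.leafGt (lam u) := fun h1 =>
    lt_irrefl _ (((h.leafGt (lam u)).add_mem_iff_left hv).1 h1 |>.2 h0)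
  have h2 : u + v ≠ 0 := fun e => h1 (e ▸ Submodule.zero_mem _)
  refine ⟨h2, le_antisymm (not_lt.1 fun h3 => h1 ⟨U.add_mem hu hv.1, fun _ => h3⟩) ?_⟩
  rcases eq_or_ne v 0 with rfl | h3
  · rw [add_zero]
  · exact (le_min le_rfl (hv.2 h3).le).trans (h.add u hu v hv.1 h0 h3 h2)

theorem sum (h : LeafVal U lam) {ι : Type} (s : Finset ι) (u : ι → E)
    (hu : ∀ i ∈ s, u i ∈ U ∧ u i ≠ 0) (hinj : InjOn (fun i => lam (u i)) s) (c : ι → ℂ)
    (hc : ∃ i ∈ s, c i ≠ 0) : ∑ i ∈ s, c i • u i ≠ 0 ∧ ∃ i ∈ s, c i ≠ 0 ∧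
      lam (∑ i ∈ s, c i • u i) = lam (u i) ∧ ∀ i' ∈ s, c i' ≠ 0 → lam (u i) ≤ lam (u i') := by
  classical
  obtain ⟨i, hi, hm⟩ := Finset.exists_min_image (s.filter fun i => c i ≠ 0) (fun i => lam (u i))
    (hc.imp fun i hi => Finset.mem_filter.2 hi)
  obtain ⟨hi, hci⟩ := Finset.mem_filter.1 hi
  have e := h.smul (c i) (u i) (hu i hi).1 hci (hu i hi).2
  have := h.leaf_add_gt (U.smul_mem (c i) (hu i hi).1) (smul_ne_zero hci (hu i hi).2)
    (v := ∑ j ∈ s.erase i, c j • u j) (Submodule.sum_mem _ fun j hj => by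
      obtain ⟨h1, h2⟩ := Finset.mem_erase.1 hj
      rcases eq_or_ne (c j) 0 with h3 | h3
      · rw [h3, zero_smul]
        exact Submodule.zero_mem _
      · exact Submodule.smul_mem _ _ ⟨(hu j h2).1, fun _ => e ▸ lt_of_le_of_ne
          (hm j (Finset.mem_filter.2 ⟨h2, h3⟩)) fun h4 => h1 (hinj hi h2 h4).symm⟩)
  rw [Finset.add_sum_erase s (fun j => c j • u j) hi, e] at this
  exact ⟨this.1, i, hi, hci, this.2, fun j h1 h2 => hm j (Finset.mem_filter.2 ⟨h1, h2⟩)⟩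

theorem linearIndependent (h : LeafVal U lam) {ι : Type} (u : ι → E)
    (hu : ∀ i, u i ∈ U ∧ u i ≠ 0) (hinj : Function.Injective fun i => lam (u i)) :
    LinearIndependent ℂ u :=
  linearIndependent_iff'.2 fun s c e i hi => by_contra fun hc =>
    (h.sum s u (fun i _ => hu i) hinj.injOn c ⟨i, hi, hc⟩).1 e

theorem finite_vals (h : LeafVal U lam) [FiniteDimensional ℂ U] : (vals U lam).Finite := by
  choose u hu e using fun γ : vals U lam => γ.2
  have := h.linearIndependent u hu fun a b hab => Subtype.ext (by simpa only [e] using hab)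
  exact (LinearIndependent.of_comp (v := fun γ => (⟨u γ, (hu γ).1⟩ : U)) U.subtype this).finite

theorem span_vals (h : LeafVal U lam) [FiniteDimensional ℂ U] (u : Γ → E)
    (hu : ∀ γ ∈ vals U lam, u γ ∈ U ∧ u γ ≠ 0 ∧ lam (u γ) = γ) :
    U ≤ Submodule.span ℂ (u '' vals U lam) := by
  intro f hf
  by_contra hc
  have h0 : ∀ v, v ∉ Submodule.span ℂ (u '' vals U lam) → v ≠ 0 := fun v hv e =>
    hv (e ▸ Submodule.zero_mem _)
  obtain ⟨_, ⟨v, ⟨hv, hv'⟩, rfl⟩, hm⟩ := Set.exists_max_image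
    (lam '' {v | v ∈ U ∧ v ∉ Submodule.span ℂ (u '' vals U lam)}) id
    (h.finite_vals.subset (image_mono fun v hv => ⟨hv.1, h0 v hv.2⟩)) ⟨_, f, ⟨hf, hc⟩, rfl⟩
  have h1 : lam v ∈ vals U lam := ⟨v, ⟨hv, h0 v hv'⟩, rfl⟩
  obtain ⟨h2, h3, h4⟩ := hu _ h1
  obtain ⟨c, hc⟩ := h.leaf v hv _ h2 (h0 v hv') h3 h4.symm
  have h5 : v - c • u (lam v) ∉ Submodule.span ℂ (u '' vals U lam) := fun h5 =>
    hv' ((Submodule.sub_mem_iff_left _ (Submodule.smul_mem _ c
      (Submodule.subset_span (mem_image_of_mem u h1)))).1 h5)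
  exact (hc.resolve_left (h0 _ h5)).not_ge
    (hm _ ⟨_, ⟨U.sub_mem hv (U.smul_mem c h2), h5⟩, rfl⟩)

theorem ncard_vals (h : LeafVal U lam) [FiniteDimensional ℂ U] :
    (vals U lam).ncard = Module.finrank ℂ U := by
  choose! u hu e using fun γ (hγ : γ ∈ vals U lam) => hγ
  have := h.finite_vals.fintype
  have h1 := finrank_span_eq_card (h.linearIndependent (fun γ : vals U lam => u γ)
    (fun γ => hu γ γ.2) fun a b hab => Subtype.ext (by simpa only [e _ a.2, e _ b.2] using hab))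
  rw [← image_eq_range, ← le_antisymm (h.span_vals u fun γ hγ => ⟨(hu γ hγ).1, (hu γ hγ).2, e γ hγ⟩)
    (Submodule.span_le.2 (by rintro _ ⟨γ, hγ, rfl⟩; exact (hu γ hγ).1))] at h1
  rw [h1, ← Nat.card_coe_set_eq, Nat.card_eq_fintype_card]

theorem comap {lam' : E' → Γ} (h : LeafVal ⊤ lam') (φ : E →ₗ[ℂ] E')
    (hφ : ∀ u ∈ U, u ≠ 0 → φ u ≠ 0) : LeafVal U fun u => lam' (φ u) := by
  refine ⟨fun c u hu hc h0 => ?_, fun u hu v hv h1 h2 h3 => ?_, fun u hu v hv h1 h2 h3 => ?_⟩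
  · rw [map_smul, h.smul c _ trivial hc (hφ u hu h0)]
  · have := hφ _ (U.add_mem hu hv) h3
    rw [map_add] at this ⊢
    exact h.add _ trivial _ trivial (hφ u hu h1) (hφ v hv h2) this
  · obtain ⟨c, hc⟩ := h.leaf _ trivial _ trivial (hφ u hu h1) (hφ v hv h2) h3
    rw [← map_smul, ← map_sub] at hc
    exact ⟨c, hc.imp_left fun e => by_contra fun h0 => hφ _ (U.sub_mem hu (U.smul_mem c hv)) h0 e⟩

theorem vec {m : ℕ} (h : LeafVal ⊤ lam) : LeafVal (⊤ : Submodule ℂ (Fin m → E)) (vecLam lam) := by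
  have hs : ∀ (c : ℂ) (u : Fin m → E), c ≠ 0 → u ≠ 0 → vecLam lam (c • u) = vecLam lam u := by
    intro c u hc h0
    obtain ⟨l, h1, e, h2⟩ := vecLam_spec lam h0
    obtain ⟨l', h3, e', h4⟩ := vecLam_spec lam (smul_ne_zero hc h0)
    have h5 : u l' ≠ 0 := right_ne_zero_of_smul (a := c) h3
    refine le_antisymm ((h4 l (smul_ne_zero hc h1)).trans_eq ?_) ((h2 l' h5).trans_eq ?_)
    · rw [e, Pi.smul_apply, h.smul c _ trivial hc h1]
    · rw [e', Pi.smul_apply, h.smul c _ trivial hc h5]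
  have ha : ∀ u v : Fin m → E, u ≠ 0 → v ≠ 0 → u + v ≠ 0 →
      min (vecLam lam u) (vecLam lam v) ≤ vecLam lam (u + v) := by
    intro u v h1 h2 h3
    obtain ⟨-, -, -, hu⟩ := vecLam_spec lam h1
    obtain ⟨-, -, -, hv⟩ := vecLam_spec lam h2
    obtain ⟨l, h4, e, -⟩ := vecLam_spec lam h3
    rw [e]
    rw [Pi.add_apply] at h4 ⊢
    rcases eq_or_ne (u l) 0 with h5 | h5
    · rw [h5, zero_add] at h4 ⊢
      exact min_le_of_right_le (hv l h4)
    rcases eq_or_ne (v l) 0 with h6 | h6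
    · rw [h6, add_zero]
      exact min_le_of_left_le (hu l h5)
    rcases min_le_iff.1 (h.add _ trivial _ trivial h5 h6 h4) with h7 | h7
    · exact min_le_of_left_le ((hu l h5).trans (Prod.Lex.toLex_mono ⟨h7, le_rfl⟩))
    · exact min_le_of_right_le ((hv l h6).trans (Prod.Lex.toLex_mono ⟨h7, le_rfl⟩))
  refine ⟨fun c u _ => hs c u, fun u _ v _ => ha u v, fun u _ v _ h1 h2 h3 => ?_⟩
  obtain ⟨l, h4, e, -⟩ := vecLam_spec lam h1
  obtain ⟨l', h5, e', -⟩ := vecLam_spec lam h2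
  obtain ⟨h6, h7⟩ := Prod.ext_iff.1 (toLex.injective (e.symm.trans (h3.trans e')))
  obtain rfl : l = l' := Fin.ext h7
  obtain ⟨c, hc⟩ := h.leaf _ trivial _ trivial h4 h5 h6
  refine ⟨c, or_iff_not_imp_left.2 fun h0 => ?_⟩
  obtain ⟨k, h8, e1, -⟩ := vecLam_spec lam h0
  rcases eq_or_ne k l with rfl | hk
  · rw [e, e1]
    exact Prod.Lex.toLex_lt_toLex.2 (Or.inl (hc.resolve_left h8))
  refine lt_of_le_of_ne ?_ fun h9 =>
    hk (Fin.ext (Prod.ext_iff.1 (toLex.injective (e1.symm.trans (h9.symm.trans e)))).2)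
  rcases eq_or_ne c 0 with rfl | hc0
  · rw [zero_smul, sub_zero]
  · rw [sub_eq_add_neg, ← neg_smul] at h0 ⊢
    have := ha u _ h1 (smul_ne_zero (neg_ne_zero.2 hc0) h2) h0
    rwa [hs _ v (neg_ne_zero.2 hc0) h2, ← h3, min_self] at this

/-- Refinement of a seminorm by valuations on the graded pieces. -/
theorem refine {V : E → ℝ} (hV : IsNA V) {lam' : E' → Γ} (h : LeafVal ⊤ lam')
    (Ψ : ℝ → E →ₗ[ℂ] E') (h0 : ∀ a, ∀ f ∈ U, V f < a → Ψ a f = 0)
    (h1 : ∀ f ∈ U, f ≠ 0 → Ψ (V f) f ≠ 0) :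
    LeafVal U fun f => toLex (OrderDual.toDual (V f), lam' (Ψ (V f) f)) := by
  have hlt : ∀ u v : E, V v < V u → toLex (OrderDual.toDual (V u), lam' (Ψ (V u) u)) <
      toLex (OrderDual.toDual (V v), lam' (Ψ (V v) v)) := fun u v huv =>
    Prod.Lex.toLex_lt_toLex.2 (Or.inl huv)
  have hle : ∀ u v : E, V v = V u → lam' (Ψ (V v) u) ≤ lam' (Ψ (V v) v) →
      toLex (OrderDual.toDual (V u), lam' (Ψ (V u) u)) ≤
      toLex (OrderDual.toDual (V v), lam' (Ψ (V v) v)) := fun u v huv h2 => by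
    rw [← huv]
    exact Prod.Lex.toLex_mono ⟨le_rfl, h2⟩
  refine ⟨fun c u hu hc hu0 => ?_, fun u hu v hv hu0 hv0 h3 => ?_, fun u hu v hv hu0 hv0 h3 => ?_⟩
  · simp only [hV.smul c u hc, map_smul, h.smul c _ trivial hc (h1 u hu hu0)]
  · rcases lt_trichotomy (V (u + v)) (V u) with h4 | h4 | h4
    · exact min_le_of_left_le (hlt _ _ h4).le
    · rcases lt_trichotomy (V (u + v)) (V v) with h5 | h5 | h5
      · exact min_le_of_right_le (hlt _ _ h5).le
      · have h6 := h1 _ (U.add_mem hu hv) h3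
        rw [map_add] at h6
        have h7 := h.add _ trivial _ trivial (h4 ▸ h1 u hu hu0) (h5 ▸ h1 v hv hv0) h6
        rw [← map_add] at h7
        exact min_le_iff.2 ((min_le_iff.1 h7).imp (hle _ _ h4) (hle _ _ h5))
      · exact min_le_of_left_le (hle _ _ h4 (by rw [map_add, h0 _ v hv h5, add_zero]))
    · have h5 := (le_max_iff.1 (hV.add u v)).resolve_left h4.not_ge
      rcases h5.lt_or_eq with h5 | h5
      · exact min_le_of_right_le (hlt _ _ h5).le
      · exact min_le_of_right_le (hle _ _ h5 (by rw [map_add, h0 _ u hu h4, zero_add]))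
  · obtain ⟨h4, h5⟩ := Prod.ext_iff.1 (toLex.injective h3)
    replace h4 : V u = V v := h4
    obtain ⟨c, hc⟩ := h.leaf _ trivial _ trivial (h1 u hu hu0) (h1 v hv hv0) h5
    rw [← h4, ← map_smul, ← map_sub] at hc
    refine ⟨c, or_iff_not_imp_left.2 fun h6 => ?_⟩
    rcases ((hV.sub u (c • v)).trans (max_le le_rfl ((hV.smul_le c v).trans h4.ge))).lt_or_eq
      with h7 | h7
    · exact hlt _ _ h7
    · have h8 := h1 _ (U.sub_mem hu (U.smul_mem c hv)) h6
      simp only [h7] at h8 ⊢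
      exact Prod.Lex.toLex_lt_toLex.2 (Or.inr ⟨rfl, hc.resolve_left h8⟩)

end LeafVal

theorem leafVal_unit : LeafVal (⊤ : Submodule ℂ ℂ) fun _ => () :=
  ⟨fun _ _ _ _ _ => rfl, fun _ _ _ _ _ _ _ => le_rfl, fun u _ v _ _ hv _ =>
    ⟨u / v, Or.inl (by rw [smul_eq_mul, div_mul_cancel₀ _ hv, sub_self])⟩⟩

end Vale.Agent.P271
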