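import Vale.Agent.P271.GoodB

/-! Limits of moving families.

Hints. `exists_on`: induction on the finite set `S`; remove an index `i0` of maximal weight; if
`f i0` lies in the span `U'` of the others keep the family, otherwise add a unit vector of
`span (f '' S)` orthogonal to `U'`. `ach_of_mach`: let `φ : EuclideanSpace ℂ Λ →ₗ R`,
`c ↦ ∑ c l • g l` (injective with range `O J`), `U j = (O j).comap φ`, `N j = finrank (U j)`. For
`δ = 1 / (ν + 1)` and each level `j ≤ J` replace the family by an orthonormal basis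
`B ν j : Fin (N j) → EuclideanSpace ℂ Λ` of `U j` with weights `W ν j k` (`exists_on`; unit vectors
have coordinates of norm at most one); the cost does not increase, and the weights are bounded by
`(z + 1) / min lw`. Along an ultrafilter (`hyperfilter ℕ`) or a subsequence
(`IsCompact.tendsto_subseq` in a finite product of closed balls) everything converges; the limit
is again an orthonormal family in `U j` of cardinality `N j`, so a basis. It satisfies `MGood` with
respect to `g` (the moving coefficients are the differences of coordinates), so `C.sc` gives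
`Good (W * W) (b + b)` and `Good.scale` with `t = 1 / 2` gives `Good W b`. -/

open MeasureTheory Set Filter Topology

noncomputable section

namespace Vale.Agent.P271

theorem exists_on {E I : Type} [NormedAddCommGroup E] [InnerProductSpace ℂ E]
    [FiniteDimensional ℂ E] (f : I → E) (V : I → ℝ) (S : Finset I) :
    ∃ (T : Finset I) (B : I → E), T ⊆ S ∧ Orthonormal ℂ (fun i : T => B i) ∧
      Submodule.span ℂ (B '' T) = Submodule.span ℂ (f '' S) ∧
      ∀ i ∈ T, B i ∈ Submodule.span ℂ (f '' {i' | i' ∈ S ∧ V i' ≤ V i}) := by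
  classical
  induction S using Finset.induction_on_max_value V with
  | empty =>
    refine ⟨∅, f, Finset.Subset.refl _, ?_, rfl, by simp⟩
    exact orthonormal_iff_ite.2 fun i => absurd i.2 (Finset.notMem_empty _)
  | insert a s ha hmax ih =>
    obtain ⟨T, B, hT, hO, hsp, hlow⟩ := ih
    have hlow' : ∀ i ∈ T, B i ∈ Submodule.span ℂ (f '' {i' | i' ∈ insert a s ∧ V i' ≤ V i}) := by
      intro i hi
      refine Submodule.span_mono (image_mono ?_) (hlow i hi)
      intro i' hi'
      exact ⟨Finset.mem_insert_of_mem hi'.1, hi'.2⟩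
    obtain ⟨U, hU⟩ : ∃ U, U = Submodule.span ℂ (f '' (s : Set I)) := ⟨_, rfl⟩
    have hins : Submodule.span ℂ (f '' (insert a s : Finset I)) = Submodule.span ℂ {f a} ⊔ U := by
      rw [Finset.coe_insert, image_insert_eq, Submodule.span_insert, hU]
    by_cases hfa : f a ∈ U
    · refine ⟨T, B, hT.trans (Finset.subset_insert _ _), hO, ?_, hlow'⟩
      rw [hins, hsp, ← hU, sup_eq_right.2 ((Submodule.span_singleton_le_iff_mem _ _).2 hfa)]
    · obtain ⟨v, hv⟩ : ∃ v, v = f a - U.starProjection (f a) := ⟨_, rfl⟩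
      have hvo : v ∈ Uᗮ := hv ▸ U.sub_starProjection_mem_orthogonal (f a)
      have hpU : U.starProjection (f a) ∈ U := U.starProjection_apply_mem (f a)
      have hv0 : v ≠ 0 := by
        intro h0
        apply hfa
        have : f a = U.starProjection (f a) := by rw [h0] at hv; exact (sub_eq_zero.1 hv.symm)
        rw [this]; exact hpU
      have hn : (‖v‖ : ℂ) ≠ 0 := by exact_mod_cast norm_ne_zero_iff.2 hv0
      obtain ⟨w, hw⟩ : ∃ w, w = ((‖v‖ : ℂ))⁻¹ • v := ⟨_, rfl⟩
      have hw1 : ‖w‖ = 1 := by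
        rw [hw, norm_smul, norm_inv, Complex.norm_real, norm_norm]
        exact inv_mul_cancel₀ (norm_ne_zero_iff.2 hv0)
      have hwo : w ∈ Uᗮ := hw ▸ Submodule.smul_mem _ _ hvo
      have haT : a ∉ T := fun h => ha (hT h)
      have hBU : ∀ i ∈ T, B i ∈ U := fun i hi => by
        rw [hU, ← hsp]; exact Submodule.subset_span ⟨i, hi, rfl⟩
      have hB' : ∀ i ∈ T, Function.update B a w i = B i := fun i hi =>
        Function.update_of_ne (fun h : i = a => haT (h ▸ hi)) _ _
      have hwmem : w ∈ Submodule.span ℂ {f a} ⊔ U := by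
        rw [hw, hv]
        exact Submodule.smul_mem _ _ (Submodule.sub_mem _
          (Submodule.mem_sup_left (Submodule.mem_span_singleton_self _))
          (Submodule.mem_sup_right hpU))
      refine ⟨insert a T, Function.update B a w, Finset.insert_subset_insert _ hT, ⟨?_, ?_⟩,
        ?_, ?_⟩
      · rintro ⟨i, hi⟩
        rcases Finset.mem_insert.1 hi with rfl | hi'
        · simpa using hw1
        · simp only [hB' i hi']
          exact hO.1 ⟨i, hi'⟩
      · rintro ⟨i, hi⟩ ⟨j, hj⟩ hij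
        have hij' : i ≠ j := fun h => hij (Subtype.ext h)
        rcases Finset.mem_insert.1 hi with rfl | hi' <;>
          rcases Finset.mem_insert.1 hj with rfl | hj'
        · exact absurd rfl hij'
        · simp only [hB' j hj', Function.update_self]
          exact Submodule.inner_left_of_mem_orthogonal (hBU j hj') hwo
        · simp only [hB' i hi', Function.update_self]
          exact Submodule.inner_right_of_mem_orthogonal (hBU i hi') hwo
        · simp only [hB' i hi', hB' j hj']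
          exact hO.2 (i := ⟨i, hi'⟩) (j := ⟨j, hj'⟩) fun h => hij' (congrArg Subtype.val h)
      · have e1 : Function.update B a w '' (T : Set I) = B '' T :=
          image_congr fun i hi => hB' i hi
        rw [hins, Finset.coe_insert, image_insert_eq, Submodule.span_insert, e1, hsp, ← hU,
          Function.update_self]
        refine le_antisymm (sup_le ((Submodule.span_singleton_le_iff_mem _ _).2 hwmem)
          le_sup_right) (sup_le ((Submodule.span_singleton_le_iff_mem _ _).2 ?_) le_sup_right)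
        have : f a = (‖v‖ : ℂ) • w + U.starProjection (f a) := by
          rw [hw, smul_smul, mul_inv_cancel₀ hn, one_smul, hv]; abel
        rw [this]
        exact Submodule.add_mem _
          (Submodule.mem_sup_left (Submodule.smul_mem _ _ (Submodule.mem_span_singleton_self _)))
          (Submodule.mem_sup_right hpU)
      · intro i hi
        rcases Finset.mem_insert.1 hi with rfl | hi'
        · rw [Function.update_self]
          refine Submodule.span_mono (image_mono ?_) (hins ▸ hwmem)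
          intro i' hi'
          refine ⟨hi', ?_⟩
          rcases Finset.mem_insert.1 hi' with rfl | h
          · exact le_rfl
          · exact hmax i' h
        · rw [hB' i hi']; exact hlow' i hi'

/-- An orthonormal family of the right size spans. -/
theorem lim_span {E : Type} [NormedAddCommGroup E] [InnerProductSpace ℂ E]
    [FiniteDimensional ℂ E] (U : Submodule ℂ E) (B : Fin (Module.finrank ℂ U) → E)
    (hO : Orthonormal ℂ B) (hB : ∀ k, B k ∈ U) : Submodule.span ℂ (range B) = U := by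
  refine Submodule.eq_of_le_of_finrank_eq (Submodule.span_le.2 ?_) ?_
  · rintro _ ⟨k, rfl⟩; exact hB k
  · rw [finrank_span_eq_card hO.linearIndependent, Fintype.card_fin]

namespace Core
variable {Y R : Type} [CommRing R] [Algebra ℂ R] {C : Core Y R}

/-- One level of the orthonormalised family. -/
theorem lim_level {J : ℕ} {E : Type} [NormedAddCommGroup E] [InnerProductSpace ℂ E]
    [FiniteDimensional ℂ E] (φ : E →ₗ[ℂ] R) (hφ : Function.Injective φ)
    (hr : LinearMap.range φ = C.O J) (F : C.Fam J) {j : ℕ} (hj : j ≤ J) :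
    ∃ (B : Fin (Module.finrank ℂ ((C.O j).comap φ)) → E)
      (W : Fin (Module.finrank ℂ ((C.O j).comap φ)) → ℝ),
      Orthonormal ℂ B ∧ (∀ k, B k ∈ (C.O j).comap φ) ∧
      ∑ k, W k ≤ ∑ i with F.lev i = j, F.V i ∧
      ∀ k, ∃ i0 : F.I, φ (B k) ∈ F.low i0 ∧ F.V i0 = W k := by
  classical
  have hex : ∀ i, ∃ x, φ x = F.f i := fun i => by
    have : F.f i ∈ LinearMap.range φ := hr ▸ C.mono (F.lev_le i) (F.mem i)
    exact this
  choose f' hf' using hex
  have him : ∀ A : Set F.I, (Submodule.span ℂ (f' '' A)).map φ = Submodule.span ℂ (F.f '' A) := by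
    intro A
    rw [Submodule.map_span, image_image]
    simp only [hf']
  obtain ⟨T, B, hT, hO, hsp, hlow⟩ := exists_on f' F.V (Finset.univ.filter fun i => F.lev i = j)
  have hU : Submodule.span ℂ (B '' T) = (C.O j).comap φ := by
    rw [hsp]
    refine le_antisymm (Submodule.span_le.2 ?_) fun x hx => ?_
    · rintro _ ⟨i, hi, rfl⟩
      have hi' : F.lev i = j := by simpa using hi
      change φ (f' i) ∈ C.O j
      rw [hf', ← hi']; exact F.mem i
    · have h1 : φ x ∈ Submodule.span ℂ (F.f '' {i | F.lev i = j}) := F.span j hj hx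
      rw [← him] at h1
      obtain ⟨y, hy, hyx⟩ := h1
      rw [← hφ hyx]
      simpa using hy
  have hcard : T.card = Module.finrank ℂ ((C.O j).comap φ) := by
    have h1 := finrank_span_eq_card hO.linearIndependent
    have h2 : range (fun i : T => B i) = B '' T := by
      ext x; simp
    rw [h2, hU, Fintype.card_coe] at h1
    exact h1.symm
  obtain ⟨e⟩ : Nonempty (Fin (Module.finrank ℂ ((C.O j).comap φ)) ≃ T) :=
    ⟨(T.equivFinOfCardEq hcard).symm⟩
  refine ⟨fun k => B (e k), fun k => F.V (e k), hO.comp e e.injective, fun k => ?_, ?_,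
    fun k => ⟨e k, ?_, rfl⟩⟩
  · exact hU.le (Submodule.subset_span ⟨e k, (e k).2, rfl⟩)
  · rw [Equiv.sum_comp e (fun i : T => F.V i), Finset.sum_coe_sort T F.V]
    exact Finset.sum_le_sum_of_subset_of_nonneg hT fun i _ _ => F.nonneg i
  · have h1 : φ (B (e k)) ∈ _ := Submodule.mem_map_of_mem (f := φ) (hlow _ (e k).2)
    rw [him] at h1
    refine Submodule.span_mono (image_mono ?_) h1
    intro i' hi'
    have h2 : F.lev (e k) = j := by simpa using hT (e k).2
    have h3 : F.lev i' = j := by simpa using hi'.1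
    exact ⟨h3.trans h2.symm, hi'.2⟩

/-- The index set of the orthonormalised families. -/
abbrev limI (C : Core Y R) (J : ℕ) {E : Type} [AddCommGroup E] [Module ℂ E] (φ : E →ₗ[ℂ] R) :
    Type :=
  Σ j : Fin (J + 1), Fin (Module.finrank ℂ ((C.O j).comap φ))

theorem lim_family {J : ℕ} {E : Type} [NormedAddCommGroup E] [InnerProductSpace ℂ E]
    [FiniteDimensional ℂ E] (φ : E →ₗ[ℂ] R) (hφ : Function.Injective φ)
    (hr : LinearMap.range φ = C.O J) (F : C.Fam J) {η : ℝ} (hη : 0 < η) :
    ∃ (B : C.limI J φ → E) (W : C.limI J φ → ℝ),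
      (∀ j, Orthonormal ℂ fun k => B ⟨j, k⟩) ∧ (∀ i, B i ∈ (C.O i.1).comap φ) ∧
      ∑ i, lw J η i.1 * W i ≤ F.cost η ∧
      ∀ i, ∃ i0 : F.I, φ (B i) ∈ F.low i0 ∧ F.V i0 = W i := by
  have h := fun j : Fin (J + 1) => lim_level φ hφ hr F (Nat.lt_succ_iff.1 j.2)
  choose B W h1 h2 h3 h4 using h
  refine ⟨fun i => B i.1 i.2, fun i => W i.1 i.2, h1, fun i => h2 i.1 i.2, ?_,
    fun i => h4 i.1 i.2⟩
  rw [Fam.cost, F.cost_eq η F.V, Fintype.sum_sigma, Finset.sum_range]
  refine Finset.sum_le_sum fun j _ => ?_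
  simp only
  rw [← Finset.mul_sum]
  exact mul_le_mul_of_nonneg_left (h3 j) (lw_pos J hη j).le

/-- The limit of a sequence of orthonormalised families. -/
theorem lim_limit {J : ℕ} {E : Type} [NormedAddCommGroup E] [InnerProductSpace ℂ E]
    [FiniteDimensional ℂ E] (φ : E →ₗ[ℂ] R) {η z : ℝ} (hη : 0 < η)
    (B : ℕ → C.limI J φ → E) (W : ℕ → C.limI J φ → ℝ)
    (h1 : ∀ ν j, Orthonormal ℂ fun k => B ν ⟨j, k⟩) (h2 : ∀ ν i, B ν i ∈ (C.O i.1).comap φ)
    (h0 : ∀ ν i, 0 ≤ W ν i)
    (h3 : ∀ ν : ℕ, ∑ i, lw J η i.1 * W ν i ≤ z + 1 / ((ν : ℝ) + 1)) :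
    ∃ (B' : C.limI J φ → E) (W' : C.limI J φ → ℝ),
      (∀ j, Orthonormal ℂ fun k => B' ⟨j, k⟩) ∧ (∀ i, B' i ∈ (C.O i.1).comap φ) ∧
      (∀ i, 0 ≤ W' i) ∧ ∑ i, lw J η i.1 * W' i ≤ z ∧
      ∀ δ > (0 : ℝ), ∃ ν : ℕ, 1 / ((ν : ℝ) + 1) ≤ δ ∧ ∀ i, ‖B ν i - B' i‖ ≤ δ ∧
        W ν i ≤ W' i + δ := by
  classical
  have : ProperSpace E := FiniteDimensional.proper ℂ E
  have hK : IsCompact ((Set.pi univ fun _ : C.limI J φ => Metric.closedBall (0 : E) 1) ×ˢ
      (Set.pi univ fun i : C.limI J φ => Icc (0 : ℝ) ((z + 1) / lw J η i.1))) :=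
    (isCompact_univ_pi fun _ => isCompact_closedBall _ _).prod
      (isCompact_univ_pi fun _ => isCompact_Icc)
  have hd : ∀ ν : ℕ, 1 / ((ν : ℝ) + 1) ≤ 1 := fun ν => by
    rw [div_le_one (by positivity)]
    have : (0 : ℝ) ≤ ν := Nat.cast_nonneg ν
    linarith
  obtain ⟨⟨B', W'⟩, -, ψ, hψ, hlim⟩ := hK.tendsto_subseq (x := fun ν => (B ν, W ν)) (by
    intro ν
    refine ⟨fun i _ => ?_, fun i _ => ⟨h0 ν i, ?_⟩⟩
    · rw [mem_closedBall_zero_iff]
      exact ((h1 ν i.1).1 i.2).le
    · rw [le_div_iff₀ (lw_pos J hη _), mul_comm]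
      have := Finset.single_le_sum (f := fun i : C.limI J φ => lw J η i.1 * W ν i)
        (fun i _ => mul_nonneg (lw_pos J hη _).le (h0 ν i)) (Finset.mem_univ i)
      linarith [h3 ν, hd ν])
  have hB : ∀ i, Tendsto (fun n => B (ψ n) i) atTop (𝓝 (B' i)) := fun i =>
    ((continuous_apply i).comp continuous_fst).continuousAt.tendsto.comp hlim
  have hW : ∀ i, Tendsto (fun n => W (ψ n) i) atTop (𝓝 (W' i)) := fun i =>
    ((continuous_apply i).comp continuous_snd).continuousAt.tendsto.comp hlim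
  have hδ : Tendsto (fun n => 1 / ((ψ n : ℝ) + 1)) atTop (𝓝 0) :=
    tendsto_one_div_add_atTop_nhds_zero_nat.comp hψ.tendsto_atTop
  refine ⟨B', W', fun j => orthonormal_iff_ite.2 fun k k' => ?_, fun i => ?_,
    fun i => ge_of_tendsto' (hW i) fun n => h0 _ i, ?_, fun δ hδ0 => ?_⟩
  · have h4 : Tendsto (fun n => inner ℂ (B (ψ n) ⟨j, k⟩) (B (ψ n) ⟨j, k'⟩)) atTop
        (𝓝 (inner ℂ (B' ⟨j, k⟩) (B' ⟨j, k'⟩))) := (hB _).inner (hB _)
    have h5 : (fun n => inner ℂ (B (ψ n) ⟨j, k⟩) (B (ψ n) ⟨j, k'⟩)) =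
        fun _ => if k = k' then (1 : ℂ) else 0 :=
      funext fun n => orthonormal_iff_ite.1 (h1 (ψ n) j) k k'
    rw [h5] at h4
    exact tendsto_nhds_unique h4 tendsto_const_nhds
  · exact (Submodule.closed_of_finiteDimensional _).mem_of_tendsto (hB i)
      (Eventually.of_forall fun n => h2 _ i)
  · have h4 : Tendsto (fun n => ∑ i, lw J η i.1 * W (ψ n) i) atTop
        (𝓝 (∑ i, lw J η i.1 * W' i)) :=
      tendsto_finsetSum _ fun i _ => (hW i).const_mul _
    have h5 := hδ.const_add z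
    rw [add_zero] at h5
    exact le_of_tendsto_of_tendsto' h4 h5 fun n => h3 _
  · have e1 : ∀ᶠ n in atTop, 1 / ((ψ n : ℝ) + 1) ≤ δ := hδ.eventually (eventually_le_nhds hδ0)
    have e2 : ∀ᶠ n in atTop, ∀ i, ‖B (ψ n) i - B' i‖ ≤ δ ∧ W (ψ n) i ≤ W' i + δ := by
      refine eventually_all.2 fun i => Eventually.and ?_ ?_
      · exact (tendsto_iff_norm_sub_tendsto_zero.1 (hB i)).eventually (eventually_le_nhds hδ0)
      · exact (hW i).eventually (eventually_le_nhds (by linarith))
    obtain ⟨n, hn1, hn2⟩ := (e1.and e2).exists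
    exact ⟨ψ n, hn1, hn2⟩

theorem ach_of_mach {J : ℕ} {Λ : Type} [Fintype Λ] {g : Λ → R} (hg : LinearIndependent ℂ g)
    (hs : Submodule.span ℂ (range g) = C.O J) {b η z : ℝ} (hη : 0 < η)
    (h : C.MAch J g b η z) : C.Ach J b η z := by
  classical
  obtain ⟨φ, hφe⟩ : ∃ φ : EuclideanSpace ℂ Λ →ₗ[ℂ] R, ∀ c, φ c = ∑ l, c l • g l :=
    ⟨Fintype.linearCombination ℂ g ∘ₗ (WithLp.linearEquiv 2 ℂ (Λ → ℂ)).toLinearMap,
      fun c => rfl⟩
  have hφ : Function.Injective φ := by
    rw [injective_iff_map_eq_zero]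
    intro c hc
    rw [hφe] at hc
    ext l
    exact Fintype.linearIndependent_iff.1 hg _ hc l
  have hr : LinearMap.range φ = C.O J := by
    rw [← hs]
    ext x
    rw [Submodule.mem_span_range_iff_exists_fun]
    constructor
    · rintro ⟨c, rfl⟩
      exact ⟨fun l => c l, (hφe c).symm⟩
    · rintro ⟨c, rfl⟩
      exact ⟨WithLp.toLp 2 c, hφe _⟩
  have h' := fun ν : ℕ => h (1 / ((ν : ℝ) + 1)) (by positivity)
  choose T hT F hF hvol using h'
  have h'' := fun ν : ℕ => lim_family φ hφ hr (F ν) hη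
  choose B W h1 h2 h3 h4 using h''
  have h0 : ∀ ν i, 0 ≤ W ν i := fun ν i => by
    obtain ⟨i0, -, e⟩ := h4 ν i
    rw [← e]; exact (F ν).nonneg i0
  obtain ⟨B', W', g1, g2, g3, g4, g5⟩ :=
    lim_limit φ hη B W h1 h2 h0 fun ν => (h3 ν).trans (hF ν)
  have hM : MGood C.ν C.r (fun i => C.ev (φ (B' i))) (fun l => C.ev (g l)) W' b := by
    intro δ hδ
    obtain ⟨ν, hν, hcl⟩ := g5 (δ / 2) (by positivity)
    have hp : (0 : ℝ) < 1 / ((ν : ℝ) + 1) := by positivity
    have hT1 : 1 / δ ≤ T ν := (one_div_le_one_div_of_le hp (by linarith)).trans (hT ν)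
    have hT0 : 0 ≤ T ν := (by positivity : (0 : ℝ) ≤ 1 / δ).trans hT1
    refine ⟨T ν, hT1, fun i l => (B ν i - B' i) l, fun i l => ?_, ?_⟩
    · exact (PiLp.norm_apply_le _ l).trans ((hcl i).1.trans (by linarith))
    refine le_trans (ENNReal.ofReal_le_ofReal (Real.exp_le_exp.2 ?_))
      ((hvol ν).trans (C.ν.mono ?_))
    · exact mul_le_mul_of_nonneg_right (by linarith) hT0
    rintro p ⟨hp1, hp2⟩
    refine ⟨by linarith, fun i => ?_⟩
    obtain ⟨i0, hi0, e⟩ := h4 ν i
    have hb := hp2 i0 (fun l => B ν i l)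
      (fun l => (PiLp.norm_apply_le _ l).trans ((h1 ν i.1).1 i.2).le) (by rw [← hφe]; exact hi0)
    have e2 : C.ev (φ (B' i)) p + ∑ l, (B ν i - B' i) l * C.ev (g l) p =
        C.ev (∑ l, B ν i l • g l) p := by
      rw [hφe]
      simp only [map_sum, map_smul, Finset.sum_apply, Pi.smul_apply, smul_eq_mul, PiLp.sub_apply]
      rw [← Finset.sum_add_distrib]
      exact Finset.sum_congr rfl fun l _ => by ring
    simp only
    rw [e2]
    refine hb.trans (Real.rpow_le_rpow (add_nonneg ((F ν).nonneg i0) hp.le) ?_ hT0)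
    rw [e]
    linarith [(hcl i).2]
  have hmemJ : ∀ i : C.limI J φ, φ (B' i) ∈ C.O J := fun i => hr ▸ LinearMap.mem_range_self φ _
  have hG := C.sc (C.limI J φ) Λ J (fun i => φ (B' i)) g W' W' b b hmemJ
    (fun l => hs ▸ Submodule.subset_span (mem_range_self l)) g3 g3 hM hM
  have hG2 := hG.scale (fun i => mul_nonneg (g3 i) (g3 i)) (t := 1 / 2) (by norm_num)
  have e1 : (fun i => (W' * W') i ^ (1 / 2 : ℝ)) = W' := by
    funext i
    rw [← Real.sqrt_eq_rpow, Pi.mul_apply, Real.sqrt_mul_self (g3 i)]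
  have e2 : 1 / 2 * (b + b) = b := by ring
  rw [e1, e2] at hG2
  refine ⟨{ I := C.limI J φ
            lev := fun i => i.1
            f := fun i => φ (B' i)
            V := W'
            lev_le := fun i => Nat.lt_succ_iff.1 i.1.2
            mem := g2
            nonneg := g3
            span := ?_ }, hG2, g4⟩
  intro j hj x hx
  have hxJ : x ∈ LinearMap.range φ := hr ▸ C.mono hj hx
  obtain ⟨y, rfl⟩ := hxJ
  have hsp := lim_span ((C.O (⟨j, Nat.lt_succ_of_le hj⟩ : Fin (J + 1))).comap φ)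
    (fun k => B' ⟨⟨j, Nat.lt_succ_of_le hj⟩, k⟩) (g1 _) (fun k => g2 ⟨_, k⟩)
  have hy : y ∈ Submodule.span ℂ (range fun k => B' ⟨⟨j, Nat.lt_succ_of_le hj⟩, k⟩) := by
    rw [hsp]; exact hx
  have hy2 : φ y ∈ _ := Submodule.mem_map_of_mem (f := φ) hy
  rw [Submodule.map_span] at hy2
  refine Submodule.span_mono ?_ hy2
  rintro _ ⟨_, ⟨k, rfl⟩, rfl⟩
  exact ⟨⟨⟨j, Nat.lt_succ_of_le hj⟩, k⟩, rfl, rfl⟩

theorem exists_basis (C : Core Y R) (J : ℕ) : ∃ g : Fin (Module.finrank ℂ (C.O J)) → R,
    LinearIndependent ℂ g ∧ Submodule.span ℂ (range g) = C.O J := by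
  refine ⟨(C.O J).subtype ∘ Module.finBasis ℂ (C.O J),
    (Module.finBasis ℂ (C.O J)).linearIndependent.map' _ (Submodule.ker_subtype _), ?_⟩
  rw [range_comp, ← Submodule.map_span, Module.Basis.span_eq, Submodule.map_subtype_top]

end Core

end Vale.Agent.P271
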