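import Vale.Agent.P271.Lim

/-! Existence of minimisers, and the competitor given by the order of vanishing.

Hints. `isClosed_ach`: show `MAch` for a basis `g` of `O J`. Given `δ`, pick an achievable
`(b', η', z')` so close that `b' ≤ b + δ / 2` and `cost η ≤ (1 + small) * cost η' ≤ z + δ` (finitely
many continuous positive weights). For the fixed family `F`, the vectors `∑ c l • g l ∈ F.low i` with
`‖c l‖ ≤ 1` are combinations of the `F.f i'` of smaller weight with bounded coefficients (a linear right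
inverse composed with a linear projection on `F.low i` is a linear map on a finite dimensional
space), then `absorb` and `Good.large`. `exists_min`: the set of achievable triples with `ηm ≤ η` and
`G ≤ G0` is closed and bounded (`Ach.one_le`, `Ach.nonneg`), `G` is continuous on `1 ≤ z`.
`exists_flag`: induction on `K`, downward; choose bases of complements. `ach_ord`: at each level use
the flag `O j ⊓ ordS k`, `k ≤ K`, with `finrank (O J) * exp (-t K) ≤ 1`, and the weights `exp (-t k)`;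
on `r < exp (-t T / 2)` one has `‖f‖ ^ 2 ≤ K exp (-t k T)`; `∑ k, multichoose n k * q ^ k ≤ (1 - q)⁻¹ ^ n`
(`hasSum_choose_mul_geometric_of_norm_lt_one`, `Nat.multichoose_eq`). -/

open MeasureTheory Set Filter Topology

noncomputable section

namespace Vale.Agent.P271

theorem Min_compl {E : Type} [AddCommGroup E] [Module ℂ E] (A B : Submodule ℂ E) (h : B ≤ A)
    [FiniteDimensional ℂ A] : ∃ U : Submodule ℂ E, U ≤ A ∧ A ≤ B ⊔ U ∧
      Module.finrank ℂ U + Module.finrank ℂ B ≤ Module.finrank ℂ A := by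
  obtain ⟨Q, hQ⟩ := Submodule.exists_isCompl B
  have e : B ⊔ (Q ⊓ A) = A := by
    rw [← sup_inf_assoc_of_le Q h, hQ.sup_eq_top, top_inf_eq]
  have : FiniteDimensional ℂ B := Submodule.finiteDimensional_of_le h
  have : FiniteDimensional ℂ ↥(Q ⊓ A) := Submodule.finiteDimensional_of_le inf_le_right
  refine ⟨Q ⊓ A, inf_le_right, e.ge, ?_⟩
  have h1 := Submodule.finrank_sup_add_finrank_inf_eq B (Q ⊓ A)
  have h2 : B ⊓ (Q ⊓ A) = ⊥ := by
    rw [← inf_assoc, hQ.inf_eq_bot, bot_inf_eq]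
  rw [e, h2, finrank_bot] at h1
  omega

theorem Min_card {K : ℕ} (d : ℕ → ℕ) (l : ℕ) :
    (Finset.univ.filter fun i : (Σ a : Fin (K + 1), Fin (d a)) => (i.1 : ℕ) = l).card ≤ d l := by
  rw [← Finset.card_range (d l)]
  refine Finset.card_le_card_of_injOn (fun i => (i.2 : ℕ)) ?_ ?_
  · rintro ⟨a, x⟩ hx
    have h1 : (a : ℕ) = l := (Finset.mem_filter.1 (Finset.mem_coe.1 hx)).2
    subst h1
    exact Finset.mem_coe.2 (Finset.mem_range.2 x.2)
  · rintro ⟨a, x⟩ hx ⟨b, y⟩ hy hxy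
    have h1 : (a : ℕ) = l := (Finset.mem_filter.1 (Finset.mem_coe.1 hx)).2
    have h2 : (b : ℕ) = l := (Finset.mem_filter.1 (Finset.mem_coe.1 hy)).2
    have h3 : a = b := Fin.ext (h1.trans h2.symm)
    subst h3
    have h4 : x = y := Fin.ext hxy
    rw [h4]

theorem exists_flag {E : Type} [AddCommGroup E] [Module ℂ E] (W : ℕ → Submodule ℂ E)
    (hW : Antitone W) [FiniteDimensional ℂ (W 0)] (K : ℕ) :
    ∃ (I : Type) (_ : Fintype I) (f : I → E) (k : I → ℕ), (∀ i, k i ≤ K ∧ f i ∈ W (k i)) ∧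
      W 0 ≤ Submodule.span ℂ (range f) ∧
      (∀ l < K, (Finset.univ.filter fun i => k i = l).card + Module.finrank ℂ (W (l + 1)) ≤
        Module.finrank ℂ (W l)) ∧
      (Finset.univ.filter fun i => k i = K).card ≤ Module.finrank ℂ (W K) := by
  have fd : ∀ l, FiniteDimensional ℂ (W l) := fun l =>
    Submodule.finiteDimensional_of_le (hW (Nat.zero_le l))
  have hU : ∀ l, ∃ U : Submodule ℂ E, U ≤ W l ∧ (l < K → W l ≤ W (l + 1) ⊔ U ∧
      Module.finrank ℂ U + Module.finrank ℂ (W (l + 1)) ≤ Module.finrank ℂ (W l)) ∧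
      (l = K → W l ≤ U) := by
    intro l
    by_cases hl : l = K
    · exact ⟨W l, le_rfl, fun h => absurd h (by omega), fun _ => le_rfl⟩
    · have := fd l
      obtain ⟨U, h1, h2, h3⟩ := Min_compl (W l) (W (l + 1)) (hW (Nat.le_succ l))
      exact ⟨U, h1, fun _ => ⟨h2, h3⟩, fun h => absurd h hl⟩
  choose U hU1 hU2 hU3 using hU
  have fdU : ∀ l, FiniteDimensional ℂ (U l) := fun l =>
    have := fd l
    Submodule.finiteDimensional_of_le (hU1 l)
  refine ⟨(Σ a : Fin (K + 1), Fin (Module.finrank ℂ (U a))), inferInstance,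
    fun i => (Module.finBasis ℂ (U i.1) i.2 : E), fun i => i.1, fun i =>
      ⟨Nat.lt_succ_iff.1 i.1.2, hU1 _ (Module.finBasis ℂ (U i.1) i.2).2⟩, ?_, ?_, ?_⟩
  · set S := Submodule.span ℂ (range fun i : (Σ a : Fin (K + 1), Fin (Module.finrank ℂ (U a))) =>
      (Module.finBasis ℂ (U i.1) i.2 : E)) with hS
    have hUS : ∀ l ≤ K, U l ≤ S := by
      intro l hl v hv
      have e := (Module.finBasis ℂ (U l)).sum_repr ⟨v, hv⟩
      have e2 := congrArg (fun x : U l => (x : E)) e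
      simp only [Submodule.coe_sum, Submodule.coe_smul] at e2
      rw [← e2]
      refine Submodule.sum_mem _ fun x _ => Submodule.smul_mem _ _ (Submodule.subset_span ?_)
      exact ⟨⟨⟨l, Nat.lt_succ_of_le hl⟩, x⟩, rfl⟩
    have H : ∀ m l, l + m = K → W l ≤ S := by
      intro m
      induction m with
      | zero => intro l hl; exact (hU3 l (by omega)).trans (hUS l (by omega))
      | succ m ih =>
        intro l hl
        exact (hU2 l (by omega)).1.trans (sup_le (ih (l + 1) (by omega)) (hUS l (by omega)))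
    exact H K 0 (by omega)
  · intro l hl
    have h1 := Min_card (K := K) (fun a => Module.finrank ℂ (U a)) l
    have h2 := (hU2 l hl).2
    exact (Nat.add_le_add_right h1 _).trans h2
  · have := fd K
    exact (Min_card (K := K) (fun a => Module.finrank ℂ (U a)) K).trans
      (Submodule.finrank_mono (hU1 K))

theorem Min_multichoose (n K : ℕ) {q : ℝ} (h0 : 0 ≤ q) (h1 : q < 1) :
    ∑ l ∈ Finset.range K, (Nat.multichoose n l : ℝ) * q ^ l ≤ (1 - q)⁻¹ ^ n := by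
  rcases n with _ | m
  · rcases K with _ | K
    · simp
    · rw [Finset.sum_range_succ']
      simp
  · have hq : ‖q‖ < 1 := by rwa [Real.norm_eq_abs, abs_of_nonneg h0]
    have hs := hasSum_choose_mul_geometric_of_norm_lt_one m hq
    have h2 := sum_le_hasSum (Finset.range K) (fun l _ => by positivity) hs
    rw [inv_pow, ← one_div]
    refine le_trans (le_of_eq (Finset.sum_congr rfl fun l _ => ?_)) h2
    rw [Nat.multichoose_eq]
    have e : m + 1 + l - 1 = l + m := by omega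
    rw [e, Nat.choose_symm_add]

theorem Min_sum {I : Type} [Fintype I] (k : I → ℕ) (K : ℕ) (hk : ∀ i, k i ≤ K) (q : ℝ) :
    ∑ i, q ^ k i = ∑ l ∈ Finset.range (K + 1),
      ((Finset.univ.filter fun i => k i = l).card : ℝ) * q ^ l := by
  rw [← Finset.sum_fiberwise_of_maps_to (s := Finset.univ) (t := Finset.range (K + 1)) (g := k)
    (fun i _ => Finset.mem_range.2 (Nat.lt_succ_of_le (hk i)))]
  refine Finset.sum_congr rfl fun l _ => ?_
  rw [Finset.sum_congr rfl (g := fun _ => q ^ l)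
    (fun i hi => by rw [(Finset.mem_filter.1 hi).2]), Finset.sum_const, nsmul_eq_mul]

theorem Min_coef {E S Λ : Type} [AddCommGroup E] [Module ℂ E] [Fintype S] [Fintype Λ]
    (h : S → E) (g : Λ → E) : ∃ K : ℝ, 0 ≤ K ∧ ∀ c : Λ → ℂ, (∀ l, ‖c l‖ ≤ 1) →
      ∑ l, c l • g l ∈ Submodule.span ℂ (range h) →
      ∃ a : S → ℂ, (∀ s, ‖a s‖ ≤ K) ∧ ∑ l, c l • g l = ∑ s, a s • h s := by
  classical
  let A : (S → ℂ) →ₗ[ℂ] E := Fintype.linearCombination ℂ h
  let B : (Λ → ℂ) →ₗ[ℂ] E := Fintype.linearCombination ℂ g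
  obtain ⟨s, hs⟩ := A.rangeRestrict.exists_rightInverse_of_surjective A.range_rangeRestrict
  obtain ⟨π, hπ⟩ := (LinearMap.range A).subtype.exists_leftInverse_of_injective
    (Submodule.ker_subtype _)
  let L : (Λ → ℂ) →L[ℂ] (S → ℂ) := LinearMap.toContinuousLinearMap (s ∘ₗ π ∘ₗ B)
  refine ⟨‖L‖, norm_nonneg _, fun c hc hm => ⟨L c, fun x => ?_, ?_⟩⟩
  · have h1 : ‖c‖ ≤ 1 := (pi_norm_le_iff_of_nonneg zero_le_one).2 hc
    refine (norm_le_pi_norm (L c) x).trans ((L.le_opNorm c).trans ?_)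
    exact mul_le_of_le_one_right (norm_nonneg _) h1
  · have hB : B c = ∑ l, c l • g l := Fintype.linearCombination_apply _ _ _
    have hr : B c ∈ LinearMap.range A := by
      rw [hB, Fintype.range_linearCombination]; exact hm
    have e1 : π (B c) = ⟨B c, hr⟩ := LinearMap.congr_fun hπ ⟨B c, hr⟩
    have e2 : A.rangeRestrict (s ⟨B c, hr⟩) = ⟨B c, hr⟩ := LinearMap.congr_fun hs _
    have e3 : A (s ⟨B c, hr⟩) = B c := congrArg Subtype.val e2
    have e4 : L c = s ⟨B c, hr⟩ := by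
      rw [← e1]; rfl
    rw [← hB, e4]
    exact e3.symm.trans (Fintype.linearCombination_apply _ _ _)

theorem Min_ordS_anti {Y R : Type} [CommRing R] [Algebra ℂ R] (ev : R →ₐ[ℂ] (Y → ℂ)) (r : Y → ℝ)
    (hr : ∀ p, 0 ≤ r p) : Antitone (ordS ev r) := by
  intro k l hkl f hf
  obtain ⟨C, δ, hδ, h⟩ := hf
  refine ⟨|C|, min δ 1, lt_min hδ one_pos, fun p hp => ?_⟩
  have h1 : |r p| ≤ 1 := by
    rw [abs_of_nonneg (hr p)]; exact (hp.trans_le (min_le_right _ _)).le
  refine (h p (hp.trans_le (min_le_left _ _))).trans ?_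
  exact mul_le_mul (le_abs_self C) (pow_le_pow_of_le_one (abs_nonneg _) h1 hkl) (by positivity)
    (abs_nonneg _)

namespace Core
variable {Y R : Type} [CommRing R] [Algebra ℂ R] (C : Core Y R)

theorem Min_good {I : Type} [Finite I] (f : I → R) (k : I → ℕ) {t : ℝ} (ht : 0 < t)
    (hf : ∀ i, f i ∈ ordS C.ev C.r (k i)) :
    Good C.ν C.r (fun i => C.ev (f i)) (fun i => Real.exp (-t) ^ k i) (C.n * t) := by
  intro δ hδ
  choose K d hd hK using hf
  obtain ⟨c, hc, t0, ht0, hv⟩ := C.vol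
  have hρ : Tendsto (fun T : ℝ => Real.exp (-(t / 2) * T)) atTop (𝓝 0) :=
    Real.tendsto_exp_atBot.comp (tendsto_id.const_mul_atTop_of_neg (by linarith))
  have hδ' : Tendsto (fun T : ℝ => Real.exp (-δ * T)) atTop (𝓝 0) :=
    Real.tendsto_exp_atBot.comp (tendsto_id.const_mul_atTop_of_neg (by linarith))
  have e1 := eventually_ge_atTop (1 / δ)
  have e2 := hρ.eventually (gt_mem_nhds hδ)
  have e3 := hρ.eventually (gt_mem_nhds ht0)
  have e4 : ∀ᶠ T : ℝ in atTop, ∀ i, Real.exp (-(t / 2) * T) < d i :=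
    eventually_all.2 fun i => hρ.eventually (gt_mem_nhds (hd i))
  have e5 := hδ'.eventually (gt_mem_nhds hc)
  have e6 : ∀ᶠ T : ℝ in atTop, ∀ i, K i ^ 2 * (Real.exp (-t) ^ k i + δ / 2) ^ T ≤
      (Real.exp (-t) ^ k i + δ) ^ T :=
    eventually_all.2 fun i => absorb (by positivity) (by linarith) (by linarith)
  obtain ⟨T, h1, h2, h3, h4, h5, h6⟩ := (e1.and (e2.and (e3.and (e4.and (e5.and e6))))).exists
  have hT : 0 ≤ T := le_trans (by positivity) h1
  refine ⟨T, h1, ?_⟩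
  have hv' := hv _ (Real.exp_pos _) h3.le
  refine le_trans (le_trans (ENNReal.ofReal_le_ofReal ?_) hv') (C.ν.mono ?_)
  · rw [← Real.exp_nat_mul]
    have e : -(C.n * t + δ) * T = -δ * T + ((2 * C.n : ℕ) : ℝ) * (-(t / 2) * T) := by
      push_cast; ring
    rw [e, Real.exp_add]
    exact mul_le_mul_of_nonneg_right h5.le (Real.exp_pos _).le
  · intro p hp
    have hp' : C.r p < Real.exp (-(t / 2) * T) := hp
    refine ⟨hp'.trans h2, fun i => le_trans ?_ (h6 i)⟩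
    have a1 := hK i p (hp'.trans (h4 i))
    have a2 : |C.r p| ^ k i ≤ Real.exp (-(t / 2) * T) ^ k i := by
      rw [abs_of_nonneg (C.r_nonneg p)]
      exact pow_le_pow_left₀ (C.r_nonneg p) hp'.le _
    have a3 : ‖C.ev (f i) p‖ ≤ |K i| * Real.exp (-(t / 2) * T) ^ k i :=
      a1.trans (mul_le_mul (le_abs_self _) a2 (by positivity) (abs_nonneg _))
    have a4 : (Real.exp (-(t / 2) * T) ^ k i) ^ 2 = (Real.exp (-t) ^ k i) ^ T := by
      rw [← Real.exp_nat_mul, ← Real.exp_nat_mul, ← Real.exp_nat_mul, ← Real.exp_mul]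
      congr 1
      push_cast; ring
    have a5 : (Real.exp (-t) ^ k i) ^ T ≤ (Real.exp (-t) ^ k i + δ / 2) ^ T :=
      Real.rpow_le_rpow (by positivity) (by linarith) hT
    refine (pow_le_pow_left₀ (norm_nonneg _) a3 2).trans ?_
    rw [mul_pow, sq_abs, a4]
    exact mul_le_mul_of_nonneg_left a5 (sq_nonneg _)

theorem Min_level (J : ℕ) {q : ℝ} (h0 : 0 ≤ q) (h1 : q < 1) {K : ℕ}
    (hK : (Module.finrank ℂ (C.O J) : ℝ) * q ^ K ≤ 1) {j : ℕ} (hj : j ≤ J) :
    ∃ (I : Type) (_ : Fintype I) (f : I → R) (k : I → ℕ),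
      (∀ i, f i ∈ C.O j ∧ f i ∈ ordS C.ev C.r (k i)) ∧ C.O j ≤ Submodule.span ℂ (range f) ∧
      ∑ i, q ^ k i ≤ (1 - q)⁻¹ ^ C.n + 1 := by
  have hW : Antitone fun k => C.O j ⊓ ordS C.ev C.r k := fun k l hkl =>
    inf_le_inf_left _ (Min_ordS_anti C.ev C.r C.r_nonneg hkl)
  have : FiniteDimensional ℂ ↥((fun k => C.O j ⊓ ordS C.ev C.r k) 0) :=
    Submodule.finiteDimensional_of_le (inf_le_left : C.O j ⊓ ordS C.ev C.r 0 ≤ C.O j)
  obtain ⟨I, hI, f, k, hf, hs, hc, hc'⟩ := exists_flag _ hW K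
  refine ⟨I, hI, f, k, fun i => (hf i).2, le_trans ?_ hs, ?_⟩
  · intro v hv
    obtain ⟨M, d, hd, h⟩ := C.bdd v
    exact ⟨hv, M, d, hd, fun p hp => by simpa using h p hp⟩
  · rw [Min_sum k K (fun i => (hf i).1), Finset.sum_range_succ]
    refine add_le_add (le_trans (Finset.sum_le_sum fun l hl => ?_)
      (Min_multichoose C.n K h0 h1)) (le_trans ?_ hK)
    · refine mul_le_mul_of_nonneg_right (Nat.cast_le.2 ?_) (by positivity)
      have a1 := hc l (Finset.mem_range.1 hl)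
      have a2 := C.jets j l
      omega
    · refine mul_le_mul_of_nonneg_right (Nat.cast_le.2 (hc'.trans ?_)) (by positivity)
      exact Submodule.finrank_mono (inf_le_left.trans (C.mono hj))

theorem ach_ord (J : ℕ) {η t : ℝ} (hη : 0 < η) (ht : 0 < t) :
    C.Ach J (C.n * t) η ((1 - Real.exp (-t))⁻¹ ^ C.n + 1) := by
  have h0 : 0 ≤ Real.exp (-t) := (Real.exp_pos _).le
  have h1 : Real.exp (-t) < 1 := Real.exp_lt_one_iff.2 (by linarith)
  obtain ⟨K, hK⟩ : ∃ K : ℕ, (Module.finrank ℂ (C.O J) : ℝ) * Real.exp (-t) ^ K ≤ 1 := by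
    have h := (tendsto_pow_atTop_nhds_zero_of_lt_one h0 h1).const_mul
      (Module.finrank ℂ (C.O J) : ℝ)
    rw [mul_zero] at h
    exact (h.eventually (ge_mem_nhds one_pos)).exists
  have H := fun j : Fin (J + 1) => C.Min_level J h0 h1 hK (Nat.lt_succ_iff.1 j.2)
  choose I hI f k hf hs hc using H
  let F : C.Fam J :=
    { I := Σ j, I j
      lev := fun i => i.1
      f := fun i => f i.1 i.2
      V := fun i => Real.exp (-t) ^ k i.1 i.2
      lev_le := fun i => Nat.lt_succ_iff.1 i.1.2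
      mem := fun i => (hf i.1 i.2).1
      nonneg := fun i => by positivity
      span := fun j hj => (hs ⟨j, Nat.lt_succ_of_le hj⟩).trans (Submodule.span_mono (by
        rintro _ ⟨x, rfl⟩
        exact ⟨⟨⟨j, Nat.lt_succ_of_le hj⟩, x⟩, rfl, rfl⟩)) }
  refine ⟨F, C.Min_good (fun i : Σ j, I j => f i.1 i.2) (fun i => k i.1 i.2) ht
    (fun i => (hf i.1 i.2).2), ?_⟩
  show ∑ i : Σ j, I j, lw J η i.1 * Real.exp (-t) ^ k i.1 i.2 ≤ _
  rw [Fintype.sum_sigma]
  have a1 : ∀ j : Fin (J + 1), ∑ x : I j, lw J η j * Real.exp (-t) ^ k j x ≤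
      lw J η j * ((1 - Real.exp (-t))⁻¹ ^ C.n + 1) := fun j => by
    rw [← Finset.mul_sum]
    exact mul_le_mul_of_nonneg_left (hc j) (lw_pos J hη j).le
  refine (Finset.sum_le_sum fun j _ => a1 j).trans ?_
  rw [← Finset.sum_mul, Fin.sum_univ_eq_sum_range (fun j => lw J η j), sum_lw, one_mul]

variable {C} in
theorem Min_mach {J : ℕ} (F : C.Fam J) {Λ : Type} [Fintype Λ] (g : Λ → R) {b : ℝ}
    (h : Good C.ν C.r (fun i => C.ev (F.f i)) F.V b) {δ : ℝ} (hδ : 0 < δ) :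
    ∃ T : ℝ, 1 / δ ≤ T ∧ ENNReal.ofReal (Real.exp (-(b + δ / 2) * T)) ≤
      C.ν {p | C.r p < δ ∧ ∀ i (c : Λ → ℂ), (∀ l, ‖c l‖ ≤ 1) → ∑ l, c l • g l ∈ F.low i →
        ‖C.ev (∑ l, c l • g l) p‖ ^ 2 ≤ (F.V i + δ) ^ T} := by
  classical
  let u : F.I → F.I → R := fun i s => if F.lev s = F.lev i ∧ F.V s ≤ F.V i then F.f s else 0
  choose K hK0 hK using fun i => Min_coef (u i) g
  have e6 : ∀ᶠ T : ℝ in atTop, ∀ i, (K i * Fintype.card F.I) ^ 2 * (F.V i + δ / 2) ^ T ≤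
      (F.V i + δ) ^ T :=
    eventually_all.2 fun i => absorb (F.nonneg i) (by linarith) (by linarith)
  obtain ⟨T0, hT0⟩ := eventually_atTop.1 e6
  obtain ⟨T, h1, h2, h3⟩ := h.large F.nonneg (half_pos hδ) T0
  have h4 : 1 / δ ≤ T := le_trans (one_div_le_one_div_of_le (half_pos hδ) (by linarith)) h2
  have hT : 0 ≤ T := le_trans (by positivity) h4
  refine ⟨T, h4, h3.trans (C.ν.mono ?_)⟩
  rintro p ⟨hp1, hp2⟩
  refine ⟨hp1.trans (by linarith), fun i c hc hm => le_trans ?_ (hT0 T h1 i)⟩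
  have hm' : ∑ l, c l • g l ∈ Submodule.span ℂ (range (u i)) := by
    refine Submodule.span_mono ?_ hm
    rintro _ ⟨s, hs, rfl⟩
    exact ⟨s, if_pos hs⟩
  obtain ⟨a, ha, e⟩ := hK i c hc hm'
  have hX : 0 ≤ (F.V i + δ / 2) ^ T :=
    Real.rpow_nonneg (add_nonneg (F.nonneg i) (half_pos hδ).le) T
  have a1 : ∀ s, ‖C.ev (u i s) p‖ ≤ Real.sqrt ((F.V i + δ / 2) ^ T) := by
    intro s
    by_cases hs : F.lev s = F.lev i ∧ F.V s ≤ F.V i
    · have e1 : u i s = F.f s := if_pos hs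
      rw [e1]
      refine Real.le_sqrt_of_sq_le ((hp2 s).trans ?_)
      exact Real.rpow_le_rpow (add_nonneg (F.nonneg s) (half_pos hδ).le)
        (add_le_add hs.2 le_rfl) hT
    · have e1 : u i s = 0 := if_neg hs
      rw [e1, map_zero, Pi.zero_apply, norm_zero]
      exact Real.sqrt_nonneg _
  have a2 : ‖C.ev (∑ l, c l • g l) p‖ ≤
      K i * Fintype.card F.I * Real.sqrt ((F.V i + δ / 2) ^ T) := by
    rw [e, map_sum, Finset.sum_apply]
    refine (norm_sum_le _ _).trans ?_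
    refine (Finset.sum_le_card_nsmul _ _ (K i * Real.sqrt ((F.V i + δ / 2) ^ T))
      fun s _ => ?_).trans (le_of_eq ?_)
    · rw [map_smul, Pi.smul_apply, norm_smul]
      exact mul_le_mul (ha s) (a1 s) (norm_nonneg _) (hK0 i)
    · rw [nsmul_eq_mul, Finset.card_univ]; ring
  refine (pow_le_pow_left₀ (norm_nonneg _) a2 2).trans (le_of_eq ?_)
  rw [mul_pow, Real.sq_sqrt hX]

theorem isClosed_ach (J : ℕ) {ηm : ℝ} (hη : 0 < ηm) :
    IsClosed {q : ℝ × ℝ × ℝ | ηm ≤ q.2.1 ∧ C.Ach J q.1 q.2.1 q.2.2} := by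
  rw [isClosed_iff_frequently]
  intro q hq
  have hq1 : ηm ≤ q.2.1 := by
    have hc : IsClosed {q : ℝ × ℝ × ℝ | ηm ≤ q.2.1} := isClosed_le continuous_const (by fun_prop)
    exact isClosed_iff_frequently.1 hc q (hq.mono fun y hy => hy.1)
  have hq0 : 0 < q.2.1 := hη.trans_le hq1
  refine ⟨hq1, ?_⟩
  obtain ⟨g, hg, hs⟩ := C.exists_basis J
  refine ach_of_mach hg hs hq0 fun δ hδ => ?_
  obtain ⟨ε, hε, hz⟩ : ∃ ε : ℝ, 0 < ε ∧ (1 + ε) * q.2.2 < q.2.2 + δ := by
    have hp : 0 < |q.2.2| + 1 := by positivity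
    refine ⟨δ / (|q.2.2| + 1), by positivity, ?_⟩
    have h1 : δ / (|q.2.2| + 1) * q.2.2 < δ := by
      rw [div_mul_eq_mul_div, div_lt_iff₀ hp]
      exact mul_lt_mul_of_pos_left ((le_abs_self _).trans_lt (lt_add_one _)) hδ
    linarith
  have e1 : ∀ᶠ y : ℝ × ℝ × ℝ in 𝓝 q, y.1 < q.1 + δ / 2 :=
    (continuous_fst.tendsto q).eventually (gt_mem_nhds (by linarith))
  have e2 : ∀ᶠ y : ℝ × ℝ × ℝ in 𝓝 q, (1 + ε) * y.2.2 < q.2.2 + δ := by
    have hc : Continuous fun y : ℝ × ℝ × ℝ => (1 + ε) * y.2.2 := by fun_prop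
    exact (hc.tendsto q).eventually (gt_mem_nhds hz)
  have e3 : ∀ᶠ y : ℝ × ℝ × ℝ in 𝓝 q, ∀ j ∈ Finset.range (J + 1),
      lw J q.2.1 j < (1 + ε) * lw J y.2.1 j := by
    rw [eventually_all_finset]
    intro j _
    have hc : Continuous fun y : ℝ × ℝ × ℝ => (1 + ε) * lw J y.2.1 j :=
      continuous_const.mul ((continuous_lw J j).comp (by fun_prop))
    refine (hc.tendsto q).eventually (lt_mem_nhds ?_)
    have := mul_pos hε (lw_pos J hq0 j)
    show lw J q.2.1 j < (1 + ε) * lw J q.2.1 j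
    linarith
  obtain ⟨y, ⟨-, F, hF, hcost⟩, h1, h2, h3⟩ := (hq.and_eventually (e1.and (e2.and e3))).exists
  obtain ⟨T, hT, hν⟩ := Min_mach F g hF hδ
  have hT0 : 0 ≤ T := le_trans (by positivity) hT
  refine ⟨T, hT, F, ?_, le_trans (ENNReal.ofReal_le_ofReal (Real.exp_le_exp.2 ?_)) hν⟩
  · have a1 : F.cost q.2.1 ≤ (1 + ε) * F.cost y.2.1 := by
      unfold Fam.cost
      rw [Finset.mul_sum]
      refine Finset.sum_le_sum fun i _ => ?_
      rw [← mul_assoc]
      exact mul_le_mul_of_nonneg_right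
        (h3 _ (Finset.mem_range.2 (Nat.lt_succ_of_le (F.lev_le i)))).le (F.nonneg i)
    exact a1.trans ((mul_le_mul_of_nonneg_left hcost (by linarith)).trans h2.le)
  · exact mul_le_mul_of_nonneg_right (by linarith) hT0

theorem exists_min (J : ℕ) {ηm κ : ℝ} (hη : 0 < ηm) (hκ : 0 < κ) :
    ∃ b η z, C.IsMin J ηm κ b η z := by
  set A := {q : ℝ × ℝ × ℝ | ηm ≤ q.2.1 ∧ C.Ach J q.1 q.2.1 q.2.2} with hA
  have hAc : IsClosed A := C.isClosed_ach J hη
  obtain ⟨q0, hq0⟩ : ∃ q0, q0 ∈ A := ⟨(_, ηm, _), le_rfl, C.ach_ord J hη one_pos⟩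
  let Gf : ℝ × ℝ × ℝ → ℝ := fun q => C.G κ q.1 q.2.1 q.2.2
  have ha : 0 < ((C.n : ℝ) + 1 / 2) / C.k0 := by
    have : (0 : ℝ) < C.k0 := Nat.cast_pos.2 C.k0_pos
    positivity
  let B : Set (ℝ × ℝ × ℝ) := Icc 0 (Gf q0) ×ˢ Icc ηm (Gf q0 / ((C.n + 1 / 2) / C.k0)) ×ˢ
    Icc 1 (Real.exp (Gf q0 / κ))
  have hB : IsCompact B := isCompact_Icc.prod (isCompact_Icc.prod isCompact_Icc)
  have hin : ∀ q ∈ A, Gf q ≤ Gf q0 → q ∈ B ∩ A := by
    intro q hq hG
    have b0 : 0 ≤ q.1 := hq.2.nonneg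
    have η0 : 0 < q.2.1 := hη.trans_le hq.1
    have z1 : 1 ≤ q.2.2 := hq.2.one_le η0
    have t2 : 0 ≤ ((C.n : ℝ) + 1 / 2) / C.k0 * q.2.1 := (mul_pos ha η0).le
    have t3 : 0 ≤ κ * Real.log q.2.2 := mul_nonneg hκ.le (Real.log_nonneg z1)
    have e : Gf q = q.1 + ((C.n : ℝ) + 1 / 2) / C.k0 * q.2.1 + κ * Real.log q.2.2 := rfl
    refine ⟨⟨⟨b0, by linarith⟩, ⟨hq.1, ?_⟩, z1, ?_⟩, hq⟩
    · rw [le_div_iff₀ ha]; linarith
    · rw [← Real.log_le_iff_le_exp (by linarith), le_div_iff₀ hκ]; linarith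
  have hcont : ContinuousOn Gf (B ∩ A) := by
    have h1 : ContinuousOn (fun q : ℝ × ℝ × ℝ => Real.log q.2.2) (B ∩ A) := by
      refine ContinuousOn.log (by fun_prop) fun q hq => ?_
      have : 1 ≤ q.2.2 := hq.1.2.2.1
      linarith
    have h2 : Continuous fun q : ℝ × ℝ × ℝ => q.1 + ((C.n : ℝ) + 1 / 2) / C.k0 * q.2.1 := by
      fun_prop
    exact h2.continuousOn.add (continuousOn_const.mul h1)
  obtain ⟨q1, hq1, hmin⟩ := (hB.inter_right hAc).exists_isMinOn ⟨q0, hin q0 hq0 le_rfl⟩ hcont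
  refine ⟨q1.1, q1.2.1, q1.2.2, hq1.2.1, hq1.2.2, fun b' η' z' h1 h2 => ?_⟩
  have hq : (b', η', z') ∈ A := ⟨h1, h2⟩
  show Gf q1 ≤ Gf (b', η', z')
  rcases le_total (Gf (b', η', z')) (Gf q0) with h | h
  · exact hmin (hin _ hq h)
  · exact le_trans (hmin (hin q0 hq0 le_rfl)) h

end Core

end Vale.Agent.P271
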