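import Vale.Agent.P271.Leaf

/-! Orthogonal bases have least cost; bases compatible with the degree.

Hints. `sum_le_of_orth`: choose a linearly independent subfamily of `g` with the same span
(`exists_linearIndependent'`); it has the cardinality of `S`; the square matrix of its coordinates in
the basis `u` has nonzero determinant, so some term of `Matrix.det_apply` is nonzero: this gives an
injection `τ : S → I` with `V (u s) ≤ V (g (τ s))`. `exists_refine`: for each real `a` let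
`Ψ a : E →ₗ (Fin m → ℂ)`, `m = finrank U`, have kernel on `U` equal to `U ⊓ {V < a}` if `a > 0` and
`⊥` otherwise (a subspace `K ≤ U` is the kernel on `U` of such a map: quotient, `LinearMap.exists_extend`,
`LinearEquiv`/injection of a space of dimension `≤ m` in `Fin m → ℂ`); use `LeafVal.refine`,
`LeafVal.vec`, `leafVal_unit`. `exists_compat`: index by the values on `O J`, let `j γ` be the least
level that attains `γ` (`Nat.find`); `Fam.cost_eq`, `sum_lw_Icc` and `sum_vals_le` at each level.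
`ach_of_compat`: the family indexed by pairs `(l, i)` with `j i ≤ l ≤ J`. -/

open Set

noncomputable section

namespace Vale.Agent.P271

theorem orth_inj {S I : Type} [Fintype S] [Fintype I] [DecidableEq S] (b : S → I → ℂ)
    (c : I → S → ℂ) (h : ∀ s, ∑ i, b s i • c i = (1 : Matrix S S ℂ) s) :
    ∃ τ : S → I, Function.Injective τ ∧ ∀ s, c (τ s) s ≠ 0 := by
  have h1 : (Matrix.detRowAlternating : (S → ℂ) [⋀^S]→ₗ[ℂ] ℂ).toMultilinearMap
      (fun s => ∑ i, b s i • c i) ≠ 0 := by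
    have e : (fun s => ∑ i, b s i • c i) = (1 : Matrix S S ℂ) := funext h
    rw [e]
    have e2 : (Matrix.detRowAlternating : (S → ℂ) [⋀^S]→ₗ[ℂ] ℂ).toMultilinearMap
      (1 : Matrix S S ℂ) = (1 : Matrix S S ℂ).det := rfl
    rw [e2, Matrix.det_one]
    exact one_ne_zero
  rw [MultilinearMap.map_sum] at h1
  obtain ⟨p, -, hp⟩ := Finset.exists_ne_zero_of_sum_ne_zero h1
  rw [MultilinearMap.map_smul_univ] at hp
  have h2 : (Matrix.of fun s => c (p s)).det ≠ 0 := right_ne_zero_of_smul hp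
  have hinj : Function.Injective p := by
    intro s s' hs
    by_contra hne
    exact h2 (Matrix.det_zero_of_row_eq hne (by funext k; simp [hs]))
  rw [Matrix.det_apply] at h2
  obtain ⟨σ, -, hσ⟩ := Finset.exists_ne_zero_of_sum_ne_zero h2
  have h3 := right_ne_zero_of_smul hσ
  refine ⟨fun s => p (σ s), hinj.comp σ.injective, fun s => ?_⟩
  exact Finset.prod_ne_zero_iff.1 h3 s (Finset.mem_univ s)

section
variable {E : Type} [AddCommGroup E] [Module ℂ E] {V : E → ℝ}

theorem sum_le_of_orth (hV : IsNA V) {S I : Type} [Fintype S] [Fintype I] (u : S → E) (g : I → E)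
    (hu : LinearIndependent ℂ u)
    (horth : ∀ (c : S → ℂ) s, c s ≠ 0 → V (u s) ≤ V (∑ s', c s' • u s'))
    (h1 : ∀ i, g i ∈ Submodule.span ℂ (range u)) (h2 : ∀ s, u s ∈ Submodule.span ℂ (range g)) :
    ∑ s, V (u s) ≤ ∑ i, V (g i) := by
  classical
  choose c hc using fun i => (Submodule.mem_span_range_iff_exists_fun ℂ).1 (h1 i)
  choose b hb using fun s => (Submodule.mem_span_range_iff_exists_fun ℂ).1 (h2 s)
  have key : ∀ s, ∑ i, b s i • c i = (1 : Matrix S S ℂ) s := by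
    intro s
    have e : ∑ s', (∑ i, b s i • c i) s' • u s' = ∑ s', (1 : Matrix S S ℂ) s s' • u s' := by
      have e1 : ∑ s', (1 : Matrix S S ℂ) s s' • u s' = u s := by
        simp [Matrix.one_apply]
      rw [e1, ← hb s]
      simp only [Finset.sum_apply, Pi.smul_apply, Finset.sum_smul, ← hc, Finset.smul_sum,
        smul_smul, smul_eq_mul]
      exact Finset.sum_comm
    funext s'
    exact Fintype.linearIndependent_iffₛ.1 hu _ _ e s'
  obtain ⟨τ, hτ, hne⟩ := orth_inj b c key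
  calc ∑ s, V (u s) ≤ ∑ s, V (g (τ s)) := by
        refine Finset.sum_le_sum fun s _ => ?_
        rw [← hc (τ s)]
        exact horth _ s (hne s)
    _ = ∑ i ∈ Finset.univ.map ⟨τ, hτ⟩, V (g i) := by rw [Finset.sum_map]; rfl
    _ ≤ ∑ i, V (g i) := Finset.sum_le_univ_sum_of_nonneg fun i => hV.nonneg _

theorem orth_ker (U K : Submodule ℂ E) [FiniteDimensional ℂ U] :
    ∃ Ψ : E →ₗ[ℂ] (Fin (Module.finrank ℂ U) → ℂ), ∀ f ∈ U, Ψ f = 0 ↔ f ∈ K := by
  obtain ⟨W, hW⟩ := Submodule.exists_isCompl (K.comap U.subtype)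
  obtain ⟨Ψ, hΨ⟩ := LinearMap.exists_extend
    ((Module.finBasis ℂ U).equivFun.toLinearMap.comp (W.projection _ hW.symm))
  refine ⟨Ψ, fun f hf => ?_⟩
  have e : Ψ f = (Module.finBasis ℂ U).equivFun (W.projection _ hW.symm ⟨f, hf⟩) :=
    LinearMap.congr_fun hΨ ⟨f, hf⟩
  rw [e, LinearEquiv.map_eq_zero_iff, Submodule.projection_apply_eq_zero_iff]
  rfl

theorem exists_refine (hV : IsNA V) (U : Submodule ℂ E) [FiniteDimensional ℂ U] :
    ∃ lam : E → ℝᵒᵈ ×ₗ (Unit ×ₗ ℕ), LeafVal U lam ∧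
      ∀ f, OrderDual.ofDual (ofLex (lam f)).1 = V f := by
  choose Ψ hΨ using fun a : ℝ => orth_ker U (Submodule.span ℂ {f | V f < a})
  refine ⟨_, LeafVal.refine hV (LeafVal.vec leafVal_unit) Ψ ?_ ?_, fun f => rfl⟩
  · intro a f hf hfa
    exact (hΨ a f hf).2 (Submodule.subset_span hfa)
  · intro f hf hne h0
    have h1 := (hΨ _ f hf).1 h0
    rcases (hV.nonneg f).eq_or_lt with h2 | h2
    · have e : {g | V g < V f} = (∅ : Set E) := by
        refine eq_empty_of_forall_notMem fun g hg => ?_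
        have h3 : V g < V f := hg
        linarith [hV.nonneg g]
      rw [e, Submodule.span_empty] at h1
      exact hne h1
    · exact lt_irrefl _ (hV.lt_of_mem_span h2 (fun g hg => hg) h1)

theorem sum_vals_le (hV : IsNA V) {Γ : Type} [LinearOrder Γ] {U : Submodule ℂ E}
    [FiniteDimensional ℂ U] {lam : E → ℝᵒᵈ ×ₗ Γ} (h : LeafVal U lam)
    (hl : ∀ f, OrderDual.ofDual (ofLex (lam f)).1 = V f) {I : Type} (S : Finset I) (g : I → E)
    (hg : ∀ i ∈ S, g i ∈ U) (hs : U ≤ Submodule.span ℂ (g '' S)) :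
    ∑ γ ∈ h.finite_vals.toFinset, OrderDual.ofDual (ofLex γ).1 ≤ ∑ i ∈ S, V (g i) := by
  classical
  have hex : ∀ γ, ∃ v : E, γ ∈ vals U lam → v ∈ U ∧ v ≠ 0 ∧ lam v = γ := by
    intro γ
    by_cases hγ : γ ∈ vals U lam
    · obtain ⟨v, ⟨h1, h2⟩, h3⟩ := hγ
      exact ⟨v, fun _ => ⟨h1, h2, h3⟩⟩
    · exact ⟨0, fun h' => absurd h' hγ⟩
  choose u hu using hex
  set T := h.finite_vals.toFinset with hT
  have hu' : ∀ s : T, u s ∈ U ∧ u s ≠ 0 ∧ lam (u s) = s := fun s =>
    hu s (h.finite_vals.mem_toFinset.1 s.2)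
  have hinj : Function.Injective fun s : T => lam (u s) := by
    intro s s' hss
    apply Subtype.ext
    rw [← (hu' s).2.2, ← (hu' s').2.2]
    exact hss
  have key := sum_le_of_orth hV (fun s : T => u s) (fun i : S => g i)
    (h.linearIndependent _ (fun s => ⟨(hu' s).1, (hu' s).2.1⟩) hinj) ?_ ?_ ?_
  · rw [← Finset.sum_coe_sort T, ← Finset.sum_coe_sort S]
    refine le_trans (le_of_eq (Finset.sum_congr rfl fun s _ => ?_)) key
    rw [← hl, (hu' s).2.2]
  · intro c s hc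
    obtain ⟨-, i, -, -, h3, h4⟩ := h.sum Finset.univ (fun s : T => u s)
      (fun s _ => ⟨(hu' s).1, (hu' s).2.1⟩) hinj.injOn c ⟨s, Finset.mem_univ s, hc⟩
    have h5 := h4 s (Finset.mem_univ s) hc
    rw [← h3] at h5
    rw [← hl, ← hl]
    exact OrderDual.ofDual_le_ofDual.2 (Prod.Lex.monotone_fst _ _ h5)
  · intro i
    have e : range (fun s : T => u s) = u '' vals U lam := by
      rw [← h.finite_vals.coe_toFinset, image_eq_range]
      rfl
    rw [e]
    exact h.span_vals u hu (hg i i.2)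
  · intro s
    have e : range (fun i : S => g i) = g '' S := by
      rw [image_eq_range]
      rfl
    rw [e]
    exact hs (hu' s).1

end

namespace Core
variable {Y R : Type} [CommRing R] [Algebra ℂ R] (C : Core Y R)

theorem exists_compat {V : R → ℝ} (hV : IsNA V) (J : ℕ) :
    ∃ (I : Type) (_ : Fintype I) (j : I → ℕ) (f : I → R), (∀ i, j i ≤ J ∧ f i ∈ C.O (j i)) ∧
      (∀ l ≤ J, C.O l ≤ Submodule.span ℂ (f '' {i | j i ≤ l})) ∧
      ∀ (F : C.Fam J) (η : ℝ), 0 < η →
        ∑ i, V (f i) * Real.exp (-η * j i) ≤ ∑ i, lw J η (F.lev i) * V (F.f i) := by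
  classical
  obtain ⟨lam, h, hl⟩ := exists_refine hV (C.O J)
  have hsub : ∀ {l l' : ℕ}, l ≤ l' → vals (C.O l) lam ⊆ vals (C.O l') lam := by
    rintro l l' hll γ ⟨v, ⟨h1, h2⟩, h3⟩
    exact ⟨v, ⟨C.mono hll h1, h2⟩, h3⟩
  have hex : ∀ γ, ∃ (k : ℕ) (v : R), γ ∈ vals (C.O J) lam → (v ∈ C.O k ∧ v ≠ 0 ∧ lam v = γ) ∧
      ∀ l, γ ∈ vals (C.O l) lam → k ≤ l := by
    intro γ
    by_cases hγ : γ ∈ vals (C.O J) lam
    · have h0 : ∃ l, γ ∈ vals (C.O l) lam := ⟨J, hγ⟩
      obtain ⟨v, ⟨h1, h2⟩, h3⟩ := Nat.find_spec h0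
      exact ⟨Nat.find h0, v, fun _ => ⟨⟨h1, h2, h3⟩, fun l hl => Nat.find_min' h0 hl⟩⟩
    · exact ⟨0, 0, fun h' => absurd h' hγ⟩
  choose k u hu using hex
  set T := h.finite_vals.toFinset with hT
  have hTm : ∀ s : T, (s : ℝᵒᵈ ×ₗ (Unit ×ₗ ℕ)) ∈ vals (C.O J) lam := fun s =>
    h.finite_vals.mem_toFinset.1 s.2
  have hkJ : ∀ s : T, k s ≤ J := fun s => (hu s (hTm s)).2 J (hTm s)
  refine ⟨T, inferInstance, fun s => k s, fun s => u s,
    fun s => ⟨hkJ s, (hu s (hTm s)).1.1⟩, fun l hlJ => ?_, fun F η hη => ?_⟩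
  · have h1 := (h.mono (C.mono hlJ)).span_vals u fun γ hγ => by
      obtain ⟨⟨h1, h2, h3⟩, h4⟩ := hu γ (hsub hlJ hγ)
      exact ⟨C.mono (h4 l hγ) h1, h2, h3⟩
    refine h1.trans (Submodule.span_mono ?_)
    rintro _ ⟨γ, hγ, rfl⟩
    exact ⟨⟨γ, h.finite_vals.mem_toFinset.2 (hsub hlJ hγ)⟩, (hu γ (hsub hlJ hγ)).2 l hγ, rfl⟩
  · rw [F.cost_eq η fun i => V (F.f i)]
    have e1 : ∑ s : T, V (u s) * Real.exp (-η * k s) =
        ∑ l ∈ Finset.range (J + 1), lw J η l *
          ∑ s ∈ Finset.univ.filter (fun s : T => k s ≤ l), V (u s) := by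
      simp only [Finset.sum_filter, Finset.mul_sum]
      rw [Finset.sum_comm]
      refine Finset.sum_congr rfl fun s _ => ?_
      rw [← sum_lw_Icc J η (hkJ s), Finset.mul_sum]
      have e2 : Finset.Icc (k s) J = (Finset.range (J + 1)).filter fun l => k s ≤ l := by
        ext l
        simp only [Finset.mem_Icc, Finset.mem_filter, Finset.mem_range]
        omega
      rw [e2, Finset.sum_filter]
      refine Finset.sum_congr rfl fun l _ => ?_
      split_ifs
      · ring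
      · ring
    rw [e1]
    refine Finset.sum_le_sum fun l hlr => mul_le_mul_of_nonneg_left ?_ (lw_pos J hη l).le
    have hlJ : l ≤ J := Nat.lt_succ_iff.1 (Finset.mem_range.1 hlr)
    have h2 := sum_vals_le hV (h.mono (C.mono hlJ)) hl (Finset.univ.filter fun i => F.lev i = l)
      F.f (fun i hi => by
        have h3 := F.mem i
        rwa [(Finset.mem_filter.1 hi).2] at h3) (by
        have h3 := F.span l hlJ
        simpa using h3)
    refine le_trans ?_ h2
    have e3 : ∑ s ∈ Finset.univ.filter (fun s : T => k s ≤ l), V (u s) =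
        ∑ γ ∈ (Finset.univ.filter fun s : T => k s ≤ l).map (Function.Embedding.subtype _),
          OrderDual.ofDual (ofLex γ).1 := by
      rw [Finset.sum_map]
      refine Finset.sum_congr rfl fun s _ => ?_
      rw [← hl, (hu s (hTm s)).1.2.2]
      rfl
    rw [e3]
    refine Finset.sum_le_sum_of_subset_of_nonneg ?_ ?_
    · intro γ hγ
      obtain ⟨s, hs, rfl⟩ := Finset.mem_map.1 hγ
      obtain ⟨⟨h3, h4, h5⟩, -⟩ := hu s (hTm s)
      exact (Set.Finite.mem_toFinset _).2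
        ⟨u s, ⟨C.mono (Finset.mem_filter.1 hs).2 h3, h4⟩, h5⟩
    · intro γ hγ _
      obtain ⟨v, -, rfl⟩ := (Set.Finite.mem_toFinset _).1 hγ
      rw [hl]
      exact hV.nonneg v

theorem ach_of_compat {J : ℕ} {I : Type} [Fintype I] {j : I → ℕ} {f : I → R}
    (h1 : ∀ i, j i ≤ J ∧ f i ∈ C.O (j i))
    (h2 : ∀ l ≤ J, C.O l ≤ Submodule.span ℂ (f '' {i | j i ≤ l})) {W : I → ℝ} (hW : ∀ i, 0 ≤ W i)
    {β : ℝ} (h : Good C.ν C.r (fun i => C.ev (f i)) W β) (η : ℝ) :
    C.Ach J β η (∑ i, W i * Real.exp (-η * j i)) := by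
  let F : C.Fam J :=
    { I := Σ i : I, Finset.Icc (j i) J
      lev := fun q => q.2
      f := fun q => f q.1
      V := fun q => W q.1
      lev_le := fun q => (Finset.mem_Icc.1 q.2.2).2
      mem := fun q => C.mono (Finset.mem_Icc.1 q.2.2).1 (h1 q.1).2
      nonneg := fun q => hW q.1
      span := fun l hl => (h2 l hl).trans (Submodule.span_mono (by
        rintro _ ⟨i, hi, rfl⟩
        exact ⟨⟨i, ⟨l, Finset.mem_Icc.2 ⟨hi, hl⟩⟩⟩, rfl, rfl⟩)) }
  refine ⟨F, h.comp hW (fun q : F.I => q.1) fun q => le_rfl, le_of_eq ?_⟩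
  have e : F.cost η = ∑ q : (Σ i : I, Finset.Icc (j i) J), lw J η q.2 * W q.1 := rfl
  rw [e, Fintype.sum_sigma]
  refine Finset.sum_congr rfl fun i _ => ?_
  rw [← sum_lw_Icc J η (h1 i).1, mul_comm, Finset.sum_mul]
  exact Finset.sum_coe_sort (Finset.Icc (j i) J) fun l => lw J η l * W i

end Core

end Vale.Agent.P271
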