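import Vale.Agent.P271.Dist
import Vale.Agent.P271.IntD
import Vale.Agent.P271.GoodB

/-! The filtered algebra of affine functions near a point of a polarised manifold.

Hints. `exists_sys`: the open sets `t ≠ 0` cover the compact space `X`; take a finite subfamily
`t k` and `v (k, l) = t k * P.s l` (`Atl.Imm.mul`, `Atl.Imm.congr`), of degree
`k2 = (i + 1) * k0 + 1`. `lift`: the set of `f` with a lift at level `j` is a subspace; these subspaces
`T j` satisfy `T j * T k ≤ T (j + k)`, `1 ∈ T 0`, `lin ξ ≤ T 1` (lift `1` to `σ`) and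
`span ζ ≤ T k2`. `analyticAt_OO`: near `x`, `f = lift / σ ^ j` (`Atl.analyticAt_div`). `jets_OO`:
`finrank_ordGe_le` for `ℓ f = loc a f`, and `O j ⊓ ordS k = O j ⊓ ordGe k` by `Pol.r_comparable`,
`Pol.exists_r_lt_subset`, `Pol.r_lt_mem_nhds` and the continuity of the chart and of its inverse. -/

open MeasureTheory Set Filter Topology

noncomputable section

namespace Vale.Agent.P271

variable {n : ℕ} {X : Type}

/-- The functions that are bounded where `r` is small. -/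
def Bd (r : X → ℝ) : Subalgebra ℂ (X → ℂ) where
  carrier := {f | ∃ C : ℝ, ∃ δ > (0 : ℝ), ∀ p, r p < δ → ‖f p‖ ≤ C}
  mul_mem' := by
    rintro f g ⟨C, δ, hδ, h⟩ ⟨C', δ', hδ', h'⟩
    refine ⟨C * C', min δ δ', lt_min hδ hδ', fun p hp => ?_⟩
    have h1 := h p (hp.trans_le (min_le_left _ _))
    rw [Pi.mul_apply, norm_mul]
    exact mul_le_mul h1 (h' p (hp.trans_le (min_le_right _ _))) (norm_nonneg _)
      ((norm_nonneg _).trans h1)
  add_mem' := by
    rintro f g ⟨C, δ, hδ, h⟩ ⟨C', δ', hδ', h'⟩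
    refine ⟨C + C', min δ δ', lt_min hδ hδ', fun p hp => ?_⟩
    exact (norm_add_le _ _).trans
      (add_le_add (h p (hp.trans_le (min_le_left _ _))) (h' p (hp.trans_le (min_le_right _ _))))
  algebraMap_mem' := fun c => ⟨‖c‖, 1, one_pos, fun p _ => by simp⟩

open Classical in
/-- A function as an element of `Bd r`. -/
def toBd (r : X → ℝ) (f : X → ℂ) : Bd r := if h : f ∈ Bd r then ⟨f, h⟩ else 0

theorem coe_toBd {r : X → ℝ} {f : X → ℂ} (h : f ∈ Bd r) : (toBd r f : X → ℂ) = f := by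
  simp [toBd, h]

variable [TopologicalSpace X] {A : Atl n X}

/-- A second immersive system whose degree is prime to `k0`. -/
structure Sys (P : Pol A) where
  k2 : ℕ
  κ : Type
  [fin : Fintype κ]
  v : κ → X → ℂ
  k2_pos : 0 < k2
  cop : Nat.Coprime P.k0 k2
  imm : A.Imm (P.u ^ k2) v

attribute [instance] Sys.fin

theorem exists_sys [CompactSpace X] (P : Pol A)
    (h : ∃ i : ℕ, ∀ p, ∃ t ∈ A.H0 (P.u ^ (i * P.k0 + 1)), t p ≠ 0) : Nonempty (Sys P) := by
  obtain ⟨i, h⟩ := h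
  choose t ht h0 using h
  obtain ⟨s, hs⟩ := isCompact_univ.elim_finite_subcover (fun p => {q | t p q ≠ 0})
    (fun p => Atl.isOpen_ne_zero (P.gauge.pow _) (Atl.H0_le_Sec (ht p)))
    (fun p _ => mem_iUnion.2 ⟨p, h0 p⟩)
  have h1 := P.imm.mul (P.gauge.pow _) (P.gauge.pow _) (t := fun k : s => t k) (fun k => ht k)
    (fun p => by
      obtain ⟨k, hk, h2⟩ := mem_iUnion₂.1 (hs (mem_univ p))
      exact ⟨⟨k, hk⟩, h2⟩)
  rw [← pow_add] at h1
  exact ⟨⟨i * P.k0 + 1 + P.k0, s × Fin P.N, _, by omega, by simp, h1⟩⟩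

variable (P : Pol A) (S : Sys P) (x : X) (i0 : Fin P.N)

/-- The affine coordinates. -/
def xi (i : Fin P.N) : Bd (P.r x i0) := toBd _ fun p => P.s i p / P.s i0 p

/-- The generators of level `k2`. -/
def zeta (β : Fin P.k0 → S.κ) : Bd (P.r x i0) :=
  toBd _ fun p => (∏ l, S.v (β l) p) / P.s i0 p ^ S.k2

/-- The filtration. -/
def OO (j : ℕ) : Submodule ℂ (Bd (P.r x i0)) :=
  fil (lin (xi P x i0)) (Submodule.span ℂ (range (zeta P S x i0))) S.k2 j

/-- The coordinates centred at `x`. -/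
def tc (i : Fin P.N) : Bd (P.r x i0) := xi P x i0 i - algebraMap ℂ _ (P.s i x / P.s i0 x)

variable {P S x i0} [CompactSpace X]

theorem mem_Bd_of_continuousAt (hx : P.s i0 x ≠ 0) {f : X → ℂ}
    (hf : ContinuousAt (fun p => ‖f p‖) x) : f ∈ Bd (P.r x i0) := by
  obtain ⟨δ, hδ, h⟩ := P.exists_r_lt_subset hx (hf.eventually (gt_mem_nhds (lt_add_one ‖f x‖)))
  exact ⟨‖f x‖ + 1, δ, hδ, fun p hp => le_of_lt (h p hp)⟩

omit [CompactSpace X] in
theorem setA_cont (i : Fin P.N) : Continuous fun p => ‖P.s i p‖ :=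
  Atl.continuous_norm_of_mem (P.gauge.pow _) (Atl.H0_le_Sec (P.imm.mem i))

omit [CompactSpace X] in
theorem setA_ev (hx : P.s i0 x ≠ 0) : ∀ᶠ p in 𝓝 x, P.s i0 p ≠ 0 :=
  (Atl.isOpen_ne_zero (P.gauge.pow _) (Atl.H0_le_Sec (P.imm.mem i0))).mem_nhds hx

theorem exists_sigma_lower (hx : P.s i0 x ≠ 0) :
    ∃ c > (0 : ℝ), ∃ δ > (0 : ℝ), ∀ p, P.r x i0 p < δ → c ≤ ‖P.s i0 p‖ := by
  have h5 : 0 < ‖P.s i0 x‖ := norm_pos_iff.2 hx
  obtain ⟨δ, hδ, h⟩ := P.exists_r_lt_subset hx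
    ((setA_cont i0).continuousAt.eventually (lt_mem_nhds (half_lt_self h5)))
  exact ⟨_, half_pos h5, δ, hδ, fun p hp => le_of_lt (h p hp)⟩

theorem coe_xi (hx : P.s i0 x ≠ 0) (i : Fin P.N) :
    (xi P x i0 i : X → ℂ) = fun p => P.s i p / P.s i0 p :=
  coe_toBd (mem_Bd_of_continuousAt hx
    (Atl.continuousAt_div (P.gauge.pow _) (P.imm.mem i) (P.imm.mem i0) hx).norm)

theorem coe_zeta (hx : P.s i0 x ≠ 0) (β : Fin P.k0 → S.κ) :
    (zeta P S x i0 β : X → ℂ) = fun p => (∏ l, S.v (β l) p) / P.s i0 p ^ S.k2 := by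
  refine coe_toBd (mem_Bd_of_continuousAt hx ?_)
  simp only [norm_div, norm_prod, norm_pow]
  exact (continuous_finsetProd _ fun l _ => Atl.continuous_norm_of_mem (P.gauge.pow _)
    (Atl.H0_le_Sec (S.imm.mem (β l)))).continuousAt.div ((setA_cont i0).pow _).continuousAt
      (pow_ne_zero _ (norm_ne_zero_iff.2 hx))

variable (P x i0) in
/-- The elements with a lift at level `j`. -/
def setA_T (j : ℕ) : Submodule ℂ (Bd (P.r x i0)) where
  carrier := {f | ∃ t ∈ A.H0 (P.u ^ (j * P.k0)),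
    ∀ p, P.s i0 p ≠ 0 → t p = P.s i0 p ^ j * (f : X → ℂ) p}
  add_mem' := by
    rintro f g ⟨t, ht, h⟩ ⟨t', ht', h'⟩
    refine ⟨t + t', Submodule.add_mem _ ht ht', fun p hp => ?_⟩
    rw [Pi.add_apply, h p hp, h' p hp, ← mul_add]
    rfl
  zero_mem' := ⟨0, Submodule.zero_mem _, fun p _ => by simp⟩
  smul_mem' := by
    rintro c f ⟨t, ht, h⟩
    refine ⟨c • t, Submodule.smul_mem _ c ht, fun p hp => ?_⟩
    rw [Pi.smul_apply, h p hp, ← mul_smul_comm]
    rfl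

omit [CompactSpace X] in
theorem setA_one : (1 : Bd (P.r x i0)) ∈ setA_T P x i0 0 :=
  ⟨1, by rw [zero_mul, pow_zero]; exact Atl.one_mem_H0, fun p _ => by simp⟩

omit [CompactSpace X] in
theorem setA_mul (j k : ℕ) : ∀ f ∈ setA_T P x i0 j, ∀ g ∈ setA_T P x i0 k,
    f * g ∈ setA_T P x i0 (j + k) := by
  rintro f ⟨t, ht, h⟩ g ⟨t', ht', h'⟩
  refine ⟨t * t', by rw [add_mul]; exact Atl.mul_mem_H0_pow ht ht', fun p hp => ?_⟩
  rw [Pi.mul_apply, h p hp, h' p hp, pow_add, mul_mul_mul_comm]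
  rfl

omit [CompactSpace X] in
theorem setA_prod {u : A.ι → X → ℂ} {ι : Type} (s : Finset ι) {f : ι → X → ℂ} {j : ℕ}
    (hf : ∀ l, f l ∈ A.H0 (u ^ j)) : ∏ l ∈ s, f l ∈ A.H0 (u ^ (j * s.card)) := by
  classical
  induction s using Finset.induction_on with
  | empty => rw [Finset.prod_empty, Finset.card_empty, mul_zero, pow_zero]; exact Atl.one_mem_H0
  | insert a s ha ih =>
    rw [Finset.prod_insert ha, Finset.card_insert_of_notMem ha, mul_add_one, add_comm]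
    exact Atl.mul_mem_H0_pow (hf a) ih

theorem lift (hx : P.s i0 x ≠ 0) {j : ℕ} {f : Bd (P.r x i0)} (hf : f ∈ OO P S x i0 j) :
    ∃ t ∈ A.H0 (P.u ^ (j * P.k0)), ∀ p, P.s i0 p ≠ 0 → t p = P.s i0 p ^ j * (f : X → ℂ) p := by
  have h1 : lin (xi P x i0) ≤ setA_T P x i0 1 := by
    refine Submodule.span_le.2 (insert_subset ?_ (range_subset_iff.2 fun i => ?_))
    · exact ⟨P.s i0, by rw [one_mul]; exact P.imm.mem i0, fun p _ => by simp⟩
    · refine ⟨P.s i, by rw [one_mul]; exact P.imm.mem i, fun p hp => ?_⟩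
      rw [coe_xi hx, pow_one, mul_div_cancel₀ _ hp]
  have h2 : Submodule.span ℂ (range (zeta P S x i0)) ≤ setA_T P x i0 S.k2 := by
    refine Submodule.span_le.2 (range_subset_iff.2 fun β => ?_)
    refine ⟨∏ l, S.v (β l), ?_, fun p hp => ?_⟩
    · simpa using setA_prod Finset.univ fun l => S.imm.mem (β l)
    · rw [coe_zeta hx, mul_div_cancel₀ _ (pow_ne_zero _ hp), Finset.prod_apply]
  have h3 : OO P S x i0 j ≤ setA_T P x i0 j := by
    refine iSup₂_le fun b hb => Submodule.mul_le.2 fun f hf g hg => ?_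
    have := setA_mul _ _ f (grow_pow_le (A := setA_T P x i0) setA_one setA_mul h1 _ hf) g
      (grow_pow_le (A := setA_T P x i0) setA_one setA_mul h2 _ hg)
    rwa [one_mul, mul_comm S.k2, Nat.sub_add_cancel hb] at this
  exact h3 hf

theorem analyticAt_OO (hx : P.s i0 x ≠ 0) {j : ℕ} {f : Bd (P.r x i0)} (hf : f ∈ OO P S x i0 j)
    {a : A.ι} (ha : x ∈ (A.e a).source) : AnalyticAt ℂ (A.loc a (f : X → ℂ)) (A.e a x) := by
  obtain ⟨t, ht, h⟩ := lift hx hf
  have h1 := Atl.pow_mem_H0 (P.imm.mem i0) j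
  rw [← pow_mul, mul_comm] at h1
  refine (Atl.analyticAt_div (P.gauge.pow _) ht h1 ((A.e a).map_source ha)
    (by rw [(A.e a).left_inv ha]; exact pow_ne_zero _ hx)).congr ?_
  filter_upwards [((A.e a).tendsto_symm ha).eventually (setA_ev hx)] with z hz
  simp only [Atl.loc, h _ hz, Pi.pow_apply]
  exact mul_div_cancel_left₀ _ (pow_ne_zero _ hz)

theorem cont_OO (hx : P.s i0 x ≠ 0) {j : ℕ} {f : Bd (P.r x i0)} (hf : f ∈ OO P S x i0 j) :
    ∀ ε > (0 : ℝ), ∃ δ > (0 : ℝ), ∀ p, P.r x i0 p < δ →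
      ‖(f : X → ℂ) p - (f : X → ℂ) x‖ ≤ ε := by
  intro ε hε
  obtain ⟨a, ha⟩ := A.cover x
  have h1 : ContinuousAt (f : X → ℂ) x :=
    ((analyticAt_OO hx hf ha).continuousAt.comp ((A.e a).continuousAt ha)).congr
      (A.api_rep a _ ha).symm
  obtain ⟨δ, hδ, h⟩ := P.exists_r_lt_subset hx (h1 (Metric.closedBall_mem_nhds _ hε))
  exact ⟨δ, hδ, fun p hp => mem_closedBall_iff_norm.1 (h p hp)⟩

omit [CompactSpace X] in
theorem setA_fil : ∃ C E : ℕ, ∀ j, FiniteDimensional ℂ (OO P S x i0 j) ∧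
    Module.finrank ℂ (OO P S x i0 j) ≤ C * (j + 1) ^ E := by
  have h1 : FiniteDimensional ℂ (lin (xi P x i0)) :=
    FiniteDimensional.span_of_finite ℂ ((finite_range _).insert _)
  have h2 : FiniteDimensional ℂ (Submodule.span ℂ (range (zeta P S x i0))) :=
    FiniteDimensional.span_of_finite ℂ (finite_range _)
  exact finrank_fil_le _ _ S.k2_pos

theorem fd_OO (j : ℕ) : FiniteDimensional ℂ (OO P S x i0 j) := by
  obtain ⟨C, E, h⟩ := setA_fil (S := S) (x := x) (i0 := i0)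
  exact (h j).1

theorem growth_OO : ∃ C E : ℕ, ∀ j, Module.finrank ℂ (OO P S x i0 j) ≤ C * (j + 1) ^ E := by
  obtain ⟨C, E, h⟩ := setA_fil (S := S) (x := x) (i0 := i0)
  exact ⟨C, E, fun j => (h j).2⟩

theorem setA_ord (hx : P.s i0 x ≠ 0) {a : A.ι} (ha : x ∈ (A.e a).source) (k : ℕ) :
    ordS (Bd (P.r x i0)).val (P.r x i0) k =
      ordGe ((LinearMap.funLeft ℂ ℂ (A.e a).symm).comp (Bd (P.r x i0)).val.toLinearMap)
        (A.e a x) k := by
  obtain ⟨C1, hC1, h1⟩ := P.r_comparable hx ha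
  ext f
  constructor
  · rintro ⟨C, δ, hδ, h⟩
    refine Asymptotics.IsBigO.of_bound (|C| * C1 ^ k) ?_
    filter_upwards [((A.e a).tendsto_symm ha).eventually (h1.and (P.r_lt_mem_nhds hx hδ)),
      (A.e a).open_target.mem_nhds ((A.e a).map_source ha)] with z hz hz'
    have h2 := hz.1.1
    rw [(A.e a).right_inv hz'] at h2
    refine (h _ hz.2).trans ?_
    rw [abs_of_nonneg (P.r_nonneg x i0 _), norm_pow, norm_norm, mul_assoc, ← mul_pow]
    exact mul_le_mul (le_abs_self C) (pow_le_pow_left₀ (P.r_nonneg x i0 _) h2 k)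
      (pow_nonneg (P.r_nonneg x i0 _) k) (abs_nonneg C)
  · intro h
    obtain ⟨c, hc, h2⟩ := Asymptotics.IsBigO.exists_pos h
    obtain ⟨δ, hδ, h3⟩ := P.exists_r_lt_subset hx ((((A.e a).continuousAt ha).eventually
      h2.bound).and (h1.and ((A.e a).open_source.mem_nhds ha)))
    refine ⟨c * C1 ^ k, δ, hδ, fun p hp => ?_⟩
    obtain ⟨k1, k2, k3⟩ := h3 p hp
    have k4 : ‖(f : X → ℂ) ((A.e a).symm (A.e a p))‖ ≤ c * ‖‖A.e a p - A.e a x‖ ^ k‖ := k1
    rw [(A.e a).left_inv k3, norm_pow, norm_norm] at k4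
    refine k4.trans ?_
    rw [abs_of_nonneg (P.r_nonneg x i0 _), mul_assoc, ← mul_pow]
    exact mul_le_mul_of_nonneg_left (pow_le_pow_left₀ (norm_nonneg _) k2.2 k) hc.le

theorem jets_OO (hx : P.s i0 x ≠ 0) (j k : ℕ) :
    Module.finrank ℂ ↥(OO P S x i0 j ⊓ ordS (Bd (P.r x i0)).val (P.r x i0) k) ≤
      Module.finrank ℂ ↥(OO P S x i0 j ⊓ ordS (Bd (P.r x i0)).val (P.r x i0) (k + 1)) +
        Nat.multichoose n k := by
  obtain ⟨a, ha⟩ := A.cover x
  have := fd_OO (S := S) (x := x) (i0 := i0) j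
  rw [setA_ord hx ha, setA_ord hx ha]
  exact finrank_ordGe_le _ _ _ (fun f hf => analyticAt_OO hx hf ha) k

theorem tc_mem (i : Fin P.N) : tc P x i0 i ∈ OO P S x i0 1 := by
  refine le_fil_one _ _ _ (Submodule.sub_mem _
    (Submodule.subset_span (mem_insert_of_mem _ ⟨i, rfl⟩)) ?_)
  rw [Algebra.algebraMap_eq_smul_one]
  exact Submodule.smul_mem _ _ (Submodule.subset_span (mem_insert _ _))

theorem setA_tc (hx : P.s i0 x ≠ 0) (i : Fin P.N) (p : X) :
    (tc P x i0 i : X → ℂ) p = P.s i p / P.s i0 p - P.s i x / P.s i0 x := by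
  rw [tc, AddSubgroupClass.coe_sub, coe_xi hx]
  rfl

theorem tc_x (hx : P.s i0 x ≠ 0) (i : Fin P.N) : (tc P x i0 i : X → ℂ) x = 0 := by
  rw [setA_tc hx, sub_self]

theorem r_le_tc (hx : P.s i0 x ≠ 0) : ∃ δ > (0 : ℝ), ∀ p, P.r x i0 p < δ →
    P.r x i0 p ≤ ∑ i, ‖(tc P x i0 i : X → ℂ) p‖ := by
  obtain ⟨δ, hδ, h⟩ := P.exists_r_lt_subset hx (setA_ev hx)
  refine ⟨δ, hδ, fun p hp => ?_⟩
  have h1 : P.s i0 p ≠ 0 := h p hp
  refine (Real.sqrt_le_left (Finset.sum_nonneg fun _ _ => norm_nonneg _)).2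
    (le_trans (Finset.sum_le_sum fun i _ => ?_)
      (Finset.sum_sq_le_sq_sum_of_nonneg fun _ _ => norm_nonneg _))
  refine pow_le_pow_left₀ (norm_nonneg _) ?_ 2
  have e : P.s i p - P.s i x / P.s i0 x * P.s i0 p = (tc P x i0 i : X → ℂ) p * P.s i0 p := by
    rw [setA_tc hx, sub_mul, div_mul_cancel₀ _ h1]
  rw [e, norm_mul]
  exact mul_le_of_le_one_right (norm_nonneg _) (P.norm_s_le i0 p)

end Vale.Agent.P271
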