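import Vale.Agent.P271.SetA

/-! The degree property for the filtered algebra near a point.

Hints. Fix a chart `a ∋ x` and `c = P.u a`, a function with continuous norm near `x` that is
bounded below near `x` (`Atl.continuousOn_norm_gauge`). Put `s' i = toBd (c ^ k0 * s i)`,
`v' k = toBd (c ^ k2 * v k)` in `R = Bd r`, `U1 = span (range (π ∘ s'))`, `U2 = span (range (π ∘ v'))`,
`σ = π (s' i0)`, `τ = π (v' k)` with `v k x ≠ 0`. Near `x` one has `xi i * s' i0 = s' i` and
`zeta β * s' i0 ^ k2 = ∏ v' (β l)`, so these hold after `π`. Hence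
`map π (lin xi) = map (mulLeft σ⁻¹) U1` (note `1 = σ⁻¹ * σ`) and
`map π (span zeta) = map (mulLeft (σ⁻¹ ^ k2)) (U2 ^ k0)` (`Submodule.span_pow`, `Set.mem_pow`), and
`map_fil` applies. Integrality: for `t ∈ (span (range v)) ^ k0 ≤ H0 ((u ^ k0) ^ k2)`
(`Atl.pow_le_H0_pow`) `fInt_of_imm` gives `FInt (span (range s)) k2 t`; use `FInt.scale` with `c ^ k0`,
`FInt.of_injective` for the inclusion of `Bd r`, and `FInt.map π`; it is enough to treat the products
`∏ v (β l)` (`FInt.of_mem_span`). The same with the roles exchanged. Then `deg_alg`, with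
`finrank U1 ≤ P.N` (`finrank_range_le_card`). -/

open MeasureTheory Set Filter Topology

noncomputable section

namespace Vale.Agent.P271

theorem FInt.of_injective {R S : Type} [CommRing R] [Algebra ℂ R] [CommRing S] [Algebra ℂ S]
    (φ : R →ₐ[ℂ] S) (hφ : Function.Injective φ) {W : Submodule ℂ R} {ℓ : ℕ} {f : R}
    (h : FInt (W.map φ.toLinearMap) ℓ (φ f)) : FInt W ℓ f := by
  obtain ⟨N, a, hN, ha, he⟩ := h
  have h1 : ∀ i, ∃ b ∈ W ^ (i * ℓ), φ b = a i := fun i => by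
    have h2 := ha i
    rw [← Submodule.map_pow] at h2
    exact h2
  choose b hb hb' using h1
  refine ⟨N, b, hN, hb, hφ ?_⟩
  simpa only [map_add, map_sum, map_mul, map_pow, map_zero, hb'] using he

theorem SetB_span_pow {R ι : Type} [CommRing R] [Algebra ℂ R] (s : ι → R) (m : ℕ) :
    Submodule.span ℂ (range s) ^ m =
      Submodule.span ℂ (range fun β : Fin m → ι => ∏ l, s (β l)) := by
  rw [Submodule.span_pow]
  refine congrArg _ (Set.ext fun a => ?_)
  rw [Set.mem_pow]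
  constructor
  · rintro ⟨f, rfl⟩
    choose β hβ using fun l => (f l).2
    exact ⟨β, by simp only [List.prod_ofFn, hβ]⟩
  · rintro ⟨β, rfl⟩
    exact ⟨fun l => ⟨s (β l), mem_range_self _⟩, List.prod_ofFn⟩

theorem SetB_map_span {R T ι : Type} [CommRing R] [Algebra ℂ R] [CommRing T] [Algebra ℂ T]
    (φ : R →ₗ[ℂ] T) (s : ι → R) {t : ι → T} (h : ∀ i, φ (s i) = t i) :
    (Submodule.span ℂ (range s)).map φ = Submodule.span ℂ (range t) := by
  rw [Submodule.map_span, ← range_comp]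
  exact congrArg (fun f => Submodule.span ℂ (range f)) (funext h)

theorem SetB_transfer {R F ι κ : Type} [CommRing R] [Algebra ℂ R] [CommRing F] [Algebra ℂ F]
    {B : Subalgebra ℂ R} (π : B →ₐ[ℂ] F) {s : ι → R} {v : κ → R} {c1 c2 : R} {ℓ m : ℕ}
    (hc : c1 ^ ℓ = c2 ^ m) {s' : ι → B} {v' : κ → B} (hs : ∀ i, (s' i : R) = c1 * s i)
    (hv : ∀ k, (v' k : R) = c2 * v k)
    (H : ∀ t ∈ Submodule.span ℂ (range v) ^ m, FInt (Submodule.span ℂ (range s)) ℓ t) :
    ∀ t ∈ Submodule.span ℂ (range fun k => π (v' k)) ^ m,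
      FInt (Submodule.span ℂ (range fun i => π (s' i))) ℓ t := by
  intro t ht
  rw [SetB_span_pow] at ht H
  refine FInt.of_mem_span ?_ ht
  rintro _ ⟨β, rfl⟩
  have h1 := (H _ (Submodule.subset_span (mem_range_self β))).scale c1
  have h2 : FInt (Submodule.span ℂ (range s')) ℓ (∏ l, v' (β l)) := by
    refine FInt.of_injective B.val Subtype.val_injective ?_
    have h3 : B.val (∏ l, v' (β l)) = c1 ^ ℓ * ∏ l, v (β l) := by
      rw [map_prod, hc]
      simp only [Subalgebra.coe_val, hv, Finset.prod_mul_distrib, Finset.prod_const,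
        Finset.card_univ, Fintype.card_fin]
    rw [h3, SetB_map_span B.val.toLinearMap s' hs,
      ← SetB_map_span (LinearMap.mulLeft ℂ c1) s (t := fun i => c1 * s i) fun _ => rfl]
    exact h1
  have h4 := h2.map π
  rwa [SetB_map_span π.toLinearMap s' fun _ => rfl, map_prod] at h4

variable {n : ℕ} {X : Type} [TopologicalSpace X] [T2Space X] [CompactSpace X] [ConnectedSpace X]
  {A : Atl n X} {P : Pol A} {S : Sys P} {x : X} {i0 : Fin P.N}

omit [T2Space X] [CompactSpace X] [ConnectedSpace X] in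
theorem SetB_cont {w : A.ι → X → ℂ} (hw : A.IsGauge w) {t : X → ℂ} (ht : t ∈ A.H0 w) {a : A.ι}
    (ha : x ∈ (A.e a).source) : ContinuousAt (fun p => ‖(w a * t) p‖) x := by
  simp only [Pi.mul_apply, norm_mul]
  exact ((Atl.continuousOn_norm_gauge hw a).continuousAt ((A.e a).open_source.mem_nhds ha)).mul
    (Atl.continuous_norm_of_mem hw (Atl.H0_le_Sec ht)).continuousAt

omit [T2Space X] [ConnectedSpace X] in
theorem SetB_lower (hx : P.s i0 x ≠ 0) {f : X → ℂ} (hf : ContinuousAt (fun p => ‖f p‖) x)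
    (h0 : f x ≠ 0) : ∃ c > (0 : ℝ), ∃ δ > (0 : ℝ), ∀ p, P.r x i0 p < δ → c ≤ ‖f p‖ := by
  have h1 := norm_pos_iff.2 h0
  obtain ⟨δ, hδ, h2⟩ := P.exists_r_lt_subset hx
    (hf.eventually (lt_mem_nhds (half_lt_self h1)))
  exact ⟨_, half_pos h1, δ, hδ, fun p hp => le_of_lt (h2 p hp)⟩

theorem deg_OO (hx : P.s i0 x ≠ 0) (F : Type) [Field F] [Algebra ℂ F]
    (π : Bd (P.r x i0) →ₐ[ℂ] F)
    (h1 : ∀ f : Bd (P.r x i0),
      (∃ c > (0 : ℝ), ∃ δ > (0 : ℝ), ∀ p, P.r x i0 p < δ → c ≤ ‖(f : X → ℂ) p‖) → π f ≠ 0)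
    (h2 : ∀ f : Bd (P.r x i0),
      (∃ δ > (0 : ℝ), ∀ p, P.r x i0 p < δ → (f : X → ℂ) p = 0) → π f = 0) :
    DegPack (fun j => (OO P S x i0 j).map π.toLinearMap) P.k0 P.N S.k2 := by
  obtain ⟨a, ha⟩ := A.cover x
  have g1 := P.gauge.pow P.k0
  have g2 := P.gauge.pow S.k2
  have c1 := fun i => SetB_cont g1 (P.imm.mem i) ha
  have c2 := fun k => SetB_cont g2 (S.imm.mem k) ha
  obtain ⟨s', hs⟩ : ∃ s' : Fin P.N → Bd (P.r x i0),
      ∀ i, (s' i : X → ℂ) = (P.u ^ P.k0) a * P.s i :=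
    ⟨fun i => ⟨_, mem_Bd_of_continuousAt hx (c1 i)⟩, fun _ => rfl⟩
  obtain ⟨v', hv⟩ : ∃ v' : S.κ → Bd (P.r x i0),
      ∀ k, (v' k : X → ℂ) = (P.u ^ S.k2) a * S.v k :=
    ⟨fun k => ⟨_, mem_Bd_of_continuousAt hx (c2 k)⟩, fun _ => rfl⟩
  have hc : (P.u ^ P.k0) a ^ S.k2 = (P.u ^ S.k2) a ^ P.k0 := by
    simp only [Pi.pow_apply, ← pow_mul, mul_comm]
  obtain ⟨k, hk⟩ := S.imm.bpf x
  have hσ : π (s' i0) ≠ 0 := h1 _ (by
    rw [hs]
    exact SetB_lower hx (c1 i0) (mul_ne_zero (g1.ne a x ha) hx))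
  have hτ : π (v' k) ≠ 0 := h1 _ (by
    rw [hv]
    exact SetB_lower hx (c2 k) (mul_ne_zero (g2.ne a x ha) hk))
  obtain ⟨c, hc0, δ, hδ, hl⟩ := exists_sigma_lower hx
  have hne : ∀ p, P.r x i0 p < δ → P.s i0 p ≠ 0 := fun p hp =>
    norm_pos_iff.1 (hc0.trans_le (hl p hp))
  have e1 : ∀ i, π (xi P x i0 i) = (π (s' i0))⁻¹ * π (s' i) := fun i => by
    have h3 := h2 (xi P x i0 i * s' i0 - s' i) ⟨δ, hδ, fun p hp => by
      have h4 := hne p hp
      simp only [AddSubgroupClass.coe_sub, MulMemClass.coe_mul, coe_xi hx, hs, Pi.sub_apply,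
        Pi.mul_apply]
      field_simp
      ring⟩
    rw [map_sub, map_mul, sub_eq_zero] at h3
    rw [← h3]
    field_simp
  have e2 : ∀ β, π (zeta P S x i0 β) = (π (s' i0))⁻¹ ^ S.k2 * ∏ l, π (v' (β l)) := fun β => by
    have h3 := h2 (zeta P S x i0 β * s' i0 ^ S.k2 - ∏ l, v' (β l)) ⟨δ, hδ, fun p hp => by
      have h4 := hne p hp
      have h5 := congrFun hc p
      simp only [AddSubgroupClass.coe_sub, MulMemClass.coe_mul, coe_zeta hx, hs, Pi.sub_apply,
        Pi.mul_apply, SubmonoidClass.coe_pow, SubmonoidClass.coe_finsetProd, hv, Finset.prod_apply,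
        Finset.prod_mul_distrib, Finset.prod_const, Finset.card_univ, Fintype.card_fin, mul_pow]
      rw [hc]
      simp only [Pi.pow_apply]
      field_simp
      ring⟩
    rw [map_sub, map_mul, map_pow, map_prod, sub_eq_zero] at h3
    rw [← h3, inv_pow, mul_comm, mul_inv_cancel_right₀ (pow_ne_zero _ hσ)]
  have H12 : ∀ t ∈ Submodule.span ℂ (range S.v) ^ P.k0,
      FInt (Submodule.span ℂ (range P.s)) S.k2 t := fun t ht => by
    refine fInt_of_imm g1 P.imm ?_
    rw [← pow_mul]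
    exact Atl.pow_le_H0_pow (Submodule.span_le.2 (range_subset_iff.2 S.imm.mem)) _ ht
  have H21 : ∀ t ∈ Submodule.span ℂ (range P.s) ^ S.k2,
      FInt (Submodule.span ℂ (range S.v)) P.k0 t := fun t ht => by
    refine fInt_of_imm g2 S.imm ?_
    rw [← pow_mul]
    exact Atl.pow_le_H0_pow (Submodule.span_le.2 (range_subset_iff.2 P.imm.mem)) _ ht
  have f1 : FiniteDimensional ℂ (Submodule.span ℂ (range fun i => π (s' i))) :=
    FiniteDimensional.span_of_finite ℂ (finite_range _)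
  have f2 : FiniteDimensional ℂ (Submodule.span ℂ (range fun k => π (v' k))) :=
    FiniteDimensional.span_of_finite ℂ (finite_range _)
  have key := deg_alg (Submodule.span ℂ (range fun i => π (s' i)))
    (Submodule.span ℂ (range fun k => π (v' k))) (Submodule.subset_span (mem_range_self i0))
    (Submodule.subset_span (mem_range_self k)) hσ hτ P.k0_pos S.k2_pos S.cop
    (SetB_transfer π hc hs hv H12) (SetB_transfer π hc.symm hv hs H21)
    ((finrank_range_le_card (R := ℂ) fun i => π (s' i)).trans (Fintype.card_fin P.N).le)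
  have m1 : (lin (xi P x i0)).map π.toLinearMap =
      (Submodule.span ℂ (range fun i => π (s' i))).map (LinearMap.mulLeft ℂ (π (s' i0))⁻¹) := by
    rw [SetB_map_span (LinearMap.mulLeft ℂ (π (s' i0))⁻¹) _ fun i => (e1 i).symm, lin,
      Submodule.map_span, image_insert_eq, ← range_comp, insert_eq_of_mem]
    · rfl
    · refine ⟨i0, ?_⟩
      change π (xi P x i0 i0) = π 1
      rw [e1, inv_mul_cancel₀ hσ, map_one]
  have m2 : (Submodule.span ℂ (range (zeta P S x i0))).map π.toLinearMap =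
      (Submodule.span ℂ (range fun k => π (v' k)) ^ P.k0).map
        (LinearMap.mulLeft ℂ ((π (s' i0))⁻¹ ^ S.k2)) := by
    rw [SetB_span_pow, SetB_map_span (LinearMap.mulLeft ℂ ((π (s' i0))⁻¹ ^ S.k2)) _
      fun β => (e2 β).symm, SetB_map_span π.toLinearMap _ fun _ => rfl]
    rfl
  rw [← m1, ← m2] at key
  simpa only [OO, map_fil] using key

end Vale.Agent.P271
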