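import Vale.Agent.P271.SetB
import Vale.Agent.P271.DStD
import Vale.Agent.P271A.Final

/-! The valuation argument applied to a polarised manifold. -/

open MeasureTheory Set Filter Topology

noncomputable section

namespace Vale.Agent.P271

variable {n : ℕ} {X : Type} [TopologicalSpace X] [T2Space X] [CompactSpace X] [ConnectedSpace X]
  [MeasurableSpace X] [BorelSpace X]

open Classical in
theorem setC_le_sum {Y I : Type} [Fintype I] (f : I → Y → ℂ) (V : I → ℝ) {a : ℝ} {i : I}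
    (h : V i ≤ a) (p : Y) : ‖f i p‖ ≤ ∑ i' with V i' ≤ a, ‖f i' p‖ :=
  Finset.single_le_sum (f := fun i' => ‖f i' p‖) (fun _ _ => norm_nonneg _)
    (Finset.mem_filter.2 ⟨Finset.mem_univ _, h⟩)

omit [T2Space X] [ConnectedSpace X] [MeasurableSpace X] [BorelSpace X] in
theorem setC_down {A : Atl n X} {P : Pol A} {x : X} {i0 : Fin P.N} (hx : P.s i0 x ≠ 0)
    {ν : OuterMeasure X} {I : Type} [Fintype I] {j : I → ℕ} {f t : I → X → ℂ}
    (ht : ∀ i p, P.s i0 p ≠ 0 → t i p = P.s i0 p ^ j i * f i p) {V : I → ℝ} (hV : ∀ i, 0 ≤ V i)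
    {b : ℝ} (h : Good ν (P.r x i0) t V b) : Good ν (P.r x i0) f V b := by
  obtain ⟨c, hc, δ, hδ, hσ⟩ := exists_sigma_lower hx
  refine h.transfer hV hV fun i => ⟨(c ^ j i)⁻¹, δ, hδ, fun p hp => ?_⟩
  have h1 := hσ p hp
  have h2 : P.s i0 p ≠ 0 := norm_pos_iff.1 (hc.trans_le h1)
  have h3 : c ^ j i * ‖f i p‖ ≤ ‖t i p‖ := by
    rw [ht i p h2, norm_mul, norm_pow]
    exact mul_le_mul_of_nonneg_right (pow_le_pow_left₀ hc.le h1 _) (norm_nonneg _)
  have h4 := setC_le_sum t V (le_refl (V i)) p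
  rw [← div_eq_inv_mul, le_div_iff₀ (pow_pos hc _), mul_comm]
  exact h3.trans h4

theorem sc_OO (M : Model n X) (P : Pol M.toAtl) (S : Sys P) {x : X} {i0 : Fin P.N}
    (hx : P.s i0 x ≠ 0) (I Λ : Type) [Fintype I] [Fintype Λ] (J : ℕ) (f : I → Bd (P.r x i0))
    (g : Λ → Bd (P.r x i0)) (V V' : I → ℝ) (b b' : ℝ) (hf : ∀ i, f i ∈ OO P S x i0 J)
    (hg : ∀ l, g l ∈ OO P S x i0 J) (hV : ∀ i, 0 ≤ V i) (hV' : ∀ i, 0 ≤ V' i)
    (h : MGood M.μ.toOuterMeasure (P.r x i0) (fun i => (f i : X → ℂ)) (fun l => (g l : X → ℂ)) V b)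
    (h' : MGood M.μ.toOuterMeasure (P.r x i0) (fun i => (f i : X → ℂ)) (fun l => (g l : X → ℂ))
      V' b') :
    Good M.μ.toOuterMeasure (P.r x i0) (fun i => (f i : X → ℂ)) (V * V') (b + b') := by
  choose tf htf hf' using fun i => lift hx (hf i)
  choose tg htg hg' using fun l => lift hx (hg l)
  obtain ⟨c, hc, δ, hδ, hσ⟩ := exists_sigma_lower hx
  have key : ∃ δ0 > (0 : ℝ), ∀ p, P.r x i0 p < δ0 → ∀ i (e : Λ → ℂ),
      ‖tf i p + ∑ l, e l * tg l p‖ ≤ ‖(f i : X → ℂ) p + ∑ l, e l * (g l : X → ℂ) p‖ := by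
    refine ⟨δ, hδ, fun p hp i e => ?_⟩
    have h2 : P.s i0 p ≠ 0 := norm_pos_iff.1 (hc.trans_le (hσ p hp))
    have h3 : tf i p + ∑ l, e l * tg l p =
        P.s i0 p ^ J * ((f i : X → ℂ) p + ∑ l, e l * (g l : X → ℂ) p) := by
      rw [hf' i p h2, mul_add, Finset.mul_sum]
      refine congrArg _ (Finset.sum_congr rfl fun l _ => ?_)
      rw [hg' l p h2]; ring
    rw [h3, norm_mul, norm_pow]
    exact mul_le_of_le_one_left (norm_nonneg _)
      (pow_le_one₀ (norm_nonneg _) (P.norm_s_le i0 p))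
  have h5 := P271A.sc M P x i0 hx J tf tg htf htg hV hV' (h.of_le hV key) (h'.of_le hV' key)
  exact setC_down hx (j := fun _ => J) hf' (fun i => mul_nonneg (hV i) (hV' i)) h5

/-- The abstract setting attached to a point of a polarised manifold. -/
def mkCore (M : Model n X) (P : Pol M.toAtl) (S : Sys P) {x : X} {i0 : Fin P.N}
    (hx : P.s i0 x ≠ 0) : Core X (Bd (P.r x i0)) where
  ν := M.μ.toOuterMeasure
  r := P.r x i0
  x := x
  ev := (Bd (P.r x i0)).val
  O := OO P S x i0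
  n := n
  k0 := P.k0
  D := P.N
  c1 := S.k2
  N := P.N
  t := tc P x i0
  k0_pos := P.k0_pos
  r_nonneg := P.r_nonneg x i0
  ν_fin := measure_ne_top M.μ univ
  vol := M.measure_r_lt P hx
  bdd := fun f => f.2
  cont := fun _ _ hf => cont_OO hx hf
  fd := fd_OO
  one_mem := one_mem_fil _ _ _
  mono := fil_mono (Submodule.subset_span (mem_insert _ _)) _ _
  mul_mem := fun _ _ _ hf _ hg => mul_mem_fil hf hg
  growth := growth_OO
  jets := jets_OO hx
  t_mem := tc_mem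
  t_x := tc_x hx
  sc := sc_OO M P S hx
  deg := deg_OO hx

theorem exists_section (M : Model n X) (P : Pol M.toAtl) {m : ℕ} (hm : n + 1 ≤ m) (x : X) :
    ∃ h ∈ M.H0 (M.k * P.u ^ m), h x ≠ 0 := by
  classical
  obtain ⟨S⟩ := exists_sys P (P271A.vp M P)
  obtain ⟨i0, hx⟩ := P.imm.bpf x
  obtain ⟨I, _, j, f, c, a, b, μ0, hf, hc, ha, hdeg, hμ, hgood, hb, hlc⟩ :=
    (mkCore M P S hx).concl
  choose t ht ht' using fun i => lift hx (hf i)
  refine P271A.fin M P x i0 hx m hm j t ht c a hc ha hdeg b μ0 hμ ?_ hb fun a' β ha' h => ?_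
  · obtain ⟨c0, hc0, δ, hδ, hσ⟩ := exists_sigma_lower hx
    obtain ⟨δ', hδ', hr⟩ := r_le_tc hx
    refine Good.transfer hgood (fun o => by rcases o with k | i <;> exact (Real.exp_pos _).le)
      (fun o => by rcases o with _ | i <;> exact (Real.exp_pos _).le) fun o => ?_
    rcases o with _ | i
    · refine ⟨1, δ', hδ', fun p hp => ?_⟩
      rw [one_mul]
      have h1 : ‖((P.r x i0 p : ℝ) : ℂ)‖ = P.r x i0 p := by
        rw [Complex.norm_real, Real.norm_of_nonneg (P.r_nonneg x i0 p)]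
      refine h1.trans_le ((hr p hp).trans ?_)
      rw [Finset.sum_filter, Fintype.sum_sum_type]
      refine le_add_of_le_of_nonneg (Finset.sum_le_sum fun k _ => ?_)
        (Finset.sum_nonneg fun i _ => by split_ifs <;> simp)
      exact le_of_eq (if_pos (le_refl (Real.exp (-μ0)))).symm
    · refine ⟨1, δ, hδ, fun p hp => ?_⟩
      have h2 : P.s i0 p ≠ 0 := norm_pos_iff.1 (hc0.trans_le (hσ p hp))
      rw [one_mul]
      refine le_trans ?_ (setC_le_sum _ _ (i := Sum.inr i) (le_refl (Real.exp (-a i))) p)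
      change ‖t i p‖ ≤ ‖(f i : X → ℂ) p‖
      rw [ht' i p h2, norm_mul, norm_pow]
      exact mul_le_of_le_one_left (norm_nonneg _)
        (pow_le_one₀ (norm_nonneg _) (P.norm_s_le i0 p))
  · exact hlc a' β ha' (setC_down hx ht' (fun _ => (Real.exp_pos _).le) h)

end Vale.Agent.P271
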