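import Vale.Agent.P271.Api
import Vale.Agent.P271.Jet

/-! The bound of Siegel and Serre for the dimension of spaces of sections.

Hints. For each point `p` choose a chart `a`, and `R > 0` with `closedBall (e a p) R ⊆ target`;
finitely many of the sets `e a ⁻¹ (ball (e a p) (R / 2))`, with centres `p 1, …, p m`, cover `X`.
On the closed balls `c ≤ ‖u a‖ ≤ C`. Let `s ∈ H0 (u ^ j)`, `S = sup ‖s‖` (attained, `‖s‖` is
continuous). If all jets of order `< K` of `loc a (u a ^ j * s)` at the centres vanish, then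
`Complex.dist_le_mul_div_pow_of_mapsTo_ball_of_isLittleO` (or the direct Schwarz lemma) gives
`c ^ j * S ≤ C ^ j * S * (1/2) ^ K` (up to a harmless factor), so `S = 0` when `K = B (j + 1)`, with
`2 ^ B > 2 C / c`. Hence the linear map `H0 (u ^ j) → Π centres, Π i < K, monSpan n i` is injective
and the dimension is at most `m * ∑ i < K, multichoose n i ≤ m * K ^ n` (or `(K + n) ^ n`). -/

open Set Filter Topology

noncomputable section

namespace Vale.Agent.P271

theorem sieg_multichoose (n k : ℕ) :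
    Nat.multichoose (n + 1) k = ∑ i ∈ Finset.range (k + 1), Nat.multichoose n i := by
  induction k with
  | zero => simp
  | succ k ih => rw [Nat.multichoose_succ_succ, Finset.sum_range_succ _ (k + 1), ih, add_comm]

theorem sieg_sum_le (n K : ℕ) : ∑ i ∈ Finset.range K, Nat.multichoose n i ≤ K ^ n := by
  induction n generalizing K with
  | zero =>
    cases K with
    | zero => simp
    | succ K => simp [Finset.sum_range_succ', Nat.multichoose_zero_succ]
  | succ n ih =>
    have h : ∀ i ∈ Finset.range K, Nat.multichoose (n + 1) i ≤ K ^ n := by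
      intro i hi
      rw [sieg_multichoose]
      exact (ih _).trans (Nat.pow_le_pow_left (Finset.mem_range.1 hi) n)
    refine (Finset.sum_le_card_nsmul _ _ _ h).trans ?_
    rw [Finset.card_range, smul_eq_mul, pow_succ, mul_comm]

/-- The Schwarz lemma for a function whose jets vanish. -/
theorem sieg_schwarz {n K : ℕ} {f : Cn n → ℂ} {c z : Cn n} {R M : ℝ}
    (hf : AnalyticOnNhd ℂ f (Metric.ball c R)) (hM : ∀ w ∈ Metric.ball c R, ‖f w‖ ≤ M)
    (hj : ∀ i < K + 1, jet i c f = 0) (hz : z ∈ Metric.ball c (R / 2)) :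
    ‖f z‖ ≤ M * (1 / 2) ^ (K + 1) := by
  have hR : 0 < R := by
    have := Metric.nonempty_ball.1 ⟨_, hz⟩
    linarith
  have hc : c ∈ Metric.ball c R := Metric.mem_ball_self hR
  have h0 : f c = 0 := by
    have h := congrFun (hj 0 (Nat.succ_pos K)) 0
    simpa [jet] using h
  have h1 := isBigO_of_jet_eq_zero (hf c hc) hj
  have h2 : (fun w => f w - f c) =o[𝓝 c] fun w => ‖w - c‖ ^ K := by
    simp only [h0, sub_zero]
    exact h1.trans_isLittleO (Asymptotics.isLittleO_pow_sub_pow_sub c (Nat.lt_succ_self K))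
  have h3 := Complex.dist_le_mul_div_pow_of_mapsTo_ball_of_isLittleO (R₂ := M)
    hf.differentiableOn (fun w hw => by simpa [h0] using hM w hw) h2
    (Metric.ball_subset_ball (by linarith) hz)
  rw [h0, dist_zero_right] at h3
  have hM0 : 0 ≤ M := (norm_nonneg _).trans (hM c hc)
  have h4 : dist z c / R ≤ 1 / 2 := by
    rw [div_le_iff₀ hR]
    have := Metric.mem_ball.1 hz
    linarith
  refine h3.trans (mul_le_mul_of_nonneg_left (pow_le_pow_left₀ (by positivity) h4 _) hM0)

variable {n : ℕ} {X : Type} [TopologicalSpace X] [T2Space X] [CompactSpace X]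

omit [T2Space X] [CompactSpace X] in
/-- A ball in a chart on which the gauge is bounded above and below. -/
theorem sieg_ball (A : Atl n X) {u : A.ι → X → ℂ} (hu : A.IsGauge u) (p : X) :
    ∃ (a : A.ι) (R c : ℝ) (B : ℕ), p ∈ (A.e a).source ∧ 0 < R ∧ 0 < c ∧
      Metric.ball (A.e a p) R ⊆ (A.e a).target ∧ ∀ z ∈ Metric.ball (A.e a p) R,
        c ≤ ‖u a ((A.e a).symm z)‖ ∧ ‖u a ((A.e a).symm z)‖ ≤ 2 ^ B * c := by
  obtain ⟨a, ha⟩ := A.cover p
  have hz : A.e a p ∈ (A.e a).target := (A.e a).map_source ha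
  have hc : ContinuousOn (fun z => ‖u a ((A.e a).symm z)‖) (A.e a).target :=
    (Atl.continuousOn_norm_gauge hu a).comp (A.e a).continuousOn_symm (A.e a).mapsTo_symm
  have hc' := hc.continuousAt ((A.e a).open_target.mem_nhds hz)
  have hpos : 0 < ‖u a p‖ := norm_pos_iff.2 (hu.ne a p ha)
  have h1 : ∀ᶠ z in 𝓝 (A.e a p), ‖u a p‖ / 2 < ‖u a ((A.e a).symm z)‖ :=
    hc'.eventually (lt_mem_nhds (by simp only [(A.e a).left_inv ha]; linarith))
  have h2 : ∀ᶠ z in 𝓝 (A.e a p), ‖u a ((A.e a).symm z)‖ < 2 * ‖u a p‖ :=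
    hc'.eventually (gt_mem_nhds (by simp only [(A.e a).left_inv ha]; linarith))
  obtain ⟨R, hR, h⟩ := Metric.eventually_nhds_iff_ball.1
    (((A.e a).open_target.eventually_mem hz).and (h1.and h2))
  refine ⟨a, R, ‖u a p‖ / 2, 2, ha, hR, by linarith, fun z hz => (h z hz).1, fun z hz => ?_⟩
  obtain ⟨-, h3, h4⟩ := h z hz
  exact ⟨h3.le, by linarith⟩

theorem siegel (A : Atl n X) {u : A.ι → X → ℂ} (hu : A.IsGauge u) :
    ∃ C : ℕ, ∀ j, FiniteDimensional ℂ (A.H0 (u ^ j)) ∧
      Module.finrank ℂ (A.H0 (u ^ j)) ≤ C * (j + 1) ^ n := by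
  classical
  choose a R c B ha hR hc hball hcB using sieg_ball A hu
  let W : X → Set X := fun p =>
    (A.e (a p)).source ∩ A.e (a p) ⁻¹' Metric.ball (A.e (a p) p) (R p / 2)
  have hW : ∀ p, W p ∈ 𝓝 p := fun p =>
    ((A.e (a p)).isOpen_inter_preimage Metric.isOpen_ball).mem_nhds
      ⟨ha p, Metric.mem_ball_self (half_pos (hR p))⟩
  obtain ⟨T, -, hT⟩ := isCompact_univ.elim_nhds_subcover W fun p _ => hW p
  obtain ⟨D, hD⟩ : ∃ D : ℕ, ∀ p ∈ T, B p ≤ D := ⟨T.sup B, fun p hp => Finset.le_sup hp⟩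
  refine ⟨T.card * (D + 1) ^ n, fun j => ?_⟩
  have han : ∀ (s : A.H0 (u ^ j)) (p : X), AnalyticOnNhd ℂ
      (A.loc (a p) fun q => (u ^ j) (a p) q * (s : X → ℂ) q) (Metric.ball (A.e (a p) p) (R p)) :=
    fun s p => (s.2 (a p)).mono (hball p)
  let Φ : A.H0 (u ^ j) →ₗ[ℂ] (T → ∀ i : Fin (D * j + 1), monSpan n i) :=
    { toFun := fun s p i => ⟨jet i (A.e (a p) p)
        (A.loc (a p) fun q => (u ^ j) (a p) q * (s : X → ℂ) q), jet_mem_monSpan _ _ _⟩
      map_add' := fun s t => by
        funext p i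
        refine Subtype.ext ?_
        have h := jet_add (k := i) (han s p _ (Metric.mem_ball_self (hR p)))
          (han t p _ (Metric.mem_ball_self (hR p)))
        refine Eq.trans (congrArg (jet i (A.e (a p) p)) ?_) h
        funext z
        simp [Atl.loc, mul_add]
      map_smul' := fun r s => by
        funext p i
        refine Subtype.ext ?_
        have h := jet_smul (k := i) (han s p _ (Metric.mem_ball_self (hR p))) r
        refine Eq.trans (congrArg (jet i (A.e (a p) p)) ?_) h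
        funext z
        simp only [Atl.loc, Submodule.coe_smul, Pi.smul_apply, smul_eq_mul]
        ring }
  have hinj : Function.Injective Φ := by
    rw [injective_iff_map_eq_zero]
    intro s hs
    refine Subtype.ext (funext fun q0 => ?_)
    have hcont := Atl.continuous_norm_of_mem (hu.pow j) (Atl.H0_le_Sec s.2)
    obtain ⟨q, -, hq⟩ := isCompact_univ.exists_isMaxOn ⟨q0, mem_univ _⟩ hcont.continuousOn
    have hq' : ∀ x, ‖(s : X → ℂ) x‖ ≤ ‖(s : X → ℂ) q‖ := fun x => hq (mem_univ x)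
    obtain ⟨p, hp, hqp⟩ := mem_iUnion₂.1 (hT (mem_univ q))
    have hj : ∀ i < D * j + 1, jet i (A.e (a p) p)
        (A.loc (a p) fun q => (u ^ j) (a p) q * (s : X → ℂ) q) = 0 := fun i hi =>
      congrArg Subtype.val (congrFun (congrFun hs ⟨p, hp⟩) ⟨i, hi⟩)
    have hcp := hc p
    have hM : ∀ w ∈ Metric.ball (A.e (a p) p) (R p),
        ‖A.loc (a p) (fun q => (u ^ j) (a p) q * (s : X → ℂ) q) w‖ ≤
          (2 ^ D * c p) ^ j * ‖(s : X → ℂ) q‖ := by
      intro w hw
      simp only [Atl.loc, Pi.pow_apply, norm_mul, norm_pow]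
      refine mul_le_mul (pow_le_pow_left₀ (norm_nonneg _) ((hcB p w hw).2.trans ?_) j) (hq' _)
        (norm_nonneg _) (by positivity)
      exact mul_le_mul_of_nonneg_right (pow_le_pow_right₀ one_le_two (hD p hp)) hcp.le
    have h1 := sieg_schwarz (han s p) hM hj hqp.2
    have h2 := (hcB p _ (Metric.ball_subset_ball (half_le_self (hR p).le) hqp.2)).1
    rw [A.loc_e _ _ hqp.1] at h1
    rw [(A.e (a p)).left_inv hqp.1] at h2
    simp only [Pi.pow_apply, norm_mul, norm_pow] at h1
    have h3 : c p ^ j * ‖(s : X → ℂ) q‖ ≤ ‖u (a p) q‖ ^ j * ‖(s : X → ℂ) q‖ :=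
      mul_le_mul_of_nonneg_right (pow_le_pow_left₀ hcp.le h2 j) (norm_nonneg _)
    have h4 : (2 ^ D * c p) ^ j * ‖(s : X → ℂ) q‖ * (1 / 2) ^ (D * j + 1) =
        c p ^ j * ‖(s : X → ℂ) q‖ / 2 := by
      rw [mul_pow, ← pow_mul, pow_succ, one_div, inv_pow]
      field_simp
    have h5 : 0 < c p ^ j := by positivity
    have h6 : ‖(s : X → ℂ) q‖ ≤ 0 := by
      by_contra h
      have := mul_pos h5 (not_le.1 h)
      linarith
    exact norm_le_zero_iff.1 ((hq' q0).trans h6)
  refine ⟨FiniteDimensional.of_injective Φ hinj,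
    (LinearMap.finrank_le_finrank_of_injective hinj).trans ?_⟩
  rw [Module.finrank_pi_fintype, Finset.sum_const, Module.finrank_pi_fintype, Finset.card_univ,
    Fintype.card_coe, smul_eq_mul, mul_assoc, ← mul_pow]
  refine Nat.mul_le_mul_left _ ?_
  calc ∑ i : Fin (D * j + 1), Module.finrank ℂ (monSpan n i)
      ≤ ∑ i : Fin (D * j + 1), Nat.multichoose n i :=
        Finset.sum_le_sum fun i _ => finrank_monSpan_le n i
    _ = ∑ i ∈ Finset.range (D * j + 1), Nat.multichoose n i :=
        Fin.sum_univ_eq_sum_range (fun i => Nat.multichoose n i) _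
    _ ≤ (D * j + 1) ^ n := sieg_sum_le _ _
    _ ≤ ((D + 1) * (j + 1)) ^ n := Nat.pow_le_pow_left (by nlinarith) n

theorem finDim (A : Atl n X) {u : A.ι → X → ℂ} (hu : A.IsGauge u) :
    FiniteDimensional ℂ (A.H0 u) := by
  obtain ⟨C, h⟩ := siegel A hu
  have h1 := (h 1).1
  rwa [pow_one] at h1

end Vale.Agent.P271
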